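import Vale.Agent.Lib.P256.CliffCore

/-!
# Clifford systems: algebraic lemmas

For a Clifford system `Γ` (anticommuting symmetric involutions) and `G = ∑ y i • Γ i` one has
`G * G = (∑ y i ^ 2) • 1`; consequences for the quadratic form of `G` and its least eigenvalue.
-/

namespace Vale.Agent.Lib.P256
open MvPolynomial Matrix

/-- The square of a linear combination of anticommuting involutions. -/
theorem cliffAlg_sq {R : Type} [CommRing R] [Algebra ℝ R] {m N : ℕ}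
    (g : Fin m → Matrix (Fin N) (Fin N) R) (hsq : ∀ i, g i * g i = 1)
    (hanti : ∀ i j, i ≠ j → g i * g j + g j * g i = 0) (y : Fin m → R) :
    (∑ i, y i • g i) * (∑ i, y i • g i) = (∑ i, y i ^ 2) • (1 : Matrix (Fin N) (Fin N) R) := by
  obtain ⟨T, hT⟩ : ∃ T : Fin m → Fin m → Matrix (Fin N) (Fin N) R,
      T = fun i j => (y i * y j) • (g i * g j) := ⟨_, rfl⟩
  have h1 : (∑ i, y i • g i) * (∑ i, y i • g i) = ∑ i, ∑ j, T i j := by
    rw [Finset.sum_mul_sum]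
    apply Finset.sum_congr rfl
    intro i _
    apply Finset.sum_congr rfl
    intro j _
    rw [hT, smul_mul_smul_comm]
  have h2 : ∀ i j, T i j + T j i
      = if i = j then (y i ^ 2) • (1 : Matrix (Fin N) (Fin N) R) + (y i ^ 2) • 1 else 0 := by
    intro i j
    by_cases hij : i = j
    · subst hij
      rw [if_pos rfl, hT]
      simp only [hsq, pow_two]
    · rw [if_neg hij, hT]
      simp only
      rw [mul_comm (y j) (y i), ← smul_add, hanti i j hij, smul_zero]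
  have h3 : (∑ i, ∑ j, T i j) + (∑ i, ∑ j, T i j)
      = (∑ i, y i ^ 2) • (1 : Matrix (Fin N) (Fin N) R) + (∑ i, y i ^ 2) • 1 := by
    have e : (∑ i, ∑ j, T i j) + (∑ i, ∑ j, T i j) = ∑ i, ∑ j, (T i j + T j i) := by
      have e1 : (∑ i, ∑ j, T i j) = ∑ i, ∑ j, T j i := Finset.sum_comm
      conv_lhs => rhs; rw [e1]
      rw [← Finset.sum_add_distrib]
      apply Finset.sum_congr rfl
      intro i _
      rw [← Finset.sum_add_distrib]
    rw [e]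
    simp only [h2, Finset.sum_ite_eq, Finset.mem_univ, if_true]
    rw [Finset.sum_add_distrib, ← Finset.sum_smul]
  have h4 : ∀ X Y : Matrix (Fin N) (Fin N) R, X + X = Y + Y → X = Y := by
    intro X Y hXY
    have hX : X = (2 : ℝ)⁻¹ • ((2 : ℝ) • X) := (inv_smul_smul₀ two_ne_zero X).symm
    have hY : Y = (2 : ℝ)⁻¹ • ((2 : ℝ) • Y) := (inv_smul_smul₀ two_ne_zero Y).symm
    rw [hX, hY, two_smul, two_smul, hXY]
  rw [h1]
  exact h4 _ _ h3

/-- `(y0 + G) (y0 - G) = y0 ^ 2 - G * G` for a matrix `G`. -/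
theorem cliffAlg_diff_sq {R : Type} [CommRing R] {N : ℕ} (y0 : R)
    (G : Matrix (Fin N) (Fin N) R) :
    (y0 • (1 : Matrix (Fin N) (Fin N) R) + G) * (y0 • (1 : Matrix (Fin N) (Fin N) R) - G)
      = (y0 ^ 2) • (1 : Matrix (Fin N) (Fin N) R) - G * G := by
  have hc : Commute (y0 • (1 : Matrix (Fin N) (Fin N) R)) G := (Commute.one_left G).smul_left y0
  rw [← hc.mul_self_sub_mul_self_eq, smul_mul_smul_comm, mul_one, pow_two]

theorem cliff_mul {m N : ℕ} {Γ : Fin m → Matrix (Fin N) (Fin N) ℝ} (hΓ : IsCliff Γ)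
    {R : Type} [CommRing R] [Algebra ℝ R] (y0 : R) (y : Fin m → R) :
    (y0 • (1 : Matrix (Fin N) (Fin N) R) + ∑ i, y i • (Γ i).map (algebraMap ℝ R)) *
      (y0 • (1 : Matrix (Fin N) (Fin N) R) - ∑ i, y i • (Γ i).map (algebraMap ℝ R)) =
    (y0 ^ 2 - ∑ i, y i ^ 2) • (1 : Matrix (Fin N) (Fin N) R) := by
  have hsq : ∀ i, (Γ i).map (algebraMap ℝ R) * (Γ i).map (algebraMap ℝ R) = 1 := by
    intro i
    have h := congrArg (algebraMap ℝ R).mapMatrix (hΓ.sq i)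
    rw [map_mul, map_one] at h
    exact h
  have hanti : ∀ i j, i ≠ j → (Γ i).map (algebraMap ℝ R) * (Γ j).map (algebraMap ℝ R)
      + (Γ j).map (algebraMap ℝ R) * (Γ i).map (algebraMap ℝ R) = 0 := by
    intro i j hij
    have h := congrArg (algebraMap ℝ R).mapMatrix (hΓ.anti i j hij)
    rw [map_add, map_mul, map_mul, map_zero] at h
    exact h
  rw [cliffAlg_diff_sq, cliffAlg_sq _ hsq hanti, sub_smul]

theorem cliff_mul_real {m N : ℕ} {Γ : Fin m → Matrix (Fin N) (Fin N) ℝ} (hΓ : IsCliff Γ)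
    (y0 : ℝ) (y : Fin m → ℝ) :
    (y0 • (1 : Matrix (Fin N) (Fin N) ℝ) + ∑ i, y i • Γ i) *
      (y0 • (1 : Matrix (Fin N) (Fin N) ℝ) - ∑ i, y i • Γ i) =
    (y0 ^ 2 - ∑ i, y i ^ 2) • (1 : Matrix (Fin N) (Fin N) ℝ) := by
  rw [cliffAlg_diff_sq, cliffAlg_sq _ hΓ.sq hΓ.anti, sub_smul]

/-- The linear combination `∑ y i • Γ i` is symmetric. -/
theorem cliffAlg_G_isSymm {m N : ℕ} {Γ : Fin m → Matrix (Fin N) (Fin N) ℝ} (hΓ : IsCliff Γ)
    (y : Fin m → ℝ) : (∑ i, y i • Γ i)ᵀ = ∑ i, y i • Γ i := by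
  rw [Matrix.transpose_sum]
  apply Finset.sum_congr rfl
  intro i _
  rw [Matrix.transpose_smul, (hΓ.symm i).eq]

/-- The squared length of `G u`. -/
theorem cliffAlg_norm_sq {m N : ℕ} {Γ : Fin m → Matrix (Fin N) (Fin N) ℝ} (hΓ : IsCliff Γ)
    (y : Fin m → ℝ) (u : Fin N → ℝ) :
    ((∑ i, y i • Γ i) *ᵥ u) ⬝ᵥ ((∑ i, y i • Γ i) *ᵥ u) = (∑ i, y i ^ 2) * (u ⬝ᵥ u) := by
  have hsq := cliffAlg_sq Γ hΓ.sq hΓ.anti y
  have hsym := cliffAlg_G_isSymm hΓ y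
  obtain ⟨G, hG⟩ : ∃ G : Matrix (Fin N) (Fin N) ℝ, G = ∑ i, y i • Γ i := ⟨_, rfl⟩
  rw [← hG] at hsq hsym ⊢
  have e1 : (G *ᵥ u) ⬝ᵥ (G *ᵥ u) = u ⬝ᵥ ((G * G) *ᵥ u) := by
    conv_lhs => lhs; rw [← Matrix.vecMul_transpose, hsym]
    rw [← Matrix.dotProduct_mulVec, Matrix.mulVec_mulVec]
  rw [e1, hsq, Matrix.smul_mulVec, Matrix.one_mulVec, dotProduct_smul, smul_eq_mul]

theorem cliff_quad_abs_le {m N : ℕ} {Γ : Fin m → Matrix (Fin N) (Fin N) ℝ} (hΓ : IsCliff Γ)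
    (y : Fin m → ℝ) (u : Fin N → ℝ) :
    |u ⬝ᵥ ((∑ i, y i • Γ i) *ᵥ u)| ≤ Real.sqrt (∑ i, y i ^ 2) * (u ⬝ᵥ u) := by
  have hn := cliffAlg_norm_sq hΓ y u
  have hs : 0 ≤ ∑ i, y i ^ 2 := Finset.sum_nonneg (fun i _ => sq_nonneg (y i))
  have hu : 0 ≤ u ⬝ᵥ u := by
    unfold dotProduct
    exact Finset.sum_nonneg (fun i _ => mul_self_nonneg (u i))
  have hcs : (u ⬝ᵥ ((∑ i, y i • Γ i) *ᵥ u)) ^ 2
      ≤ (u ⬝ᵥ u) * (((∑ i, y i • Γ i) *ᵥ u) ⬝ᵥ ((∑ i, y i • Γ i) *ᵥ u)) := by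
    have h := Finset.sum_mul_sq_le_sq_mul_sq Finset.univ u ((∑ i, y i • Γ i) *ᵥ u)
    unfold dotProduct
    simp only [pow_two] at h ⊢
    exact h
  apply abs_le_of_sq_le_sq _ (mul_nonneg (Real.sqrt_nonneg _) hu)
  rw [mul_pow, Real.sq_sqrt hs]
  rw [hn] at hcs
  calc (u ⬝ᵥ ((∑ i, y i • Γ i) *ᵥ u)) ^ 2 ≤ (u ⬝ᵥ u) * ((∑ i, y i ^ 2) * (u ⬝ᵥ u)) := hcs
    _ = (∑ i, y i ^ 2) * (u ⬝ᵥ u) ^ 2 := by ring

theorem cliff_exists_neg {m N : ℕ} {Γ : Fin m → Matrix (Fin N) (Fin N) ℝ} (hΓ : IsCliff Γ)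
    (y : Fin m → ℝ) :
    ∃ u : Fin N → ℝ, u ≠ 0 ∧ (∑ i, y i • Γ i) *ᵥ u = (-Real.sqrt (∑ i, y i ^ 2)) • u := by
  have hs : 0 ≤ ∑ i, y i ^ 2 := Finset.sum_nonneg (fun i _ => sq_nonneg (y i))
  have hsq := cliffAlg_sq Γ hΓ.sq hΓ.anti y
  obtain ⟨G, hG⟩ : ∃ G : Matrix (Fin N) (Fin N) ℝ, G = ∑ i, y i • Γ i := ⟨_, rfl⟩
  obtain ⟨ρ, hρ⟩ : ∃ ρ : ℝ, ρ = Real.sqrt (∑ i, y i ^ 2) := ⟨_, rfl⟩
  have hρ0 : 0 ≤ ρ := by
    rw [hρ]
    exact Real.sqrt_nonneg _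
  have hρ2 : ρ * ρ = ∑ i, y i ^ 2 := by
    rw [hρ]
    exact Real.mul_self_sqrt hs
  rw [← hG, ← hρ2] at hsq
  rw [← hG, ← hρ]
  rcases eq_or_lt_of_le hρ0 with h0 | hpos
  · -- all coefficients vanish
    refine ⟨fun _ => 1, ?_, ?_⟩
    · intro h
      have := congrFun h ⟨0, hΓ.pos⟩
      simp at this
    · have hn := cliffAlg_norm_sq hΓ y (fun _ => (1 : ℝ))
      rw [← hG, ← hρ2, ← h0] at hn
      have hz : G *ᵥ (fun _ => (1 : ℝ)) = 0 := by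
        have h1 : ∀ i, (G *ᵥ (fun _ => (1 : ℝ))) i = 0 := by
          intro i
          have h2 : ∑ j, (G *ᵥ (fun _ => (1 : ℝ))) j * (G *ᵥ (fun _ => (1 : ℝ))) j = 0 := by
            have h3 := hn
            unfold dotProduct at h3
            simpa using h3
          have h4 := (Finset.sum_eq_zero_iff_of_nonneg
            (fun j _ => mul_self_nonneg ((G *ᵥ (fun _ => (1 : ℝ))) j))).mp h2 i (Finset.mem_univ i)
          exact mul_self_eq_zero.mp h4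
        funext i
        exact h1 i
      rw [hz, ← h0]
      simp
  · -- the matrix `ρ - G` is nonzero and its range consists of eigenvectors
    have hP : ρ • (1 : Matrix (Fin N) (Fin N) ℝ) - G ≠ 0 := by
      intro h
      have hGρ : G = ρ • (1 : Matrix (Fin N) (Fin N) ℝ) := (sub_eq_zero.mp h).symm
      have htr : G.trace = 0 := by
        rw [hG, Matrix.trace_sum]
        apply Finset.sum_eq_zero
        intro i _
        rw [Matrix.trace_smul, hΓ.tr i, smul_zero]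
      rw [hGρ, Matrix.trace_smul, Matrix.trace_one, Fintype.card_fin, smul_eq_mul] at htr
      have hN : (0 : ℝ) < (N : ℝ) := by exact_mod_cast hΓ.pos
      have := mul_pos hpos hN
      linarith
    have hex : ∃ w : Fin N → ℝ, (ρ • (1 : Matrix (Fin N) (Fin N) ℝ) - G) *ᵥ w ≠ 0 := by
      by_contra hno
      push Not at hno
      apply hP
      ext i j
      have h := congrFun (hno (Pi.single j 1)) i
      rw [Matrix.mulVec_single_one] at h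
      simpa using h
    obtain ⟨w, hw⟩ := hex
    refine ⟨(ρ • (1 : Matrix (Fin N) (Fin N) ℝ) - G) *ᵥ w, hw, ?_⟩
    have hGP : G * (ρ • (1 : Matrix (Fin N) (Fin N) ℝ) - G)
        = (-ρ) • (ρ • (1 : Matrix (Fin N) (Fin N) ℝ) - G) := by
      rw [mul_sub, hsq, mul_smul_comm, mul_one]
      module
    rw [Matrix.mulVec_mulVec, hGP, Matrix.smul_mulVec]

theorem cliff_sum_isSymm {m N : ℕ} {Γ : Fin m → Matrix (Fin N) (Fin N) ℝ} (hΓ : IsCliff Γ)
    (y0 : ℝ) (y : Fin m → ℝ) :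
    (y0 • (1 : Matrix (Fin N) (Fin N) ℝ) + ∑ i, y i • Γ i).IsSymm := by
  unfold Matrix.IsSymm
  rw [Matrix.transpose_add, Matrix.transpose_smul, Matrix.transpose_one, cliffAlg_G_isSymm hΓ y]

end Vale.Agent.Lib.P256
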