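import Vale.Agent.Lib.P256.CliffQF
namespace Vale.Agent.Lib.P256
open MvPolynomial Matrix

/-- The value at `t e - x` is minus the value at `x + (-t) e`. -/
theorem cliffCone1_neg {σ : Type} [Fintype σ] {m N J : ℕ} (Γ : Fin m → Matrix (Fin N) (Fin N) ℝ)
    (l0 h0 : σ → ℝ) (h : Fin m → σ → ℝ) (V : Fin J → Fin N → σ → ℝ)
    (e x : σ → ℝ) (t : ℝ) :
    cliffVal Γ l0 h0 h V (fun i => t * e i - x i) =
      - cliffVal Γ l0 h0 h V (fun i => x i + (-t) * e i) := by
  have h1 : (fun i => t * e i - x i) = (fun i => (-1 : ℝ) * (x i + (-t) * e i)) := by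
    funext i; ring
  rw [h1, cliffVal_smul]; ring

/-- For positive `τ` the value at `x + τ e` is `τ ^ 3` times the value at `e + (1/τ) x`. -/
theorem cliffCone1_scale {σ : Type} [Fintype σ] {m N J : ℕ} (Γ : Fin m → Matrix (Fin N) (Fin N) ℝ)
    (l0 h0 : σ → ℝ) (h : Fin m → σ → ℝ) (V : Fin J → Fin N → σ → ℝ)
    (e x : σ → ℝ) (τ : ℝ) (hτ : 0 < τ) :
    cliffVal Γ l0 h0 h V (fun i => x i + τ * e i) =
      τ ^ 3 * cliffVal Γ l0 h0 h V (fun i => e i + (1 / τ) * x i) := by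
  have h1 : (fun i => x i + τ * e i) = (fun i => τ * (e i + (1 / τ) * x i)) := by
    funext i; field_simp; ring
  rw [h1, cliffVal_smul]

/-- Positivity for all large parameters. -/
theorem cliffCone1_large {σ : Type} [Fintype σ] {m N J : ℕ} (Γ : Fin m → Matrix (Fin N) (Fin N) ℝ)
    (l0 h0 : σ → ℝ) (h : Fin m → σ → ℝ) (V : Fin J → Fin N → σ → ℝ)
    (e : σ → ℝ) (hpe : 0 < cliffVal Γ l0 h0 h V e) (x : σ → ℝ) :
    ∃ T : ℝ, 0 < T ∧ ∀ τ : ℝ, T ≤ τ → 0 < cliffVal Γ l0 h0 h V (fun i => x i + τ * e i) := by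
  have hc := continuous_cliffVal_line Γ l0 h0 h V e x
  have hval0 : (fun s : ℝ => cliffVal Γ l0 h0 h V (fun i => e i + s * x i)) 0 =
      cliffVal Γ l0 h0 h V e := by
    have : (fun i => e i + (0 : ℝ) * x i) = e := by funext i; ring
    simp only [this]
  have hpos : ∀ᶠ s in nhds (0 : ℝ), 0 < cliffVal Γ l0 h0 h V (fun i => e i + s * x i) := by
    have hlt : (0 : ℝ) < (fun s : ℝ => cliffVal Γ l0 h0 h V (fun i => e i + s * x i)) 0 := by
      rw [hval0]; exact hpe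
    exact hc.continuousAt.eventually (lt_mem_nhds hlt)
  obtain ⟨δ, hδ, hball⟩ := Metric.eventually_nhds_iff.mp hpos
  refine ⟨2 / δ, by positivity, ?_⟩
  intro τ hτ
  have hτpos : 0 < τ := lt_of_lt_of_le (by positivity) hτ
  rw [cliffCone1_scale Γ l0 h0 h V e x τ hτpos]
  have hs : dist (1 / τ) (0 : ℝ) < δ := by
    rw [Real.dist_eq, sub_zero, abs_of_pos (by positivity)]
    rw [div_lt_iff₀ hτpos]
    have : 2 / δ * δ = 2 := by field_simp
    nlinarith [mul_le_mul_of_nonneg_right hτ hδ.le]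
  have := hball hs
  positivity

theorem cliff_cone_reform {σ : Type} [Fintype σ] {m N J : ℕ} (Γ : Fin m → Matrix (Fin N) (Fin N) ℝ)
    (l0 h0 : σ → ℝ) (h : Fin m → σ → ℝ) (V : Fin J → Fin N → σ → ℝ)
    (e : σ → ℝ) (hpe : 0 < cliffVal Γ l0 h0 h V e) (x : σ → ℝ) :
    (∀ t : ℝ, cliffVal Γ l0 h0 h V (fun i => t * e i - x i) = 0 → 0 ≤ t) ↔
      (∀ τ : ℝ, 0 < τ → 0 < cliffVal Γ l0 h0 h V (fun i => x i + τ * e i)) := by
  constructor
  · intro hL τ hτ
    by_contra hneg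
    push Not at hneg
    obtain ⟨T, hT, hlarge⟩ := cliffCone1_large Γ l0 h0 h V e hpe x
    have hc := continuous_cliffVal_line Γ l0 h0 h V x e
    set b := max τ T with hb
    have hτb : τ ≤ b := le_max_left _ _
    have hbpos : 0 < cliffVal Γ l0 h0 h V (fun i => x i + b * e i) := hlarge b (le_max_right _ _)
    have hmem : (0 : ℝ) ∈ Set.Icc (cliffVal Γ l0 h0 h V (fun i => x i + τ * e i))
        (cliffVal Γ l0 h0 h V (fun i => x i + b * e i)) := ⟨hneg, hbpos.le⟩
    obtain ⟨τ2, hτ2, hz⟩ := intermediate_value_Icc hτb hc.continuousOn hmem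
    have hτ2pos : 0 < τ2 := lt_of_lt_of_le hτ hτ2.1
    have hzero : cliffVal Γ l0 h0 h V (fun i => (-τ2) * e i - x i) = 0 := by
      rw [cliffCone1_neg]
      have : (fun i => x i + (-(-τ2)) * e i) = (fun i => x i + τ2 * e i) := by
        funext i; ring
      rw [this]
      have hz' : cliffVal Γ l0 h0 h V (fun i => x i + τ2 * e i) = 0 := hz
      rw [hz']; simp
    have := hL (-τ2) hzero
    linarith
  · intro hR t ht
    by_contra hneg
    push Not at hneg
    have hpos := hR (-t) (by linarith)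
    rw [cliffCone1_neg] at ht
    linarith

end Vale.Agent.Lib.P256
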