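import Vale.Agent.Lib.P256.CliffCore

/-!
Bookkeeping identities for the Clifford pencil and the Clifford cubic:
values of linear forms along lines, the cubic in matrix form, the quadratic form of the block
pencil, homogeneity, symmetry and continuity.
-/

namespace Vale.Agent.Lib.P256

open MvPolynomial Matrix

theorem lf_eq_sum {σ : Type} [Fintype σ] (c : σ → ℝ) (x : σ → ℝ) :
    lf c x = ∑ k, c k * x k := by
  simp [lf]

theorem lf_add_mul {σ : Type} [Fintype σ] (c : σ → ℝ) (x e : σ → ℝ) (τ : ℝ) :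
    lf c (fun i => x i + τ * e i) = lf c x + τ * lf c e := by
  simp only [lf_eq_sum]
  rw [Finset.mul_sum, ← Finset.sum_add_distrib]
  apply Finset.sum_congr rfl
  intro k _
  ring

theorem lf_line_complex {σ : Type} [Fintype σ] (c : σ → ℝ) (x e : σ → ℝ) (t : ℂ) :
    lf c (fun i => t * (e i : ℂ) - (x i : ℂ)) = t * ((lf c e : ℝ) : ℂ) - ((lf c x : ℝ) : ℂ) := by
  simp only [lf_eq_sum]
  simp only [lf, Complex.coe_algebraMap]
  push_cast
  rw [Finset.mul_sum, ← Finset.sum_sub_distrib]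
  apply Finset.sum_congr rfl
  intro k _
  ring

/-- A linear form is homogeneous of degree one. -/
theorem cliffQF_lf_smul {σ : Type} [Fintype σ] (c' : σ → ℝ) (x : σ → ℝ) (c : ℝ) :
    lf c' (fun i => c * x i) = c * lf c' x := by
  simp only [lf_eq_sum]
  rw [Finset.mul_sum]
  apply Finset.sum_congr rfl
  intro k _
  ring

theorem cliffVal_eq {σ : Type} [Fintype σ] {m N J : ℕ} (Γ : Fin m → Matrix (Fin N) (Fin N) ℝ)
    (l0 h0 : σ → ℝ) (h : Fin m → σ → ℝ) (V : Fin J → Fin N → σ → ℝ) (x : σ → ℝ) :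
    cliffVal Γ l0 h0 h V x =
      lf l0 x * (lf h0 x ^ 2 - ∑ i, lf (h i) x ^ 2) -
        ∑ j, (fun a => lf (V j a) x) ⬝ᵥ
          ((lf h0 x • (1 : Matrix (Fin N) (Fin N) ℝ) - ∑ i, lf (h i) x • Γ i) *ᵥ
            (fun a => lf (V j a) x)) := by
  unfold cliffVal
  congr 1
  apply Finset.sum_congr rfl
  intro j _
  simp only [dotProduct, mulVec, Finset.mul_sum]
  apply Finset.sum_congr rfl
  intro a _
  apply Finset.sum_congr rfl
  intro b _
  have hY : (lf h0 x • (1 : Matrix (Fin N) (Fin N) ℝ) - ∑ i, lf (h i) x • Γ i) a b =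
      (if a = b then lf h0 x else 0) - ∑ i, algebraMap ℝ ℝ (Γ i a b) * lf (h i) x := by
    simp only [Matrix.sub_apply, Matrix.smul_apply, Matrix.one_apply, Matrix.sum_apply,
      smul_eq_mul, mul_ite, mul_one, mul_zero, Algebra.algebraMap_self, RingHom.id_apply]
    congr 1
    apply Finset.sum_congr rfl
    intro i _
    ring
  rw [hY]
  ring

/-- The diagonal block of the pencil acts within each copy of the inner space. -/
theorem cliffQF_block {N J : ℕ} (Y : Matrix (Fin N) (Fin N) ℝ) (η : Fin J × Fin N → ℝ)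
    (j : Fin J) (a : Fin N) :
    ∑ j' : Fin J, ∑ b : Fin N, (if j = j' then Y a b else 0) * η (j', b) =
      ∑ b, Y a b * η (j, b) := by
  rw [Finset.sum_comm]
  apply Finset.sum_congr rfl
  intro b _
  simp only [ite_mul, zero_mul]
  rw [Finset.sum_ite_eq]
  simp

/-- The quadratic form of a block matrix of the shape of the pencil. -/
theorem cliffQF_quad_aux {N J : ℕ} (l : ℝ) (w : Fin J → Fin N → ℝ)
    (Y : Matrix (Fin N) (Fin N) ℝ) (ξ : Unit ⊕ (Fin J × Fin N) → ℝ) :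
    ξ ⬝ᵥ ((Matrix.fromBlocks (fun _ _ => l) (fun _ p => w p.1 p.2) (fun p _ => w p.1 p.2)
      (fun p p' => if p.1 = p'.1 then Y p.2 p'.2 else 0) :
        Matrix (Unit ⊕ (Fin J × Fin N)) (Unit ⊕ (Fin J × Fin N)) ℝ) *ᵥ ξ) =
      l * ξ (Sum.inl ()) ^ 2 + 2 * ξ (Sum.inl ()) * ∑ j, ∑ a, w j a * ξ (Sum.inr (j, a)) +
        ∑ j, (fun a => ξ (Sum.inr (j, a))) ⬝ᵥ (Y *ᵥ (fun a => ξ (Sum.inr (j, a)))) := by
  have hL : ξ ⬝ᵥ ((Matrix.fromBlocks (fun _ _ => l) (fun _ p => w p.1 p.2)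
      (fun p _ => w p.1 p.2) (fun p p' => if p.1 = p'.1 then Y p.2 p'.2 else 0) :
        Matrix (Unit ⊕ (Fin J × Fin N)) (Unit ⊕ (Fin J × Fin N)) ℝ) *ᵥ ξ) =
      ξ (Sum.inl ()) * (l * ξ (Sum.inl ()) + ∑ j, ∑ a, w j a * ξ (Sum.inr (j, a))) +
        ∑ j, ∑ a, ξ (Sum.inr (j, a)) * (w j a * ξ (Sum.inl ()) +
          ∑ j', ∑ b, (if j = j' then Y a b else 0) * ξ (Sum.inr (j', b))) := by
    simp only [dotProduct, mulVec, Fintype.sum_sum_type, Fintype.sum_prod_type,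
      Finset.univ_unique, Finset.sum_singleton]
    rfl
  rw [hL]
  have hB : ∀ (j : Fin J) (a : Fin N),
      ∑ j', ∑ b, (if j = j' then Y a b else 0) * ξ (Sum.inr (j', b)) =
        ∑ b, Y a b * ξ (Sum.inr (j, b)) :=
    fun j a => cliffQF_block Y (fun p => ξ (Sum.inr p)) j a
  simp only [hB]
  have h1 : ∑ j, ∑ a, ξ (Sum.inr (j, a)) * (w j a * ξ (Sum.inl ()) +
      ∑ b, Y a b * ξ (Sum.inr (j, b))) =
      ξ (Sum.inl ()) * (∑ j, ∑ a, w j a * ξ (Sum.inr (j, a))) +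
        ∑ j, ∑ a, ξ (Sum.inr (j, a)) * ∑ b, Y a b * ξ (Sum.inr (j, b)) := by
    rw [Finset.mul_sum, ← Finset.sum_add_distrib]
    apply Finset.sum_congr rfl
    intro j _
    rw [Finset.mul_sum, ← Finset.sum_add_distrib]
    apply Finset.sum_congr rfl
    intro a _
    ring
  rw [h1]
  simp only [dotProduct, mulVec]
  ring

theorem cliffPencil_quad {σ : Type} [Fintype σ] {m N J : ℕ} (Γ : Fin m → Matrix (Fin N) (Fin N) ℝ)
    (l0 h0 : σ → ℝ) (h : Fin m → σ → ℝ) (V : Fin J → Fin N → σ → ℝ) (x : σ → ℝ)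
    (ξ : Unit ⊕ (Fin J × Fin N) → ℝ) :
    ξ ⬝ᵥ (cliffPencil Γ l0 h0 h V x *ᵥ ξ) =
      lf l0 x * ξ (Sum.inl ()) ^ 2 +
        2 * ξ (Sum.inl ()) * ∑ j, ∑ a, lf (V j a) x * ξ (Sum.inr (j, a)) +
        ∑ j, (fun a => ξ (Sum.inr (j, a))) ⬝ᵥ
          ((lf h0 x • (1 : Matrix (Fin N) (Fin N) ℝ) + ∑ i, lf (h i) x • Γ i) *ᵥ
            (fun a => ξ (Sum.inr (j, a)))) :=
  cliffQF_quad_aux (lf l0 x) (fun j a => lf (V j a) x)
    (lf h0 x • (1 : Matrix (Fin N) (Fin N) ℝ) + ∑ i, lf (h i) x • Γ i) ξ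

theorem cliffVal_smul {σ : Type} [Fintype σ] {m N J : ℕ} (Γ : Fin m → Matrix (Fin N) (Fin N) ℝ)
    (l0 h0 : σ → ℝ) (h : Fin m → σ → ℝ) (V : Fin J → Fin N → σ → ℝ) (x : σ → ℝ) (c : ℝ) :
    cliffVal Γ l0 h0 h V (fun i => c * x i) = c ^ 3 * cliffVal Γ l0 h0 h V x := by
  have hlf : ∀ c' : σ → ℝ, lf c' (fun i => c * x i) = c * lf c' x :=
    fun c' => cliffQF_lf_smul c' x c
  unfold cliffVal
  simp only [hlf]
  have hQ : ∀ a b : Fin N, ((if a = b then c * lf h0 x else 0) -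
      ∑ i, algebraMap ℝ ℝ (Γ i a b) * (c * lf (h i) x)) =
      c * ((if a = b then lf h0 x else 0) - ∑ i, algebraMap ℝ ℝ (Γ i a b) * lf (h i) x) := by
    intro a b
    rw [mul_sub, Finset.mul_sum]
    congr 1
    · split_ifs <;> simp
    · apply Finset.sum_congr rfl
      intro i _
      ring
  simp only [hQ]
  have h2 : ∑ i, (c * lf (h i) x) ^ 2 = c ^ 2 * ∑ i, lf (h i) x ^ 2 := by
    rw [Finset.mul_sum]
    apply Finset.sum_congr rfl
    intro i _
    ring
  rw [h2]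
  have h3 : ∑ j, ∑ a, ∑ b, c * lf (V j a) x *
      (c * ((if a = b then lf h0 x else 0) - ∑ i, algebraMap ℝ ℝ (Γ i a b) * lf (h i) x)) *
        (c * lf (V j b) x) =
      c ^ 3 * ∑ j, ∑ a, ∑ b, lf (V j a) x *
        ((if a = b then lf h0 x else 0) - ∑ i, algebraMap ℝ ℝ (Γ i a b) * lf (h i) x) *
          lf (V j b) x := by
    rw [Finset.mul_sum]
    apply Finset.sum_congr rfl
    intro j _
    rw [Finset.mul_sum]
    apply Finset.sum_congr rfl
    intro a _
    rw [Finset.mul_sum]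
    apply Finset.sum_congr rfl
    intro b _
    ring
  rw [h3]
  ring

theorem cliffPencil_isSymm {σ : Type} [Fintype σ] {m N J : ℕ}
    (Γ : Fin m → Matrix (Fin N) (Fin N) ℝ) (hsymm : ∀ i, (Γ i).IsSymm)
    (l0 h0 : σ → ℝ) (h : Fin m → σ → ℝ) (V : Fin J → Fin N → σ → ℝ) (x : σ → ℝ) :
    (cliffPencil Γ l0 h0 h V x).IsSymm := by
  have hY : (lf h0 x • (1 : Matrix (Fin N) (Fin N) ℝ) + ∑ i, lf (h i) x • Γ i).IsSymm := by
    unfold Matrix.IsSymm
    rw [Matrix.transpose_add, Matrix.transpose_smul, Matrix.transpose_one, Matrix.transpose_sum]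
    congr 1
    apply Finset.sum_congr rfl
    intro i _
    rw [Matrix.transpose_smul, (hsymm i).eq]
  unfold cliffPencil
  apply Matrix.IsSymm.fromBlocks
  · ext u v
    rfl
  · ext p u
    rfl
  · ext p p'
    show (if p'.1 = p.1 then
        (lf h0 x • (1 : Matrix (Fin N) (Fin N) ℝ) + ∑ i, lf (h i) x • Γ i) p'.2 p.2 else 0) =
      (if p.1 = p'.1 then
        (lf h0 x • (1 : Matrix (Fin N) (Fin N) ℝ) + ∑ i, lf (h i) x • Γ i) p.2 p'.2 else 0)
    by_cases hp : p.1 = p'.1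
    · rw [if_pos hp, if_pos hp.symm]
      exact hY.apply _ _
    · rw [if_neg hp, if_neg (fun hh => hp hh.symm)]

theorem continuous_cliffVal_line {σ : Type} [Fintype σ] {m N J : ℕ}
    (Γ : Fin m → Matrix (Fin N) (Fin N) ℝ)
    (l0 h0 : σ → ℝ) (h : Fin m → σ → ℝ) (V : Fin J → Fin N → σ → ℝ) (x e : σ → ℝ) :
    Continuous (fun τ : ℝ => cliffVal Γ l0 h0 h V (fun i => x i + τ * e i)) := by
  simp only [cliffVal, lf_add_mul]
  have hc : ∀ c' : σ → ℝ, Continuous (fun τ : ℝ => lf c' x + τ * lf c' e) :=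
    fun c' => continuous_const.add (continuous_id.mul continuous_const)
  apply Continuous.sub
  · apply Continuous.mul (hc l0)
    apply Continuous.sub ((hc h0).pow 2)
    exact continuous_finsetSum _ (fun i _ => (hc (h i)).pow 2)
  · apply continuous_finsetSum
    intro j _
    apply continuous_finsetSum
    intro a _
    apply continuous_finsetSum
    intro b _
    apply Continuous.mul
    · apply Continuous.mul (hc _)
      apply Continuous.sub
      · split_ifs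
        · exact hc h0
        · exact continuous_const
      · exact continuous_finsetSum _ (fun i _ => continuous_const.mul (hc (h i)))
    · exact hc _

theorem cliffPencil_posSemidef_of_vanish {σ : Type} [Fintype σ] {m N J : ℕ}
    (Γ : Fin m → Matrix (Fin N) (Fin N) ℝ) (l0 h0 : σ → ℝ) (h : Fin m → σ → ℝ)
    (V : Fin J → Fin N → σ → ℝ) (x0 : σ → ℝ) (h0x : lf h0 x0 = 0) (hix : ∀ i, lf (h i) x0 = 0)
    (hv : ∀ j a, lf (V j a) x0 = 0) (hl : 0 ≤ lf l0 x0) :
    (cliffPencil Γ l0 h0 h V x0).PosSemidef := by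
  have hY : (lf h0 x0 • (1 : Matrix (Fin N) (Fin N) ℝ) + ∑ i, lf (h i) x0 • Γ i) = 0 := by
    rw [h0x, zero_smul, zero_add]
    apply Finset.sum_eq_zero
    intro i _
    rw [hix i, zero_smul]
  apply Matrix.PosSemidef.of_dotProduct_mulVec_nonneg
  · unfold Matrix.IsHermitian
    rw [Matrix.conjTranspose_eq_transpose_of_trivial]
    unfold cliffPencil
    rw [hY]
    apply Matrix.IsSymm.fromBlocks
    · ext u v
      rfl
    · ext p u
      rfl
    · ext p p'
      show (if p'.1 = p.1 then (0 : Matrix (Fin N) (Fin N) ℝ) p'.2 p.2 else 0) =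
        (if p.1 = p'.1 then (0 : Matrix (Fin N) (Fin N) ℝ) p.2 p'.2 else 0)
      simp
  · intro ξ
    rw [star_trivial, cliffPencil_quad, hY]
    simp only [hv, zero_mul, Finset.sum_const_zero, mul_zero, add_zero, Matrix.zero_mulVec,
      dotProduct_zero]
    exact mul_nonneg hl (sq_nonneg _)

end Vale.Agent.Lib.P256
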