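import Vale.Agent.Lib.P256.CliffAlg
import Vale.Agent.Lib.P256.CliffQF
namespace Vale.Agent.Lib.P256
open MvPolynomial Matrix

/-- The squared norm of a nonzero real vector is positive. -/
lemma cliffCone2_dot_pos {N : ℕ} {u : Fin N → ℝ} (hu : u ≠ 0) : 0 < u ⬝ᵥ u := by
  have h1 : 0 ≤ u ⬝ᵥ u := Finset.sum_nonneg (fun a _ => mul_self_nonneg (u a))
  have h2 : u ⬝ᵥ u ≠ 0 := fun h => hu (dotProduct_self_eq_zero.1 h)
  exact lt_of_le_of_ne h1 (Ne.symm h2)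

/-- The quadratic form of the pencil at `x + τ e` is positive on nonzero vectors. -/
lemma cliffCone2_quad_pos {σ : Type} [Fintype σ] {m N J : ℕ}
    {Γ : Fin m → Matrix (Fin N) (Fin N) ℝ} (l0 h0 : σ → ℝ) (h : Fin m → σ → ℝ)
    (V : Fin J → Fin N → σ → ℝ)
    (e : σ → ℝ) (he0 : lf h0 e = 1) (hei : ∀ i, lf (h i) e = 0)
    (hpe : 0 < cliffVal Γ l0 h0 h V e) (x : σ → ℝ)
    (hx : (cliffPencil Γ l0 h0 h V x).PosSemidef) (τ : ℝ) (hτ : 0 < τ)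
    (ξ : Unit ⊕ (Fin J × Fin N) → ℝ) (hξ : ξ ≠ 0) :
    0 < ξ ⬝ᵥ (cliffPencil Γ l0 h0 h V (fun i => x i + τ * e i) *ᵥ ξ) := by
  obtain ⟨ξ0, hξ0⟩ : ∃ ξ0 : ℝ, ξ0 = ξ (Sum.inl ()) := ⟨_, rfl⟩
  obtain ⟨a1, ha1⟩ : ∃ a1 : ℝ, a1 = ∑ j, ∑ a, lf (V j a) x * ξ (Sum.inr (j, a)) := ⟨_, rfl⟩
  obtain ⟨a2, ha2⟩ : ∃ a2 : ℝ, a2 = ∑ j, ∑ a, lf (V j a) e * ξ (Sum.inr (j, a)) := ⟨_, rfl⟩
  obtain ⟨a3, ha3⟩ : ∃ a3 : ℝ, a3 = ∑ j, (fun a => ξ (Sum.inr (j, a))) ⬝ᵥ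
      ((lf h0 x • (1 : Matrix (Fin N) (Fin N) ℝ) + ∑ i, lf (h i) x • Γ i) *ᵥ
        (fun a => ξ (Sum.inr (j, a)))) := ⟨_, rfl⟩
  obtain ⟨a4, ha4⟩ : ∃ a4 : ℝ, a4 = ∑ j, ∑ a, ξ (Sum.inr (j, a)) ^ 2 := ⟨_, rfl⟩
  obtain ⟨a5, ha5⟩ : ∃ a5 : ℝ, a5 = ∑ j, ∑ a, lf (V j a) e ^ 2 := ⟨_, rfl⟩
  obtain ⟨SS, hSS⟩ : ∃ SS : ℝ,
      SS = ∑ j, ∑ a, (ξ (Sum.inr (j, a)) + ξ0 * lf (V j a) e) ^ 2 := ⟨_, rfl⟩
  have hQx : ξ ⬝ᵥ (cliffPencil Γ l0 h0 h V x *ᵥ ξ) = lf l0 x * ξ0 ^ 2 + 2 * ξ0 * a1 + a3 := by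
    rw [cliffPencil_quad, hξ0, ha1, ha3]
  have hQx0 : 0 ≤ ξ ⬝ᵥ (cliffPencil Γ l0 h0 h V x *ᵥ ξ) := by
    have h1 := (posSemidef_iff_dotProduct_mulVec.1 hx).2 ξ
    rw [star_trivial] at h1
    exact h1
  have hQ' : ξ ⬝ᵥ (cliffPencil Γ l0 h0 h V (fun i => x i + τ * e i) *ᵥ ξ)
      = (lf l0 x + τ * lf l0 e) * ξ0 ^ 2 + 2 * ξ0 * (a1 + τ * a2) + (a3 + τ * a4) := by
    rw [cliffPencil_quad]
    simp only [lf_add_mul, he0, hei, mul_one, mul_zero, add_zero]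
    have hw : ∑ j, ∑ a, (lf (V j a) x + τ * lf (V j a) e) * ξ (Sum.inr (j, a))
        = a1 + τ * a2 := by
      rw [ha1, ha2, Finset.mul_sum, ← Finset.sum_add_distrib]
      refine Finset.sum_congr rfl (fun j _ => ?_)
      rw [Finset.mul_sum, ← Finset.sum_add_distrib]
      refine Finset.sum_congr rfl (fun a _ => ?_)
      ring
    have hY : ∑ j, (fun a => ξ (Sum.inr (j, a))) ⬝ᵥ
        (((lf h0 x + τ) • (1 : Matrix (Fin N) (Fin N) ℝ) + ∑ i, lf (h i) x • Γ i) *ᵥ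
          (fun a => ξ (Sum.inr (j, a)))) = a3 + τ * a4 := by
      rw [ha3, ha4, Finset.mul_sum, ← Finset.sum_add_distrib]
      refine Finset.sum_congr rfl (fun j _ => ?_)
      have hM : (lf h0 x + τ) • (1 : Matrix (Fin N) (Fin N) ℝ) + ∑ i, lf (h i) x • Γ i
          = (lf h0 x • (1 : Matrix (Fin N) (Fin N) ℝ) + ∑ i, lf (h i) x • Γ i)
            + τ • (1 : Matrix (Fin N) (Fin N) ℝ) := by
        rw [add_smul]
        abel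
      rw [hM, add_mulVec, dotProduct_add, smul_mulVec, one_mulVec, dotProduct_smul, smul_eq_mul]
      congr 2
      simp only [dotProduct, sq]
    rw [hw, hY, hξ0]
  have hce : cliffVal Γ l0 h0 h V e = lf l0 e - a5 := by
    rw [cliffVal_eq, ha5]
    simp only [he0, hei]
    simp [dotProduct, sq]
  have hSS' : SS = a4 + 2 * ξ0 * a2 + ξ0 ^ 2 * a5 := by
    rw [hSS, ha4, ha2, ha5, Finset.mul_sum, Finset.mul_sum, ← Finset.sum_add_distrib,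
      ← Finset.sum_add_distrib]
    refine Finset.sum_congr rfl (fun j _ => ?_)
    rw [Finset.mul_sum, Finset.mul_sum, ← Finset.sum_add_distrib, ← Finset.sum_add_distrib]
    refine Finset.sum_congr rfl (fun a _ => ?_)
    ring
  have hdec : ξ ⬝ᵥ (cliffPencil Γ l0 h0 h V (fun i => x i + τ * e i) *ᵥ ξ)
      = ξ ⬝ᵥ (cliffPencil Γ l0 h0 h V x *ᵥ ξ)
        + τ * (SS + ξ0 ^ 2 * cliffVal Γ l0 h0 h V e) := by
    rw [hQ', hQx, hSS', hce]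
    ring
  have hSS0 : 0 ≤ SS := by
    rw [hSS]
    exact Finset.sum_nonneg (fun j _ => Finset.sum_nonneg (fun a _ => sq_nonneg _))
  have hc0 : 0 ≤ ξ0 ^ 2 * cliffVal Γ l0 h0 h V e := mul_nonneg (sq_nonneg _) hpe.le
  have hpos : 0 < SS + ξ0 ^ 2 * cliffVal Γ l0 h0 h V e := by
    by_contra hneg
    have hle : SS + ξ0 ^ 2 * cliffVal Γ l0 h0 h V e ≤ 0 := not_lt.1 hneg
    have h1 : ξ0 ^ 2 * cliffVal Γ l0 h0 h V e = 0 := by linarith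
    have h2 : SS = 0 := by linarith
    have hξ00 : ξ0 = 0 := by
      rcases mul_eq_zero.1 h1 with h3 | h3
      · exact (pow_eq_zero_iff two_ne_zero).1 h3
      · exact absurd h3 hpe.ne'
    apply hξ
    funext p
    rcases p with u | ⟨j, a⟩
    · cases u
      rw [← hξ0, hξ00]
      rfl
    · rw [hSS] at h2
      have h3 := (Finset.sum_eq_zero_iff_of_nonneg
        (fun j _ => Finset.sum_nonneg (fun a _ => sq_nonneg _))).1 h2 j (Finset.mem_univ j)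
      have h4 := (Finset.sum_eq_zero_iff_of_nonneg (fun a _ => sq_nonneg _)).1 h3 a
        (Finset.mem_univ a)
      have h5 := (pow_eq_zero_iff two_ne_zero).1 h4
      rw [hξ00, zero_mul, add_zero] at h5
      rw [h5]
      rfl
  rw [hdec]
  have h6 : 0 < τ * (SS + ξ0 ^ 2 * cliffVal Γ l0 h0 h V e) := mul_pos hτ hpos
  linarith

theorem cliff_pos_of_pencil {σ : Type} [Fintype σ] {m N J : ℕ}
    {Γ : Fin m → Matrix (Fin N) (Fin N) ℝ}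
    (hΓ : IsCliff Γ) (hJ : 0 < J) (l0 h0 : σ → ℝ) (h : Fin m → σ → ℝ) (V : Fin J → Fin N → σ → ℝ)
    (e : σ → ℝ) (he0 : lf h0 e = 1) (hei : ∀ i, lf (h i) e = 0)
    (hpe : 0 < cliffVal Γ l0 h0 h V e) (x : σ → ℝ)
    (hx : (cliffPencil Γ l0 h0 h V x).PosSemidef) (τ : ℝ) (hτ : 0 < τ) :
    0 < cliffVal Γ l0 h0 h V (fun i => x i + τ * e i) := by
  have hQ := cliffCone2_quad_pos (Γ := Γ) l0 h0 h V e he0 hei hpe x hx τ hτ
  obtain ⟨x', hx'⟩ : ∃ x' : σ → ℝ, x' = fun i => x i + τ * e i := ⟨_, rfl⟩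
  rw [← hx'] at hQ ⊢
  obtain ⟨y0, hy0⟩ : ∃ y0 : ℝ, y0 = lf h0 x' := ⟨_, rfl⟩
  obtain ⟨y, hy⟩ : ∃ y : Fin m → ℝ, y = fun i => lf (h i) x' := ⟨_, rfl⟩
  obtain ⟨w, hw⟩ : ∃ w : Fin J → Fin N → ℝ, w = fun j a => lf (V j a) x' := ⟨_, rfl⟩
  obtain ⟨l, hl⟩ : ∃ l : ℝ, l = lf l0 x' := ⟨_, rfl⟩
  obtain ⟨Y, hY⟩ : ∃ Y : Matrix (Fin N) (Fin N) ℝ,
      Y = y0 • (1 : Matrix (Fin N) (Fin N) ℝ) + ∑ i, y i • Γ i := ⟨_, rfl⟩
  obtain ⟨Yt, hYt⟩ : ∃ Yt : Matrix (Fin N) (Fin N) ℝ,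
      Yt = y0 • (1 : Matrix (Fin N) (Fin N) ℝ) - ∑ i, y i • Γ i := ⟨_, rfl⟩
  obtain ⟨q, hqdef⟩ : ∃ q : ℝ, q = y0 ^ 2 - ∑ i, y i ^ 2 := ⟨_, rfl⟩
  have hquad : ∀ ξ : Unit ⊕ (Fin J × Fin N) → ℝ,
      ξ ⬝ᵥ (cliffPencil Γ l0 h0 h V x' *ᵥ ξ) =
        l * ξ (Sum.inl ()) ^ 2 + 2 * ξ (Sum.inl ()) * ∑ j, ∑ a, w j a * ξ (Sum.inr (j, a)) +
          ∑ j, (fun a => ξ (Sum.inr (j, a))) ⬝ᵥ (Y *ᵥ (fun a => ξ (Sum.inr (j, a)))) := by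
    intro ξ
    rw [cliffPencil_quad, hl, hw, hY, hy0, hy]
  have hval : cliffVal Γ l0 h0 h V x' = l * q - ∑ j, w j ⬝ᵥ (Yt *ᵥ w j) := by
    rw [cliffVal_eq, hl, hw, hqdef, hYt, hy0, hy]
  have hYY : Y * Yt = q • (1 : Matrix (Fin N) (Fin N) ℝ) := by
    rw [hY, hYt, hqdef]
    exact cliff_mul_real hΓ y0 y
  -- positivity of `q`
  have hq : 0 < q := by
    obtain ⟨u, hu, hGu⟩ := cliff_exists_neg hΓ y
    obtain ⟨ρ, hρ⟩ : ∃ ρ : ℝ, ρ = Real.sqrt (∑ i, y i ^ 2) := ⟨_, rfl⟩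
    rw [← hρ] at hGu
    have hρ0 : 0 ≤ ρ := by
      rw [hρ]
      exact Real.sqrt_nonneg _
    have hρ2 : ρ ^ 2 = ∑ i, y i ^ 2 := by
      rw [hρ]
      exact Real.sq_sqrt (Finset.sum_nonneg (fun i _ => sq_nonneg _))
    obtain ⟨j0, hj0⟩ : ∃ j0 : Fin J, j0 = ⟨0, hJ⟩ := ⟨_, rfl⟩
    obtain ⟨ξ, hξdef⟩ : ∃ ξ : Unit ⊕ (Fin J × Fin N) → ℝ,
        ξ = Sum.elim (fun _ => 0) (fun p => if p.1 = j0 then u p.2 else 0) := ⟨_, rfl⟩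
    have hξl : ξ (Sum.inl ()) = 0 := by
      rw [hξdef]
      rfl
    have hξr : ∀ j a, ξ (Sum.inr (j, a)) = if j = j0 then u a else 0 := by
      intro j a
      rw [hξdef]
      rfl
    have hξne : ξ ≠ 0 := by
      intro h0
      apply hu
      funext a
      have h1 := congrFun h0 (Sum.inr (j0, a))
      rw [hξr, if_pos rfl] at h1
      exact h1
    have h1 := hQ ξ hξne
    rw [hquad ξ, hξl] at h1
    have h2 : ∑ j, (fun a => ξ (Sum.inr (j, a))) ⬝ᵥ (Y *ᵥ (fun a => ξ (Sum.inr (j, a))))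
        = (y0 - ρ) * (u ⬝ᵥ u) := by
      rw [Finset.sum_eq_single j0]
      · have h3 : (fun a => ξ (Sum.inr (j0, a))) = u := by
          funext a
          rw [hξr, if_pos rfl]
        rw [h3, hY, add_mulVec, smul_mulVec, one_mulVec, hGu, dotProduct_add, dotProduct_smul,
          dotProduct_smul, smul_eq_mul, smul_eq_mul]
        ring
      · intro j _ hj
        have h3 : (fun a => ξ (Sum.inr (j, a))) = 0 := by
          funext a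
          rw [hξr, if_neg hj]
          rfl
        rw [h3, zero_dotProduct]
      · intro h3
        exact absurd (Finset.mem_univ j0) h3
    rw [h2] at h1
    have h4 : 0 < u ⬝ᵥ u := cliffCone2_dot_pos hu
    have h1' : 0 < (y0 - ρ) * (u ⬝ᵥ u) := by linarith
    have h5 : 0 < y0 - ρ := by
      by_contra hneg
      have h6 : 0 ≤ (0 - (y0 - ρ)) * (u ⬝ᵥ u) :=
        mul_nonneg (sub_nonneg.2 (not_lt.1 hneg)) h4.le
      linarith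
    rw [hqdef, ← hρ2]
    nlinarith [mul_pos h5 (by linarith : 0 < y0 + ρ)]
  -- the Schur-complement test vector
  obtain ⟨ξ, hξdef⟩ : ∃ ξ : Unit ⊕ (Fin J × Fin N) → ℝ,
      ξ = Sum.elim (fun _ => 1) (fun p => (-(1 / q) • (Yt *ᵥ w p.1)) p.2) := ⟨_, rfl⟩
  have hξl : ξ (Sum.inl ()) = 1 := by
    rw [hξdef]
    rfl
  have hξr : ∀ j, (fun a => ξ (Sum.inr (j, a))) = -(1 / q) • (Yt *ᵥ w j) := by
    intro j
    rw [hξdef]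
    rfl
  have hξne : ξ ≠ 0 := by
    intro h0
    have h1 := congrFun h0 (Sum.inl ())
    rw [hξl] at h1
    exact one_ne_zero h1
  have h1 := hQ ξ hξne
  rw [hquad ξ, hξl] at h1
  have hYξ : ∀ j, Y *ᵥ (-(1 / q) • (Yt *ᵥ w j)) = -(w j) := by
    intro j
    rw [mulVec_smul, mulVec_mulVec, hYY, smul_mulVec, one_mulVec, smul_smul]
    have h2 : -(1 / q) * q = -1 := by
      field_simp
    rw [h2, neg_one_smul]
  have hsum1 : ∑ j, ∑ a, w j a * ξ (Sum.inr (j, a))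
      = -(1 / q) * ∑ j, w j ⬝ᵥ (Yt *ᵥ w j) := by
    rw [Finset.mul_sum]
    refine Finset.sum_congr rfl (fun j _ => ?_)
    have h2 : ∑ a, w j a * ξ (Sum.inr (j, a)) = w j ⬝ᵥ (fun a => ξ (Sum.inr (j, a))) := rfl
    rw [h2, hξr j, dotProduct_smul, smul_eq_mul]
  have hsum2 : ∑ j, (fun a => ξ (Sum.inr (j, a))) ⬝ᵥ (Y *ᵥ (fun a => ξ (Sum.inr (j, a))))
      = (1 / q) * ∑ j, w j ⬝ᵥ (Yt *ᵥ w j) := by
    rw [Finset.mul_sum]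
    refine Finset.sum_congr rfl (fun j _ => ?_)
    rw [hξr j, hYξ j, dotProduct_neg, smul_dotProduct, smul_eq_mul,
      dotProduct_comm (Yt *ᵥ w j) (w j)]
    ring
  rw [hsum1, hsum2] at h1
  rw [hval]
  obtain ⟨T, hT⟩ : ∃ T : ℝ, T = ∑ j, w j ⬝ᵥ (Yt *ᵥ w j) := ⟨_, rfl⟩
  rw [← hT] at h1 ⊢
  have h3 : l * q - T = q * (l * 1 ^ 2 + 2 * 1 * (-(1 / q) * T) + 1 / q * T) := by
    field_simp
    ring
  rw [h3]
  exact mul_pos hq h1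

end Vale.Agent.Lib.P256
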