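import Vale.Agent.Lib.P256.CliffAlg
import Vale.Agent.Lib.P256.CliffQF
namespace Vale.Agent.Lib.P256
open MvPolynomial Matrix

theorem cliffCone3_self_nonneg {N : ℕ} (v : Fin N → ℝ) : 0 ≤ v ⬝ᵥ v := by
  unfold dotProduct
  exact Finset.sum_nonneg (fun i _ => mul_self_nonneg (v i))

/-- `y0 1 + ∑ y_i Γ_i` is nonnegative as a form once `sqrt (∑ y_i^2) ≤ y0`. -/
theorem cliffCone3_plus_nonneg {m N : ℕ} {Γ : Fin m → Matrix (Fin N) (Fin N) ℝ}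
    (hΓ : IsCliff Γ) (y0 : ℝ) (y : Fin m → ℝ) (hρ : Real.sqrt (∑ i, y i ^ 2) ≤ y0)
    (v : Fin N → ℝ) :
    0 ≤ v ⬝ᵥ ((y0 • (1 : Matrix (Fin N) (Fin N) ℝ) + ∑ i, y i • Γ i) *ᵥ v) := by
  have h1 := abs_le.mp (cliff_quad_abs_le hΓ y v)
  have h2 : 0 ≤ v ⬝ᵥ v := cliffCone3_self_nonneg v
  rw [add_mulVec, dotProduct_add, smul_mulVec, one_mulVec, dotProduct_smul, smul_eq_mul]
  nlinarith [h1.1, mul_nonneg (sub_nonneg.mpr hρ) h2]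

/-- `y0 1 - ∑ y_i Γ_i` is nonnegative as a form once `sqrt (∑ y_i^2) ≤ y0`. -/
theorem cliffCone3_minus_nonneg {m N : ℕ} {Γ : Fin m → Matrix (Fin N) (Fin N) ℝ}
    (hΓ : IsCliff Γ) (y0 : ℝ) (y : Fin m → ℝ) (hρ : Real.sqrt (∑ i, y i ^ 2) ≤ y0)
    (v : Fin N → ℝ) :
    0 ≤ v ⬝ᵥ ((y0 • (1 : Matrix (Fin N) (Fin N) ℝ) - ∑ i, y i • Γ i) *ᵥ v) := by
  have h1 := abs_le.mp (cliff_quad_abs_le hΓ y v)
  have h2 : 0 ≤ v ⬝ᵥ v := cliffCone3_self_nonneg v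
  rw [sub_mulVec, dotProduct_sub, smul_mulVec, one_mulVec, dotProduct_smul, smul_eq_mul]
  nlinarith [h1.2, mul_nonneg (sub_nonneg.mpr hρ) h2]

/-- Completing the square: the block form is nonnegative when `sqrt (∑ y_i^2) < y0` and the
cubic value is positive. -/
theorem cliffCone3_form_nonneg {m N J : ℕ} {Γ : Fin m → Matrix (Fin N) (Fin N) ℝ}
    (hΓ : IsCliff Γ) (y0 l : ℝ) (y : Fin m → ℝ) (w : Fin J → Fin N → ℝ)
    (hρ : Real.sqrt (∑ i, y i ^ 2) < y0)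
    (hval : 0 < l * (y0 ^ 2 - ∑ i, y i ^ 2) -
      ∑ j, w j ⬝ᵥ ((y0 • (1 : Matrix (Fin N) (Fin N) ℝ) - ∑ i, y i • Γ i) *ᵥ w j))
    (ξ0 : ℝ) (ξ : Fin J → Fin N → ℝ) :
    0 ≤ l * ξ0 ^ 2 + 2 * ξ0 * ∑ j, ∑ a, w j a * ξ j a +
      ∑ j, ξ j ⬝ᵥ ((y0 • (1 : Matrix (Fin N) (Fin N) ℝ) + ∑ i, y i • Γ i) *ᵥ ξ j) := by
  have hqpos : 0 < y0 ^ 2 - ∑ i, y i ^ 2 := by
    have h0 : 0 ≤ Real.sqrt (∑ i, y i ^ 2) := Real.sqrt_nonneg _
    have h1 : Real.sqrt (∑ i, y i ^ 2) ^ 2 = ∑ i, y i ^ 2 :=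
      Real.sq_sqrt (Finset.sum_nonneg (fun i _ => sq_nonneg _))
    nlinarith
  have hmul := cliff_mul_real hΓ y0 y
  have hsymm := cliff_sum_isSymm hΓ y0 y
  generalize hY : y0 • (1 : Matrix (Fin N) (Fin N) ℝ) + ∑ i, y i • Γ i = Y at hmul hsymm ⊢
  generalize hYt : y0 • (1 : Matrix (Fin N) (Fin N) ℝ) - ∑ i, y i • Γ i = Yt at hmul hval ⊢
  generalize hq : y0 ^ 2 - ∑ i, y i ^ 2 = q at hmul hval hqpos ⊢
  have key : ∀ j, -(ξ0 ^ 2 * (1 / q) * (w j ⬝ᵥ (Yt *ᵥ w j))) ≤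
      2 * ξ0 * (∑ a, w j a * ξ j a) + ξ j ⬝ᵥ (Y *ᵥ ξ j) := by
    intro j
    have hYu : Y *ᵥ ((1 / q) • (Yt *ᵥ w j)) = w j := by
      rw [mulVec_smul, mulVec_mulVec, hmul, smul_mulVec, one_mulVec, smul_smul, one_div,
        inv_mul_cancel₀ hqpos.ne', one_smul]
    generalize hu : (1 / q) • (Yt *ᵥ w j) = u at hYu
    have hnn : 0 ≤ (ξ j + ξ0 • u) ⬝ᵥ (Y *ᵥ (ξ j + ξ0 • u)) := by
      rw [← hY]
      exact cliffCone3_plus_nonneg hΓ y0 y hρ.le (ξ j + ξ0 • u)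
    have e2 : u ⬝ᵥ (Y *ᵥ ξ j) = w j ⬝ᵥ ξ j := by
      rw [dotProduct_mulVec, ← mulVec_transpose, hsymm.eq, hYu]
    have e3 : u ⬝ᵥ w j = (1 / q) * (w j ⬝ᵥ (Yt *ᵥ w j)) := by
      rw [← hu, smul_dotProduct, smul_eq_mul, dotProduct_comm]
    have e4 : w j ⬝ᵥ ξ j = ∑ a, w j a * ξ j a := rfl
    have e1 : (ξ j + ξ0 • u) ⬝ᵥ (Y *ᵥ (ξ j + ξ0 • u)) =
        ξ j ⬝ᵥ (Y *ᵥ ξ j) + 2 * ξ0 * (w j ⬝ᵥ ξ j) + ξ0 ^ 2 * (u ⬝ᵥ w j) := by
      rw [mulVec_add, mulVec_smul, hYu]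
      simp only [add_dotProduct, dotProduct_add, smul_dotProduct, dotProduct_smul, smul_eq_mul]
      rw [e2, dotProduct_comm (ξ j) (w j)]
      ring
    rw [e1, e3, e4] at hnn
    linarith
  have hsum : -(ξ0 ^ 2 * (1 / q) * ∑ j, w j ⬝ᵥ (Yt *ᵥ w j)) ≤
      2 * ξ0 * (∑ j, ∑ a, w j a * ξ j a) + ∑ j, ξ j ⬝ᵥ (Y *ᵥ ξ j) := by
    rw [Finset.mul_sum, Finset.mul_sum, ← Finset.sum_add_distrib, ← Finset.sum_neg_distrib]
    exact Finset.sum_le_sum (fun j _ => key j)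
  have hfin : 0 ≤ ξ0 ^ 2 * (1 / q) * (l * q - ∑ j, w j ⬝ᵥ (Yt *ᵥ w j)) :=
    mul_nonneg (mul_nonneg (sq_nonneg _) (one_div_pos.mpr hqpos).le) hval.le
  have hq1 : 1 / q * q = 1 := by
    rw [one_div, inv_mul_cancel₀ hqpos.ne']
  have hexp : ξ0 ^ 2 * (1 / q) * (l * q - ∑ j, w j ⬝ᵥ (Yt *ᵥ w j)) =
      l * ξ0 ^ 2 * (1 / q * q) - ξ0 ^ 2 * (1 / q) * ∑ j, w j ⬝ᵥ (Yt *ᵥ w j) := by
    ring
  rw [hexp, hq1] at hfin
  linarith

/-- Along the ray `x + τ e` the `h0`-coordinate strictly dominates the Clifford norm. -/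
theorem cliffCone3_gap {σ : Type} [Fintype σ] {m N J : ℕ}
    {Γ : Fin m → Matrix (Fin N) (Fin N) ℝ}
    (hΓ : IsCliff Γ) (l0 h0 : σ → ℝ) (h : Fin m → σ → ℝ) (V : Fin J → Fin N → σ → ℝ)
    (e : σ → ℝ) (he0 : lf h0 e = 1) (hei : ∀ i, lf (h i) e = 0) (x : σ → ℝ)
    (hx : ∀ τ : ℝ, 0 < τ → 0 < cliffVal Γ l0 h0 h V (fun i => x i + τ * e i))
    (τ : ℝ) (hτ : 0 < τ) :
    Real.sqrt (∑ i, lf (h i) x ^ 2) < lf h0 x + τ := by
  by_contra hcon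
  have hcon' : lf h0 x + τ ≤ Real.sqrt (∑ i, lf (h i) x ^ 2) := not_lt.mp hcon
  have hτ2 : 0 < Real.sqrt (∑ i, lf (h i) x ^ 2) - lf h0 x := by linarith
  have hv := hx (Real.sqrt (∑ i, lf (h i) x ^ 2) - lf h0 x) hτ2
  rw [cliffVal_eq] at hv
  simp only [lf_add_mul, he0, hei, mul_one, mul_zero, add_zero] at hv
  have e1 : lf h0 x + (Real.sqrt (∑ i, lf (h i) x ^ 2) - lf h0 x) =
      Real.sqrt (∑ i, lf (h i) x ^ 2) := by ring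
  rw [e1] at hv
  have e2 : Real.sqrt (∑ i, lf (h i) x ^ 2) ^ 2 - ∑ i, lf (h i) x ^ 2 = 0 := by
    rw [Real.sq_sqrt (Finset.sum_nonneg (fun i _ => sq_nonneg _))]
    ring
  rw [e2, mul_zero, zero_sub] at hv
  have hnn := Finset.sum_nonneg (s := (Finset.univ : Finset (Fin J))) (fun j _ =>
    cliffCone3_minus_nonneg hΓ (Real.sqrt (∑ i, lf (h i) x ^ 2)) (fun i => lf (h i) x) le_rfl
      (fun a => lf (V j a) x +
        (Real.sqrt (∑ i, lf (h i) x ^ 2) - lf h0 x) * lf (V j a) e))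
  linarith

theorem cliff_pencil_of_pos {σ : Type} [Fintype σ] {m N J : ℕ}
    {Γ : Fin m → Matrix (Fin N) (Fin N) ℝ}
    (hΓ : IsCliff Γ) (l0 h0 : σ → ℝ) (h : Fin m → σ → ℝ) (V : Fin J → Fin N → σ → ℝ)
    (e : σ → ℝ) (he0 : lf h0 e = 1) (hei : ∀ i, lf (h i) e = 0)
    (hpe : 0 < cliffVal Γ l0 h0 h V e) (x : σ → ℝ)
    (hx : ∀ τ : ℝ, 0 < τ → 0 < cliffVal Γ l0 h0 h V (fun i => x i + τ * e i)) :
    (cliffPencil Γ l0 h0 h V x).PosSemidef := by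
  have hsym := cliffPencil_isSymm Γ hΓ.symm l0 h0 h V x
  refine Matrix.PosSemidef.of_dotProduct_mulVec_nonneg ?_ ?_
  · unfold Matrix.IsHermitian
    rw [conjTranspose_eq_transpose_of_trivial]
    exact hsym.eq
  · intro ξ
    rw [star_trivial]
    -- the form along the ray
    have hray : ∀ τ : ℝ, 0 < τ →
        0 ≤ ξ ⬝ᵥ (cliffPencil Γ l0 h0 h V (fun i => x i + τ * e i) *ᵥ ξ) := by
      intro τ hτ
      rw [cliffPencil_quad]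
      have hgap := cliffCone3_gap hΓ l0 h0 h V e he0 hei x hx τ hτ
      have hv := hx τ hτ
      rw [cliffVal_eq] at hv
      simp only [lf_add_mul, he0, hei, mul_one, mul_zero, add_zero] at hv ⊢
      exact cliffCone3_form_nonneg hΓ (lf h0 x + τ) (lf l0 x + τ * lf l0 e)
        (fun i => lf (h i) x) (fun j a => lf (V j a) x + τ * lf (V j a) e) hgap hv
        (ξ (Sum.inl ())) (fun j a => ξ (Sum.inr (j, a)))
    -- linearity of the form along the ray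
    have hlin : ∀ τ : ℝ, ξ ⬝ᵥ (cliffPencil Γ l0 h0 h V (fun i => x i + τ * e i) *ᵥ ξ) =
        ξ ⬝ᵥ (cliffPencil Γ l0 h0 h V x *ᵥ ξ) +
          τ * (lf l0 e * ξ (Sum.inl ()) ^ 2 +
            2 * ξ (Sum.inl ()) * ∑ j, ∑ a, lf (V j a) e * ξ (Sum.inr (j, a)) +
            ∑ j, (fun a => ξ (Sum.inr (j, a))) ⬝ᵥ (fun a => ξ (Sum.inr (j, a)))) := by
      intro τ
      rw [cliffPencil_quad, cliffPencil_quad]
      simp only [lf_add_mul, he0, hei, mul_one, mul_zero, add_zero]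
      have hsplit : ∀ j : Fin J, (fun a => ξ (Sum.inr (j, a))) ⬝ᵥ
          (((lf h0 x + τ) • (1 : Matrix (Fin N) (Fin N) ℝ) + ∑ i, lf (h i) x • Γ i) *ᵥ
            (fun a => ξ (Sum.inr (j, a)))) =
          (fun a => ξ (Sum.inr (j, a))) ⬝ᵥ
          ((lf h0 x • (1 : Matrix (Fin N) (Fin N) ℝ) + ∑ i, lf (h i) x • Γ i) *ᵥ
            (fun a => ξ (Sum.inr (j, a)))) +
          τ * ((fun a => ξ (Sum.inr (j, a))) ⬝ᵥ (fun a => ξ (Sum.inr (j, a)))) := by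
        intro j
        rw [add_smul, add_right_comm, add_mulVec, dotProduct_add, smul_mulVec, one_mulVec,
          dotProduct_smul, smul_eq_mul]
      have hW : ∑ j, ∑ a, (lf (V j a) x + τ * lf (V j a) e) * ξ (Sum.inr (j, a)) =
          ∑ j, ∑ a, lf (V j a) x * ξ (Sum.inr (j, a)) +
            τ * ∑ j, ∑ a, lf (V j a) e * ξ (Sum.inr (j, a)) := by
        simp only [add_mul, Finset.sum_add_distrib, Finset.mul_sum, mul_assoc]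
      rw [hW]
      simp only [hsplit, Finset.sum_add_distrib, ← Finset.mul_sum]
      ring
    generalize hc : lf l0 e * ξ (Sum.inl ()) ^ 2 +
            2 * ξ (Sum.inl ()) * ∑ j, ∑ a, lf (V j a) e * ξ (Sum.inr (j, a)) +
            ∑ j, (fun a => ξ (Sum.inr (j, a))) ⬝ᵥ (fun a => ξ (Sum.inr (j, a))) = c at hlin
    generalize hQ : ξ ⬝ᵥ (cliffPencil Γ l0 h0 h V x *ᵥ ξ) = Q at hlin ⊢
    by_contra hneg
    have hQneg : Q < 0 := not_le.mp hneg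
    have h1 := hray 1 one_pos
    rw [hlin 1] at h1
    have hcpos : 0 < c := by linarith
    have hτ : 0 < -Q / (2 * c) := div_pos (by linarith) (by linarith)
    have h2 := hray (-Q / (2 * c)) hτ
    rw [hlin (-Q / (2 * c))] at h2
    have h3 : -Q / (2 * c) * c = -Q / 2 := by
      field_simp
    rw [h3] at h2
    linarith

end Vale.Agent.Lib.P256
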