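import Mathlib

namespace Vale.Agent.Lib.P256

open MvPolynomial

/-- The linear form `∑ i, c i * X i` with coefficient vector `c`. -/
noncomputable def linForm {σ : Type} [Fintype σ] (c : σ → ℝ) : MvPolynomial σ ℝ :=
  ∑ i, C (c i) * X i

/-- The cubic `l0 * (h0^2 - ∑ i, h_i^2) - ∑ j, ∑ a, ∑ b, v_ja * (δ_ab * h0 - ∑ i, Γ_i(a,b) * h_i) * v_jb`,
where `l0`, `h0`, `h_i`, `v_ja` denote the linear forms with coefficient vectors `l0`, `h0`, `h i`,
`V j a`. -/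
noncomputable def cliffordCubic {σ : Type} [Fintype σ] {m N J : ℕ}
    (Γ : Fin m → Matrix (Fin N) (Fin N) ℝ) (l0 h0 : σ → ℝ) (h : Fin m → σ → ℝ)
    (V : Fin J → Fin N → σ → ℝ) : MvPolynomial σ ℝ :=
  linForm l0 * (linForm h0 ^ 2 - ∑ i, linForm (h i) ^ 2) -
    ∑ j, ∑ a, ∑ b, linForm (V j a) *
      ((if a = b then linForm h0 else 0) - ∑ i, C (Γ i a b) * linForm (h i)) * linForm (V j b)

/-- A spectrahedron: a set `{x | A0 + ∑ x_i A_i ⪰ 0}` with real symmetric matrices `A0`, `A_i` of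
one finite size. -/
def IsSpectrahedron {σ : Type} [Fintype σ] (S : Set (σ → ℝ)) : Prop :=
  ∃ (n : ℕ) (A0 : Matrix (Fin n) (Fin n) ℝ) (A : σ → Matrix (Fin n) (Fin n) ℝ),
    A0.IsSymm ∧ (∀ i, (A i).IsSymm) ∧ S = {x | (A0 + ∑ i, x i • A i).PosSemidef}

end Vale.Agent.Lib.P256
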