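import Vale.Agent.Lib.P256.Defs
import Vale.Agent.Lib.P256.CliffDefs

namespace Vale.Agent.Lib.P256

open MvPolynomial Matrix

/-- The hypotheses on a Clifford system `Γ`: real symmetric, traceless, anticommuting involutions
of positive size. -/
structure IsCliff {m N : ℕ} (Γ : Fin m → Matrix (Fin N) (Fin N) ℝ) : Prop where
  pos : 0 < N
  symm : ∀ i, (Γ i).IsSymm
  sq : ∀ i, Γ i * Γ i = 1
  anti : ∀ i j, i ≠ j → Γ i * Γ j + Γ j * Γ i = 0
  tr : ∀ i, (Γ i).trace = 0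

/-- Value of the linear form with coefficients `c` at a point `x` with coordinates in a real
algebra `R`. -/
def lf {σ : Type} [Fintype σ] {R : Type} [CommRing R] [Algebra ℝ R] (c : σ → ℝ) (x : σ → R) : R :=
  ∑ k, algebraMap ℝ R (c k) * x k

/-- Value of the Clifford cubic at a point with coordinates in a real algebra `R`. -/
def cliffVal {σ : Type} [Fintype σ] {R : Type} [CommRing R] [Algebra ℝ R] {m N J : ℕ}
    (Γ : Fin m → Matrix (Fin N) (Fin N) ℝ) (l0 h0 : σ → ℝ) (h : Fin m → σ → ℝ)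
    (V : Fin J → Fin N → σ → ℝ) (x : σ → R) : R :=
  lf l0 x * (lf h0 x ^ 2 - ∑ i, lf (h i) x ^ 2) -
    ∑ j, ∑ a, ∑ b, lf (V j a) x *
      ((if a = b then lf h0 x else 0) - ∑ i, algebraMap ℝ R (Γ i a b) * lf (h i) x) * lf (V j b) x

/-- The symmetric linear pencil `[[l0, vᵀ], [v, 1 ⊗ (h0 + ∑ h_i Γ_i)]]`. -/
def cliffPencil {σ : Type} [Fintype σ] {m N J : ℕ}
    (Γ : Fin m → Matrix (Fin N) (Fin N) ℝ) (l0 h0 : σ → ℝ) (h : Fin m → σ → ℝ)
    (V : Fin J → Fin N → σ → ℝ) (x : σ → ℝ) :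
    Matrix (Unit ⊕ (Fin J × Fin N)) (Unit ⊕ (Fin J × Fin N)) ℝ :=
  Matrix.fromBlocks (fun _ _ => lf l0 x) (fun _ p => lf (V p.1 p.2) x)
    (fun p _ => lf (V p.1 p.2) x)
    (fun p p' => if p.1 = p'.1 then
      (lf h0 x • (1 : Matrix (Fin N) (Fin N) ℝ) + ∑ i, lf (h i) x • Γ i) p.2 p'.2 else 0)

end Vale.Agent.Lib.P256
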