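import Vale.Agent.Lib.P256.CliffCore

/-!
# Existence of real symmetric Clifford systems of every length

Block doubling: from a family `Γ_1, ..., Γ_m` on an index type `ι` we build the family
`σ_x ⊗ Γ_i` together with `σ_z ⊗ 1` on `ι ⊕ ι`. At the end the index type is transported to
`Fin N`.
-/

namespace Vale.Agent.Lib.P256

open MvPolynomial Matrix

/-- The Clifford relations for a family of real matrices over an arbitrary finite index type. -/
structure cliffExist_Sys {ι : Type} [Fintype ι] [DecidableEq ι] {m : ℕ}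
    (Γ : Fin m → Matrix ι ι ℝ) : Prop where
  symm : ∀ i, (Γ i).IsSymm
  sq : ∀ i, Γ i * Γ i = 1
  anti : ∀ i j, i ≠ j → Γ i * Γ j + Γ j * Γ i = 0
  tr : ∀ i, (Γ i).trace = 0

/-- The doubled family on `ι ⊕ ι`. -/
def cliffExist_ext {ι : Type} [Fintype ι] [DecidableEq ι] {m : ℕ}
    (Γ : Fin m → Matrix ι ι ℝ) : Fin (m + 1) → Matrix (ι ⊕ ι) (ι ⊕ ι) ℝ :=
  Fin.lastCases (Matrix.fromBlocks 1 0 0 (-1)) (fun i => Matrix.fromBlocks 0 (Γ i) (Γ i) 0)

theorem cliffExist_ext_last {ι : Type} [Fintype ι] [DecidableEq ι] {m : ℕ}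
    (Γ : Fin m → Matrix ι ι ℝ) :
    cliffExist_ext Γ (Fin.last m) = Matrix.fromBlocks 1 0 0 (-1) := by
  simp [cliffExist_ext]

theorem cliffExist_ext_castSucc {ι : Type} [Fintype ι] [DecidableEq ι] {m : ℕ}
    (Γ : Fin m → Matrix ι ι ℝ) (i : Fin m) :
    cliffExist_ext Γ i.castSucc = Matrix.fromBlocks 0 (Γ i) (Γ i) 0 := by
  simp [cliffExist_ext]

theorem cliffExist_step {ι : Type} [Fintype ι] [DecidableEq ι] {m : ℕ}
    (Γ : Fin m → Matrix ι ι ℝ) (h : cliffExist_Sys Γ) : cliffExist_Sys (cliffExist_ext Γ) := by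
  refine ⟨?_, ?_, ?_, ?_⟩
  · intro i
    refine Fin.lastCases ?_ (fun i => ?_) i
    · rw [cliffExist_ext_last]
      unfold Matrix.IsSymm
      rw [Matrix.fromBlocks_transpose]
      simp
    · rw [cliffExist_ext_castSucc]
      unfold Matrix.IsSymm
      rw [Matrix.fromBlocks_transpose]
      simp [(h.symm i).eq]
  · intro i
    refine Fin.lastCases ?_ (fun i => ?_) i
    · rw [cliffExist_ext_last, Matrix.fromBlocks_multiply]
      simp
    · rw [cliffExist_ext_castSucc, Matrix.fromBlocks_multiply]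
      simp [h.sq i]
  · intro i j
    refine Fin.lastCases ?_ (fun i => ?_) i <;> refine Fin.lastCases ?_ (fun j => ?_) j
    · intro hij
      exact absurd rfl hij
    · intro _
      rw [cliffExist_ext_last, cliffExist_ext_castSucc, Matrix.fromBlocks_multiply,
        Matrix.fromBlocks_multiply, Matrix.fromBlocks_add]
      simp
    · intro _
      rw [cliffExist_ext_last, cliffExist_ext_castSucc, Matrix.fromBlocks_multiply,
        Matrix.fromBlocks_multiply, Matrix.fromBlocks_add]
      simp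
    · intro hij
      have hne : i ≠ j := fun h' => hij (by rw [h'])
      rw [cliffExist_ext_castSucc, cliffExist_ext_castSucc, Matrix.fromBlocks_multiply,
        Matrix.fromBlocks_multiply, Matrix.fromBlocks_add]
      simp [h.anti i j hne]
  · intro i
    refine Fin.lastCases ?_ (fun i => ?_) i
    · rw [cliffExist_ext_last]
      simp [Matrix.trace, Fintype.sum_sum_type]
    · rw [cliffExist_ext_castSucc]
      simp [Matrix.trace, Fintype.sum_sum_type]

theorem cliffExist_general (m : ℕ) :
    ∃ (ι : Type) (_ : Fintype ι) (_ : DecidableEq ι) (_ : Nonempty ι)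
      (Γ : Fin m → Matrix ι ι ℝ), cliffExist_Sys Γ := by
  induction m with
  | zero =>
    refine ⟨Unit, inferInstance, inferInstance, inferInstance, fun i => i.elim0, ?_⟩
    exact ⟨fun i => i.elim0, fun i => i.elim0, fun i => i.elim0, fun i => i.elim0⟩
  | succ m ih =>
    obtain ⟨ι, hf, hd, hn, Γ, h⟩ := ih
    exact ⟨ι ⊕ ι, inferInstance, inferInstance, inferInstance, cliffExist_ext Γ,
      cliffExist_step Γ h⟩

theorem cliffExist_transfer {ι : Type} [Fintype ι] [DecidableEq ι] [Nonempty ι] {m : ℕ}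
    (Γ : Fin m → Matrix ι ι ℝ) (h : cliffExist_Sys Γ) :
    IsCliff (fun i => Matrix.reindex (Fintype.equivFin ι) (Fintype.equivFin ι) (Γ i)) := by
  refine ⟨Fintype.card_pos, ?_, ?_, ?_, ?_⟩
  · intro i
    unfold Matrix.IsSymm
    rw [Matrix.transpose_reindex, (h.symm i).eq]
  · intro i
    simp only [Matrix.reindex_apply]
    rw [Matrix.submatrix_mul_equiv, h.sq i, Matrix.submatrix_one_equiv]
  · intro i j hij
    simp only [Matrix.reindex_apply]
    rw [Matrix.submatrix_mul_equiv, Matrix.submatrix_mul_equiv]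
    have h0 := h.anti i j hij
    ext a b
    have := congrFun (congrFun h0 ((Fintype.equivFin ι).symm a)) ((Fintype.equivFin ι).symm b)
    simpa using this
  · intro i
    simp only [Matrix.reindex_apply, Matrix.trace, Matrix.diag, Matrix.submatrix_apply]
    rw [← h.tr i]
    exact Fintype.sum_equiv (Fintype.equivFin ι).symm _ _ (fun _ => rfl)

theorem exists_isCliff (m : ℕ) :
    ∃ (N : ℕ) (Γ : Fin m → Matrix (Fin N) (Fin N) ℝ), IsCliff Γ := by
  obtain ⟨ι, hf, hd, hn, Γ, h⟩ := cliffExist_general m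
  exact ⟨Fintype.card ι, fun i => Matrix.reindex (Fintype.equivFin ι) (Fintype.equivFin ι) (Γ i),
    cliffExist_transfer Γ h⟩

end Vale.Agent.Lib.P256
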