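import Vale.Agent.Lib.P256.CliffAlg
import Vale.Agent.Lib.P256.CliffQF
namespace Vale.Agent.Lib.P256
open MvPolynomial Matrix

open scoped ComplexConjugate in
/-- Core of the real-rootedness argument: a definite pencil has only real generalized
eigenvalues. Here `G` is a real symmetric matrix with `G * G = S`. -/
theorem cliffHyp_core {N J : ℕ} (G : Matrix (Fin N) (Fin N) ℝ) (S : ℝ) (hS : 0 ≤ S)
    (hGsymm : ∀ a b, G a b = G b a)
    (hGsq : ∀ a d, ∑ b, G a b * G b d = if a = d then S else 0)
    (le lx y0x : ℝ) (we wx : Fin J → Fin N → ℝ)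
    (hpos : 0 < le - ∑ j, ∑ a, we j a ^ 2) (t : ℂ)
    (ht : (t * (le : ℂ) - (lx : ℂ)) * ((t - (y0x : ℂ)) ^ 2 - (S : ℂ)) -
      ∑ j, ∑ a, ∑ b, (t * (we j a : ℂ) - (wx j a : ℂ)) *
        ((if a = b then t - (y0x : ℂ) else 0) + (G a b : ℂ)) *
          (t * (we j b : ℂ) - (wx j b : ℂ)) = 0) :
    t.im = 0 := by
  by_cases hQ0 : (t - (y0x : ℂ)) ^ 2 - (S : ℂ) = 0
  · -- the square of `t - y0x` is a nonnegative real
    have h1 : (t - (y0x : ℂ)) ^ 2 = (S : ℂ) := by linear_combination hQ0
    have him : ((t - (y0x : ℂ)) ^ 2).im = 0 := by rw [h1]; simp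
    have hre : ((t - (y0x : ℂ)) ^ 2).re = S := by rw [h1]; simp
    have hcim : (t - (y0x : ℂ)).im = t.im := by simp
    have hcre : (t - (y0x : ℂ)).re = t.re - y0x := by simp
    rw [sq, Complex.mul_im, hcim, hcre] at him
    rw [sq, Complex.mul_re, hcim, hcre] at hre
    by_contra hne
    have h2 : (t.re - y0x) * t.im = 0 := by linarith
    have h3 : t.re - y0x = 0 := by
      rcases mul_eq_zero.1 h2 with h4 | h4
      · exact h4
      · exact absurd h4 hne
    rw [h3] at hre
    nlinarith [mul_self_pos.2 hne]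
  · -- main case: construct the kernel vector
    have hGsqC : ∀ a d, ∑ b, (G a b : ℂ) * (G b d : ℂ) = if a = d then (S : ℂ) else 0 := by
      intro a d
      have h := congrArg (fun r : ℝ => (r : ℂ)) (hGsq a d)
      simp only [Complex.ofReal_sum, Complex.ofReal_mul] at h
      rw [h]
      split_ifs <;> simp
    have key : ∀ a d, (t - (y0x : ℂ)) * ((if a = d then t - (y0x : ℂ) else 0) + (G a d : ℂ)) -
        ∑ b, (G a b : ℂ) * ((if b = d then t - (y0x : ℂ) else 0) + (G b d : ℂ)) =
        if a = d then (t - (y0x : ℂ)) ^ 2 - (S : ℂ) else 0 := by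
      intro a d
      have h1 : ∑ b, (G a b : ℂ) * ((if b = d then t - (y0x : ℂ) else 0) + (G b d : ℂ)) =
          (G a d : ℂ) * (t - (y0x : ℂ)) + (if a = d then (S : ℂ) else 0) := by
        simp only [mul_add, Finset.sum_add_distrib, mul_ite, mul_zero, Finset.sum_ite_eq',
          Finset.mem_univ, if_true]
        rw [hGsqC]
      rw [h1]
      split_ifs with hh
      · ring
      · ring
    obtain ⟨u, hu⟩ : ∃ u : Fin J → Fin N → ℂ, ∀ j a,
        ((t - (y0x : ℂ)) ^ 2 - (S : ℂ)) * u j a =
          ∑ b, ((if a = b then t - (y0x : ℂ) else 0) + (G a b : ℂ)) *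
            (t * (we j b : ℂ) - (wx j b : ℂ)) := by
      refine ⟨fun j a => ((t - (y0x : ℂ)) ^ 2 - (S : ℂ))⁻¹ *
        ∑ b, ((if a = b then t - (y0x : ℂ) else 0) + (G a b : ℂ)) *
            (t * (we j b : ℂ) - (wx j b : ℂ)), ?_⟩
      intro j a
      field_simp
    -- the equations satisfied by `u`
    have hB : ∀ j a, (t - (y0x : ℂ)) * u j a - ∑ b, (G a b : ℂ) * u j b =
        t * (we j a : ℂ) - (wx j a : ℂ) := by
      intro j a
      have h1 : ((t - (y0x : ℂ)) ^ 2 - (S : ℂ)) *
          ((t - (y0x : ℂ)) * u j a - ∑ b, (G a b : ℂ) * u j b) =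
          ((t - (y0x : ℂ)) ^ 2 - (S : ℂ)) * (t * (we j a : ℂ) - (wx j a : ℂ)) := by
        have h2 : ((t - (y0x : ℂ)) ^ 2 - (S : ℂ)) *
            ((t - (y0x : ℂ)) * u j a - ∑ b, (G a b : ℂ) * u j b) =
            (t - (y0x : ℂ)) * (((t - (y0x : ℂ)) ^ 2 - (S : ℂ)) * u j a) -
              ∑ b, (G a b : ℂ) * (((t - (y0x : ℂ)) ^ 2 - (S : ℂ)) * u j b) := by
          rw [mul_sub, Finset.mul_sum]
          congr 1
          · ring
          · apply Finset.sum_congr rfl
            intro b _
            ring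
        rw [h2]
        simp only [hu]
        calc (t - (y0x : ℂ)) * ∑ d, ((if a = d then t - (y0x : ℂ) else 0) + (G a d : ℂ)) *
                (t * (we j d : ℂ) - (wx j d : ℂ)) -
              ∑ b, (G a b : ℂ) * ∑ d, ((if b = d then t - (y0x : ℂ) else 0) + (G b d : ℂ)) *
                (t * (we j d : ℂ) - (wx j d : ℂ))
            = ∑ d, ((t - (y0x : ℂ)) * ((if a = d then t - (y0x : ℂ) else 0) + (G a d : ℂ)) -
                ∑ b, (G a b : ℂ) * ((if b = d then t - (y0x : ℂ) else 0) + (G b d : ℂ))) *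
                (t * (we j d : ℂ) - (wx j d : ℂ)) := by
              have e2 : ∑ b, (G a b : ℂ) * ∑ d, ((if b = d then t - (y0x : ℂ) else 0) + (G b d : ℂ)) *
                  (t * (we j d : ℂ) - (wx j d : ℂ)) =
                  ∑ d, (∑ b, (G a b : ℂ) * ((if b = d then t - (y0x : ℂ) else 0) + (G b d : ℂ))) *
                    (t * (we j d : ℂ) - (wx j d : ℂ)) := by
                simp only [Finset.mul_sum, Finset.sum_mul]
                rw [Finset.sum_comm]
                apply Finset.sum_congr rfl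
                intro d _
                apply Finset.sum_congr rfl
                intro b _
                ring
              rw [e2, Finset.mul_sum, ← Finset.sum_sub_distrib]
              apply Finset.sum_congr rfl
              intro d _
              ring
          _ = ((t - (y0x : ℂ)) ^ 2 - (S : ℂ)) * (t * (we j a : ℂ) - (wx j a : ℂ)) := by
              simp only [key, ite_mul, zero_mul, Finset.sum_ite_eq, Finset.mem_univ, if_true]
      exact mul_left_cancel₀ hQ0 h1
    have hT : t * (le : ℂ) - (lx : ℂ) = ∑ j, ∑ a, (t * (we j a : ℂ) - (wx j a : ℂ)) * u j a := by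
      have h1 : ∑ j, ∑ a, ∑ b, (t * (we j a : ℂ) - (wx j a : ℂ)) *
          ((if a = b then t - (y0x : ℂ) else 0) + (G a b : ℂ)) *
            (t * (we j b : ℂ) - (wx j b : ℂ)) =
          ((t - (y0x : ℂ)) ^ 2 - (S : ℂ)) *
            ∑ j, ∑ a, (t * (we j a : ℂ) - (wx j a : ℂ)) * u j a := by
        rw [Finset.mul_sum]
        apply Finset.sum_congr rfl
        intro j _
        rw [Finset.mul_sum]
        apply Finset.sum_congr rfl
        intro a _
        have h2 : ((t - (y0x : ℂ)) ^ 2 - (S : ℂ)) * ((t * (we j a : ℂ) - (wx j a : ℂ)) * u j a) =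
            (t * (we j a : ℂ) - (wx j a : ℂ)) * (((t - (y0x : ℂ)) ^ 2 - (S : ℂ)) * u j a) := by
          ring
        rw [h2, hu, Finset.mul_sum]
        apply Finset.sum_congr rfl
        intro b _
        ring
      rw [h1] at ht
      have h3 : ((t - (y0x : ℂ)) ^ 2 - (S : ℂ)) * (t * (le : ℂ) - (lx : ℂ)) =
          ((t - (y0x : ℂ)) ^ 2 - (S : ℂ)) *
            ∑ j, ∑ a, (t * (we j a : ℂ) - (wx j a : ℂ)) * u j a := by
        linear_combination ht
      exact mul_left_cancel₀ hQ0 h3
    -- the two real quantities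
    set fA : Fin J → Fin N → ℂ := fun j a =>
      conj (u j a) * u j a - (we j a : ℂ) * u j a - conj (u j a) * (we j a : ℂ) with hfA
    set fB : Fin J → Fin N → ℂ := fun j a =>
      conj (u j a) * ((y0x : ℂ) * u j a + ∑ b, (G a b : ℂ) * u j b) - (wx j a : ℂ) * u j a -
        conj (u j a) * (wx j a : ℂ) with hfB
    have hAB : t * ((le : ℂ) + ∑ j, ∑ a, fA j a) = (lx : ℂ) + ∑ j, ∑ a, fB j a := by
      have h1 : t * ((le : ℂ) + ∑ j, ∑ a, fA j a) - ((lx : ℂ) + ∑ j, ∑ a, fB j a) =
          ∑ j, ∑ a, ((t * (we j a : ℂ) - (wx j a : ℂ)) * u j a + t * fA j a - fB j a) := by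
        simp only [Finset.sum_sub_distrib, Finset.sum_add_distrib, ← Finset.mul_sum]
        rw [← hT]
        ring
      have h2 : ∑ j, ∑ a, ((t * (we j a : ℂ) - (wx j a : ℂ)) * u j a + t * fA j a - fB j a) = 0 := by
        apply Finset.sum_eq_zero
        intro j _
        apply Finset.sum_eq_zero
        intro a _
        simp only [hfA, hfB]
        linear_combination (conj (u j a)) * hB j a
      rw [h2] at h1
      linear_combination h1
    have hfAim : ∀ j a, (fA j a).im = 0 := by
      intro j a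
      simp only [hfA, Complex.sub_im, Complex.mul_im, Complex.conj_re, Complex.conj_im,
        Complex.ofReal_re, Complex.ofReal_im]
      ring
    have hfAre : ∀ j a, -(we j a ^ 2) ≤ (fA j a).re := by
      intro j a
      have h1 : (fA j a).re = (u j a).re ^ 2 + (u j a).im ^ 2 - 2 * we j a * (u j a).re := by
        simp only [hfA, Complex.sub_re, Complex.mul_re, Complex.conj_re, Complex.conj_im,
          Complex.ofReal_re, Complex.ofReal_im]
        ring
      rw [h1]
      nlinarith [sq_nonneg ((u j a).re - we j a), sq_nonneg ((u j a).im)]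
    have hAim : ((le : ℂ) + ∑ j, ∑ a, fA j a).im = 0 := by
      simp only [Complex.add_im, Complex.ofReal_im, Complex.im_sum, hfAim, Finset.sum_const_zero,
        add_zero]
    have hAre : 0 < ((le : ℂ) + ∑ j, ∑ a, fA j a).re := by
      simp only [Complex.add_re, Complex.ofReal_re, Complex.re_sum]
      have h1 : ∑ j, ∑ a, -(we j a ^ 2) ≤ ∑ j, ∑ a, (fA j a).re :=
        Finset.sum_le_sum fun j _ => Finset.sum_le_sum fun a _ => hfAre j a
      simp only [Finset.sum_neg_distrib] at h1
      linarith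
    have hanti : ∀ j, ∑ a, ∑ b, G a b * ((u j a).re * (u j b).im - (u j a).im * (u j b).re) = 0 := by
      intro j
      have h1 : ∑ a, ∑ b, G a b * ((u j a).im * (u j b).re) =
          ∑ a, ∑ b, G a b * ((u j a).re * (u j b).im) := by
        rw [Finset.sum_comm]
        apply Finset.sum_congr rfl
        intro a _
        apply Finset.sum_congr rfl
        intro b _
        rw [hGsymm b a]
        ring
      simp only [mul_sub, Finset.sum_sub_distrib]
      rw [h1]
      ring
    have hfBim : ∀ j a, (fB j a).im =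
        ∑ b, G a b * ((u j a).re * (u j b).im - (u j a).im * (u j b).re) := by
      intro j a
      simp only [hfB, Complex.sub_im, Complex.mul_im, Complex.add_im, Complex.add_re,
        Complex.mul_re, Complex.conj_re, Complex.conj_im, Complex.ofReal_re, Complex.ofReal_im,
        Complex.im_sum, Complex.re_sum]
      simp only [zero_mul, sub_zero, add_zero, mul_zero, zero_add]
      have e1 : ∑ b, G a b * ((u j a).re * (u j b).im) =
          (u j a).re * ∑ b, G a b * (u j b).im := by
        rw [Finset.mul_sum]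
        exact Finset.sum_congr rfl fun b _ => by ring
      have e2 : ∑ b, G a b * ((u j a).im * (u j b).re) =
          (u j a).im * ∑ b, G a b * (u j b).re := by
        rw [Finset.mul_sum]
        exact Finset.sum_congr rfl fun b _ => by ring
      simp only [mul_sub, Finset.sum_sub_distrib]
      rw [e1, e2]
      ring
    have hBim : ((lx : ℂ) + ∑ j, ∑ a, fB j a).im = 0 := by
      simp only [Complex.add_im, Complex.ofReal_im, Complex.im_sum, hfBim, hanti,
        Finset.sum_const_zero, add_zero]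
    have him := congrArg Complex.im hAB
    rw [Complex.mul_im, hAim, hBim, mul_zero, zero_add] at him
    rcases mul_eq_zero.1 him with h | h
    · exact h
    · exact absurd h (ne_of_gt hAre)

theorem cliff_roots_real {σ : Type} [Fintype σ] {m N J : ℕ} {Γ : Fin m → Matrix (Fin N) (Fin N) ℝ}
    (hΓ : IsCliff Γ) (l0 h0 : σ → ℝ) (h : Fin m → σ → ℝ) (V : Fin J → Fin N → σ → ℝ)
    (e : σ → ℝ) (he0 : lf h0 e = 1) (hei : ∀ i, lf (h i) e = 0)
    (hpe : 0 < cliffVal Γ l0 h0 h V e) (x : σ → ℝ) (t : ℂ)
    (ht : cliffVal Γ l0 h0 h V (fun i => t * (e i : ℂ) - (x i : ℂ)) = 0) : t.im = 0 := by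
  set y : Fin m → ℝ := fun i => lf (h i) x with hy
  set G : Matrix (Fin N) (Fin N) ℝ := ∑ i, y i • Γ i with hG
  have hGapp : ∀ a b, G a b = ∑ i, y i * Γ i a b := by
    intro a b
    simp only [hG, Matrix.sum_apply, Matrix.smul_apply, smul_eq_mul]
  have hGsymm : ∀ a b, G a b = G b a := by
    intro a b
    rw [hGapp, hGapp]
    apply Finset.sum_congr rfl
    intro i _
    rw [(hΓ.symm i).apply a b]
  have hGsq : ∀ a d, ∑ b, G a b * G b d = if a = d then ∑ i, y i ^ 2 else 0 := by
    intro a d
    have h1 := cliff_mul_real hΓ 0 y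
    have h2 := congrFun (congrFun h1 a) d
    simp only [zero_smul, zero_add, zero_sub, ne_eq, OfNat.ofNat_ne_zero, not_false_eq_true,
      zero_pow, Matrix.mul_apply, Matrix.neg_apply, Matrix.smul_apply, Matrix.one_apply,
      smul_eq_mul, mul_neg, Finset.sum_neg_distrib, mul_ite, mul_one, mul_zero] at h2
    split_ifs at h2 ⊢ with hh <;> linarith
  have hpos : 0 < lf l0 e - ∑ j, ∑ a, (lf (V j a) e) ^ 2 := by
    have hval := cliffVal_eq Γ l0 h0 h V e
    rw [he0] at hval
    simp only [hei, zero_smul, Finset.sum_const_zero, sub_zero, one_smul, Matrix.one_mulVec,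
      one_pow, ne_eq, OfNat.ofNat_ne_zero, not_false_eq_true, zero_pow, mul_one] at hval
    rw [hval] at hpe
    have h3 : ∑ j, ∑ a, (lf (V j a) e) ^ 2 = ∑ j, (fun a => lf (V j a) e) ⬝ᵥ (fun a => lf (V j a) e) := by
      apply Finset.sum_congr rfl
      intro j _
      simp only [dotProduct, sq]
    rw [h3]
    exact hpe
  refine cliffHyp_core G (∑ i, y i ^ 2) (Finset.sum_nonneg fun i _ => sq_nonneg _) hGsymm hGsq
    (lf l0 e) (lf l0 x) (lf h0 x) (fun j a => lf (V j a) e) (fun j a => lf (V j a) x) hpos t ?_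
  have ht' := ht
  simp only [cliffVal, lf_line_complex, he0, hei, Complex.coe_algebraMap, Complex.ofReal_one,
    Complex.ofReal_zero, mul_one, mul_zero, zero_sub] at ht'
  have hS : ((∑ i, y i ^ 2 : ℝ) : ℂ) = ∑ i, (-((lf (h i) x : ℝ) : ℂ)) ^ 2 := by
    simp only [hy, Complex.ofReal_sum, Complex.ofReal_pow, neg_sq]
  have hGc : ∀ a b, ((G a b : ℝ) : ℂ) = -∑ i, ((Γ i a b : ℝ) : ℂ) * -((lf (h i) x : ℝ) : ℂ) := by
    intro a b
    rw [hGapp]
    simp only [hy, Complex.ofReal_sum, Complex.ofReal_mul, mul_neg, Finset.sum_neg_distrib, neg_neg]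
    exact Finset.sum_congr rfl fun i _ => by ring
  rw [hS]
  simp only [hGc, ← sub_eq_add_neg]
  exact ht'

end Vale.Agent.Lib.P256
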