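import Vale.Agent.Lib.P256.CliffCore

namespace Vale.Agent.Lib.P256

open Matrix

/-- More unknowns than linear forms: the forms have a common nonzero zero, which can be chosen
with a prescribed further form nonnegative on it. -/
theorem exists_ne_zero_forms_vanish {σ ι : Type} [Fintype σ] [Fintype ι] (F : ι → σ → ℝ)
    (c : σ → ℝ) (hcard : Fintype.card ι < Fintype.card σ) :
    ∃ x0 : σ → ℝ, x0 ≠ 0 ∧ (∀ k, ∑ i, F k i * x0 i = 0) ∧ 0 ≤ ∑ i, c i * x0 i := by
  classical
  have hker : LinearMap.ker (Matrix.mulVecLin (Matrix.of F)) ≠ ⊥ := by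
    apply LinearMap.ker_ne_bot_of_finrank_lt
    simpa using hcard
  obtain ⟨y, hy, hy0⟩ := (Submodule.ne_bot_iff _).mp hker
  have hy' : ∀ k, ∑ i, F k i * y i = 0 := by
    intro k
    have := congrFun (LinearMap.mem_ker.mp hy) k
    simpa [Matrix.mulVec, dotProduct] using this
  rcases le_total 0 (∑ i, c i * y i) with hc | hc
  · exact ⟨y, hy0, hy', hc⟩
  · refine ⟨-y, neg_ne_zero.mpr hy0, ?_, ?_⟩
    · intro k
      have := hy' k
      simp only [Pi.neg_apply, mul_neg, Finset.sum_neg_distrib, this, neg_zero]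
    · simp only [Pi.neg_apply, mul_neg, Finset.sum_neg_distrib]
      linarith

end Vale.Agent.Lib.P256
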