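import Vale.Agent.Lib.P256.CliffCore

namespace Vale.Agent.Lib.P256

open MvPolynomial Matrix

theorem cliffPoly_aeval_linForm {σ : Type} [Fintype σ] {R : Type} [CommRing R] [Algebra ℝ R]
    (c : σ → ℝ) (x : σ → R) : aeval x (linForm c) = lf c x := by
  simp only [linForm, lf, map_sum, map_mul, aeval_C, aeval_X]

theorem cliffPoly_eval_linForm {σ : Type} [Fintype σ] (c : σ → ℝ) (x : σ → ℝ) :
    eval x (linForm c) = lf c x := by
  simp only [linForm, lf, map_sum, map_mul, eval_C, eval_X, Algebra.algebraMap_self,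
    RingHom.id_apply]

theorem aeval_cliffordCubic {σ : Type} [Fintype σ] {m N J : ℕ}
    (Γ : Fin m → Matrix (Fin N) (Fin N) ℝ) (l0 h0 : σ → ℝ) (h : Fin m → σ → ℝ)
    (V : Fin J → Fin N → σ → ℝ) {R : Type} [CommRing R] [Algebra ℝ R] (x : σ → R) :
    aeval x (cliffordCubic Γ l0 h0 h V) = cliffVal Γ l0 h0 h V x := by
  simp only [cliffordCubic, cliffVal, map_sub, map_mul, map_pow, map_sum, apply_ite (aeval x),
    map_zero, cliffPoly_aeval_linForm, aeval_C]

theorem eval_cliffordCubic {σ : Type} [Fintype σ] {m N J : ℕ}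
    (Γ : Fin m → Matrix (Fin N) (Fin N) ℝ) (l0 h0 : σ → ℝ) (h : Fin m → σ → ℝ)
    (V : Fin J → Fin N → σ → ℝ) (x : σ → ℝ) :
    eval x (cliffordCubic Γ l0 h0 h V) = cliffVal Γ l0 h0 h V x := by
  simp only [cliffordCubic, cliffVal, map_sub, map_mul, map_pow, map_sum, apply_ite (eval x),
    map_zero, cliffPoly_eval_linForm, eval_C, Algebra.algebraMap_self, RingHom.id_apply]

theorem cliffPoly_linForm_isHomogeneous {σ : Type} [Fintype σ] (c : σ → ℝ) :
    (linForm c).IsHomogeneous 1 := by
  unfold linForm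
  apply IsHomogeneous.sum
  intro i _
  exact isHomogeneous_C_mul_X (c i) i

theorem cliffordCubic_isHomogeneous {σ : Type} [Fintype σ] {m N J : ℕ}
    (Γ : Fin m → Matrix (Fin N) (Fin N) ℝ) (l0 h0 : σ → ℝ) (h : Fin m → σ → ℝ)
    (V : Fin J → Fin N → σ → ℝ) : (cliffordCubic Γ l0 h0 h V).IsHomogeneous 3 := by
  unfold cliffordCubic
  have hsub : ∀ {p q : MvPolynomial σ ℝ} {n : ℕ}, p.IsHomogeneous n → q.IsHomogeneous n →
      (p - q).IsHomogeneous n := by
    intro p q n hp hq
    exact (homogeneousSubmodule σ ℝ n).sub_mem hp hq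
  apply hsub
  · have h2 : (linForm h0 ^ 2 - ∑ i, linForm (h i) ^ 2).IsHomogeneous 2 := by
      apply hsub
      · exact (cliffPoly_linForm_isHomogeneous h0).pow 2
      · apply IsHomogeneous.sum
        intro i _
        exact (cliffPoly_linForm_isHomogeneous (h i)).pow 2
    exact (cliffPoly_linForm_isHomogeneous l0).mul h2
  · apply IsHomogeneous.sum
    intro j _
    apply IsHomogeneous.sum
    intro a _
    apply IsHomogeneous.sum
    intro b _
    have hmid : ((if a = b then linForm h0 else 0) -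
        ∑ i, C (Γ i a b) * linForm (h i)).IsHomogeneous 1 := by
      apply hsub
      · split_ifs
        · exact cliffPoly_linForm_isHomogeneous h0
        · exact isHomogeneous_zero σ ℝ 1
      · apply IsHomogeneous.sum
        intro i _
        have := (isHomogeneous_C σ (Γ i a b)).mul (cliffPoly_linForm_isHomogeneous (h i))
        simpa using this
    exact ((cliffPoly_linForm_isHomogeneous (V j a)).mul hmid).mul
      (cliffPoly_linForm_isHomogeneous (V j b))

theorem cliffordCubic_pderiv_eq_zero {σ : Type} [Fintype σ] {m N J : ℕ}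
    (Γ : Fin m → Matrix (Fin N) (Fin N) ℝ) (l0 h0 : σ → ℝ) (h : Fin m → σ → ℝ)
    (V : Fin J → Fin N → σ → ℝ) (x0 : σ → ℝ) (h0x : lf h0 x0 = 0) (hix : ∀ i, lf (h i) x0 = 0)
    (hv : ∀ j a, lf (V j a) x0 = 0) (v : σ) :
    eval x0 (pderiv v (cliffordCubic Γ l0 h0 h V)) = 0 := by
  have e0 : eval x0 (linForm h0) = 0 := by rw [cliffPoly_eval_linForm]; exact h0x
  have ei : ∀ i, eval x0 (linForm (h i)) = 0 := by
    intro i; rw [cliffPoly_eval_linForm]; exact hix i
  have ev : ∀ j a, eval x0 (linForm (V j a)) = 0 := by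
    intro j a; rw [cliffPoly_eval_linForm]; exact hv j a
  unfold cliffordCubic
  simp only [map_sub, map_sum, Derivation.leibniz, Derivation.leibniz_pow, smul_eq_mul, map_mul,
    map_add, map_pow, e0, ei, ev, nsmul_eq_mul]
  simp
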