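import Vale.Agent.Lib.P256.CliffQF

namespace Vale.Agent.Lib.P256

open MvPolynomial Matrix

theorem cliffSpec_lf_add {σ : Type} [Fintype σ] (c : σ → ℝ) (x y : σ → ℝ) :
    lf c (x + y) = lf c x + lf c y := by
  simp only [lf, Pi.add_apply, mul_add, Finset.sum_add_distrib]

theorem cliffSpec_lf_smul {σ : Type} [Fintype σ] (c : σ → ℝ) (t : ℝ) (x : σ → ℝ) :
    lf c (t • x) = t * lf c x := by
  simp only [lf, Pi.smul_apply, smul_eq_mul, Finset.mul_sum]
  refine Finset.sum_congr rfl ?_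
  intro k _
  ring

theorem cliffSpec_pencil_add {σ : Type} [Fintype σ] {m N J : ℕ}
    (Γ : Fin m → Matrix (Fin N) (Fin N) ℝ) (l0 h0 : σ → ℝ)
    (h : Fin m → σ → ℝ) (V : Fin J → Fin N → σ → ℝ) (x y : σ → ℝ) :
    cliffPencil Γ l0 h0 h V (x + y) = cliffPencil Γ l0 h0 h V x + cliffPencil Γ l0 h0 h V y := by
  ext (u | p) (u' | p')
  · change lf l0 (x + y) = lf l0 x + lf l0 y
    exact cliffSpec_lf_add _ _ _
  · change lf (V p'.1 p'.2) (x + y) = lf (V p'.1 p'.2) x + lf (V p'.1 p'.2) y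
    exact cliffSpec_lf_add _ _ _
  · change lf (V p.1 p.2) (x + y) = lf (V p.1 p.2) x + lf (V p.1 p.2) y
    exact cliffSpec_lf_add _ _ _
  · change (if p.1 = p'.1 then
        (lf h0 (x + y) • (1 : Matrix (Fin N) (Fin N) ℝ) + ∑ i, lf (h i) (x + y) • Γ i) p.2 p'.2
        else 0) =
      (if p.1 = p'.1 then
        (lf h0 x • (1 : Matrix (Fin N) (Fin N) ℝ) + ∑ i, lf (h i) x • Γ i) p.2 p'.2 else 0) +
      (if p.1 = p'.1 then
        (lf h0 y • (1 : Matrix (Fin N) (Fin N) ℝ) + ∑ i, lf (h i) y • Γ i) p.2 p'.2 else 0)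
    split_ifs
    · simp only [Matrix.add_apply, Matrix.smul_apply, Matrix.sum_apply, smul_eq_mul, add_mul,
        Finset.sum_add_distrib, cliffSpec_lf_add]
      ring
    · simp

theorem cliffSpec_pencil_smul {σ : Type} [Fintype σ] {m N J : ℕ}
    (Γ : Fin m → Matrix (Fin N) (Fin N) ℝ) (l0 h0 : σ → ℝ)
    (h : Fin m → σ → ℝ) (V : Fin J → Fin N → σ → ℝ) (t : ℝ) (x : σ → ℝ) :
    cliffPencil Γ l0 h0 h V (t • x) = t • cliffPencil Γ l0 h0 h V x := by
  ext (u | p) (u' | p')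
  · change lf l0 (t • x) = t * lf l0 x
    exact cliffSpec_lf_smul _ _ _
  · change lf (V p'.1 p'.2) (t • x) = t * lf (V p'.1 p'.2) x
    exact cliffSpec_lf_smul _ _ _
  · change lf (V p.1 p.2) (t • x) = t * lf (V p.1 p.2) x
    exact cliffSpec_lf_smul _ _ _
  · change (if p.1 = p'.1 then
        (lf h0 (t • x) • (1 : Matrix (Fin N) (Fin N) ℝ) + ∑ i, lf (h i) (t • x) • Γ i) p.2 p'.2
        else 0) =
      t * (if p.1 = p'.1 then
        (lf h0 x • (1 : Matrix (Fin N) (Fin N) ℝ) + ∑ i, lf (h i) x • Γ i) p.2 p'.2 else 0)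
    split_ifs
    · simp only [Matrix.add_apply, Matrix.smul_apply, Matrix.sum_apply, smul_eq_mul, mul_add,
        Finset.mul_sum, cliffSpec_lf_smul]
      congr 1
      · ring
      · refine Finset.sum_congr rfl ?_
        intro i _
        ring
    · simp

theorem cliffPencil_spectrahedron {σ : Type} [Fintype σ] {m N J : ℕ}
    (Γ : Fin m → Matrix (Fin N) (Fin N) ℝ) (hsymm : ∀ i, (Γ i).IsSymm) (l0 h0 : σ → ℝ)
    (h : Fin m → σ → ℝ) (V : Fin J → Fin N → σ → ℝ) :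
    IsSpectrahedron {x : σ → ℝ | (cliffPencil Γ l0 h0 h V x).PosSemidef} := by
  classical
  let L : (σ → ℝ) →ₗ[ℝ] Matrix (Unit ⊕ (Fin J × Fin N)) (Unit ⊕ (Fin J × Fin N)) ℝ :=
    { toFun := fun x => cliffPencil Γ l0 h0 h V x
      map_add' := fun x y => cliffSpec_pencil_add Γ l0 h0 h V x y
      map_smul' := fun t x => cliffSpec_pencil_smul Γ l0 h0 h V t x }
  let ε : Unit ⊕ (Fin J × Fin N) ≃ Fin (Fintype.card (Unit ⊕ (Fin J × Fin N))) :=
    Fintype.equivFin _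
  let P : σ → Matrix (Unit ⊕ (Fin J × Fin N)) (Unit ⊕ (Fin J × Fin N)) ℝ :=
    fun k => cliffPencil Γ l0 h0 h V (fun j => if k = j then 1 else 0)
  have hlin : ∀ x : σ → ℝ, cliffPencil Γ l0 h0 h V x = ∑ k, x k • P k := by
    intro x
    exact LinearMap.pi_apply_eq_sum_univ L x
  refine ⟨Fintype.card (Unit ⊕ (Fin J × Fin N)), 0,
    fun k => (P k).submatrix ε.symm ε.symm, Matrix.isSymm_zero, ?_, ?_⟩
  · intro k
    exact (cliffPencil_isSymm Γ hsymm l0 h0 h V _).submatrix ε.symm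
  · ext x
    simp only [Set.mem_ofPred_eq, zero_add]
    have hsub : ∑ k, x k • (P k).submatrix ε.symm ε.symm =
        (cliffPencil Γ l0 h0 h V x).submatrix ε.symm ε.symm := by
      rw [hlin x]
      ext i j
      simp only [Matrix.sum_apply, Matrix.smul_apply, Matrix.submatrix_apply]
    rw [hsub, Matrix.posSemidef_submatrix_equiv]

end Vale.Agent.Lib.P256
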