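import Vale.Agent.Lib.P256.CliffAlg
import Vale.Agent.Lib.P256.CliffQF
import Vale.Agent.Lib.P256.CliffCone1
import Vale.Agent.Lib.P256.CliffCone2
import Vale.Agent.Lib.P256.CliffCone3
import Vale.Agent.Lib.P256.CliffHyp
import Vale.Agent.Lib.P256.CliffPoly
import Vale.Agent.Lib.P256.CliffSpec
import Vale.Agent.Lib.P256.CliffExist
import Vale.Agent.Lib.P256.CliffKer

namespace Vale.Agent.Lib.P256

open MvPolynomial Matrix

/-- The hyperbolicity cone of a Clifford cubic is the set where its pencil is positive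
semidefinite. -/
theorem cliffordCubic_cone {σ : Type} [Fintype σ] {m N J : ℕ}
    (Γ : Fin m → Matrix (Fin N) (Fin N) ℝ) (hΓ : IsCliff Γ) (hJ : 0 < J)
    (l0 h0 : σ → ℝ) (h : Fin m → σ → ℝ) (V : Fin J → Fin N → σ → ℝ) (e : σ → ℝ)
    (he0 : lf h0 e = 1) (hei : ∀ i, lf (h i) e = 0)
    (hpe : 0 < cliffVal Γ l0 h0 h V e) :
    hyperbolicityCone (cliffordCubic Γ l0 h0 h V) e =
      {x : σ → ℝ | (cliffPencil Γ l0 h0 h V x).PosSemidef} := by
  ext x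
  change (∀ t : ℝ, eval (fun i => t * e i - x i) (cliffordCubic Γ l0 h0 h V) = 0 → 0 ≤ t) ↔
    (cliffPencil Γ l0 h0 h V x).PosSemidef
  simp only [eval_cliffordCubic]
  rw [cliff_cone_reform Γ l0 h0 h V e hpe x]
  exact ⟨cliff_pencil_of_pos hΓ l0 h0 h V e he0 hei hpe x,
    fun hx τ hτ => cliff_pos_of_pencil hΓ hJ l0 h0 h V e he0 hei hpe x hx τ hτ⟩

/-- Main theorem on Clifford cubics. -/
theorem cliffordCubic_main {σ : Type} [Fintype σ] {m N J : ℕ}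
    (Γ : Fin m → Matrix (Fin N) (Fin N) ℝ) (hΓ : IsCliff Γ) (hJ : 0 < J)
    (l0 h0 : σ → ℝ) (h : Fin m → σ → ℝ) (V : Fin J → Fin N → σ → ℝ) (e : σ → ℝ)
    (he0 : ∑ k, h0 k * e k = 1) (hei : ∀ i, ∑ k, h i k * e k = 0)
    (hpe : 0 < eval e (cliffordCubic Γ l0 h0 h V)) :
    IsHyperbolic (cliffordCubic Γ l0 h0 h V) e ∧
    IsSpectrahedron (hyperbolicityCone (cliffordCubic Γ l0 h0 h V) e) ∧
    (∀ x0 : σ → ℝ, ∑ k, h0 k * x0 k = 0 → (∀ i, ∑ k, h i k * x0 k = 0) →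
      (∀ j a, ∑ k, V j a k * x0 k = 0) → 0 ≤ ∑ k, l0 k * x0 k →
      x0 ∈ hyperbolicityCone (cliffordCubic Γ l0 h0 h V) e ∧
      eval x0 (cliffordCubic Γ l0 h0 h V) = 0 ∧
      ∀ v, eval x0 (pderiv v (cliffordCubic Γ l0 h0 h V)) = 0) ∧
    (1 + m + J * N < Fintype.card σ →
      ∃ x0 : σ → ℝ, x0 ≠ 0 ∧ x0 ∈ hyperbolicityCone (cliffordCubic Γ l0 h0 h V) e ∧
        eval x0 (cliffordCubic Γ l0 h0 h V) = 0 ∧
        ∀ v, eval x0 (pderiv v (cliffordCubic Γ l0 h0 h V)) = 0) := by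
  have he0' : lf h0 e = 1 := by rw [lf_eq_sum]; exact he0
  have hei' : ∀ i, lf (h i) e = 0 := by intro i; rw [lf_eq_sum]; exact hei i
  have hpe' : 0 < cliffVal Γ l0 h0 h V e := by rw [← eval_cliffordCubic]; exact hpe
  have hcone := cliffordCubic_cone Γ hΓ hJ l0 h0 h V e he0' hei' hpe'
  have hsing : ∀ x0 : σ → ℝ, ∑ k, h0 k * x0 k = 0 → (∀ i, ∑ k, h i k * x0 k = 0) →
      (∀ j a, ∑ k, V j a k * x0 k = 0) → 0 ≤ ∑ k, l0 k * x0 k →
      x0 ∈ hyperbolicityCone (cliffordCubic Γ l0 h0 h V) e ∧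
      eval x0 (cliffordCubic Γ l0 h0 h V) = 0 ∧
      ∀ v, eval x0 (pderiv v (cliffordCubic Γ l0 h0 h V)) = 0 := by
    intro x0 h0x hix hvx hl
    have h0x' : lf h0 x0 = 0 := by rw [lf_eq_sum]; exact h0x
    have hix' : ∀ i, lf (h i) x0 = 0 := by intro i; rw [lf_eq_sum]; exact hix i
    have hvx' : ∀ j a, lf (V j a) x0 = 0 := by intro j a; rw [lf_eq_sum]; exact hvx j a
    have hl' : 0 ≤ lf l0 x0 := by rw [lf_eq_sum]; exact hl
    refine ⟨?_, ?_, fun v => cliffordCubic_pderiv_eq_zero Γ l0 h0 h V x0 h0x' hix' hvx' v⟩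
    · rw [hcone]
      exact cliffPencil_posSemidef_of_vanish Γ l0 h0 h V x0 h0x' hix' hvx' hl'
    · rw [eval_cliffordCubic]
      simp [cliffVal, h0x', hix', hvx']
  refine ⟨⟨⟨3, cliffordCubic_isHomogeneous Γ l0 h0 h V⟩, hpe, ?_⟩, ?_, hsing, ?_⟩
  · intro x t ht
    rw [aeval_cliffordCubic] at ht
    exact cliff_roots_real hΓ l0 h0 h V e he0' hei' hpe' x t ht
  · rw [hcone]
    exact cliffPencil_spectrahedron Γ hΓ.symm l0 h0 h V
  · intro hcard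
    obtain ⟨x0, hne, hF, hc⟩ := exists_ne_zero_forms_vanish
      (ι := Unit ⊕ (Fin m ⊕ (Fin J × Fin N)))
      (Sum.elim (fun _ => h0) (Sum.elim h (fun p => V p.1 p.2))) l0
      (by simp only [Fintype.card_sum, Fintype.card_unit, Fintype.card_fin, Fintype.card_prod]; omega)
    exact ⟨x0, hne, hsing x0 (hF (Sum.inl ())) (fun i => hF (Sum.inr (Sum.inl i)))
      (fun j a => hF (Sum.inr (Sum.inr (j, a)))) hc⟩

end Vale.Agent.Lib.P256
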