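import Mathlib

namespace Vale.Agent.Lib.P256

open Finset

/-- A monic real cubic that is nonnegative at `T0` has a root in `(-∞, T0]`. -/
lemma cubic_root_le (b c d T0 : ℝ) (h0 : 0 ≤ T0 ^ 3 + b * T0 ^ 2 + c * T0 + d) :
    ∃ t ≤ T0, t ^ 3 + b * t ^ 2 + c * t + d = 0 := by
  set M : ℝ := |b| + |c| + |d| with hM
  have hM0 : 0 ≤ M := by positivity
  set T : ℝ := min T0 (-(M + 1)) with hT
  have hT1 : T ≤ -(M + 1) := min_le_right _ _
  have hT0 : T ≤ T0 := min_le_left _ _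
  have hneg : T ^ 3 + b * T ^ 2 + c * T + d < 0 := by
    have h1 : T ≤ -1 := by linarith
    have hT2 : 1 ≤ T ^ 2 := by nlinarith
    have hb : b * T ^ 2 ≤ |b| * T ^ 2 := mul_le_mul_of_nonneg_right (le_abs_self b) (by positivity)
    have hc : c * T ≤ |c| * T ^ 2 := by
      have h2 : c * T ≤ |c * T| := le_abs_self _
      have h3 : |c * T| = |c| * |T| := abs_mul c T
      have h4 : |T| ≤ T ^ 2 := by
        rw [abs_of_nonpos (by linarith)]
        nlinarith
      have h5 : |c| * |T| ≤ |c| * T ^ 2 := mul_le_mul_of_nonneg_left h4 (abs_nonneg c)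
      linarith
    have hd : d ≤ |d| * T ^ 2 := by
      have h2 : d ≤ |d| := le_abs_self d
      have h3 : |d| * 1 ≤ |d| * T ^ 2 := mul_le_mul_of_nonneg_left hT2 (abs_nonneg d)
      linarith
    have h6 : T ^ 3 + M * T ^ 2 = T ^ 2 * (T + M) := by ring
    have h7 : T ^ 2 * (T + M) ≤ T ^ 2 * (-1) :=
      mul_le_mul_of_nonneg_left (by linarith) (by positivity)
    have h8 : M * T ^ 2 = |b| * T ^ 2 + |c| * T ^ 2 + |d| * T ^ 2 := by simp only [hM]; ring
    nlinarith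
  have hcont : ContinuousOn (fun t : ℝ => t ^ 3 + b * t ^ 2 + c * t + d) (Set.Icc T T0) := by
    fun_prop
  have hivt := intermediate_value_Icc hT0 hcont
  have hmem : (0 : ℝ) ∈ Set.Icc (T ^ 3 + b * T ^ 2 + c * T + d) (T0 ^ 3 + b * T0 ^ 2 + c * T0 + d) :=
    ⟨hneg.le, h0⟩
  obtain ⟨t, ht, hft⟩ := hivt hmem
  exact ⟨t, ht.2, hft⟩

/-- A monic real quadratic with negative constant term has a negative root. -/
lemma quadratic_neg_root (b c : ℝ) (hc : c < 0) : ∃ t < 0, t ^ 2 + b * t + c = 0 := by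
  have hdisc : 0 < b ^ 2 - 4 * c := by nlinarith [sq_nonneg b]
  refine ⟨(-b - Real.sqrt (b ^ 2 - 4 * c)) / 2, ?_, ?_⟩
  · have h1 : |b| < Real.sqrt (b ^ 2 - 4 * c) := by
      rw [← Real.sqrt_sq_eq_abs]
      exact Real.sqrt_lt_sqrt (sq_nonneg b) (by linarith)
    have h2 : -b ≤ |b| := neg_le_abs b
    linarith
  · have h1 : Real.sqrt (b ^ 2 - 4 * c) ^ 2 = b ^ 2 - 4 * c := Real.sq_sqrt hdisc.le
    nlinarith


/-- If the lifted description holds then the restricted cubic is negative on the negative axis. -/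
theorem lift_neg {k : ℕ} (y0 R s : ℝ) (δ a ζ : Fin k → ℝ)
    (hδ : ∀ j, δ j ^ 2 ≤ R) (hy0 : 0 ≤ y0) (hRy : R ≤ y0 ^ 2)
    (τ w : Fin k → ℝ) (hτs : ∑ j, τ j ≤ s)
    (hτ : ∀ j, 0 ≤ τ j) (hw : ∀ j, 0 ≤ w j) (hζ : ∀ j, ζ j ^ 2 ≤ τ j * w j)
    (hwμ : ∀ j, w j * (y0 + δ j) ≤ y0 ^ 2 - R) (hw2 : ∀ j, w j ≤ 2 * y0)
    (t : ℝ) (ht : t < 0) :
    ((1 + ∑ j, a j ^ 2) * t - s) * ((t - y0) ^ 2 - R)
       - ∑ j, (t - (y0 + δ j)) * (a j * t - ζ j) ^ 2 < 0 := by
  set c : ℝ := -t with hc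
  have hc0 : 0 < c := by simp only [hc]; linarith
  have ht' : t = -c := by simp only [hc]; ring
  set Ac : ℝ := (y0 + c) ^ 2 - R with hAc
  have hAcpos : 0 < Ac := by
    simp only [hAc]
    nlinarith
  have hterm : ∀ j, (y0 + δ j + c) * (ζ j + a j * c) ^ 2 ≤ (τ j + c * a j ^ 2) * Ac := by
    intro j
    have hδabs := abs_le_of_sq_le_sq' (le_trans (hδ j) hRy) hy0
    have hμ0 : 0 ≤ y0 + δ j := by linarith [hδabs.1]
    have hwbar : w j ≤ y0 - δ j := by
      rcases eq_or_lt_of_le hμ0 with h0 | hpos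
      · have : δ j = -y0 := by linarith
        rw [this]
        linarith [hw2 j]
      · have h1 : w j * (y0 + δ j) ≤ (y0 - δ j) * (y0 + δ j) := by
          have : (y0 - δ j) * (y0 + δ j) = y0 ^ 2 - δ j ^ 2 := by ring
          rw [this]
          linarith [hwμ j, hδ j]
        exact le_of_mul_le_mul_right h1 hpos
    have h2 : (y0 + δ j + c) * (w j + c) ≤ Ac := by
      have e : Ac - (y0 + δ j + c) * (w j + c) =
          (y0 ^ 2 - R - w j * (y0 + δ j)) + c * (y0 - δ j - w j) := by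
        simp only [hAc]; ring
      have h3 : 0 ≤ c * (y0 - δ j - w j) := mul_nonneg hc0.le (by linarith)
      linarith [hwμ j]
    have h4 : 2 * ζ j * a j ≤ τ j + a j ^ 2 * w j := by
      have hsq : (2 * ζ j * a j) ^ 2 ≤ (τ j + a j ^ 2 * w j) ^ 2 := by
        have e1 : (2 * ζ j * a j) ^ 2 = 4 * a j ^ 2 * ζ j ^ 2 := by ring
        have e2 : 4 * a j ^ 2 * ζ j ^ 2 ≤ 4 * a j ^ 2 * (τ j * w j) :=
          mul_le_mul_of_nonneg_left (hζ j) (by positivity)
        have e3 : (τ j + a j ^ 2 * w j) ^ 2 - 4 * a j ^ 2 * (τ j * w j) =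
            (τ j - a j ^ 2 * w j) ^ 2 := by ring
        have e4 : 0 ≤ (τ j - a j ^ 2 * w j) ^ 2 := sq_nonneg _
        linarith
      have hnn : 0 ≤ τ j + a j ^ 2 * w j := by
        have := mul_nonneg (sq_nonneg (a j)) (hw j)
        linarith [hτ j]
      exact (abs_le_of_sq_le_sq' hsq hnn).2
    have h5 : (ζ j + a j * c) ^ 2 ≤ (τ j + c * a j ^ 2) * (w j + c) := by
      have e : (τ j + c * a j ^ 2) * (w j + c) - (ζ j + a j * c) ^ 2 =
          (τ j * w j - ζ j ^ 2) + c * (τ j + a j ^ 2 * w j - 2 * ζ j * a j) := by ring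
      have h6 : 0 ≤ c * (τ j + a j ^ 2 * w j - 2 * ζ j * a j) := mul_nonneg hc0.le (by linarith)
      linarith [hζ j]
    have hτc : 0 ≤ τ j + c * a j ^ 2 := by
      have := mul_nonneg hc0.le (sq_nonneg (a j))
      linarith [hτ j]
    calc (y0 + δ j + c) * (ζ j + a j * c) ^ 2
        ≤ (y0 + δ j + c) * ((τ j + c * a j ^ 2) * (w j + c)) :=
          mul_le_mul_of_nonneg_left h5 (by linarith)
      _ = (τ j + c * a j ^ 2) * ((y0 + δ j + c) * (w j + c)) := by ring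
      _ ≤ (τ j + c * a j ^ 2) * Ac := mul_le_mul_of_nonneg_left h2 hτc
  have hsum : ∑ j, (y0 + δ j + c) * (ζ j + a j * c) ^ 2 ≤ (s + c * ∑ j, a j ^ 2) * Ac := by
    calc ∑ j, (y0 + δ j + c) * (ζ j + a j * c) ^ 2
        ≤ ∑ j, (τ j + c * a j ^ 2) * Ac := Finset.sum_le_sum fun j _ => hterm j
      _ = (∑ j, τ j + c * ∑ j, a j ^ 2) * Ac := by
          rw [← Finset.sum_mul, Finset.sum_add_distrib, Finset.mul_sum]
      _ ≤ (s + c * ∑ j, a j ^ 2) * Ac :=
          mul_le_mul_of_nonneg_right (by linarith) hAcpos.le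
  have hrew : ((1 + ∑ j, a j ^ 2) * t - s) * ((t - y0) ^ 2 - R)
       - ∑ j, (t - (y0 + δ j)) * (a j * t - ζ j) ^ 2 =
      -(s + (1 + ∑ j, a j ^ 2) * c) * Ac + ∑ j, (y0 + δ j + c) * (ζ j + a j * c) ^ 2 := by
    have e1 : ∑ j, (t - (y0 + δ j)) * (a j * t - ζ j) ^ 2 =
        -∑ j, (y0 + δ j + c) * (ζ j + a j * c) ^ 2 := by
      rw [← Finset.sum_neg_distrib]
      refine Finset.sum_congr rfl fun j _ => ?_
      rw [ht']; ring
    rw [e1, ht']
    simp only [hAc]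
    ring
  rw [hrew]
  have : (s + c * ∑ j, a j ^ 2) * Ac - (s + (1 + ∑ j, a j ^ 2) * c) * Ac = -(c * Ac) := by ring
  have hcA : 0 < c * Ac := mul_pos hc0 hAcpos
  linarith

/-- If the restricted cubic has no negative root then the lifted description holds. -/
theorem cone_lift {k : ℕ} (y0 R s : ℝ) (δ a ζ : Fin k → ℝ) (hR : 0 ≤ R)
    (hδ : ∀ j, δ j ^ 2 ≤ R)
    (hcone : ∀ t : ℝ, ((1 + ∑ j, a j ^ 2) * t - s) * ((t - y0) ^ 2 - R)
       - ∑ j, (t - (y0 + δ j)) * (a j * t - ζ j) ^ 2 = 0 → 0 ≤ t) :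
    0 ≤ y0 ∧ R ≤ y0 ^ 2 ∧ ∃ τ w : Fin k → ℝ, ∑ j, τ j ≤ s ∧
      ∀ j, 0 ≤ τ j ∧ 0 ≤ w j ∧ ζ j ^ 2 ≤ τ j * w j ∧ w j * (y0 + δ j) ≤ y0 ^ 2 - R ∧
        w j ≤ 2 * y0 := by
  set F : ℝ → ℝ := fun t => ((1 + ∑ j, a j ^ 2) * t - s) * ((t - y0) ^ 2 - R)
       - ∑ j, (t - (y0 + δ j)) * (a j * t - ζ j) ^ 2 with hF
  -- the cubic form
  set b : ℝ := -2 * y0 * (1 + ∑ j, a j ^ 2) - s + ∑ j, (2 * a j * ζ j + (y0 + δ j) * a j ^ 2)
    with hb
  set c : ℝ := (1 + ∑ j, a j ^ 2) * (y0 ^ 2 - R) + 2 * y0 * s -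
    ∑ j, (ζ j ^ 2 + 2 * (y0 + δ j) * a j * ζ j) with hc
  set d : ℝ := -s * (y0 ^ 2 - R) + ∑ j, (y0 + δ j) * ζ j ^ 2 with hd
  have hcubic : ∀ t, F t = t ^ 3 + b * t ^ 2 + c * t + d := by
    intro t
    have e1 : ∑ j, (t - (y0 + δ j)) * (a j * t - ζ j) ^ 2 =
        (∑ j, a j ^ 2) * t ^ 3 - (∑ j, (2 * a j * ζ j + (y0 + δ j) * a j ^ 2)) * t ^ 2 +
          (∑ j, (ζ j ^ 2 + 2 * (y0 + δ j) * a j * ζ j)) * t - ∑ j, (y0 + δ j) * ζ j ^ 2 := by
      simp only [Finset.sum_mul, ← Finset.sum_sub_distrib, ← Finset.sum_add_distrib]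
      refine Finset.sum_congr rfl fun j _ => ?_
      ring
    simp only [hF, hb, hc, hd]
    rw [e1]
    ring
  have hroot : ∀ T0, 0 ≤ F T0 → ∃ t ≤ T0, F t = 0 := by
    intro T0 h0
    rw [hcubic] at h0
    obtain ⟨t, ht, hft⟩ := cubic_root_le b c d T0 h0
    exact ⟨t, ht, by rw [hcubic]; exact hft⟩
  have hδabs : ∀ j, |δ j| ≤ Real.sqrt R := fun j => Real.abs_le_sqrt (hδ j)
  -- Step 1
  have hL : 0 ≤ y0 ∧ R ≤ y0 ^ 2 := by
    by_contra hcon
    have hlam : y0 - Real.sqrt R < 0 := by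
      by_cases h1 : 0 ≤ y0
      · have h2 : ¬ R ≤ y0 ^ 2 := fun h => hcon ⟨h1, h⟩
        rw [not_le] at h2
        have := (Real.lt_sqrt h1).mpr h2
        linarith
      · rw [not_le] at h1
        linarith [Real.sqrt_nonneg R]
    have hFl : 0 ≤ F (y0 - Real.sqrt R) := by
      simp only [hF]
      have e1 : (y0 - Real.sqrt R - y0) ^ 2 - R = 0 := by
        have : (y0 - Real.sqrt R - y0) ^ 2 = Real.sqrt R ^ 2 := by ring
        rw [this, Real.sq_sqrt hR]; ring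
      rw [e1, mul_zero, zero_sub, neg_nonneg]
      apply Finset.sum_nonpos
      intro j _
      apply mul_nonpos_of_nonpos_of_nonneg _ (sq_nonneg _)
      have := (abs_le.mp (hδabs j)).1
      linarith
    obtain ⟨t, ht, hft⟩ := hroot _ hFl
    have := hcone t hft
    linarith
  obtain ⟨hy0, hRy⟩ := hL
  refine ⟨hy0, hRy, ?_⟩
  have hsqrtR : Real.sqrt R ≤ y0 := (Real.sqrt_le_left hy0).mpr hRy
  have hμ0 : ∀ j, 0 ≤ y0 + δ j := fun j => by
    have := (abs_le.mp (hδabs j)).1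
    linarith
  -- Step 2
  have hp : ∑ j, (y0 + δ j) * ζ j ^ 2 ≤ s * (y0 ^ 2 - R) := by
    by_contra hcon
    rw [not_le] at hcon
    have hF0 : 0 < F 0 := by
      rw [hcubic]
      simp only [hd]
      have : (0:ℝ) ^ 3 + b * 0 ^ 2 + c * 0 + (-s * (y0 ^ 2 - R) + ∑ j, (y0 + δ j) * ζ j ^ 2) =
        -s * (y0 ^ 2 - R) + ∑ j, (y0 + δ j) * ζ j ^ 2 := by ring
      rw [this]; linarith
    obtain ⟨t, ht, hft⟩ := hroot 0 hF0.le
    have h1 := hcone t hft
    have : t = 0 := le_antisymm ht h1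
    rw [this] at hft
    linarith
  have hA0 : 0 ≤ y0 ^ 2 - R := by linarith
  rcases eq_or_lt_of_le hA0 with hAz | hApos
  · -- boundary case: y0 ^ 2 = R
    have hterm0 : ∀ j, (y0 + δ j) * ζ j ^ 2 = 0 := by
      have hle : ∑ j, (y0 + δ j) * ζ j ^ 2 ≤ 0 := by rw [← hAz] at hp; simpa using hp
      have hnn : ∀ j ∈ (Finset.univ : Finset (Fin k)), 0 ≤ (y0 + δ j) * ζ j ^ 2 :=
        fun j _ => mul_nonneg (hμ0 j) (sq_nonneg _)
      have hz : ∑ j, (y0 + δ j) * ζ j ^ 2 = 0 := le_antisymm hle (Finset.sum_nonneg hnn)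
      intro j
      exact (Finset.sum_eq_zero_iff_of_nonneg hnn).mp hz j (Finset.mem_univ j)
    have hμζ : ∀ j, (y0 + δ j) * ζ j = 0 := by
      intro j
      rcases mul_eq_zero.mp (hterm0 j) with h | h
      · rw [h, zero_mul]
      · rw [sq_eq_zero_iff.mp h, mul_zero]
    have hc' : c = 2 * y0 * s - ∑ j, ζ j ^ 2 := by
      simp only [hc]
      rw [← hAz, mul_zero, zero_add]
      congr 1
      refine Finset.sum_congr rfl fun j _ => ?_
      have : 2 * (y0 + δ j) * a j * ζ j = 2 * a j * ((y0 + δ j) * ζ j) := by ring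
      rw [this, hμζ j]; ring
    have hd' : d = 0 := by
      simp only [hd]
      rw [← hAz, mul_zero, zero_add]
      exact Finset.sum_eq_zero fun j _ => hterm0 j
    have hFt : ∀ t, F t = t * (t ^ 2 + b * t + c) := by
      intro t
      rw [hcubic, hd']; ring
    have hc0 : 0 ≤ c := by
      by_contra hcon
      rw [not_le] at hcon
      obtain ⟨t, ht, hq⟩ := quadratic_neg_root b c hcon
      have hft : F t = 0 := by rw [hFt, hq, mul_zero]
      have := hcone t hft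
      linarith
    rw [hc'] at hc0
    rcases eq_or_lt_of_le hy0 with hy00 | hy0pos
    · -- y0 = 0
      have hζ0 : ∀ j, ζ j = 0 := by
        have hle : ∑ j, ζ j ^ 2 ≤ 0 := by rw [← hy00] at hc0; linarith
        have hnn : ∀ j ∈ (Finset.univ : Finset (Fin k)), 0 ≤ ζ j ^ 2 := fun j _ => sq_nonneg _
        have hz : ∑ j, ζ j ^ 2 = 0 := le_antisymm hle (Finset.sum_nonneg hnn)
        intro j
        exact sq_eq_zero_iff.mp ((Finset.sum_eq_zero_iff_of_nonneg hnn).mp hz j (Finset.mem_univ j))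
      have hR0 : R = 0 := by rw [← hy00] at hAz; linarith
      have hδ0 : ∀ j, δ j = 0 := by
        intro j
        have h1 := hδ j
        rw [hR0] at h1
        exact sq_eq_zero_iff.mp (le_antisymm h1 (sq_nonneg _))
      have hbs : b = -s := by
        simp only [hb]
        rw [← hy00]
        have : ∑ j, (2 * a j * ζ j + (0 + δ j) * a j ^ 2) = 0 := by
          refine Finset.sum_eq_zero fun j _ => ?_
          rw [hζ0 j, hδ0 j]; ring
        rw [this]; ring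
      have hs0 : 0 ≤ s := by
        have hft : F s = 0 := by
          rw [hFt, hc', hbs, ← hy00]
          have : ∑ j, ζ j ^ 2 = 0 := Finset.sum_eq_zero fun j _ => by rw [hζ0 j]; ring
          rw [this]; ring
        exact hcone s hft
      refine ⟨fun _ => 0, fun _ => 0, by simpa using hs0, fun j => ?_⟩
      refine ⟨le_rfl, le_rfl, ?_, ?_, ?_⟩
      · rw [hζ0 j]; simp
      · rw [zero_mul, ← hAz]
      · rw [← hy00]; simp
    · -- y0 > 0
      refine ⟨fun j => ζ j ^ 2 / (2 * y0), fun j => if ζ j = 0 then 0 else 2 * y0, ?_, fun j => ?_⟩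
      · rw [← Finset.sum_div, div_le_iff₀ (by positivity)]
        linarith
      · dsimp only
        refine ⟨by positivity, ?_, ?_, ?_, ?_⟩
        · split_ifs <;> positivity
        · by_cases hz : ζ j = 0
          · simp [hz]
          · simp only [hz, if_false]
            field_simp
            exact le_rfl
        · by_cases hz : ζ j = 0
          · simp only [hz, if_true, zero_mul]
            rw [← hAz]
          · simp only [hz, if_false]
            have : y0 + δ j = 0 := by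
              rcases mul_eq_zero.mp (hμζ j) with h | h
              · exact h
              · exact absurd h hz
            rw [this, mul_zero, ← hAz]
        · split_ifs
          · positivity
          · exact le_rfl
  · -- interior case: R < y0 ^ 2
    have hy0pos : 0 < y0 := by
      rcases eq_or_lt_of_le hy0 with h | h
      · rw [← h] at hApos; simp at hApos; linarith
      · exact h
    have hsqrt_lt : Real.sqrt R < y0 := (Real.sqrt_lt' hy0pos).mpr (by linarith)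
    have hμpos : ∀ j, 0 < y0 + δ j := fun j => by
      have := (abs_le.mp (hδabs j)).1
      linarith
    refine ⟨fun j => ζ j ^ 2 * (y0 + δ j) / (y0 ^ 2 - R), fun j => (y0 ^ 2 - R) / (y0 + δ j), ?_,
      fun j => ?_⟩
    · rw [← Finset.sum_div, div_le_iff₀ hApos]
      calc ∑ j, ζ j ^ 2 * (y0 + δ j) = ∑ j, (y0 + δ j) * ζ j ^ 2 :=
            Finset.sum_congr rfl fun j _ => by ring
        _ ≤ s * (y0 ^ 2 - R) := hp
    · have hμ := hμpos j
      refine ⟨by positivity, by positivity, ?_, ?_, ?_⟩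
      · have : ζ j ^ 2 * (y0 + δ j) / (y0 ^ 2 - R) * ((y0 ^ 2 - R) / (y0 + δ j)) = ζ j ^ 2 := by
          field_simp
        rw [this]
      · have : (y0 ^ 2 - R) / (y0 + δ j) * (y0 + δ j) = y0 ^ 2 - R := by field_simp
        rw [this]
      · rw [div_le_iff₀ hμ]
        have h1 := (abs_le.mp (hδabs j))
        have h2 : y0 ^ 2 - R ≤ y0 ^ 2 - δ j ^ 2 := by linarith [hδ j]
        have h3 : y0 ^ 2 - δ j ^ 2 = (y0 - δ j) * (y0 + δ j) := by ring
        have h4 : (y0 - δ j) * (y0 + δ j) ≤ 2 * y0 * (y0 + δ j) :=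
          mul_le_mul_of_nonneg_right (by linarith) hμ.le
        linarith

end Vale.Agent.Lib.P256
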