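import Mathlib

namespace Vale.Agent.Lib.P256

open Finset

lemma im_eq_zero_aux {c0 y0 R B Γ u v : ℝ} (hR : 0 ≤ R) (hB : 0 ≤ B) (hΓ : Γ ^ 2 ≤ B ^ 2 * R)
    (hre : (u - c0) * ((u - y0) * (u - y0) - v * v - R) - v * ((u - y0) * v + v * (u - y0)) =
      B * (u - y0) - Γ)
    (him : (u - c0) * ((u - y0) * v + v * (u - y0)) + v * ((u - y0) * (u - y0) - v * v - R) =
      B * v) : v = 0 := by
  by_contra hv0
  have key : v * ((((u - y0) ^ 2 - v ^ 2 - R) ^ 2 + (2 * (u - y0) * v) ^ 2) +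
      (B * ((u - y0) ^ 2 + v ^ 2 + R) - 2 * (u - y0) * Γ)) = 0 := by
    linear_combination ((u - y0) ^ 2 - v ^ 2 - R) * him - (2 * (u - y0) * v) * hre
  have h2 : (((u - y0) ^ 2 - v ^ 2 - R) ^ 2 + (2 * (u - y0) * v) ^ 2) +
      (B * ((u - y0) ^ 2 + v ^ 2 + R) - 2 * (u - y0) * Γ) = 0 := by
    rcases mul_eq_zero.mp key with h' | h'
    · exact absurd h' hv0
    · exact h'
  have h3 : 2 * (u - y0) * Γ ≤ B * ((u - y0) ^ 2 + R) := by
    have hsq : (2 * (u - y0) * Γ) ^ 2 ≤ (B * ((u - y0) ^ 2 + R)) ^ 2 := by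
      have e1 : (2 * (u - y0) * Γ) ^ 2 = 4 * (u - y0) ^ 2 * Γ ^ 2 := by ring
      have e2 : 4 * (u - y0) ^ 2 * Γ ^ 2 ≤ 4 * (u - y0) ^ 2 * (B ^ 2 * R) :=
        mul_le_mul_of_nonneg_left hΓ (by positivity)
      have e3 : (B * ((u - y0) ^ 2 + R)) ^ 2 - 4 * (u - y0) ^ 2 * (B ^ 2 * R) =
          B ^ 2 * ((u - y0) ^ 2 - R) ^ 2 := by ring
      have e4 : 0 ≤ B ^ 2 * ((u - y0) ^ 2 - R) ^ 2 := by positivity
      linarith
    have := abs_le_of_sq_le_sq' hsq (by positivity)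
    exact this.2
  have h4 : 0 ≤ B * v ^ 2 := by positivity
  have hA : 0 ≤ ((u - y0) ^ 2 - v ^ 2 - R) ^ 2 := sq_nonneg _
  have hB' : 0 ≤ (2 * (u - y0) * v) ^ 2 := sq_nonneg _
  have h5 : ((u - y0) ^ 2 - v ^ 2 - R) ^ 2 + (2 * (u - y0) * v) ^ 2 ≤ 0 := by
    have : B * ((u - y0) ^ 2 + v ^ 2 + R) = B * ((u - y0) ^ 2 + R) + B * v ^ 2 := by ring
    linarith
  have h6 : (2 * (u - y0) * v) ^ 2 = 0 := by linarith
  have h7 : ((u - y0) ^ 2 - v ^ 2 - R) ^ 2 = 0 := by linarith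
  have h8 : u - y0 = 0 := by
    have := sq_eq_zero_iff.mp h6
    rcases mul_eq_zero.mp this with h' | h'
    · rcases mul_eq_zero.mp h' with h'' | h''
      · norm_num at h''
      · exact h''
    · exact absurd h' hv0
  have h9 : (u - y0) ^ 2 - v ^ 2 - R = 0 := sq_eq_zero_iff.mp h7
  rw [h8] at h9
  have hv2 : v ^ 2 = 0 := by
    have := sq_nonneg v
    linarith
  exact hv0 (sq_eq_zero_iff.mp hv2)

/-- A complex root of `(t - c0) ((t - y0)^2 - R) = B (t - y0) - Γ` is real when `0 ≤ R`, `0 ≤ B`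
and `Γ^2 ≤ B^2 R`. -/
lemma im_eq_zero_of_eq {c0 y0 R B Γ : ℝ} (hR : 0 ≤ R) (hB : 0 ≤ B) (hΓ : Γ ^ 2 ≤ B ^ 2 * R)
    {t : ℂ} (h : (t - c0) * ((t - y0) ^ 2 - R) = B * (t - y0) - Γ) : t.im = 0 := by
  have hre := congrArg Complex.re h
  have him := congrArg Complex.im h
  simp only [pow_two, Complex.mul_re, Complex.mul_im, Complex.sub_re, Complex.sub_im,
    Complex.ofReal_re, Complex.ofReal_im, sub_zero, zero_mul] at hre him
  exact im_eq_zero_aux hR hB hΓ hre (by linarith)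

/-- All complex roots of the restricted cubic are real. -/
theorem roots_real {k : ℕ} (y0 R s : ℝ) (δ a ζ : Fin k → ℝ) (hR : 0 ≤ R)
    (hδ : ∀ j, δ j ^ 2 ≤ R) (t : ℂ)
    (h : ((1 + ∑ j, (a j : ℂ) ^ 2) * t - s) * ((t - y0) ^ 2 - R)
       - ∑ j, (t - (y0 + δ j)) * (a j * t - ζ j) ^ 2 = 0) : t.im = 0 := by
  -- auxiliary real quantities
  set ζ' : Fin k → ℝ := fun j => ζ j - a j * y0 with hζ'
  set β : Fin k → ℝ := fun j => (ζ' j + a j * δ j) ^ 2 + a j ^ 2 * (R - δ j ^ 2) with hβ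
  set γ : Fin k → ℝ := fun j => δ j * (ζ' j ^ 2 + a j ^ 2 * R) + 2 * a j * ζ' j * R with hγ
  set c0 : ℝ := s - ∑ j, (a j ^ 2 * (y0 + δ j) + 2 * a j * ζ' j) with hc0
  have hβ0 : ∀ j, 0 ≤ β j := by
    intro j
    have h1 : 0 ≤ R - δ j ^ 2 := by linarith [hδ j]
    simp only [hβ]
    positivity
  have hγβ : ∀ j, γ j ^ 2 ≤ β j ^ 2 * R := by
    intro j
    have h1 : 0 ≤ R - δ j ^ 2 := by linarith [hδ j]
    have e : β j ^ 2 * R - γ j ^ 2 = (R - δ j ^ 2) * (ζ' j ^ 2 - a j ^ 2 * R) ^ 2 := by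
      simp only [hβ, hγ]
      ring
    have : 0 ≤ (R - δ j ^ 2) * (ζ' j ^ 2 - a j ^ 2 * R) ^ 2 := by positivity
    linarith
  have hγabs : ∀ j, |γ j| ≤ β j * Real.sqrt R := by
    intro j
    apply abs_le_of_sq_le_sq _ (mul_nonneg (hβ0 j) (Real.sqrt_nonneg R))
    rw [mul_pow, Real.sq_sqrt hR]
    exact hγβ j
  have hB : 0 ≤ ∑ j, β j := Finset.sum_nonneg fun j _ => hβ0 j
  have hΓ : (∑ j, γ j) ^ 2 ≤ (∑ j, β j) ^ 2 * R := by
    have h1 : |∑ j, γ j| ≤ (∑ j, β j) * Real.sqrt R := by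
      calc |∑ j, γ j| ≤ ∑ j, |γ j| := Finset.abs_sum_le_sum_abs _ _
        _ ≤ ∑ j, β j * Real.sqrt R := Finset.sum_le_sum fun j _ => hγabs j
        _ = (∑ j, β j) * Real.sqrt R := by rw [Finset.sum_mul]
    have h2 := sq_le_sq' (abs_le.mp h1).1 (abs_le.mp h1).2
    rw [mul_pow, Real.sq_sqrt hR] at h2
    exact h2
  have hsum : ∑ j, (t - (y0 + δ j)) * (a j * t - ζ j) ^ 2 =
      ((∑ j, (a j : ℂ) ^ 2) * t - ∑ j, ((a j ^ 2 * (y0 + δ j) + 2 * a j * ζ' j : ℝ) : ℂ)) *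
        ((t - y0) ^ 2 - R) + (((∑ j, β j : ℝ) : ℂ) * (t - y0) - ((∑ j, γ j : ℝ) : ℂ)) := by
    simp only [Complex.ofReal_sum, Finset.sum_mul, ← Finset.sum_sub_distrib,
      ← Finset.sum_add_distrib]
    refine Finset.sum_congr rfl fun j _ => ?_
    simp only [hβ, hγ, hζ']
    push_cast
    ring
  have h' : (t - c0) * ((t - y0) ^ 2 - R) = ((∑ j, β j : ℝ) : ℂ) * (t - y0) - ((∑ j, γ j : ℝ) : ℂ) := by
    rw [hsum] at h
    simp only [hc0]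
    push_cast
    push_cast at h
    linear_combination h
  exact im_eq_zero_of_eq hR hB hΓ h'


end Vale.Agent.Lib.P256
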