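import Vale.Agent.Lib.P256.Shadow
import Vale.Agent.Lib.P256.RealRoots
import Vale.Agent.Lib.P256.ConeLift

namespace Vale.Agent.Lib.P256

open MvPolynomial

variable {m r k : ℕ}

/-- Evaluation of the nodal cubic in any commutative real algebra. -/
lemma aeval_nodalCubic {A : Type} [CommRing A] [Algebra ℝ A] (ω : Fin k → Fin m → ℝ)
    (a : Fin k → ℝ) (b : Fin k → Fin m → ℝ) (c : Fin k → Fin r → ℝ)
    (v : Fin 2 ⊕ (Fin m ⊕ Fin r) → A) :
    aeval v (nodalCubic ω a b c) =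
      v (Sum.inl 0) * (v (Sum.inl 1) ^ 2 - ∑ i, v (Sum.inr (Sum.inl i)) ^ 2) -
        ∑ j, (v (Sum.inl 1) - ∑ i, algebraMap ℝ A (ω j i) * v (Sum.inr (Sum.inl i))) *
          (algebraMap ℝ A (a j) * v (Sum.inl 1) +
            ∑ i, algebraMap ℝ A (b j i) * v (Sum.inr (Sum.inl i)) +
            ∑ l, algebraMap ℝ A (c j l) * v (Sum.inr (Sum.inr l))) ^ 2 := by
  simp [nodalCubic, map_sum]

lemma eval_nodalCubic (ω : Fin k → Fin m → ℝ)
    (a : Fin k → ℝ) (b : Fin k → Fin m → ℝ) (c : Fin k → Fin r → ℝ)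
    (v : Fin 2 ⊕ (Fin m ⊕ Fin r) → ℝ) :
    eval v (nodalCubic ω a b c) =
      v (Sum.inl 0) * (v (Sum.inl 1) ^ 2 - ∑ i, v (Sum.inr (Sum.inl i)) ^ 2) -
        ∑ j, (v (Sum.inl 1) - ∑ i, ω j i * v (Sum.inr (Sum.inl i))) *
          (a j * v (Sum.inl 1) + ∑ i, b j i * v (Sum.inr (Sum.inl i)) +
            ∑ l, c j l * v (Sum.inr (Sum.inr l))) ^ 2 := by
  simp [nodalCubic, map_sum]

lemma nodalCubic_isHomogeneous (ω : Fin k → Fin m → ℝ)
    (a : Fin k → ℝ) (b : Fin k → Fin m → ℝ) (c : Fin k → Fin r → ℝ) :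
    (nodalCubic ω a b c).IsHomogeneous 3 := by
  unfold nodalCubic
  apply IsHomogeneous.sub
  · apply IsHomogeneous.mul (m := 1) (n := 2) (isHomogeneous_X _ _)
    apply IsHomogeneous.sub ((isHomogeneous_X _ _).pow 2)
    apply IsHomogeneous.sum
    intro i _
    exact (isHomogeneous_X _ _).pow 2
  · apply IsHomogeneous.sum
    intro j _
    apply IsHomogeneous.mul (m := 1) (n := 2)
    · apply IsHomogeneous.sub (isHomogeneous_X _ _)
      apply IsHomogeneous.sum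
      intro i _
      exact isHomogeneous_C_mul_X _ _
    · have h1 : (C (a j) * X (Sum.inl 1) + ∑ i, C (b j i) * X (Sum.inr (Sum.inl i)) +
          ∑ l, C (c j l) * X (Sum.inr (Sum.inr l)) : MvPolynomial (Fin 2 ⊕ (Fin m ⊕ Fin r)) ℝ).IsHomogeneous 1 := by
        apply IsHomogeneous.add
        · apply IsHomogeneous.add (isHomogeneous_C_mul_X _ _)
          apply IsHomogeneous.sum
          intro i _
          exact isHomogeneous_C_mul_X _ _
        · apply IsHomogeneous.sum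
          intro i _
          exact isHomogeneous_C_mul_X _ _
      exact h1.pow 2

/-- The restriction of the nodal cubic to the line `t ↦ t e - x`, real version. -/
lemma eval_line (ω : Fin k → Fin m → ℝ) (a : Fin k → ℝ) (b : Fin k → Fin m → ℝ)
    (c : Fin k → Fin r → ℝ) (x : Fin 2 ⊕ (Fin m ⊕ Fin r) → ℝ) (t : ℝ) :
    eval (fun i => t * (Sum.elim ![1 + ∑ j, a j ^ 2, 1] 0 : Fin 2 ⊕ (Fin m ⊕ Fin r) → ℝ) i - x i)
        (nodalCubic ω a b c) =
      ((1 + ∑ j, a j ^ 2) * t - x (Sum.inl 0)) *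
          ((t - x (Sum.inl 1)) ^ 2 - ∑ i, x (Sum.inr (Sum.inl i)) ^ 2) -
        ∑ j, (t - (x (Sum.inl 1) + -∑ i, ω j i * x (Sum.inr (Sum.inl i)))) *
          (a j * t - (a j * x (Sum.inl 1) + ∑ i, b j i * x (Sum.inr (Sum.inl i)) +
            ∑ l, c j l * x (Sum.inr (Sum.inr l)))) ^ 2 := by
  rw [eval_nodalCubic]
  simp only [Sum.elim_inl, Sum.elim_inr, Matrix.cons_val_zero, Matrix.cons_val_one, Pi.zero_apply,
    mul_zero, zero_sub, mul_one, neg_sq, mul_neg, Finset.sum_neg_distrib]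
  congr 1
  · ring
  · refine Finset.sum_congr rfl fun j _ => ?_
    ring

/-- The restriction of the nodal cubic to the line `t ↦ t e - x`, complex version. -/
lemma aeval_line (ω : Fin k → Fin m → ℝ) (a : Fin k → ℝ) (b : Fin k → Fin m → ℝ)
    (c : Fin k → Fin r → ℝ) (x : Fin 2 ⊕ (Fin m ⊕ Fin r) → ℝ) (t : ℂ) :
    aeval (fun i => t * ((Sum.elim ![1 + ∑ j, a j ^ 2, 1] 0 : Fin 2 ⊕ (Fin m ⊕ Fin r) → ℝ) i : ℂ)
        - (x i : ℂ)) (nodalCubic ω a b c) =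
      ((1 + ∑ j, (a j : ℂ) ^ 2) * t - (x (Sum.inl 0) : ℝ)) *
          ((t - (x (Sum.inl 1) : ℝ)) ^ 2 - ((∑ i, x (Sum.inr (Sum.inl i)) ^ 2 : ℝ) : ℂ)) -
        ∑ j, (t - ((x (Sum.inl 1) : ℝ) + ((-∑ i, ω j i * x (Sum.inr (Sum.inl i)) : ℝ) : ℂ))) *
          ((a j : ℝ) * t - ((a j * x (Sum.inl 1) + ∑ i, b j i * x (Sum.inr (Sum.inl i)) +
            ∑ l, c j l * x (Sum.inr (Sum.inr l)) : ℝ) : ℂ)) ^ 2 := by
  rw [aeval_nodalCubic]
  simp only [Sum.elim_inl, Sum.elim_inr, Matrix.cons_val_zero, Matrix.cons_val_one, Pi.zero_apply,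
    Complex.ofReal_zero, mul_zero, zero_sub, Complex.ofReal_one, mul_one, neg_sq, mul_neg,
    Finset.sum_neg_distrib, Complex.coe_algebraMap]
  push_cast
  congr 1
  · ring
  · refine Finset.sum_congr rfl fun j _ => ?_
    ring

lemma delta_sq_le (ω : Fin k → Fin m → ℝ) (hω : ∀ j, ∑ i, ω j i ^ 2 = 1)
    (y : Fin m → ℝ) (j : Fin k) : (-∑ i, ω j i * y i) ^ 2 ≤ ∑ i, y i ^ 2 := by
  rw [neg_sq]
  have := Finset.sum_mul_sq_le_sq_mul_sq Finset.univ (fun i => ω j i) y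
  rw [hω j, one_mul] at this
  exact this

theorem nodalCubic_isHyperbolic (ω : Fin k → Fin m → ℝ) (hω : ∀ j, ∑ i, ω j i ^ 2 = 1)
    (a : Fin k → ℝ) (b : Fin k → Fin m → ℝ) (c : Fin k → Fin r → ℝ) :
    IsHyperbolic (nodalCubic ω a b c) (Sum.elim ![1 + ∑ j, a j ^ 2, 1] 0) := by
  refine ⟨⟨3, nodalCubic_isHomogeneous ω a b c⟩, ?_, ?_⟩
  · rw [eval_nodalCubic]
    simp only [Sum.elim_inl, Sum.elim_inr, Matrix.cons_val_zero, Matrix.cons_val_one,
      Pi.zero_apply, mul_zero, Finset.sum_const_zero, sub_zero, mul_one, add_zero, one_pow,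
      one_mul, ne_eq, OfNat.ofNat_ne_zero, not_false_eq_true, zero_pow]
    linarith
  · intro x t ht
    rw [aeval_line] at ht
    refine roots_real (x (Sum.inl 1)) (∑ i, x (Sum.inr (Sum.inl i)) ^ 2) (x (Sum.inl 0))
      (fun j => -∑ i, ω j i * x (Sum.inr (Sum.inl i))) a
      (fun j => a j * x (Sum.inl 1) + ∑ i, b j i * x (Sum.inr (Sum.inl i)) +
            ∑ l, c j l * x (Sum.inr (Sum.inr l)))
      (Finset.sum_nonneg fun i _ => sq_nonneg _)
      (fun j => delta_sq_le ω hω _ j) t ?_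
    exact ht

end Vale.Agent.Lib.P256
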