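import Mathlib

namespace Vale.Agent.Lib.P256

open MvPolynomial

/-- `p` is hyperbolic with respect to `e`: `p` is homogeneous, `p e > 0`, and for every real
point `x` every complex root `t` of the univariate polynomial `t ↦ p (t e - x)` is real. -/
def IsHyperbolic {σ : Type} (p : MvPolynomial σ ℝ) (e : σ → ℝ) : Prop :=
  (∃ d : ℕ, p.IsHomogeneous d) ∧ 0 < eval e p ∧
    ∀ (x : σ → ℝ) (t : ℂ), aeval (fun i => t * (e i : ℂ) - (x i : ℂ)) p = 0 → t.im = 0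

/-- The closed hyperbolicity cone `K(p, e)`: the points `x` such that every root of
`t ↦ p (t e - x)` is nonnegative. -/
def hyperbolicityCone {σ : Type} (p : MvPolynomial σ ℝ) (e : σ → ℝ) : Set (σ → ℝ) :=
  {x | ∀ t : ℝ, eval (fun i => t * e i - x i) p = 0 → 0 ≤ t}

/-- A spectrahedral shadow: a set `{x | ∃ u, A0 + ∑ x_i A_i + ∑ u_j B_j ⪰ 0}` with real symmetric
matrices `A0`, `A_i`, `B_j` of one finite size. -/
def IsSpectrahedralShadow {σ : Type} [Fintype σ] (S : Set (σ → ℝ)) : Prop :=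
  ∃ (N a : ℕ) (A0 : Matrix (Fin N) (Fin N) ℝ) (A : σ → Matrix (Fin N) (Fin N) ℝ)
    (B : Fin a → Matrix (Fin N) (Fin N) ℝ),
    A0.IsSymm ∧ (∀ i, (A i).IsSymm) ∧ (∀ j, (B j).IsSymm) ∧
      S = {x | ∃ u : Fin a → ℝ, (A0 + ∑ i, x i • A i + ∑ j, u j • B j).PosSemidef}

/-- The cubic `s (y0^2 - ∑ y_i^2) - ∑_j (y0 - ∑_i ω_ji y_i) (a_j y0 + ∑_i b_ji y_i + ∑_l c_jl z_l)^2`
in the variables `s = X (inl 0)`, `y0 = X (inl 1)`, `y_i = X (inr (inl i))`,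
`z_l = X (inr (inr l))`. -/
noncomputable def nodalCubic {m r k : ℕ} (ω : Fin k → Fin m → ℝ) (a : Fin k → ℝ)
    (b : Fin k → Fin m → ℝ) (c : Fin k → Fin r → ℝ) : MvPolynomial (Fin 2 ⊕ (Fin m ⊕ Fin r)) ℝ :=
  X (Sum.inl 0) * (X (Sum.inl 1) ^ 2 - ∑ i, X (Sum.inr (Sum.inl i)) ^ 2) -
    ∑ j, (X (Sum.inl 1) - ∑ i, C (ω j i) * X (Sum.inr (Sum.inl i))) *
      (C (a j) * X (Sum.inl 1) + ∑ i, C (b j i) * X (Sum.inr (Sum.inl i)) +
        ∑ l, C (c j l) * X (Sum.inr (Sum.inr l))) ^ 2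

end Vale.Agent.Lib.P256
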