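import Mathlib

namespace Vale.Agent.Lib.P256

open Polynomial

/-- Coefficientwise complex conjugate of a complex polynomial. -/
noncomputable def pconj (a : ℂ[X]) : ℂ[X] := a.map (starRingEnd ℂ)

/-- The complex polynomial `a` takes nonnegative real values at all real points. -/
def NonnegOnReal (a : ℂ[X]) : Prop :=
  ∀ t : ℝ, 0 ≤ (a.eval (t : ℂ)).re ∧ (a.eval (t : ℂ)).im = 0

end Vale.Agent.Lib.P256
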