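import Vale.Agent.Lib.P256.FRCore
namespace Vale.Agent.Lib.P256
open Polynomial

theorem frDivCplx_pconj_mul (a b : ℂ[X]) : pconj (a * b) = pconj a * pconj b :=
  Polynomial.map_mul _

theorem frDivCplx_pconj_sub (a b : ℂ[X]) : pconj (a - b) = pconj a - pconj b :=
  Polynomial.map_sub _

theorem frDivCplx_pconj_C (c : ℂ) : pconj (C c) = C ((starRingEnd ℂ) c) :=
  Polynomial.map_C _

theorem frDivCplx_pconj_X : pconj X = X :=
  Polynomial.map_X _

theorem frDivCplx_pconj_sum {ι : Type*} (s : Finset ι) (f : ι → ℂ[X]) :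
    pconj (∑ k ∈ s, f k) = ∑ k ∈ s, pconj (f k) :=
  Polynomial.map_sum _ _ _

theorem frDivCplx_eval_pconj (a : ℂ[X]) (z : ℂ) :
    (pconj a).eval ((starRingEnd ℂ) z) = (starRingEnd ℂ) (a.eval z) := by
  unfold pconj
  rw [Polynomial.eval_map, Polynomial.eval₂_at_apply]

/-- Step A: if every entry vanishes at `z₀`, the factor can be divided out. -/
theorem frDivCplx_all_zero {n m : ℕ} (F : Fin n → Fin n → ℂ[X]) (K : Fin m → Fin n → ℂ[X])
    (z₀ : ℂ)
    (h : ∀ i j, (X - C z₀) * (X - C ((starRingEnd ℂ) z₀)) * F i j = ∑ k, pconj (K k i) * K k j)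
    (hall : ∀ k i, (K k i).eval z₀ = 0) :
    ∃ K₁ : Fin m → Fin n → ℂ[X], ∀ i j, F i j = ∑ k, pconj (K₁ k i) * K₁ k j := by
  have hdvd : ∀ k i, ∃ q, K k i = (X - C z₀) * q := fun k i =>
    exists_eq_mul_right_of_dvd (Polynomial.dvd_iff_isRoot.mpr (hall k i))
  choose K₁ hK₁ using hdvd
  refine ⟨K₁, fun i j => ?_⟩
  have hne : (X - C z₀) * (X - C ((starRingEnd ℂ) z₀)) ≠ (0 : ℂ[X]) :=
    mul_ne_zero (Polynomial.X_sub_C_ne_zero _) (Polynomial.X_sub_C_ne_zero _)
  apply mul_left_cancel₀ hne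
  rw [h i j, Finset.mul_sum]
  refine Finset.sum_congr rfl (fun k _ => ?_)
  rw [hK₁ k i, hK₁ k j, frDivCplx_pconj_mul, frDivCplx_pconj_sub, frDivCplx_pconj_X,
    frDivCplx_pconj_C]
  ring

/-- Step B: a rank-one correction with the same Gram matrix that kills one more column at
`z₀` and keeps the columns that already vanish there. -/
theorem frDivCplx_step {n m : ℕ} (F : Fin n → Fin n → ℂ[X]) (K : Fin m → Fin n → ℂ[X])
    (z₀ : ℂ) (hz : z₀.im ≠ 0)
    (h : ∀ i j, (X - C z₀) * (X - C ((starRingEnd ℂ) z₀)) * F i j = ∑ k, pconj (K k i) * K k j)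
    (i₀ : Fin n) (k₀ : Fin m) (hne : (K k₀ i₀).eval z₀ ≠ 0) :
    ∃ K' : Fin m → Fin n → ℂ[X],
      (∀ i j, ∑ k, pconj (K' k i) * K' k j = ∑ k, pconj (K k i) * K k j) ∧
      (∀ k, (K' k i₀).eval z₀ = 0) ∧
      (∀ j, (∀ k, (K k j).eval z₀ = 0) → ∀ k, (K' k j).eval z₀ = 0) := by
  obtain ⟨w, hw⟩ : ∃ w : ℂ, w = (starRingEnd ℂ) z₀ := ⟨_, rfl⟩
  rw [← hw] at h
  have hwc : (starRingEnd ℂ) w = z₀ := by rw [hw, Complex.conj_conj]
  have hzw : z₀ - w ≠ 0 := by
    intro h0
    apply hz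
    have h1 : z₀ = w := sub_eq_zero.mp h0
    rw [hw] at h1
    exact Complex.conj_eq_iff_im.mp h1.symm
  obtain ⟨c, hc⟩ : ∃ c : Fin m → ℂ, ∀ k, c k = (K k i₀).eval z₀ := ⟨_, fun _ => rfl⟩
  obtain ⟨κ, hκ⟩ : ∃ κ : ℝ, κ = ∑ k, Complex.normSq (c k) := ⟨_, rfl⟩
  have hκpos : 0 < κ := by
    have h1 : 0 < Complex.normSq (c k₀) := by
      rw [hc k₀]
      exact Complex.normSq_pos.mpr hne
    have h2 : Complex.normSq (c k₀) ≤ ∑ k, Complex.normSq (c k) :=
      Finset.single_le_sum (fun k _ => Complex.normSq_nonneg (c k)) (Finset.mem_univ k₀)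
    rw [hκ]
    linarith
  have hκC : ((κ : ℝ) : ℂ) = ∑ k, (starRingEnd ℂ) (c k) * c k := by
    rw [hκ, Complex.ofReal_sum]
    exact Finset.sum_congr rfl (fun k _ => Complex.normSq_eq_conj_mul_self)
  have hκne : (κ : ℂ) ≠ 0 := Complex.ofReal_ne_zero.mpr hκpos.ne'
  -- (i) the combination of the rows with the conjugate values vanishes at `w`
  have hev : ∀ j, ∑ k, (starRingEnd ℂ) (c k) * (K k j).eval w = 0 := by
    intro j
    have h1 := congrArg (Polynomial.eval w) (h i₀ j)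
    simp only [Polynomial.eval_mul, Polynomial.eval_sub, Polynomial.eval_X, Polynomial.eval_C,
      sub_self, mul_zero, zero_mul, Polynomial.eval_finsetSum] at h1
    have e : ∀ k, (pconj (K k i₀)).eval w = (starRingEnd ℂ) (c k) := by
      intro k
      rw [hw, frDivCplx_eval_pconj, hc]
    calc ∑ k, (starRingEnd ℂ) (c k) * (K k j).eval w
        = ∑ k, (pconj (K k i₀)).eval w * (K k j).eval w :=
          Finset.sum_congr rfl (fun k _ => by rw [e k])
      _ = 0 := h1.symm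
  have hρw : ∀ j, (∑ k, C ((starRingEnd ℂ) (c k)) * K k j).eval w = 0 := by
    intro j
    rw [Polynomial.eval_finsetSum]
    simp only [Polynomial.eval_mul, Polynomial.eval_C]
    exact hev j
  have hdvd : ∀ j, ∃ q, ∑ k, C ((starRingEnd ℂ) (c k)) * K k j = (X - C w) * q := fun j =>
    exists_eq_mul_right_of_dvd (Polynomial.dvd_iff_isRoot.mpr (hρw j))
  choose ρ' hρ' using hdvd
  -- the conjugate relation
  have R1 : ∀ i, ∑ k, C (c k) * pconj (K k i) = (X - C z₀) * pconj (ρ' i) := by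
    intro i
    have h1 := congrArg pconj (hρ' i)
    rw [frDivCplx_pconj_sum, frDivCplx_pconj_mul, frDivCplx_pconj_sub, frDivCplx_pconj_X,
      frDivCplx_pconj_C, hwc] at h1
    rw [← h1]
    refine Finset.sum_congr rfl (fun k _ => ?_)
    rw [frDivCplx_pconj_mul, frDivCplx_pconj_C, Complex.conj_conj]
  have R3 : ∑ k, C ((starRingEnd ℂ) (c k)) * C (c k) = C (κ : ℂ) := by
    rw [hκC, map_sum]
    exact Finset.sum_congr rfl (fun k _ => (C_mul).symm)
  obtain ⟨β, hβ⟩ : ∃ β : ℂ, β = (z₀ - w) / (κ : ℂ) := ⟨_, rfl⟩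
  have hβκ : β * (κ : ℂ) = z₀ - w := by
    rw [hβ, div_mul_cancel₀ _ hκne]
  have hβκC : C β * C (κ : ℂ) = C z₀ - C w := by
    rw [← C_mul, hβκ, C_sub]
  have hconjβ : (starRingEnd ℂ) β = -β := by
    rw [hβ, map_div₀, map_sub, hwc, ← hw, Complex.conj_ofReal]
    ring
  refine ⟨fun k j => K k j - C (β * c k) * ρ' j, ?_, ?_, ?_⟩
  · -- the Gram matrix is unchanged
    intro i j
    have hp : ∀ k, pconj (K k i - C (β * c k) * ρ' i)
        = pconj (K k i) + C (β * (starRingEnd ℂ) (c k)) * pconj (ρ' i) := by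
      intro k
      rw [frDivCplx_pconj_sub, frDivCplx_pconj_mul, frDivCplx_pconj_C, map_mul, hconjβ]
      simp only [C_mul, C_neg]
      ring
    have expand : ∀ k, pconj (K k i - C (β * c k) * ρ' i) * (K k j - C (β * c k) * ρ' j)
        = pconj (K k i) * K k j - C β * ρ' j * (C (c k) * pconj (K k i))
          + C β * pconj (ρ' i) * (C ((starRingEnd ℂ) (c k)) * K k j)
          - C β * C β * pconj (ρ' i) * ρ' j * (C ((starRingEnd ℂ) (c k)) * C (c k)) := by
      intro k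
      rw [hp k]
      simp only [C_mul]
      ring
    rw [Finset.sum_congr rfl (fun k _ => expand k)]
    simp only [Finset.sum_add_distrib, Finset.sum_sub_distrib, ← Finset.mul_sum]
    rw [R1 i, hρ' j, R3]
    linear_combination (-(C β * pconj (ρ' i) * ρ' j)) * hβκC
  · -- the column `i₀` vanishes at `z₀`
    intro k
    have h1 := congrArg (Polynomial.eval z₀) (hρ' i₀)
    simp only [Polynomial.eval_finsetSum, Polynomial.eval_mul, Polynomial.eval_C,
      Polynomial.eval_sub, Polynomial.eval_X] at h1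
    have h2 : ∑ k, (starRingEnd ℂ) (c k) * (K k i₀).eval z₀ = (κ : ℂ) := by
      rw [hκC]
      exact Finset.sum_congr rfl (fun k _ => by rw [hc k])
    rw [h2] at h1
    have h3 : β * (ρ' i₀).eval z₀ = 1 := by
      rw [hβ, div_mul_eq_mul_div, ← h1, div_self hκne]
    simp only [Polynomial.eval_sub, Polynomial.eval_mul, Polynomial.eval_C]
    rw [← hc k]
    linear_combination (-(c k)) * h3
  · -- columns vanishing at `z₀` keep vanishing
    intro j hj k
    have h1 := congrArg (Polynomial.eval z₀) (hρ' j)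
    simp only [Polynomial.eval_finsetSum, Polynomial.eval_mul, Polynomial.eval_C,
      Polynomial.eval_sub, Polynomial.eval_X] at h1
    have h2 : ∑ k, (starRingEnd ℂ) (c k) * (K k j).eval z₀ = 0 := by
      apply Finset.sum_eq_zero
      intro k _
      rw [hj k, mul_zero]
    rw [h2] at h1
    have h3 : (ρ' j).eval z₀ = 0 := by
      rcases mul_eq_zero.mp h1.symm with h4 | h4
      · exact absurd h4 hzw
      · exact h4
    simp only [Polynomial.eval_sub, Polynomial.eval_mul, Polynomial.eval_C]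
    rw [hj k, h3]
    ring

/-- Induction on a bound for the number of columns that do not vanish at `z₀`. -/
theorem frDivCplx_aux {n m : ℕ} (F : Fin n → Fin n → ℂ[X]) (z₀ : ℂ) (hz : z₀.im ≠ 0) :
    ∀ (N : ℕ) (K : Fin m → Fin n → ℂ[X]),
      (∃ s : Finset (Fin n), s.card ≤ N ∧ ∀ i, i ∉ s → ∀ k, (K k i).eval z₀ = 0) →
      (∀ i j, (X - C z₀) * (X - C ((starRingEnd ℂ) z₀)) * F i j
        = ∑ k, pconj (K k i) * K k j) →
      ∃ K₁ : Fin m → Fin n → ℂ[X], ∀ i j, F i j = ∑ k, pconj (K₁ k i) * K₁ k j := by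
  intro N
  induction N with
  | zero =>
    intro K hs h
    obtain ⟨s, hcard, hs0⟩ := hs
    have hse : s = ∅ := Finset.card_eq_zero.mp (Nat.le_zero.mp hcard)
    apply frDivCplx_all_zero F K z₀ h
    intro k i
    exact hs0 i (by rw [hse]; exact Finset.notMem_empty i) k
  | succ N ih =>
    intro K hs h
    obtain ⟨s, hcard, hs0⟩ := hs
    by_cases hall : ∀ k i, (K k i).eval z₀ = 0
    · exact frDivCplx_all_zero F K z₀ h hall
    · push Not at hall
      obtain ⟨k₀, i₀, hne⟩ := hall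
      have hi₀ : i₀ ∈ s := by
        by_contra hcon
        exact hne (hs0 i₀ hcon k₀)
      obtain ⟨K', hG, hz0, hzero⟩ := frDivCplx_step F K z₀ hz h i₀ k₀ hne
      apply ih K'
      · refine ⟨s.erase i₀, ?_, ?_⟩
        · have h2 := Finset.card_erase_add_one hi₀
          omega
        · intro i hi k
          by_cases hii : i = i₀
          · rw [hii]
            exact hz0 k
          · have his : i ∉ s := fun hmem => hi (Finset.mem_erase.mpr ⟨hii, hmem⟩)
            exact hzero i (hs0 i his) k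
      · intro i j
        rw [h i j, hG i j]

theorem frDiv_cplx {n m : ℕ} (F : Fin n → Fin n → ℂ[X]) (K : Fin m → Fin n → ℂ[X]) (z₀ : ℂ)
    (hz : z₀.im ≠ 0)
    (h : ∀ i j, (X - C z₀) * (X - C ((starRingEnd ℂ) z₀)) * F i j = ∑ k, pconj (K k i) * K k j) :
    ∃ K₁ : Fin m → Fin n → ℂ[X], ∀ i j, F i j = ∑ k, pconj (K₁ k i) * K₁ k j :=
  frDivCplx_aux F z₀ hz n K
    ⟨Finset.univ, by rw [Finset.card_univ, Fintype.card_fin],
      fun i hi => absurd (Finset.mem_univ i) hi⟩ h

end Vale.Agent.Lib.P256
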