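import Vale.Agent.Lib.P256.FRCore
namespace Vale.Agent.Lib.P256
open Polynomial

theorem frDivReal_eval_pconj (a : ℂ[X]) (t : ℝ) :
    (pconj a).eval (t : ℂ) = (starRingEnd ℂ) (a.eval (t : ℂ)) := by
  unfold pconj
  rw [Polynomial.eval_map]
  have h1 : a.eval₂ (starRingEnd ℂ) ((starRingEnd ℂ) (t : ℂ)) = (starRingEnd ℂ) (a.eval (t : ℂ)) :=
    Polynomial.eval₂_hom (starRingEnd ℂ) (t : ℂ)
  rw [Complex.conj_ofReal] at h1
  exact h1

theorem frDivReal_pconj_mul (a b : ℂ[X]) : pconj (a * b) = pconj a * pconj b := by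
  unfold pconj
  rw [Polynomial.map_mul]

theorem frDivReal_pconj_lin (t : ℝ) : pconj (X - C (t : ℂ)) = X - C (t : ℂ) := by
  unfold pconj
  rw [Polynomial.map_sub, Polynomial.map_X, Polynomial.map_C, Complex.conj_ofReal]

theorem frDivReal_root {n m : ℕ} (F : Fin n → Fin n → ℂ[X]) (K : Fin m → Fin n → ℂ[X]) (t₀ : ℝ)
    (h : ∀ i j, (X - C (t₀ : ℂ)) ^ 2 * F i j = ∑ k, pconj (K k i) * K k j) (k : Fin m)
    (i : Fin n) : (K k i).eval (t₀ : ℂ) = 0 := by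
  have h1 := congrArg (fun p : ℂ[X] => p.eval (t₀ : ℂ)) (h i i)
  simp only [Polynomial.eval_mul, Polynomial.eval_pow, Polynomial.eval_sub, Polynomial.eval_X,
    Polynomial.eval_C, sub_self, ne_eq, OfNat.ofNat_ne_zero, not_false_eq_true, zero_pow,
    zero_mul, Polynomial.eval_finsetSum, frDivReal_eval_pconj] at h1
  have h2 : ∑ k, Complex.normSq ((K k i).eval (t₀ : ℂ)) = 0 := by
    have h3 := congrArg Complex.re h1
    rw [Complex.re_sum] at h3
    simp only [Complex.zero_re] at h3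
    rw [h3]
    refine Finset.sum_congr rfl ?_
    intro k _
    rw [mul_comm, Complex.mul_conj]
    simp
  have h4 := (Finset.sum_eq_zero_iff_of_nonneg (fun k _ => Complex.normSq_nonneg _)).mp h2 k
    (Finset.mem_univ k)
  exact Complex.normSq_eq_zero.mp h4

theorem frDiv_real {n m : ℕ} (F : Fin n → Fin n → ℂ[X]) (K : Fin m → Fin n → ℂ[X]) (t₀ : ℝ)
    (h : ∀ i j, (X - C (t₀ : ℂ)) ^ 2 * F i j = ∑ k, pconj (K k i) * K k j) :
    ∃ K₁ : Fin m → Fin n → ℂ[X], ∀ i j, F i j = ∑ k, pconj (K₁ k i) * K₁ k j := by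
  have hdiv : ∀ k i, ∃ q : ℂ[X], K k i = (X - C (t₀ : ℂ)) * q := by
    intro k i
    exact Polynomial.dvd_iff_isRoot.mpr (frDivReal_root F K t₀ h k i)
  choose K₁ hK₁ using hdiv
  refine ⟨K₁, ?_⟩
  intro i j
  have hne : (X - C (t₀ : ℂ)) ^ 2 ≠ 0 := pow_ne_zero 2 (X_sub_C_ne_zero _)
  apply mul_left_cancel₀ hne
  rw [h i j, Finset.mul_sum]
  refine Finset.sum_congr rfl ?_
  intro k _
  rw [hK₁ k i, hK₁ k j, frDivReal_pconj_mul, frDivReal_pconj_lin]
  ring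

end Vale.Agent.Lib.P256
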