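import Vale.Agent.Lib.P256.FRRoot
import Vale.Agent.Lib.P256.FRDivReal
import Vale.Agent.Lib.P256.FRDivCplx
namespace Vale.Agent.Lib.P256
open Polynomial

theorem frDivGen_pconj_C_real (r : ℝ) : pconj (C ((r : ℝ) : ℂ)) = C ((r : ℝ) : ℂ) := by
  unfold pconj
  rw [Polynomial.map_C, Complex.conj_ofReal]

theorem frDivGen_pconj_mul (a b : ℂ[X]) : pconj (a * b) = pconj a * pconj b := by
  unfold pconj
  rw [Polynomial.map_mul]

theorem frDivGen_aux {n m : ℕ} (d : ℕ) :
    ∀ (a : ℂ[X]), a.natDegree = d → NonnegOnReal a → a ≠ 0 →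
      ∀ (F : Fin n → Fin n → ℂ[X]) (K : Fin m → Fin n → ℂ[X]),
        (∀ i j, a * F i j = ∑ k, pconj (K k i) * K k j) →
        ∃ K₁ : Fin m → Fin n → ℂ[X], ∀ i j, F i j = ∑ k, pconj (K₁ k i) * K₁ k j := by
  induction d using Nat.strong_induction_on with
  | _ d ih =>
    intro a hd ha ha0 F K h
    by_cases hd0 : a.natDegree = 0
    · obtain ⟨c, hc, hac⟩ := frRoot_const a ha hd0
      have hc0 : c ≠ 0 := by
        intro hzero
        apply ha0
        rw [hac, hzero]
        simp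
      have hcpos : 0 < c := lt_of_le_of_ne hc (Ne.symm hc0)
      have hs : 0 < Real.sqrt c := Real.sqrt_pos.mpr hcpos
      refine ⟨fun k i => C (((1 / Real.sqrt c : ℝ)) : ℂ) * K k i, ?_⟩
      intro i j
      have hij := h i j
      have e1 : ∀ k, pconj (C (((1 / Real.sqrt c : ℝ)) : ℂ) * K k i)
            * (C (((1 / Real.sqrt c : ℝ)) : ℂ) * K k j)
          = C (((1 / c : ℝ)) : ℂ) * (pconj (K k i) * K k j) := by
        intro k
        rw [frDivGen_pconj_mul, frDivGen_pconj_C_real]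
        have e2 : C (((1 / Real.sqrt c : ℝ)) : ℂ) * C (((1 / Real.sqrt c : ℝ)) : ℂ)
            = C (((1 / c : ℝ)) : ℂ) := by
          rw [← C_mul, ← Complex.ofReal_mul]
          congr 2
          rw [div_mul_div_comm, one_mul, Real.mul_self_sqrt hc]
        calc C (((1 / Real.sqrt c : ℝ)) : ℂ) * pconj (K k i)
              * (C (((1 / Real.sqrt c : ℝ)) : ℂ) * K k j)
            = (C (((1 / Real.sqrt c : ℝ)) : ℂ) * C (((1 / Real.sqrt c : ℝ)) : ℂ))
              * (pconj (K k i) * K k j) := by ring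
          _ = C (((1 / c : ℝ)) : ℂ) * (pconj (K k i) * K k j) := by rw [e2]
      rw [Finset.sum_congr rfl (fun k _ => e1 k), ← Finset.mul_sum, ← hij, hac, ← mul_assoc,
        ← C_mul, ← Complex.ofReal_mul, one_div, inv_mul_cancel₀ hc0]
      simp
    · have hpos : 0 < a.natDegree := Nat.pos_of_ne_zero hd0
      obtain ⟨a₁, ha₁, hdeg, hcase⟩ := frRoot_split a ha hpos
      have ha₁0 : a₁ ≠ 0 := by
        intro hzero
        apply ha0
        rcases hcase with ⟨t₀, ht⟩ | ⟨z₀, _, hz⟩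
        · rw [ht, hzero, mul_zero]
        · rw [hz, hzero, mul_zero]
      have hlt : a₁.natDegree < d := by
        rw [← hd]
        exact hdeg
      rcases hcase with ⟨t₀, ht⟩ | ⟨z₀, hz0, hz⟩
      · have h' : ∀ i j, (X - C (t₀ : ℂ)) ^ 2 * (a₁ * F i j) = ∑ k, pconj (K k i) * K k j := by
          intro i j
          rw [← h i j, ht]
          ring
        obtain ⟨K', hK'⟩ := frDiv_real (fun i j => a₁ * F i j) K t₀ h'
        exact ih a₁.natDegree hlt a₁ rfl ha₁ ha₁0 F K' hK'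
      · have h' : ∀ i j, (X - C z₀) * (X - C ((starRingEnd ℂ) z₀)) * (a₁ * F i j)
            = ∑ k, pconj (K k i) * K k j := by
          intro i j
          rw [← h i j, hz]
          ring
        obtain ⟨K', hK'⟩ := frDiv_cplx (fun i j => a₁ * F i j) K z₀ hz0 h'
        exact ih a₁.natDegree hlt a₁ rfl ha₁ ha₁0 F K' hK'

theorem frDiv {n m : ℕ} (F : Fin n → Fin n → ℂ[X]) (K : Fin m → Fin n → ℂ[X]) (a : ℂ[X])
    (ha : NonnegOnReal a) (ha0 : a ≠ 0)
    (h : ∀ i j, a * F i j = ∑ k, pconj (K k i) * K k j) :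
    ∃ K₁ : Fin m → Fin n → ℂ[X], ∀ i j, F i j = ∑ k, pconj (K₁ k i) * K₁ k j :=
  frDivGen_aux a.natDegree a rfl ha ha0 F K h

end Vale.Agent.Lib.P256
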