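import Vale.Agent.Lib.P256.FRDiv
namespace Vale.Agent.Lib.P256
open Polynomial

/-- a polynomial with real coefficients is fixed by the coefficientwise conjugation -/
theorem frMain_pconj_real (f : ℝ[X]) :
    pconj (f.map (algebraMap ℝ ℂ)) = f.map (algebraMap ℝ ℂ) := by
  unfold pconj
  rw [Polynomial.map_map]
  congr 1
  ext x
  simp

theorem frMain_pconj_zero : pconj 0 = 0 := by
  unfold pconj
  exact Polynomial.map_zero _

/-- the quadratic form of a matrix with one more row and column, expanded along the first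
row and column -/
theorem frMain_expand {n : ℕ} (F : Fin (n + 1) → Fin (n + 1) → ℝ[X])
    (hsymm : ∀ i j, F i j = F j i) (t x : ℝ) (η : Fin n → ℝ) :
    ∑ i, ∑ j, (Fin.cons x η : Fin (n + 1) → ℝ) i * (F i j).eval t
        * (Fin.cons x η : Fin (n + 1) → ℝ) j
      = (F 0 0).eval t * (x * x) + (2 * ∑ i, η i * (F i.succ 0).eval t) * x
        + ∑ i, ∑ j, η i * (F i.succ j.succ).eval t * η j := by
  simp only [Fin.sum_univ_succ, Fin.cons_zero, Fin.cons_succ]
  have e1 : ∑ j, x * (F 0 j.succ).eval t * η j = x * ∑ i, η i * (F i.succ 0).eval t := by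
    rw [Finset.mul_sum]
    apply Finset.sum_congr rfl
    intro j _
    rw [hsymm 0 j.succ]
    ring
  have e2 : ∑ i, η i * (F i.succ 0).eval t * x = (∑ i, η i * (F i.succ 0).eval t) * x := by
    rw [Finset.sum_mul]
  rw [Finset.sum_add_distrib, e1, e2]
  ring

theorem frMain_quad {n : ℕ} (F : Fin (n + 1) → Fin (n + 1) → ℝ[X])
    (hsymm : ∀ i j, F i j = F j i)
    (hpsd : ∀ (t : ℝ) (ξ : Fin (n + 1) → ℝ), 0 ≤ ∑ i, ∑ j, ξ i * (F i j).eval t * ξ j)
    (t : ℝ) (η : Fin n → ℝ) (x : ℝ) :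
    0 ≤ (F 0 0).eval t * (x * x) + (2 * ∑ i, η i * (F i.succ 0).eval t) * x
        + ∑ i, ∑ j, η i * (F i.succ j.succ).eval t * η j := by
  rw [← frMain_expand F hsymm t x η]
  exact hpsd t (Fin.cons x η)

theorem frMain_a_nonneg {n : ℕ} (F : Fin (n + 1) → Fin (n + 1) → ℝ[X])
    (hsymm : ∀ i j, F i j = F j i)
    (hpsd : ∀ (t : ℝ) (ξ : Fin (n + 1) → ℝ), 0 ≤ ∑ i, ∑ j, ξ i * (F i j).eval t * ξ j)
    (t : ℝ) : 0 ≤ (F 0 0).eval t := by
  have h := frMain_quad F hsymm hpsd t (fun _ => 0) 1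
  simpa using h

theorem frMain_D_psd {n : ℕ} (F : Fin (n + 1) → Fin (n + 1) → ℝ[X])
    (hsymm : ∀ i j, F i j = F j i)
    (hpsd : ∀ (t : ℝ) (ξ : Fin (n + 1) → ℝ), 0 ≤ ∑ i, ∑ j, ξ i * (F i j).eval t * ξ j)
    (t : ℝ) (η : Fin n → ℝ) : 0 ≤ ∑ i, ∑ j, η i * (F i.succ j.succ).eval t * η j := by
  have h := frMain_quad F hsymm hpsd t η 0
  simpa using h

theorem frMain_cs {n : ℕ} (F : Fin (n + 1) → Fin (n + 1) → ℝ[X])
    (hsymm : ∀ i j, F i j = F j i)
    (hpsd : ∀ (t : ℝ) (ξ : Fin (n + 1) → ℝ), 0 ≤ ∑ i, ∑ j, ξ i * (F i j).eval t * ξ j)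
    (t : ℝ) (η : Fin n → ℝ) :
    (∑ i, η i * (F i.succ 0).eval t) ^ 2
      ≤ (F 0 0).eval t * ∑ i, ∑ j, η i * (F i.succ j.succ).eval t * η j := by
  have h := discrim_le_zero (frMain_quad F hsymm hpsd t η)
  rw [discrim] at h
  nlinarith

/-- the family with one more row and one more column -/
noncomputable def frMain_K {n m : ℕ} (a : ℂ[X]) (b : Fin n → ℂ[X])
    (H : Fin m → Fin n → ℂ[X]) : Fin (m + 1) → Fin (n + 1) → ℂ[X] :=
  fun k j => Fin.cases (Fin.cases a b j) (fun k' => Fin.cases 0 (H k') j) k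

theorem frMain_gram00 {n m : ℕ} (a : ℂ[X]) (b : Fin n → ℂ[X]) (H : Fin m → Fin n → ℂ[X])
    (ha : pconj a = a) :
    ∑ k, pconj (frMain_K a b H k 0) * frMain_K a b H k 0 = a * a := by
  rw [Fin.sum_univ_succ]
  simp [frMain_K, ha, frMain_pconj_zero]

theorem frMain_gram0s {n m : ℕ} (a : ℂ[X]) (b : Fin n → ℂ[X]) (H : Fin m → Fin n → ℂ[X])
    (ha : pconj a = a) (j : Fin n) :
    ∑ k, pconj (frMain_K a b H k 0) * frMain_K a b H k j.succ = a * b j := by
  rw [Fin.sum_univ_succ]
  simp [frMain_K, ha, frMain_pconj_zero]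

theorem frMain_grams0 {n m : ℕ} (a : ℂ[X]) (b : Fin n → ℂ[X]) (H : Fin m → Fin n → ℂ[X])
    (hb : ∀ i, pconj (b i) = b i) (i : Fin n) :
    ∑ k, pconj (frMain_K a b H k i.succ) * frMain_K a b H k 0 = b i * a := by
  rw [Fin.sum_univ_succ]
  simp [frMain_K, hb]

theorem frMain_gramss {n m : ℕ} (a : ℂ[X]) (b : Fin n → ℂ[X]) (H : Fin m → Fin n → ℂ[X])
    (hb : ∀ i, pconj (b i) = b i) (i j : Fin n) :
    ∑ k, pconj (frMain_K a b H k i.succ) * frMain_K a b H k j.succ
      = b i * b j + ∑ k, pconj (H k i) * H k j := by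
  rw [Fin.sum_univ_succ]
  simp [frMain_K, hb]

theorem fr_main (n : ℕ) (F : Fin n → Fin n → ℝ[X]) (hsymm : ∀ i j, F i j = F j i)
    (hpsd : ∀ (t : ℝ) (ξ : Fin n → ℝ), 0 ≤ ∑ i, ∑ j, ξ i * (F i j).eval t * ξ j) :
    ∃ (m : ℕ) (H : Fin m → Fin n → ℂ[X]), ∀ i j,
      (F i j).map (algebraMap ℝ ℂ) = ∑ k, pconj (H k i) * H k j := by
  induction n with
  | zero => exact ⟨0, fun k => k.elim0, fun i => i.elim0⟩
  | succ n ih =>
    have hDs : ∀ i j : Fin n, F i.succ j.succ = F j.succ i.succ := fun i j => hsymm _ _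
    by_cases ha : F 0 0 = 0
    · -- the degenerate case: the first row and column vanish
      have hb : ∀ i : Fin n, F i.succ 0 = 0 := by
        intro i
        apply Polynomial.funext
        intro t
        have h := frMain_cs F hsymm hpsd t (Pi.single i 1)
        rw [ha] at h
        simp only [Polynomial.eval_zero, zero_mul] at h
        have h2 : (∑ i', (Pi.single i 1 : Fin n → ℝ) i' * (F i'.succ 0).eval t) = 0 := by
          nlinarith [sq_nonneg (∑ i', (Pi.single i 1 : Fin n → ℝ) i' * (F i'.succ 0).eval t)]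
        simp only [Pi.single_apply, ite_mul, one_mul, zero_mul, Finset.sum_ite_eq',
          Finset.mem_univ, if_true] at h2
        simpa using h2
      obtain ⟨m, H', hH'⟩ := ih (fun i j => F i.succ j.succ) hDs
        (fun t η => frMain_D_psd F hsymm hpsd t η)
      refine ⟨m, fun k => Fin.cases 0 (fun j => H' k j), ?_⟩
      intro i j
      rcases Fin.eq_zero_or_eq_succ i with rfl | ⟨i', rfl⟩
      · have h0j : F 0 j = 0 := by
          rcases Fin.eq_zero_or_eq_succ j with rfl | ⟨j', rfl⟩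
          · exact ha
          · rw [hsymm]
            exact hb j'
        rw [h0j]
        simp [frMain_pconj_zero]
      · rcases Fin.eq_zero_or_eq_succ j with rfl | ⟨j', rfl⟩
        · rw [hb i']
          simp
        · simpa using hH' i' j'
    · -- the main case: a Schur complement
      have hane : (F 0 0).map (algebraMap ℝ ℂ) ≠ 0 := by
        intro h0
        apply ha
        apply Polynomial.map_injective (algebraMap ℝ ℂ) (algebraMap ℝ ℂ).injective
        rw [h0, Polynomial.map_zero]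
      have hnn : NonnegOnReal ((F 0 0).map (algebraMap ℝ ℂ)) := by
        intro t
        have h : ((F 0 0).map (algebraMap ℝ ℂ)).eval (t : ℂ) = (((F 0 0).eval t : ℝ) : ℂ) := by
          rw [Polynomial.eval_map]
          exact Polynomial.eval₂_at_apply (algebraMap ℝ ℂ) t
        rw [h]
        exact ⟨by simpa using frMain_a_nonneg F hsymm hpsd t, by simp⟩
      have hD's : ∀ i j : Fin n, F 0 0 * F i.succ j.succ - F i.succ 0 * F j.succ 0
          = F 0 0 * F j.succ i.succ - F j.succ 0 * F i.succ 0 := by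
        intro i j
        rw [hsymm i.succ j.succ]
        ring
      have hD'p : ∀ (t : ℝ) (η : Fin n → ℝ), 0 ≤ ∑ i, ∑ j,
          η i * (F 0 0 * F i.succ j.succ - F i.succ 0 * F j.succ 0).eval t * η j := by
        intro t η
        have h := frMain_cs F hsymm hpsd t η
        have e : ∑ i, ∑ j, η i * (F 0 0 * F i.succ j.succ - F i.succ 0 * F j.succ 0).eval t * η j
            = (F 0 0).eval t * ∑ i, ∑ j, η i * (F i.succ j.succ).eval t * η j
              - (∑ i, η i * (F i.succ 0).eval t) ^ 2 := by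
          rw [sq, Finset.sum_mul_sum, Finset.mul_sum, ← Finset.sum_sub_distrib]
          apply Finset.sum_congr rfl
          intro i _
          rw [Finset.mul_sum, ← Finset.sum_sub_distrib]
          apply Finset.sum_congr rfl
          intro j _
          simp only [Polynomial.eval_sub, Polynomial.eval_mul]
          ring
        rw [e]
        linarith
      obtain ⟨m, H', hH'⟩ := ih
        (fun i j => F 0 0 * F i.succ j.succ - F i.succ 0 * F j.succ 0) hD's hD'p
      have hKa : pconj ((F 0 0).map (algebraMap ℝ ℂ)) = (F 0 0).map (algebraMap ℝ ℂ) :=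
        frMain_pconj_real _
      have hKb : ∀ i : Fin n, pconj ((F i.succ 0).map (algebraMap ℝ ℂ))
          = (F i.succ 0).map (algebraMap ℝ ℂ) := fun i => frMain_pconj_real _
      obtain ⟨K₁, hK₁⟩ := frDiv (fun i j => (F i j).map (algebraMap ℝ ℂ))
        (frMain_K ((F 0 0).map (algebraMap ℝ ℂ)) (fun i => (F i.succ 0).map (algebraMap ℝ ℂ)) H')
        ((F 0 0).map (algebraMap ℝ ℂ)) hnn hane (by
          intro i j
          rcases Fin.eq_zero_or_eq_succ i with rfl | ⟨i', rfl⟩
          · rcases Fin.eq_zero_or_eq_succ j with rfl | ⟨j', rfl⟩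
            · rw [frMain_gram00 _ _ _ hKa]
            · rw [frMain_gram0s _ _ _ hKa, hsymm 0 j'.succ]
          · rcases Fin.eq_zero_or_eq_succ j with rfl | ⟨j', rfl⟩
            · rw [frMain_grams0 _ _ _ hKb]
              ring
            · rw [frMain_gramss _ _ _ hKb, ← hH' i' j']
              simp only [Polynomial.map_sub, Polynomial.map_mul]
              ring)
      exact ⟨m + 1, K₁, hK₁⟩

end Vale.Agent.Lib.P256
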