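import Vale.Agent.Lib.P256.FRMain
namespace Vale.Agent.Lib.P256
open Polynomial

/-- The real polynomial whose coefficients are the real parts of the coefficients of `h`. -/
noncomputable def frReal_re (h : ℂ[X]) : ℝ[X] :=
  ∑ d ∈ Finset.range (h.natDegree + 1), C (h.coeff d).re * X ^ d

/-- The real polynomial whose coefficients are the imaginary parts of the coefficients of `h`. -/
noncomputable def frReal_im (h : ℂ[X]) : ℝ[X] :=
  ∑ d ∈ Finset.range (h.natDegree + 1), C (h.coeff d).im * X ^ d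

theorem frReal_re_eval (h : ℂ[X]) (t : ℝ) :
    (frReal_re h).eval t = (h.eval (t : ℂ)).re := by
  rw [frReal_re, Polynomial.eval_finsetSum, Polynomial.eval_eq_sum_range, Complex.re_sum]
  apply Finset.sum_congr rfl
  intro d _
  simp only [eval_mul, eval_C, eval_pow, eval_X]
  rw [← Complex.ofReal_pow, Complex.re_mul_ofReal]

theorem frReal_im_eval (h : ℂ[X]) (t : ℝ) :
    (frReal_im h).eval t = (h.eval (t : ℂ)).im := by
  rw [frReal_im, Polynomial.eval_finsetSum, Polynomial.eval_eq_sum_range, Complex.im_sum]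
  apply Finset.sum_congr rfl
  intro d _
  simp only [eval_mul, eval_C, eval_pow, eval_X]
  rw [← Complex.ofReal_pow, Complex.im_mul_ofReal]

theorem frReal_pconj_eval (a : ℂ[X]) (t : ℝ) :
    (pconj a).eval (t : ℂ) = (starRingEnd ℂ) (a.eval (t : ℂ)) := by
  rw [pconj, Polynomial.eval_map]
  have h1 := Polynomial.hom_eval₂ a (RingHom.id ℂ) (starRingEnd ℂ) (t : ℂ)
  rw [Polynomial.eval₂_id] at h1
  rw [h1, Complex.conj_ofReal, RingHom.comp_id]

theorem frReal_map_eval (f : ℝ[X]) (t : ℝ) :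
    (f.map (algebraMap ℝ ℂ)).eval (t : ℂ) = ((f.eval t : ℝ) : ℂ) := by
  rw [Polynomial.eval_map]
  exact Polynomial.eval₂_at_apply (algebraMap ℝ ℂ) t

theorem frReal_deg_sq (m : ℕ) (g : Fin m → ℝ[X]) (k : Fin m) :
    2 * (g k).natDegree ≤ (∑ k, g k * g k).natDegree := by
  obtain ⟨d, hd⟩ : ∃ d : ℕ, d = Finset.univ.sup fun k => (g k).natDegree := ⟨_, rfl⟩
  have hle : ∀ k, (g k).natDegree ≤ d := by
    intro k
    rw [hd]
    exact Finset.le_sup (f := fun k => (g k).natDegree) (Finset.mem_univ k)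
  obtain ⟨k₀, -, hk₀⟩ := Finset.exists_mem_eq_sup Finset.univ ⟨k, Finset.mem_univ k⟩
    fun k => (g k).natDegree
  rw [← hd] at hk₀
  by_cases hd0 : d = 0
  · have := hle k
    omega
  · have hcoeff : (∑ k, g k * g k).coeff (d + d) = ∑ k, (g k).coeff d * (g k).coeff d := by
      rw [Polynomial.finsetSum_coeff]
      apply Finset.sum_congr rfl
      intro j _
      exact Polynomial.coeff_mul_add_eq_of_natDegree_le (hle j) (hle j)
    have hne : (g k₀).coeff d ≠ 0 := by
      rw [hk₀]
      have hg : g k₀ ≠ 0 := by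
        intro h0
        rw [h0, natDegree_zero] at hk₀
        exact hd0 hk₀
      exact Polynomial.leadingCoeff_ne_zero.2 hg
    have hpos : 0 < ∑ k, (g k).coeff d * (g k).coeff d := by
      have h1 : (g k₀).coeff d * (g k₀).coeff d ≤ ∑ k, (g k).coeff d * (g k).coeff d :=
        Finset.single_le_sum (f := fun k => (g k).coeff d * (g k).coeff d)
          (fun j _ => mul_self_nonneg _) (Finset.mem_univ k₀)
      have h2 : 0 < (g k₀).coeff d * (g k₀).coeff d := mul_self_pos.2 hne
      linarith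
    have h3 : d + d ≤ (∑ k, g k * g k).natDegree := by
      apply Polynomial.le_natDegree_of_ne_zero
      rw [hcoeff]
      exact ne_of_gt hpos
    have := hle k
    omega

theorem fr_real (n : ℕ) (F : Fin n → Fin n → ℝ[X]) (hsymm : ∀ i j, F i j = F j i)
    (hpsd : ∀ (t : ℝ) (ξ : Fin n → ℝ), 0 ≤ ∑ i, ∑ j, ξ i * (F i j).eval t * ξ j) :
    ∃ (m : ℕ) (G : Fin m → Fin n → ℝ[X]), (∀ i j, F i j = ∑ k, G k i * G k j) ∧
      ∀ k i, 2 * (G k i).natDegree ≤ (F i i).natDegree := by
  obtain ⟨m₀, H, hH⟩ := fr_main n F hsymm hpsd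
  obtain ⟨G, hG⟩ : ∃ G : Fin (m₀ + m₀) → Fin n → ℝ[X], G = fun k i =>
      Fin.addCases (fun k' => frReal_re (H k' i)) (fun k' => frReal_im (H k' i)) k := ⟨_, rfl⟩
  have hFG : ∀ i j, F i j = ∑ k, G k i * G k j := by
    intro i j
    apply Polynomial.funext
    intro t
    have h1 := congrArg (fun p : ℂ[X] => (p.eval (t : ℂ)).re) (hH i j)
    simp only [frReal_map_eval, Complex.ofReal_re, Polynomial.eval_finsetSum, eval_mul,
      frReal_pconj_eval, Complex.re_sum, Complex.mul_re, Complex.conj_re, Complex.conj_im] at h1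
    rw [h1, Polynomial.eval_finsetSum, Fin.sum_univ_add, ← Finset.sum_add_distrib]
    apply Finset.sum_congr rfl
    intro k _
    rw [hG]
    simp only [Fin.addCases_left, Fin.addCases_right, eval_mul, frReal_re_eval, frReal_im_eval]
    ring
  refine ⟨m₀ + m₀, G, hFG, ?_⟩
  intro k i
  rw [hFG i i]
  exact frReal_deg_sq (m₀ + m₀) (fun k => G k i) k

end Vale.Agent.Lib.P256
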