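import Vale.Agent.Lib.P256.FRCore
namespace Vale.Agent.Lib.P256
open Polynomial

theorem frRoot_eval_pconj (a : ℂ[X]) (z : ℂ) :
    (pconj a).eval ((starRingEnd ℂ) z) = (starRingEnd ℂ) (a.eval z) := by
  unfold pconj
  rw [Polynomial.eval_map, Polynomial.eval₂_hom]

theorem frRoot_pconj_eq (a : ℂ[X]) (ha : NonnegOnReal a) : pconj a = a := by
  apply Polynomial.eq_of_infinite_eval_eq
  refine Set.Infinite.mono ?_ (Set.infinite_range_of_injective Complex.ofReal_injective)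
  rintro _ ⟨t, rfl⟩
  have h := frRoot_eval_pconj a (t : ℂ)
  rw [Complex.conj_ofReal] at h
  show (pconj a).eval (t : ℂ) = a.eval (t : ℂ)
  rw [h]
  exact Complex.conj_eq_iff_im.mpr (ha t).2

theorem frRoot_const (a : ℂ[X]) (ha : NonnegOnReal a) (hdeg : a.natDegree = 0) :
    ∃ c : ℝ, 0 ≤ c ∧ a = C (c : ℂ) := by
  have h := Polynomial.eq_C_of_natDegree_eq_zero hdeg
  have h0 := ha 0
  rw [h] at h0
  simp only [eval_C] at h0
  have hc : a.coeff 0 = ((a.coeff 0).re : ℂ) := Complex.ext (by simp) (by simp [h0.2])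
  refine ⟨(a.coeff 0).re, h0.1, ?_⟩
  rw [← hc]
  exact h

theorem frRoot_scale (a a₁ : ℂ[X]) (t : ℝ) (N : ℝ) (hN : 0 < N) (ha : NonnegOnReal a)
    (h : a.eval (t : ℂ) = (N : ℂ) * a₁.eval (t : ℂ)) :
    0 ≤ (a₁.eval (t : ℂ)).re ∧ (a₁.eval (t : ℂ)).im = 0 := by
  have h1 := ha t
  rw [h, Complex.re_ofReal_mul, Complex.im_ofReal_mul] at h1
  exact ⟨(mul_nonneg_iff_of_pos_left hN).mp h1.1, (mul_eq_zero.mp h1.2).resolve_left hN.ne'⟩

theorem frRoot_continuous (b : ℂ[X]) : Continuous fun t : ℝ => b.eval (t : ℂ) :=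
  b.continuous.comp Complex.continuous_ofReal

theorem frRoot_dense (b : ℂ[X]) (t₀ : ℝ)
    (h : ∀ t : ℝ, t ≠ t₀ → 0 ≤ (b.eval (t : ℂ)).re ∧ (b.eval (t : ℂ)).im = 0) :
    NonnegOnReal b := by
  have hc := frRoot_continuous b
  have hcl : IsClosed {t : ℝ | 0 ≤ (b.eval (t : ℂ)).re ∧ (b.eval (t : ℂ)).im = 0} :=
    (isClosed_le continuous_const (Complex.continuous_re.comp hc)).and
      (isClosed_eq (Complex.continuous_im.comp hc) continuous_const)
  have hsub : ({t₀}ᶜ : Set ℝ) ⊆ {t : ℝ | 0 ≤ (b.eval (t : ℂ)).re ∧ (b.eval (t : ℂ)).im = 0} :=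
    fun t ht => h t ht
  intro t
  exact (closure_minimal hsub hcl) (dense_compl_singleton t₀ t)

theorem frRoot_sign (b : ℂ[X]) (t₀ : ℝ)
    (h : ∀ t : ℝ, 0 ≤ (t - t₀) * (b.eval (t : ℂ)).re ∧ (t - t₀) * (b.eval (t : ℂ)).im = 0) :
    b.eval (t₀ : ℂ) = 0 := by
  have hc := frRoot_continuous b
  have hre : Continuous fun t : ℝ => (b.eval (t : ℂ)).re := Complex.continuous_re.comp hc
  have him : Continuous fun t : ℝ => (b.eval (t : ℂ)).im := Complex.continuous_im.comp hc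
  have h1 : (b.eval (t₀ : ℂ)).im = 0 := by
    have hcl : IsClosed {t : ℝ | (b.eval (t : ℂ)).im = 0} := isClosed_eq him continuous_const
    have hsub : ({t₀}ᶜ : Set ℝ) ⊆ {t : ℝ | (b.eval (t : ℂ)).im = 0} := by
      intro t ht
      exact (mul_eq_zero.mp (h t).2).resolve_left (sub_ne_zero.mpr ht)
    exact (closure_minimal hsub hcl) (dense_compl_singleton t₀ t₀)
  have h2 : 0 ≤ (b.eval (t₀ : ℂ)).re := by
    have hcl : IsClosed {t : ℝ | 0 ≤ (b.eval (t : ℂ)).re} := isClosed_le continuous_const hre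
    have hsub : Set.Ioi t₀ ⊆ {t : ℝ | 0 ≤ (b.eval (t : ℂ)).re} := by
      intro t ht
      exact (mul_nonneg_iff_of_pos_left (sub_pos.mpr ht)).mp (h t).1
    have hmem : t₀ ∈ closure (Set.Ioi t₀) := by
      rw [closure_Ioi]
      exact Set.self_mem_Ici
    exact (closure_minimal hsub hcl) hmem
  have h3 : (b.eval (t₀ : ℂ)).re ≤ 0 := by
    have hcl : IsClosed {t : ℝ | (b.eval (t : ℂ)).re ≤ 0} := isClosed_le hre continuous_const
    have hsub : Set.Iio t₀ ⊆ {t : ℝ | (b.eval (t : ℂ)).re ≤ 0} := by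
      intro t ht
      have hneg : t - t₀ < 0 := sub_neg.mpr ht
      have h4 := (h t).1
      by_contra hcon
      have hpos : 0 < (b.eval (t : ℂ)).re := lt_of_not_ge hcon
      have := mul_neg_of_neg_of_pos hneg hpos
      linarith
    have hmem : t₀ ∈ closure (Set.Iio t₀) := by
      rw [closure_Iio]
      exact Set.self_mem_Iic
    exact (closure_minimal hsub hcl) hmem
  exact Complex.ext (le_antisymm h3 h2) h1

theorem frRoot_natDegree_lt (a a₁ : ℂ[X]) (z w : ℂ) (ha : a ≠ 0)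
    (h : a = (X - C z) * (X - C w) * a₁) : a₁.natDegree < a.natDegree := by
  have h1 : a₁ ≠ 0 := by
    rintro rfl
    rw [mul_zero] at h
    exact ha h
  rw [h, natDegree_mul (mul_ne_zero (X_sub_C_ne_zero z) (X_sub_C_ne_zero w)) h1,
    natDegree_mul (X_sub_C_ne_zero z) (X_sub_C_ne_zero w), natDegree_X_sub_C, natDegree_X_sub_C]
  omega

theorem frRoot_split (a : ℂ[X]) (ha : NonnegOnReal a) (hdeg : 0 < a.natDegree) :
    ∃ a₁ : ℂ[X], NonnegOnReal a₁ ∧ a₁.natDegree < a.natDegree ∧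
      ((∃ t₀ : ℝ, a = (X - C (t₀ : ℂ)) ^ 2 * a₁) ∨
       (∃ z₀ : ℂ, z₀.im ≠ 0 ∧ a = (X - C z₀) * (X - C ((starRingEnd ℂ) z₀)) * a₁)) := by
  have ha0 : a ≠ 0 := by
    rintro rfl
    simp at hdeg
  obtain ⟨z₀, hz₀⟩ := Complex.exists_root (Polynomial.natDegree_pos_iff_degree_pos.mp hdeg)
  obtain ⟨b, hb⟩ : ∃ b, a = (X - C z₀) * b :=
    ⟨_, (Polynomial.mul_divByMonic_eq_iff_isRoot.mpr hz₀).symm⟩
  by_cases him : z₀.im = 0
  · obtain ⟨t₀, rfl⟩ : ∃ t₀ : ℝ, z₀ = (t₀ : ℂ) :=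
      ⟨z₀.re, Complex.ext (by simp) (by simp [him])⟩
    have hbt : ∀ t : ℝ, a.eval (t : ℂ) = ((t - t₀ : ℝ) : ℂ) * b.eval (t : ℂ) := by
      intro t
      rw [hb, eval_mul, eval_sub, eval_X, eval_C, Complex.ofReal_sub]
    have hb0 : b.eval (t₀ : ℂ) = 0 := by
      apply frRoot_sign
      intro t
      have h1 := ha t
      rw [hbt t, Complex.re_ofReal_mul, Complex.im_ofReal_mul] at h1
      exact h1
    obtain ⟨a₁, ha₁⟩ : ∃ a₁, b = (X - C (t₀ : ℂ)) * a₁ :=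
      ⟨_, (Polynomial.mul_divByMonic_eq_iff_isRoot.mpr hb0).symm⟩
    have hfac : a = (X - C (t₀ : ℂ)) * (X - C (t₀ : ℂ)) * a₁ := by
      rw [mul_assoc, ← ha₁]
      exact hb
    refine ⟨a₁, ?_, frRoot_natDegree_lt a a₁ _ _ ha0 hfac, Or.inl ⟨t₀, ?_⟩⟩
    · apply frRoot_dense a₁ t₀
      intro t ht
      have hne : t - t₀ ≠ 0 := sub_ne_zero.mpr ht
      have hpos : 0 < (t - t₀) ^ 2 := by positivity
      refine frRoot_scale a a₁ t ((t - t₀) ^ 2) hpos ha ?_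
      rw [hfac, eval_mul, eval_mul, eval_sub, eval_X, eval_C]
      push_cast
      ring
    · rw [sq]
      exact hfac
  · have hconj : a.eval ((starRingEnd ℂ) z₀) = 0 := by
      have h := frRoot_eval_pconj a z₀
      rw [frRoot_pconj_eq a ha] at h
      rw [h, hz₀.eq_zero, map_zero]
    have hb0 : b.eval ((starRingEnd ℂ) z₀) = 0 := by
      rw [hb, eval_mul, eval_sub, eval_X, eval_C] at hconj
      rcases mul_eq_zero.mp hconj with h | h
      · exfalso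
        exact him (Complex.conj_eq_iff_im.mp (sub_eq_zero.mp h))
      · exact h
    obtain ⟨a₁, ha₁⟩ : ∃ a₁, b = (X - C ((starRingEnd ℂ) z₀)) * a₁ :=
      ⟨_, (Polynomial.mul_divByMonic_eq_iff_isRoot.mpr hb0).symm⟩
    have hfac : a = (X - C z₀) * (X - C ((starRingEnd ℂ) z₀)) * a₁ := by
      rw [mul_assoc, ← ha₁]
      exact hb
    refine ⟨a₁, ?_, frRoot_natDegree_lt a a₁ _ _ ha0 hfac, Or.inr ⟨z₀, him, hfac⟩⟩
    intro t
    have hne : (t : ℂ) - z₀ ≠ 0 := by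
      intro h
      apply him
      have hz : z₀ = (t : ℂ) := (sub_eq_zero.mp h).symm
      rw [hz]
      simp
    refine frRoot_scale a a₁ t (Complex.normSq ((t : ℂ) - z₀)) (Complex.normSq_pos.mpr hne) ha ?_
    rw [← Complex.mul_conj, map_sub, Complex.conj_ofReal]
    conv_lhs => rw [hfac]
    rw [eval_mul, eval_mul, eval_sub, eval_X, eval_C, eval_sub, eval_X, eval_C]

end Vale.Agent.Lib.P256
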