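import Vale.Agent.Lib.P256.Cubic

namespace Vale.Agent.Lib.P256

open MvPolynomial

variable {m r k : ℕ}

/-- The lifted description of the hyperbolicity cone. -/
def liftSet (ω : Fin k → Fin m → ℝ) (a : Fin k → ℝ) (b : Fin k → Fin m → ℝ)
    (c : Fin k → Fin r → ℝ) : Set (Fin 2 ⊕ (Fin m ⊕ Fin r) → ℝ) :=
  {x | 0 ≤ x (Sum.inl 1) ∧ ∑ i, x (Sum.inr (Sum.inl i)) ^ 2 ≤ x (Sum.inl 1) ^ 2 ∧
    ∃ τ w : Fin k → ℝ, ∑ j, τ j ≤ x (Sum.inl 0) ∧ ∀ j, 0 ≤ τ j ∧ 0 ≤ w j ∧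
      (a j * x (Sum.inl 1) + ∑ i, b j i * x (Sum.inr (Sum.inl i)) +
            ∑ l, c j l * x (Sum.inr (Sum.inr l))) ^ 2 ≤ τ j * w j ∧
      w j * (x (Sum.inl 1) + -∑ i, ω j i * x (Sum.inr (Sum.inl i))) ≤
        x (Sum.inl 1) ^ 2 - ∑ i, x (Sum.inr (Sum.inl i)) ^ 2 ∧
      w j ≤ 2 * x (Sum.inl 1)}

theorem cone_eq_liftSet (ω : Fin k → Fin m → ℝ) (hω : ∀ j, ∑ i, ω j i ^ 2 = 1)
    (a : Fin k → ℝ) (b : Fin k → Fin m → ℝ) (c : Fin k → Fin r → ℝ) :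
    hyperbolicityCone (nodalCubic ω a b c) (Sum.elim ![1 + ∑ j, a j ^ 2, 1] 0) =
      liftSet ω a b c := by
  ext x
  simp only [hyperbolicityCone, liftSet, Set.mem_ofPred_eq, eval_line]
  constructor
  · intro h
    exact cone_lift (x (Sum.inl 1)) (∑ i, x (Sum.inr (Sum.inl i)) ^ 2) (x (Sum.inl 0))
      (fun j => -∑ i, ω j i * x (Sum.inr (Sum.inl i))) a
      (fun j => a j * x (Sum.inl 1) + ∑ i, b j i * x (Sum.inr (Sum.inl i)) +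
            ∑ l, c j l * x (Sum.inr (Sum.inr l)))
      (Finset.sum_nonneg fun i _ => sq_nonneg _)
      (fun j => delta_sq_le ω hω _ j) h
  · rintro ⟨hy0, hRy, τ, w, hτs, hj⟩ t ht
    by_contra hneg
    rw [not_le] at hneg
    have := lift_neg (x (Sum.inl 1)) (∑ i, x (Sum.inr (Sum.inl i)) ^ 2) (x (Sum.inl 0))
      (fun j => -∑ i, ω j i * x (Sum.inr (Sum.inl i))) a
      (fun j => a j * x (Sum.inl 1) + ∑ i, b j i * x (Sum.inr (Sum.inl i)) +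
            ∑ l, c j l * x (Sum.inr (Sum.inr l)))
      (fun j => delta_sq_le ω hω _ j) hy0 hRy τ w hτs (fun j => (hj j).1) (fun j => (hj j).2.1)
      (fun j => (hj j).2.2.1) (fun j => (hj j).2.2.2.1) (fun j => (hj j).2.2.2.2) t hneg
    linarith


/-- The Lorentz cone in coordinates indexed by `Option (Fin n)`. -/
def lor (n : ℕ) : Set (Option (Fin n) → ℝ) :=
  {v | ∑ i, v (some i) ^ 2 ≤ v none ^ 2 ∧ 0 ≤ v none}

lemma lor_shadow (n : ℕ) : IsShadowG (lor n) := IsShadowG.lorentz n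

lemma sum_shift_sq (y ω : Fin m → ℝ) (w : ℝ) :
    ∑ i, (y i - ω i / 2 * w) ^ 2 =
      ∑ i, y i ^ 2 - w * ∑ i, ω i * y i + w ^ 2 / 4 * ∑ i, ω i ^ 2 := by
  rw [Finset.mul_sum, Finset.mul_sum, ← Finset.sum_sub_distrib, ← Finset.sum_add_distrib]
  exact Finset.sum_congr rfl fun i _ => by ring

section
variable (ω : Fin k → Fin m → ℝ) (a : Fin k → ℝ) (b : Fin k → Fin m → ℝ) (c : Fin k → Fin r → ℝ)

/-- coordinate functional -/
abbrev pr (i : (Fin 2 ⊕ (Fin m ⊕ Fin r)) ⊕ (Fin k ⊕ Fin k)) :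
    (((Fin 2 ⊕ (Fin m ⊕ Fin r)) ⊕ (Fin k ⊕ Fin k)) → ℝ) →ₗ[ℝ] ℝ :=
  LinearMap.proj i

def phi0 : (((Fin 2 ⊕ (Fin m ⊕ Fin r)) ⊕ (Fin k ⊕ Fin k)) → ℝ) →ₗ[ℝ] (Option (Fin m) → ℝ) :=
  LinearMap.pi fun o => o.elim (pr (Sum.inl (Sum.inl 1))) fun i => pr (Sum.inl (Sum.inr (Sum.inl i)))

def phi1 : (((Fin 2 ⊕ (Fin m ⊕ Fin r)) ⊕ (Fin k ⊕ Fin k)) → ℝ) →ₗ[ℝ] (Option (Fin 0) → ℝ) :=
  LinearMap.pi fun _ => pr (Sum.inl (Sum.inl 0)) - ∑ j : Fin k, pr (Sum.inr (Sum.inl j))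

def zetaLin (j : Fin k) : (((Fin 2 ⊕ (Fin m ⊕ Fin r)) ⊕ (Fin k ⊕ Fin k)) → ℝ) →ₗ[ℝ] ℝ :=
  a j • pr (Sum.inl (Sum.inl 1)) + ∑ i, b j i • pr (Sum.inl (Sum.inr (Sum.inl i))) +
    ∑ l, c j l • pr (Sum.inl (Sum.inr (Sum.inr l)))

noncomputable def phi2 (j : Fin k) :
    (((Fin 2 ⊕ (Fin m ⊕ Fin r)) ⊕ (Fin k ⊕ Fin k)) → ℝ) →ₗ[ℝ] (Option (Fin 2) → ℝ) :=
  LinearMap.pi fun o => o.elim
    ((1 / 2 : ℝ) • (pr (Sum.inr (Sum.inl j)) + pr (Sum.inr (Sum.inr j))))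
    fun i => if i = 0 then zetaLin a b c j
      else (1 / 2 : ℝ) • (pr (Sum.inr (Sum.inl j)) - pr (Sum.inr (Sum.inr j)))

noncomputable def phi3 (j : Fin k) :
    (((Fin 2 ⊕ (Fin m ⊕ Fin r)) ⊕ (Fin k ⊕ Fin k)) → ℝ) →ₗ[ℝ] (Option (Fin m) → ℝ) :=
  LinearMap.pi fun o => o.elim
    (pr (Sum.inl (Sum.inl 1)) - (1 / 2 : ℝ) • pr (Sum.inr (Sum.inr j)))
    fun i => pr (Sum.inl (Sum.inr (Sum.inl i))) - (ω j i / 2) • pr (Sum.inr (Sum.inr j))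

/-- The lifted cone in the variables `(x, τ, w)`. -/
def liftT : Set (((Fin 2 ⊕ (Fin m ⊕ Fin r)) ⊕ (Fin k ⊕ Fin k)) → ℝ) :=
  (({V | phi0 (r := r) (k := k) V ∈ lor m} ∩ {V | phi1 (m := m) (r := r) (k := k) V ∈ lor 0}) ∩
    ⋂ j, {V | phi2 a b c j V ∈ lor 2}) ∩ ⋂ j, {V | phi3 (r := r) ω j V ∈ lor m}

lemma liftT_shadow : IsShadowG (liftT ω a b c) := by
  unfold liftT
  refine IsShadowG.inter (IsShadowG.inter (IsShadowG.inter ?_ ?_) ?_) ?_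
  · exact (lor_shadow m).preimage _
  · exact (lor_shadow 0).preimage _
  · exact IsShadowG.iInter _ fun j => (lor_shadow 2).preimage _
  · exact IsShadowG.iInter _ fun j => (lor_shadow m).preimage _

lemma liftSet_eq_proj (hω : ∀ j, ∑ i, ω j i ^ 2 = 1) :
    liftSet ω a b c = {x | ∃ g : (Fin k ⊕ Fin k) → ℝ, Sum.elim x g ∈ liftT ω a b c} := by
  ext x
  simp only [liftSet, liftT, lor, Set.mem_ofPred_eq, Set.mem_inter_iff, Set.mem_iInter,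
    phi0, phi1, phi2, phi3, zetaLin, LinearMap.pi_apply, Option.elim, LinearMap.proj_apply,
    Sum.elim_inl, Sum.elim_inr, LinearMap.sub_apply, LinearMap.add_apply, LinearMap.smul_apply,
    LinearMap.sum_apply, smul_eq_mul, Fin.sum_univ_two, Finset.univ_eq_empty, Finset.sum_empty,
    Fin.isValue, if_true, one_ne_zero, if_false]
  constructor
  · rintro ⟨hy0, hRy, τ, w, hτs, hj⟩
    refine ⟨Sum.elim τ w, ⟨⟨⟨hRy, hy0⟩, ⟨sq_nonneg _, ?_⟩⟩, fun j => ?_⟩, fun j => ?_⟩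
    · simp only [Sum.elim_inl]; linarith
    · obtain ⟨h1, h2, h3, -, -⟩ := hj j
      simp only [Sum.elim_inl, Sum.elim_inr]
      constructor
      · nlinarith
      · linarith
    · obtain ⟨-, -, -, h4, h5⟩ := hj j
      simp only [Sum.elim_inr]
      rw [sum_shift_sq, hω j]
      constructor
      · nlinarith
      · linarith
  · rintro ⟨g, ⟨⟨⟨hRy, hy0⟩, ⟨-, hs⟩⟩, h2⟩, h3⟩
    refine ⟨hy0, hRy, fun j => g (Sum.inl j), fun j => g (Sum.inr j), by linarith, fun j => ?_⟩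
    obtain ⟨h2a, h2b⟩ := h2 j
    obtain ⟨h3a, h3b⟩ := h3 j
    rw [sum_shift_sq, hω j] at h3a
    have hprod : (a j * x (Sum.inl 1) + ∑ i, b j i * x (Sum.inr (Sum.inl i)) +
            ∑ l, c j l * x (Sum.inr (Sum.inr l))) ^ 2 ≤ g (Sum.inl j) * g (Sum.inr j) := by
      nlinarith
    have hprod0 : 0 ≤ g (Sum.inl j) * g (Sum.inr j) := le_trans (sq_nonneg _) hprod
    have hsum0 : 0 ≤ g (Sum.inl j) + g (Sum.inr j) := by linarith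
    refine ⟨?_, ?_, hprod, ?_, ?_⟩
    · by_contra hneg
      rw [not_le] at hneg
      nlinarith
    · by_contra hneg
      rw [not_le] at hneg
      nlinarith
    · nlinarith
    · linarith

theorem liftSet_shadow (hω : ∀ j, ∑ i, ω j i ^ 2 = 1) :
    IsSpectrahedralShadow (liftSet ω a b c) := by
  rw [liftSet_eq_proj ω a b c hω]
  exact (IsShadowG.proj (liftT_shadow ω a b c)).toShadow

end

lemma eval_x0_lin (a : Fin k → ℝ) (b : Fin k → Fin m → ℝ) (c : Fin k → Fin r → ℝ) (j : Fin k) :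
    eval (Sum.elim ![1, 0] 0 : Fin 2 ⊕ (Fin m ⊕ Fin r) → ℝ)
      (C (a j) * X (Sum.inl 1) + ∑ i, C (b j i) * X (Sum.inr (Sum.inl i)) +
        ∑ l, C (c j l) * X (Sum.inr (Sum.inr l))) = 0 := by
  simp [map_sum]

theorem nodalCubic_singular (ω : Fin k → Fin m → ℝ)
    (a : Fin k → ℝ) (b : Fin k → Fin m → ℝ) (c : Fin k → Fin r → ℝ) :
    eval (Sum.elim ![1, 0] 0) (nodalCubic ω a b c) = 0 ∧
      ∀ v, eval (Sum.elim ![1, 0] 0) (pderiv v (nodalCubic ω a b c)) = 0 := by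
  constructor
  · rw [eval_nodalCubic]
    simp
  · intro v
    unfold nodalCubic
    simp only [map_sub, Derivation.leibniz, Derivation.leibniz_pow, map_sum, smul_eq_mul,
      eval_add, eval_mul, eval_pow, eval_X, nsmul_eq_mul,
      Sum.elim_inl, Sum.elim_inr, Matrix.cons_val_zero, Matrix.cons_val_one, Pi.zero_apply]
    simp


theorem x0_mem_cone (ω : Fin k → Fin m → ℝ) (hω : ∀ j, ∑ i, ω j i ^ 2 = 1)
    (a : Fin k → ℝ) (b : Fin k → Fin m → ℝ) (c : Fin k → Fin r → ℝ) :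
    (Sum.elim ![1, 0] 0 : Fin 2 ⊕ (Fin m ⊕ Fin r) → ℝ) ∈
      hyperbolicityCone (nodalCubic ω a b c) (Sum.elim ![1 + ∑ j, a j ^ 2, 1] 0) := by
  rw [cone_eq_liftSet ω hω a b c]
  simp only [liftSet, Set.mem_ofPred_eq, Sum.elim_inl, Sum.elim_inr, Matrix.cons_val_zero,
    Matrix.cons_val_one, Pi.zero_apply]
  refine ⟨le_rfl, by simp, fun _ => 0, fun _ => 0, by simp, fun j => ?_⟩
  simp

theorem cone_shadow (ω : Fin k → Fin m → ℝ) (hω : ∀ j, ∑ i, ω j i ^ 2 = 1)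
    (a : Fin k → ℝ) (b : Fin k → Fin m → ℝ) (c : Fin k → Fin r → ℝ) :
    IsSpectrahedralShadow
      (hyperbolicityCone (nodalCubic ω a b c) (Sum.elim ![1 + ∑ j, a j ^ 2, 1] 0)) := by
  rw [cone_eq_liftSet ω hω a b c]
  exact liftSet_shadow ω a b c hω

end Vale.Agent.Lib.P256
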