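import Vale.Agent.Lib.P256.CliffCore

namespace Vale.Agent.Lib.P256

open MvPolynomial Matrix

/-- Value of the cubic form `∑ T i j l * w i * w j * w l` with coefficient tensor `T` at a point
`w` with coordinates in a real algebra `R`. -/
def cubT {τ : Type} [Fintype τ] {R : Type} [CommRing R] [Algebra ℝ R] (T : τ → τ → τ → ℝ)
    (w : τ → R) : R :=
  ∑ i, ∑ j, ∑ l, algebraMap ℝ R (T i j l) * w i * w j * w l

end Vale.Agent.Lib.P256
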