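import Vale.Agent.Lib.P256.R2Core

namespace Vale.Agent.Lib.P256

open MvPolynomial Matrix

/-- A linear form on `Option τ` split into its `none` coordinate and the others. -/
theorem r2Data_lf {τ : Type} [Fintype τ] (c x : Option τ → ℝ) :
    lf c x = c none * x none + ∑ i, c (some i) * x (some i) := by
  unfold lf
  rw [Fintype.sum_option]
  simp

/-- The one-element Clifford system `diag (1, -1)`. -/
theorem r2Data_cliff :
    IsCliff (fun _ : Fin 1 => (!![1, 0; 0, -1] : Matrix (Fin 2) (Fin 2) ℝ)) where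
  pos := by norm_num
  symm := fun _ => by
    ext i j
    fin_cases i <;> fin_cases j <;> simp
  sq := fun _ => by
    rw [Matrix.mul_fin_two, Matrix.one_fin_two]
    norm_num
  anti := fun i j hij => absurd (Subsingleton.elim i j) hij
  tr := fun _ => by
    rw [Matrix.trace_fin_two]
    simp

/-- Coefficients of the form `xa / (2 ea) + xb / (2 eb)`. -/
noncomputable def r2Data_h0 {τ : Type} [DecidableEq τ] (a b : τ) (e : Option τ → ℝ) :
    Option τ → ℝ :=
  fun o => o.elim 0 (fun i => (if i = a then 1 / (2 * e (some a)) else 0)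
    + (if i = b then 1 / (2 * e (some b)) else 0))

/-- Coefficients of the form `xa / (2 ea) - xb / (2 eb)`. -/
noncomputable def r2Data_h1 {τ : Type} [DecidableEq τ] (a b : τ) (e : Option τ → ℝ) :
    Option τ → ℝ :=
  fun o => o.elim 0 (fun i => (if i = a then 1 / (2 * e (some a)) else 0)
    - (if i = b then 1 / (2 * e (some b)) else 0))

/-- Coefficients of the form `ea eb (s - ℓ)`. -/
def r2Data_l0 {τ : Type} (a b : τ) (ℓ : τ → ℝ) (e : Option τ → ℝ) : Option τ → ℝ :=
  fun o => o.elim (e (some a) * e (some b)) (fun i => -(e (some a) * e (some b)) * ℓ i)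

/-- Coefficients of the forms `sqrt eb * Lb j` and `sqrt ea * La j`. -/
noncomputable def r2Data_V {τ : Type} (a b : τ) {J : ℕ} (La Lb : Fin J → τ → ℝ)
    (e : Option τ → ℝ) : Fin J → Fin 2 → Option τ → ℝ :=
  fun j c o => o.elim 0 (fun i =>
    if c = 0 then Real.sqrt (e (some b)) * Lb j i else Real.sqrt (e (some a)) * La j i)

theorem r2Data_lf_h0 {τ : Type} [Fintype τ] [DecidableEq τ] (a b : τ) (e x : Option τ → ℝ) :
    lf (r2Data_h0 a b e) x
      = x (some a) / (2 * e (some a)) + x (some b) / (2 * e (some b)) := by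
  rw [r2Data_lf]
  simp only [r2Data_h0, Option.elim_none, Option.elim_some, zero_mul, zero_add, add_mul,
    ite_mul, Finset.sum_add_distrib, Finset.sum_ite_eq', Finset.mem_univ, if_true]
  ring

theorem r2Data_lf_h1 {τ : Type} [Fintype τ] [DecidableEq τ] (a b : τ) (e x : Option τ → ℝ) :
    lf (r2Data_h1 a b e) x
      = x (some a) / (2 * e (some a)) - x (some b) / (2 * e (some b)) := by
  rw [r2Data_lf]
  simp only [r2Data_h1, Option.elim_none, Option.elim_some, zero_mul, zero_add, sub_mul,
    ite_mul, Finset.sum_sub_distrib, Finset.sum_ite_eq', Finset.mem_univ, if_true]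
  ring

theorem r2Data_lf_l0 {τ : Type} [Fintype τ] (a b : τ) (ℓ : τ → ℝ) (e x : Option τ → ℝ) :
    lf (r2Data_l0 a b ℓ e) x
      = e (some a) * e (some b) * (x none - ℓ ⬝ᵥ fun i => x (some i)) := by
  rw [r2Data_lf]
  simp only [r2Data_l0, Option.elim_none, Option.elim_some, dotProduct]
  rw [mul_sub, Finset.mul_sum, sub_eq_add_neg, ← Finset.sum_neg_distrib]
  congr 1
  apply Finset.sum_congr rfl
  intro i _
  ring

theorem r2Data_lf_V0 {τ : Type} [Fintype τ] (a b : τ) {J : ℕ} (La Lb : Fin J → τ → ℝ)
    (e x : Option τ → ℝ) (j : Fin J) :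
    lf (r2Data_V a b La Lb e j 0) x
      = Real.sqrt (e (some b)) * (Lb j ⬝ᵥ fun i => x (some i)) := by
  rw [r2Data_lf]
  simp only [r2Data_V, Option.elim_none, Option.elim_some, dotProduct, zero_mul, zero_add,
    if_true]
  rw [Finset.mul_sum]
  apply Finset.sum_congr rfl
  intro i _
  ring

theorem r2Data_lf_V1 {τ : Type} [Fintype τ] (a b : τ) {J : ℕ} (La Lb : Fin J → τ → ℝ)
    (e x : Option τ → ℝ) (j : Fin J) :
    lf (r2Data_V a b La Lb e j 1) x
      = Real.sqrt (e (some a)) * (La j ⬝ᵥ fun i => x (some i)) := by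
  rw [r2Data_lf]
  have h10 : ¬ ((1 : Fin 2) = 0) := by decide
  simp only [r2Data_V, Option.elim_none, Option.elim_some, dotProduct, zero_mul, zero_add,
    h10, if_false]
  rw [Finset.mul_sum]
  apply Finset.sum_congr rfl
  intro i _
  ring

theorem rank2_cliff_data {τ : Type} [Fintype τ] [DecidableEq τ] (a b : τ) (hab : a ≠ b) (J : ℕ)
    (La Lb : Fin J → τ → ℝ) (ℓ : τ → ℝ) (e : Option τ → ℝ) (hea : 0 < e (some a))
    (heb : 0 < e (some b)) :
    ∃ (Γ : Fin 1 → Matrix (Fin 2) (Fin 2) ℝ) (l0 h0 : Option τ → ℝ) (h : Fin 1 → Option τ → ℝ)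
      (V : Fin J → Fin 2 → Option τ → ℝ),
      IsCliff Γ ∧ lf h0 e = 1 ∧ (∀ i, lf (h i) e = 0) ∧
      ∀ x : Option τ → ℝ, cliffVal Γ l0 h0 h V x =
        x none * x (some a) * x (some b) -
          (x (some a) * ∑ j, (La j ⬝ᵥ fun i => x (some i)) ^ 2
            + x (some b) * ∑ j, (Lb j ⬝ᵥ fun i => x (some i)) ^ 2
            + x (some a) * x (some b) * (ℓ ⬝ᵥ fun i => x (some i))) := by
  have _hab := hab
  have hea' : e (some a) ≠ 0 := hea.ne'
  have heb' : e (some b) ≠ 0 := heb.ne'
  refine ⟨fun _ => !![1, 0; 0, -1], r2Data_l0 a b ℓ e, r2Data_h0 a b e,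
    fun _ => r2Data_h1 a b e, r2Data_V a b La Lb e, r2Data_cliff, ?_, ?_, ?_⟩
  · rw [r2Data_lf_h0]
    field_simp
    norm_num
  · intro i
    rw [r2Data_lf_h1]
    field_simp
    ring
  · intro x
    have hsa : Real.sqrt (e (some a)) * Real.sqrt (e (some a)) = e (some a) :=
      Real.mul_self_sqrt hea.le
    have hsb : Real.sqrt (e (some b)) * Real.sqrt (e (some b)) = e (some b) :=
      Real.mul_self_sqrt heb.le
    unfold cliffVal
    simp only [Fin.sum_univ_two, Finset.univ_unique, Finset.sum_singleton, r2Data_lf_h0,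
      r2Data_lf_h1, r2Data_lf_l0, r2Data_lf_V0, r2Data_lf_V1, Algebra.algebraMap_self,
      RingHom.id_apply]
    have h01 : ¬ ((0 : Fin 2) = 1) := by decide
    have h10 : ¬ ((1 : Fin 2) = 0) := by decide
    simp only [h01, h10, if_true, if_false, Matrix.of_apply, Matrix.cons_val', Matrix.cons_val_zero,
      Matrix.cons_val_one, Matrix.cons_val_fin_one]
    have hterm : ∀ j : Fin J,
        Real.sqrt (e (some b)) * (Lb j ⬝ᵥ fun i => x (some i)) *
            (x (some a) / (2 * e (some a)) + x (some b) / (2 * e (some b)) -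
              1 * (x (some a) / (2 * e (some a)) - x (some b) / (2 * e (some b)))) *
            (Real.sqrt (e (some b)) * (Lb j ⬝ᵥ fun i => x (some i))) +
          Real.sqrt (e (some b)) * (Lb j ⬝ᵥ fun i => x (some i)) *
            (0 - 0 * (x (some a) / (2 * e (some a)) - x (some b) / (2 * e (some b)))) *
            (Real.sqrt (e (some a)) * (La j ⬝ᵥ fun i => x (some i))) +
          (Real.sqrt (e (some a)) * (La j ⬝ᵥ fun i => x (some i)) *
            (0 - 0 * (x (some a) / (2 * e (some a)) - x (some b) / (2 * e (some b)))) *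
            (Real.sqrt (e (some b)) * (Lb j ⬝ᵥ fun i => x (some i))) +
          Real.sqrt (e (some a)) * (La j ⬝ᵥ fun i => x (some i)) *
            (x (some a) / (2 * e (some a)) + x (some b) / (2 * e (some b)) -
              -1 * (x (some a) / (2 * e (some a)) - x (some b) / (2 * e (some b)))) *
            (Real.sqrt (e (some a)) * (La j ⬝ᵥ fun i => x (some i))))
        = x (some b) * (Lb j ⬝ᵥ fun i => x (some i)) ^ 2
          + x (some a) * (La j ⬝ᵥ fun i => x (some i)) ^ 2 := by
      intro j
      have e1 : x (some a) / (2 * e (some a)) + x (some b) / (2 * e (some b)) -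
          1 * (x (some a) / (2 * e (some a)) - x (some b) / (2 * e (some b)))
          = x (some b) / e (some b) := by
        field_simp
        ring
      have e2 : x (some a) / (2 * e (some a)) + x (some b) / (2 * e (some b)) -
          -1 * (x (some a) / (2 * e (some a)) - x (some b) / (2 * e (some b)))
          = x (some a) / e (some a) := by
        field_simp
        ring
      rw [e1, e2]
      have e3 : Real.sqrt (e (some b)) * (Lb j ⬝ᵥ fun i => x (some i)) *
          (x (some b) / e (some b)) * (Real.sqrt (e (some b)) * (Lb j ⬝ᵥ fun i => x (some i)))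
          = (Real.sqrt (e (some b)) * Real.sqrt (e (some b))) *
            ((Lb j ⬝ᵥ fun i => x (some i)) ^ 2 * (x (some b) / e (some b))) := by ring
      have e4 : Real.sqrt (e (some a)) * (La j ⬝ᵥ fun i => x (some i)) *
          (x (some a) / e (some a)) * (Real.sqrt (e (some a)) * (La j ⬝ᵥ fun i => x (some i)))
          = (Real.sqrt (e (some a)) * Real.sqrt (e (some a))) *
            ((La j ⬝ᵥ fun i => x (some i)) ^ 2 * (x (some a) / e (some a))) := by ring
      rw [e3, e4, hsa, hsb]
      field_simp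
      ring
    rw [Finset.sum_congr rfl (fun j _ => hterm j), Finset.sum_add_distrib, ← Finset.mul_sum,
      ← Finset.mul_sum]
    field_simp
    ring

end Vale.Agent.Lib.P256
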