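import Vale.Agent.Lib.P256.R2Core

/-!
# A nonnegative real quadratic form is a sum of squares of linear forms
-/

namespace Vale.Agent.Lib.P256

open MvPolynomial Matrix

/-- The quadratic form of a sum of rank-one matrices `v vᵀ` is a sum of squares. -/
theorem r2Sos_form_sum {τ : Type} [Fintype τ] (J : ℕ) (L : Fin J → τ → ℝ) (w : τ → ℝ) :
    w ⬝ᵥ (∑ j, Matrix.vecMulVec (L j) (L j)) *ᵥ w = ∑ j, (L j ⬝ᵥ w) ^ 2 := by
  rw [Matrix.sum_mulVec, dotProduct_sum]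
  refine Finset.sum_congr rfl (fun j _ => ?_)
  rw [Matrix.vecMulVec_mulVec]
  simp only [dotProduct_smul, MulOpposite.smul_eq_mul_unop, MulOpposite.unop_op]
  rw [dotProduct_comm w (L j)]
  ring

/-- The symmetric part of a real matrix has the same quadratic form. -/
theorem r2Sos_symm_form {τ : Type} [Fintype τ] (B : Matrix τ τ ℝ) (w : τ → ℝ) :
    w ⬝ᵥ ((1 / 2 : ℝ) • (B + Bᵀ)) *ᵥ w = w ⬝ᵥ B *ᵥ w := by
  have h1 : w ⬝ᵥ Bᵀ *ᵥ w = w ⬝ᵥ B *ᵥ w := by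
    rw [Matrix.mulVec_transpose, Matrix.dotProduct_mulVec, dotProduct_comm]
  rw [Matrix.smul_mulVec, dotProduct_smul, Matrix.add_mulVec, dotProduct_add, h1]
  simp only [smul_eq_mul]
  ring

theorem quad_sum_sq {τ : Type} [Fintype τ] [DecidableEq τ] (B : Matrix τ τ ℝ)
    (hB : ∀ w : τ → ℝ, 0 ≤ w ⬝ᵥ B *ᵥ w) :
    ∃ (J : ℕ) (L : Fin J → τ → ℝ), ∀ w : τ → ℝ, w ⬝ᵥ B *ᵥ w = ∑ j, (L j ⬝ᵥ w) ^ 2 := by
  have hS : ((1 / 2 : ℝ) • (B + Bᵀ)).PosSemidef := by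
    refine Matrix.PosSemidef.of_dotProduct_mulVec_nonneg ?_ ?_
    · unfold Matrix.IsHermitian
      rw [Matrix.conjTranspose_eq_transpose_of_trivial, Matrix.transpose_smul,
        Matrix.transpose_add, Matrix.transpose_transpose, add_comm]
    · intro w
      rw [star_trivial, r2Sos_symm_form]
      exact hB w
  obtain ⟨J, L, hL⟩ := Matrix.posSemidef_iff_eq_sum_vecMulVec.mp hS
  refine ⟨J, L, fun w => ?_⟩
  rw [← r2Sos_symm_form B w, hL]
  simp only [star_trivial]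
  exact r2Sos_form_sum J L w

end Vale.Agent.Lib.P256
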