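import Vale.Agent.Lib.P256.R2Diff
import Vale.Agent.Lib.P256.R2Sos
namespace Vale.Agent.Lib.P256
open MvPolynomial Matrix

/-- A real number bounded below by `- s * K` for all small `s > 0` is nonnegative. -/
theorem r2Decomp_lim (c K : ℝ) (h : ∀ s : ℝ, 0 < s → s ≤ 1 → 0 ≤ c + s * K) : 0 ≤ c := by
  by_contra hc
  have hc' : c < 0 := not_le.mp hc
  have h1 := h 1 one_pos le_rfl
  have hK : 0 < K := by linarith
  have hs : 0 < min 1 (-c / (2 * K)) := lt_min one_pos (div_pos (by linarith) (by linarith))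
  have h2 := h (min 1 (-c / (2 * K))) hs (min_le_left _ _)
  have h3 : min 1 (-c / (2 * K)) * K ≤ -c / (2 * K) * K :=
    mul_le_mul_of_nonneg_right (min_le_right _ _) hK.le
  have h4 : -c / (2 * K) * K = -c / 2 := by
    field_simp
  linarith

/-- A quadratic form along a line. -/
theorem r2Decomp_quad_line {τ : Type} [Fintype τ] (B : Matrix τ τ ℝ) (w0 δ : τ → ℝ) (s : ℝ) :
    (w0 + s • δ) ⬝ᵥ B *ᵥ (w0 + s • δ) =
      w0 ⬝ᵥ B *ᵥ w0 + s * (w0 ⬝ᵥ B *ᵥ δ + δ ⬝ᵥ B *ᵥ w0) + s ^ 2 * (δ ⬝ᵥ B *ᵥ δ) := by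
  simp only [mulVec_add, mulVec_smul, add_dotProduct, dotProduct_add, smul_dotProduct,
    dotProduct_smul, smul_eq_mul]
  ring

theorem r2Decomp_quad_neg {τ : Type} [Fintype τ] (B : Matrix τ τ ℝ) (w : τ → ℝ) :
    (-w) ⬝ᵥ B *ᵥ (-w) = w ⬝ᵥ B *ᵥ w := by
  simp only [mulVec_neg, neg_dotProduct, dotProduct_neg, neg_neg]

theorem r2Decomp_update_eq {τ : Type} [DecidableEq τ] (w0 : τ → ℝ) (a : τ) (s : ℝ)
    (h0 : w0 a = 0) : Function.update w0 a s = w0 + s • Pi.single a (1 : ℝ) := by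
  funext i
  by_cases hi : i = a
  · subst hi
    simp [h0]
  · simp [Function.update_of_ne hi, Pi.single_eq_of_ne hi]

/-- Bound of a quadratic polynomial on `(0, 1]`. -/
theorem r2Decomp_poly_le (q0 c1 c2 s : ℝ) (hs : 0 < s) (hs1 : s ≤ 1) :
    q0 + s * c1 + s ^ 2 * c2 ≤ |q0| + |c1| + |c2| := by
  have h0 := le_abs_self q0
  have h1 : s * c1 ≤ |c1| := by
    have := le_abs_self c1
    have hn := abs_nonneg c1
    nlinarith
  have h2 : s ^ 2 * c2 ≤ |c2| := by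
    have := le_abs_self c2
    have hn := abs_nonneg c2
    have hs2 : s ^ 2 ≤ 1 := by nlinarith
    have hs0 : 0 ≤ s ^ 2 := sq_nonneg s
    nlinarith
  linarith

/-- Steps 1 and 2: vanishing on the codimension two subspace and nonnegativity of the
difference form on the hyperplane. -/
theorem r2Decomp_form_nonneg {τ : Type} [Fintype τ] [DecidableEq τ] (T : τ → τ → τ → ℝ)
    (a b : τ) (hab : a ≠ b)
    (ha : ∀ w : τ → ℝ, w b = 0 → 0 < w a → 0 ≤ cubT T w)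
    (B : Matrix τ τ ℝ)
    (hB : ∀ w : τ → ℝ, cubT T w - cubT T (Function.update w a 0) = w a * (w ⬝ᵥ B *ᵥ w)) :
    (∀ w0 : τ → ℝ, w0 a = 0 → w0 b = 0 → cubT T w0 = 0) ∧
      (∀ w : τ → ℝ, w b = 0 → 0 ≤ w ⬝ᵥ B *ᵥ w) := by
  have hnn : ∀ w0 : τ → ℝ, w0 a = 0 → w0 b = 0 → 0 ≤ cubT T w0 := by
    intro w0 h0a h0b
    apply r2Decomp_lim (cubT T w0)
      (|w0 ⬝ᵥ B *ᵥ w0| + |w0 ⬝ᵥ B *ᵥ Pi.single a (1 : ℝ) + Pi.single a (1 : ℝ) ⬝ᵥ B *ᵥ w0|
        + |Pi.single a (1 : ℝ) ⬝ᵥ B *ᵥ Pi.single a (1 : ℝ)|)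
    intro s hs hs1
    have hwb : Function.update w0 a s b = 0 := by
      rw [Function.update_of_ne hab.symm]
      exact h0b
    have hwa : Function.update w0 a s a = s := Function.update_self a s w0
    have h1 := ha (Function.update w0 a s) hwb (by rw [hwa]; exact hs)
    have h2 := hB (Function.update w0 a s)
    have hupd : Function.update (Function.update w0 a s) a 0 = w0 := by
      rw [Function.update_idem, ← h0a, Function.update_eq_self]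
    rw [hupd, hwa, r2Decomp_update_eq w0 a s h0a, r2Decomp_quad_line] at h2
    rw [r2Decomp_update_eq w0 a s h0a] at h1
    have h3 := r2Decomp_poly_le (w0 ⬝ᵥ B *ᵥ w0)
      (w0 ⬝ᵥ B *ᵥ Pi.single a (1 : ℝ) + Pi.single a (1 : ℝ) ⬝ᵥ B *ᵥ w0)
      (Pi.single a (1 : ℝ) ⬝ᵥ B *ᵥ Pi.single a (1 : ℝ)) s hs hs1
    have h4 := mul_le_mul_of_nonneg_left h3 hs.le
    linarith
  have hzero : ∀ w0 : τ → ℝ, w0 a = 0 → w0 b = 0 → cubT T w0 = 0 := by
    intro w0 h0a h0b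
    have h1 := hnn w0 h0a h0b
    have h2 := hnn (fun i => - w0 i) (by simp [h0a]) (by simp [h0b])
    rw [cubT_neg] at h2
    linarith
  refine ⟨hzero, ?_⟩
  have hpos : ∀ w : τ → ℝ, w b = 0 → 0 < w a → 0 ≤ w ⬝ᵥ B *ᵥ w := by
    intro w hwb hwa
    have h1 := ha w hwb hwa
    have h2 := hB w
    have h3 : cubT T (Function.update w a 0) = 0 := by
      apply hzero
      · exact Function.update_self a 0 w
      · rw [Function.update_of_ne hab.symm]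
        exact hwb
    rw [h3, sub_zero] at h2
    rw [h2] at h1
    by_contra hneg
    have hneg' : w ⬝ᵥ B *ᵥ w < 0 := not_le.mp hneg
    have := mul_neg_of_pos_of_neg hwa hneg'
    linarith
  intro w hwb
  rcases lt_trichotomy (w a) 0 with hlt | heq | hgt
  · have h1 := hpos (-w) (by simp [hwb]) (by simp [hlt])
    rw [r2Decomp_quad_neg] at h1
    exact h1
  · apply r2Decomp_lim (w ⬝ᵥ B *ᵥ w)
      (|w ⬝ᵥ B *ᵥ Pi.single a (1 : ℝ) + Pi.single a (1 : ℝ) ⬝ᵥ B *ᵥ w|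
        + |Pi.single a (1 : ℝ) ⬝ᵥ B *ᵥ Pi.single a (1 : ℝ)|)
    intro s hs hs1
    have hwb' : Function.update w a s b = 0 := by
      rw [Function.update_of_ne hab.symm]
      exact hwb
    have hwa' : Function.update w a s a = s := Function.update_self a s w
    have h1 := hpos (Function.update w a s) hwb' (by rw [hwa']; exact hs)
    rw [r2Decomp_update_eq w a s heq, r2Decomp_quad_line] at h1
    have hc1 := le_abs_self (w ⬝ᵥ B *ᵥ Pi.single a (1 : ℝ) + Pi.single a (1 : ℝ) ⬝ᵥ B *ᵥ w)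
    have hc2 : s * (Pi.single a (1 : ℝ) ⬝ᵥ B *ᵥ Pi.single a (1 : ℝ))
        ≤ |Pi.single a (1 : ℝ) ⬝ᵥ B *ᵥ Pi.single a (1 : ℝ)| := by
      have h5 := le_abs_self (Pi.single a (1 : ℝ) ⬝ᵥ B *ᵥ Pi.single a (1 : ℝ))
      have h6 := abs_nonneg (Pi.single a (1 : ℝ) ⬝ᵥ B *ᵥ Pi.single a (1 : ℝ))
      nlinarith
    have h4 := mul_le_mul_of_nonneg_left (add_le_add hc1 hc2) hs.le
    linarith
  · exact hpos w hwb hgt

/-- Step 3: the form `w ↦ Q (w with coordinate b set to 0)` is a quadratic form. -/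
theorem r2Decomp_restrict {τ : Type} [Fintype τ] [DecidableEq τ] (B : Matrix τ τ ℝ) (b : τ) :
    ∃ B' : Matrix τ τ ℝ, ∀ w : τ → ℝ,
      w ⬝ᵥ B' *ᵥ w = Function.update w b 0 ⬝ᵥ B *ᵥ Function.update w b 0 := by
  refine ⟨Matrix.diagonal (fun j => if j = b then (0 : ℝ) else 1) * B *
    Matrix.diagonal (fun j => if j = b then (0 : ℝ) else 1), ?_⟩
  intro w
  have hP : Matrix.diagonal (fun j => if j = b then (0 : ℝ) else 1) *ᵥ w
      = Function.update w b 0 := by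
    funext i
    rw [mulVec_diagonal]
    by_cases hi : i = b
    · subst hi
      simp
    · simp [hi]
  have hP' : w ᵥ* Matrix.diagonal (fun j => if j = b then (0 : ℝ) else 1)
      = Function.update w b 0 := by
    rw [← hP]
    funext i
    rw [vecMul_diagonal, mulVec_diagonal]
    ring
  rw [← mulVec_mulVec, ← mulVec_mulVec, dotProduct_mulVec, hP, hP']

theorem r2Decomp_pad_left {τ : Type} [Fintype τ] (J1 K : ℕ) (L : Fin J1 → τ → ℝ) :
    ∃ L' : Fin (J1 + K) → τ → ℝ, ∀ w : τ → ℝ,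
      ∑ j, (L' j ⬝ᵥ w) ^ 2 = ∑ j, (L j ⬝ᵥ w) ^ 2 := by
  refine ⟨Fin.addCases L (fun _ => 0), ?_⟩
  intro w
  rw [Fin.sum_univ_add]
  simp

theorem r2Decomp_pad_right {τ : Type} [Fintype τ] (K J2 : ℕ) (L : Fin J2 → τ → ℝ) :
    ∃ L' : Fin (K + J2) → τ → ℝ, ∀ w : τ → ℝ,
      ∑ j, (L' j ⬝ᵥ w) ^ 2 = ∑ j, (L j ⬝ᵥ w) ^ 2 := by
  refine ⟨Fin.addCases (fun _ => 0) L, ?_⟩
  intro w
  rw [Fin.sum_univ_add]
  simp

theorem cubT_decomp {τ : Type} [Fintype τ] [DecidableEq τ] (T : τ → τ → τ → ℝ) (a b : τ)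
    (hab : a ≠ b)
    (ha : ∀ w : τ → ℝ, w b = 0 → 0 < w a → 0 ≤ cubT T w)
    (hb : ∀ w : τ → ℝ, w a = 0 → 0 < w b → 0 ≤ cubT T w) :
    ∃ (J : ℕ) (La Lb : Fin J → τ → ℝ) (ℓ : τ → ℝ), 0 < J ∧ ∀ w : τ → ℝ,
      cubT T w = w a * ∑ j, (La j ⬝ᵥ w) ^ 2 + w b * ∑ j, (Lb j ⬝ᵥ w) ^ 2
        + w a * w b * (ℓ ⬝ᵥ w) := by
  obtain ⟨Ba, hBa⟩ := cubT_sub_update T a
  obtain ⟨Bb, hBb⟩ := cubT_sub_update T b
  obtain ⟨ℓ, hℓ⟩ := cubT_second_diff T a b hab
  obtain ⟨hzero, hQa⟩ := r2Decomp_form_nonneg T a b hab ha Ba hBa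
  obtain ⟨-, hQb⟩ := r2Decomp_form_nonneg T b a hab.symm hb Bb hBb
  obtain ⟨Ba', hBa'⟩ := r2Decomp_restrict Ba b
  obtain ⟨Bb', hBb'⟩ := r2Decomp_restrict Bb a
  have hnnA : ∀ w : τ → ℝ, 0 ≤ w ⬝ᵥ Ba' *ᵥ w := by
    intro w
    rw [hBa']
    exact hQa _ (Function.update_self b 0 w)
  have hnnB : ∀ w : τ → ℝ, 0 ≤ w ⬝ᵥ Bb' *ᵥ w := by
    intro w
    rw [hBb']
    exact hQb _ (Function.update_self a 0 w)
  obtain ⟨J1, La1, hLa1⟩ := quad_sum_sq Ba' hnnA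
  obtain ⟨J2, Lb1, hLb1⟩ := quad_sum_sq Bb' hnnB
  obtain ⟨La, hLa⟩ := r2Decomp_pad_left J1 (J2 + 1) La1
  obtain ⟨Lb2, hLb2⟩ := r2Decomp_pad_left J2 1 Lb1
  obtain ⟨Lb, hLb⟩ := r2Decomp_pad_right J1 (J2 + 1) Lb2
  refine ⟨J1 + (J2 + 1), La, Lb, ℓ, by omega, ?_⟩
  intro w
  rw [hLa, hLb, hLb2, ← hLa1, ← hLb1, hBa', hBb']
  have h1 := hℓ w
  have h2 : cubT T (Function.update (Function.update w a 0) b 0) = 0 := by
    apply hzero
    · rw [Function.update_of_ne hab]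
      exact Function.update_self a 0 w
    · exact Function.update_self b 0 _
  have h3 := hBa (Function.update w b 0)
  have h4 : cubT T (Function.update (Function.update w b 0) a 0) = 0 := by
    apply hzero
    · exact Function.update_self a 0 _
    · rw [Function.update_of_ne hab.symm]
      exact Function.update_self b 0 w
  have h5 : Function.update w b 0 a = w a := Function.update_of_ne hab 0 w
  rw [h4, sub_zero, h5] at h3
  have h6 := hBb (Function.update w a 0)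
  have h7 : Function.update w a 0 b = w b := Function.update_of_ne hab.symm 0 w
  rw [h2, sub_zero, h7] at h6
  rw [h2, h3, h6] at h1
  linarith

end Vale.Agent.Lib.P256
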