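import Vale.Agent.Lib.P256.R2Core

namespace Vale.Agent.Lib.P256

open MvPolynomial Matrix

theorem r2Diff_sum_delta {τ : Type} [Fintype τ] [DecidableEq τ] (a : τ) (f : τ → ℝ) :
    ∑ i, (if i = a then (1 : ℝ) else 0) * f i = f a := by
  simp [ite_mul]

theorem r2Diff_collapse1 {τ : Type} [Fintype τ] [DecidableEq τ] (a : τ) (F : τ → τ → τ → ℝ) :
    ∑ i, ∑ j, ∑ l, (if i = a then (1 : ℝ) else 0) * F i j l = ∑ j, ∑ l, F a j l := by
  simp only [← Finset.mul_sum]
  exact r2Diff_sum_delta a (fun i => ∑ j, ∑ l, F i j l)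

theorem r2Diff_collapse2 {τ : Type} [Fintype τ] [DecidableEq τ] (a : τ) (F : τ → τ → τ → ℝ) :
    ∑ i, ∑ j, ∑ l, (if j = a then (1 : ℝ) else 0) * F i j l = ∑ i, ∑ l, F i a l := by
  refine Finset.sum_congr rfl (fun i _ => ?_)
  simp only [← Finset.mul_sum]
  exact r2Diff_sum_delta a (fun j => ∑ l, F i j l)

theorem r2Diff_collapse3 {τ : Type} [Fintype τ] [DecidableEq τ] (a : τ) (F : τ → τ → τ → ℝ) :
    ∑ i, ∑ j, ∑ l, (if l = a then (1 : ℝ) else 0) * F i j l = ∑ i, ∑ j, F i j a := by
  refine Finset.sum_congr rfl (fun i _ => Finset.sum_congr rfl (fun j _ => ?_))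
  exact r2Diff_sum_delta a (fun l => F i j l)

theorem r2Diff_update_eq {τ : Type} [DecidableEq τ] (w : τ → ℝ) (a : τ) (i : τ) :
    Function.update w a 0 i = (if i = a then (0 : ℝ) else 1) * w i := by
  by_cases h : i = a
  · subst h; simp
  · simp [h]

theorem r2Diff_split {τ : Type} [DecidableEq τ] (w : τ → ℝ) (a : τ) (i : τ) :
    w i = Function.update w a 0 i + w a * (if i = a then (1 : ℝ) else 0) := by
  by_cases h : i = a
  · subst h; simp
  · simp [h]

theorem cubT_sub_update {τ : Type} [Fintype τ] [DecidableEq τ] (T : τ → τ → τ → ℝ) (a : τ) :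
    ∃ B : Matrix τ τ ℝ, ∀ w : τ → ℝ,
      cubT T w - cubT T (Function.update w a 0) = w a * (w ⬝ᵥ B *ᵥ w) := by
  refine ⟨Matrix.of (fun j l => T a j l + (if j = a then (0 : ℝ) else 1) * T j a l
      + (if j = a then (0 : ℝ) else 1) * (if l = a then (0 : ℝ) else 1) * T j l a), ?_⟩
  intro w
  have hu : ∀ i, Function.update w a 0 i = (if i = a then (0 : ℝ) else 1) * w i :=
    r2Diff_update_eq w a
  have hw' : ∀ i, w i = Function.update w a 0 i + w a * (if i = a then (1 : ℝ) else 0) :=
    r2Diff_split w a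
  generalize Function.update w a 0 = u at hu hw'
  have key : ∀ i j l, T i j l * w i * w j * w l - T i j l * u i * u j * u l =
      (if i = a then (1 : ℝ) else 0) * (w a * (T i j l * w j * w l))
      + (if j = a then (1 : ℝ) else 0) * (w a * (T i j l * u i * w l))
      + (if l = a then (1 : ℝ) else 0) * (w a * (T i j l * u i * u j)) := by
    intro i j l
    linear_combination (T i j l * w j * w l) * hw' i + (T i j l * u i * w l) * hw' j
      + (T i j l * u i * u j) * hw' l
  have hL : cubT T w - cubT T u =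
      ∑ j, ∑ l, w a * (T a j l * w j * w l) + ∑ i, ∑ l, w a * (T i a l * u i * w l)
        + ∑ i, ∑ j, w a * (T i j a * u i * u j) := by
    calc cubT T w - cubT T u
        = ∑ i, ∑ j, ∑ l, (T i j l * w i * w j * w l - T i j l * u i * u j * u l) := by
          simp only [cubT, Algebra.algebraMap_self, RingHom.id_apply, Finset.sum_sub_distrib]
      _ = ∑ i, ∑ j, ∑ l, ((if i = a then (1 : ℝ) else 0) * (w a * (T i j l * w j * w l))
            + (if j = a then (1 : ℝ) else 0) * (w a * (T i j l * u i * w l))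
            + (if l = a then (1 : ℝ) else 0) * (w a * (T i j l * u i * u j))) := by
          simp only [key]
      _ = _ := by
          simp only [Finset.sum_add_distrib]
          rw [r2Diff_collapse1 a (fun i j l => w a * (T i j l * w j * w l)),
            r2Diff_collapse2 a (fun i j l => w a * (T i j l * u i * w l)),
            r2Diff_collapse3 a (fun i j l => w a * (T i j l * u i * u j))]
  rw [hL]
  simp only [dotProduct, mulVec, Matrix.of_apply, Finset.mul_sum, ← Finset.sum_add_distrib]
  refine Finset.sum_congr rfl (fun j _ => Finset.sum_congr rfl (fun l _ => ?_))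
  rw [hu j, hu l]
  ring

theorem r2Diff_collapseA {τ : Type} [Fintype τ] [DecidableEq τ] (b : τ) (G : τ → τ → ℝ) :
    ∑ j, ∑ l, (if j = b then (1 : ℝ) else 0) * G j l = ∑ l, G b l := by
  simp only [← Finset.mul_sum]
  exact r2Diff_sum_delta b (fun j => ∑ l, G j l)

theorem r2Diff_collapseB {τ : Type} [Fintype τ] [DecidableEq τ] (b : τ) (G : τ → τ → ℝ) :
    ∑ j, ∑ l, (if l = b then (1 : ℝ) else 0) * G j l = ∑ j, G j b := by
  refine Finset.sum_congr rfl (fun j _ => ?_)
  exact r2Diff_sum_delta b (fun l => G j l)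

theorem r2Diff_quad_diff {τ : Type} [Fintype τ] [DecidableEq τ] (B : Matrix τ τ ℝ) (b : τ)
    (w : τ → ℝ) :
    w ⬝ᵥ B *ᵥ w - Function.update w b 0 ⬝ᵥ B *ᵥ Function.update w b 0 =
      w b * ((fun l => B b l + (if l = b then (0 : ℝ) else 1) * B l b) ⬝ᵥ w) := by
  have hu : ∀ i, Function.update w b 0 i = (if i = b then (0 : ℝ) else 1) * w i :=
    r2Diff_update_eq w b
  have hw' : ∀ i, w i = Function.update w b 0 i + w b * (if i = b then (1 : ℝ) else 0) :=
    r2Diff_split w b
  generalize Function.update w b 0 = u at hu hw'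
  have key : ∀ j l, w j * (B j l * w l) - u j * (B j l * u l) =
      (if j = b then (1 : ℝ) else 0) * (w b * (B j l * w l))
      + (if l = b then (1 : ℝ) else 0) * (w b * (u j * B j l)) := by
    intro j l
    linear_combination (B j l * w l) * hw' j + (u j * B j l) * hw' l
  have hL : w ⬝ᵥ B *ᵥ w - u ⬝ᵥ B *ᵥ u =
      ∑ l, w b * (B b l * w l) + ∑ j, w b * (u j * B j b) := by
    calc w ⬝ᵥ B *ᵥ w - u ⬝ᵥ B *ᵥ u
        = ∑ j, ∑ l, (w j * (B j l * w l) - u j * (B j l * u l)) := by
          simp only [dotProduct, mulVec, Finset.mul_sum, Finset.sum_sub_distrib]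
      _ = ∑ j, ∑ l, ((if j = b then (1 : ℝ) else 0) * (w b * (B j l * w l))
            + (if l = b then (1 : ℝ) else 0) * (w b * (u j * B j l))) := by
          simp only [key]
      _ = _ := by
          simp only [Finset.sum_add_distrib]
          rw [r2Diff_collapseA b (fun j l => w b * (B j l * w l)),
            r2Diff_collapseB b (fun j l => w b * (u j * B j l))]
  rw [hL]
  simp only [dotProduct, Finset.mul_sum, ← Finset.sum_add_distrib]
  refine Finset.sum_congr rfl (fun l _ => ?_)
  rw [hu l]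
  ring

theorem cubT_second_diff {τ : Type} [Fintype τ] [DecidableEq τ] (T : τ → τ → τ → ℝ) (a b : τ)
    (hab : a ≠ b) :
    ∃ ℓ : τ → ℝ, ∀ w : τ → ℝ,
      cubT T w - cubT T (Function.update w a 0) - cubT T (Function.update w b 0)
        + cubT T (Function.update (Function.update w a 0) b 0) = w a * w b * (ℓ ⬝ᵥ w) := by
  obtain ⟨B, hB⟩ := cubT_sub_update T a
  refine ⟨fun l => B b l + (if l = b then (0 : ℝ) else 1) * B l b, ?_⟩
  intro w
  have h1 := hB w
  have h2 := hB (Function.update w b 0)
  have hba : Function.update w b 0 a = w a := Function.update_of_ne hab _ _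
  have hcomm : Function.update (Function.update w b 0) a 0 =
      Function.update (Function.update w a 0) b 0 := Function.update_comm hab.symm 0 0 w
  rw [hba, hcomm] at h2
  have hQ := r2Diff_quad_diff B b w
  linear_combination h1 - h2 + w a * hQ

theorem cubT_neg {τ : Type} [Fintype τ] (T : τ → τ → τ → ℝ) (w : τ → ℝ) :
    cubT T (fun i => - w i) = - cubT T w := by
  simp only [cubT, Algebra.algebraMap_self, RingHom.id_apply, ← Finset.sum_neg_distrib]
  refine Finset.sum_congr rfl (fun i _ => Finset.sum_congr rfl (fun j _ =>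
    Finset.sum_congr rfl (fun l _ => ?_)))
  ring

end Vale.Agent.Lib.P256
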