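import Vale.Agent.Lib.P256.R2Root
namespace Vale.Agent.Lib.P256
open MvPolynomial Matrix

/-- Trilinear expansion of the cubic form along the complex line `t * e' + w`. -/
theorem r2Ray_expand {τ : Type} [Fintype τ] (T : τ → τ → τ → ℝ) (e' w : τ → ℝ) (t : ℂ) :
    cubT T (fun i => t * (e' i : ℂ) + (w i : ℂ)) =
      t ^ 3 * ((cubT T e' : ℝ) : ℂ)
      + t ^ 2 * ((∑ i, ∑ j, ∑ l, T i j l *
          (e' i * e' j * w l + e' i * w j * e' l + w i * e' j * e' l) : ℝ) : ℂ)
      + t * ((∑ i, ∑ j, ∑ l, T i j l *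
          (e' i * w j * w l + w i * e' j * w l + w i * w j * e' l) : ℝ) : ℂ)
      + ((cubT T w : ℝ) : ℂ) := by
  unfold cubT
  simp only [Complex.coe_algebraMap, Algebra.algebraMap_self, RingHom.id_apply]
  push_cast
  simp only [Finset.mul_sum, ← Finset.sum_add_distrib]
  refine Finset.sum_congr rfl (fun i _ => Finset.sum_congr rfl (fun j _ =>
    Finset.sum_congr rfl (fun l _ => ?_)))
  ring

theorem cubT_ray_nonneg {τ : Type} [Fintype τ] [DecidableEq τ] (T : τ → τ → τ → ℝ) (a b : τ)
    (hab : a ≠ b) (e : Option τ → ℝ) (hea : 0 < e (some a)) (heb : 0 < e (some b))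
    (hpe : 0 < e none * e (some a) * e (some b) - cubT T (fun i => e (some i)))
    (hyp : ∀ (x : Option τ → ℝ) (t : ℂ),
      (t * (e none : ℂ) - (x none : ℂ)) * (t * (e (some a) : ℂ) - (x (some a) : ℂ)) *
          (t * (e (some b) : ℂ) - (x (some b) : ℂ))
        - cubT T (fun i => t * (e (some i) : ℂ) - (x (some i) : ℂ)) = 0 → t.im = 0)
    (w : τ → ℝ) (hwb : w b = 0) (hwa : 0 < w a) : 0 ≤ cubT T w := by
  have _hab' := hab
  by_contra hneg
  push Not at hneg
  obtain ⟨lam, z, hz, hroot⟩ := exists_nonreal_root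
    (e none * e (some a) * e (some b) - cubT T (fun i => e (some i)))
    (e none * w a * e (some b) - ∑ i, ∑ j, ∑ l, T i j l *
          (e (some i) * e (some j) * w l + e (some i) * w j * e (some l)
            + w i * e (some j) * e (some l)))
    (- ∑ i, ∑ j, ∑ l, T i j l *
          (e (some i) * w j * w l + w i * e (some j) * w l + w i * w j * e (some l)))
    (- cubT T w) (e (some a) * e (some b)) (e (some b) * w a) hpe (by linarith)
    (mul_pos hea heb) (mul_pos heb hwa)
  apply hz
  apply hyp (fun o => Option.elim o lam (fun i => - w i)) z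
  have hexp := r2Ray_expand T (fun i => e (some i)) w z
  have hfun : (fun i => z * (e (some i) : ℂ)
      - (((fun o => Option.elim o lam (fun i => - w i)) (some i) : ℝ) : ℂ))
      = fun i => z * (e (some i) : ℂ) + (w i : ℂ) := by
    funext i
    simp
  rw [hfun, hexp]
  simp only [Option.elim]
  rw [hwb]
  push_cast at hroot ⊢
  linear_combination hroot

end Vale.Agent.Lib.P256
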