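import Vale.Agent.Lib.P256.R2Core

/-!
# Every real cubic form is given by a coefficient tensor

A homogeneous polynomial of degree three is `∑ T i j l * X i * X j * X l` for a suitable
tensor `T` (Euler identity, three times).
-/

namespace Vale.Agent.Lib.P256
open MvPolynomial Matrix

/-- Euler identity, solved for the form. -/
theorem r2Tensor_euler {τ : Type} [Fintype τ] (φ : MvPolynomial τ ℝ) {n : ℕ}
    (hφ : φ.IsHomogeneous (n + 1)) :
    φ = C (((n : ℝ) + 1)⁻¹) * ∑ i, X i * pderiv i φ := by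
  rw [hφ.sum_X_mul_pderiv, nsmul_eq_mul]
  have h1 : (((n + 1 : ℕ) : MvPolynomial τ ℝ)) = C ((n : ℝ) + 1) := by
    rw [Nat.cast_add, Nat.cast_one, C_add, C_1, map_natCast]
  have h2 : ((n : ℝ) + 1) ≠ 0 := by positivity
  rw [h1, ← mul_assoc, ← C_mul, inv_mul_cancel₀ h2, C_1, one_mul]

theorem exists_cubic_tensor {τ : Type} [Fintype τ] (r : MvPolynomial τ ℝ)
    (hr : r.IsHomogeneous 3) :
    ∃ T : τ → τ → τ → ℝ, r = ∑ i, ∑ j, ∑ l, C (T i j l) * X i * X j * X l := by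
  have h1 := r2Tensor_euler r (n := 2) hr
  have hd1 : ∀ i, (pderiv i r).IsHomogeneous (1 + 1) := fun i => hr.pderiv
  have h2 : ∀ i, pderiv i r
      = C ((((1 : ℕ) : ℝ) + 1)⁻¹) * ∑ j, X j * pderiv j (pderiv i r) :=
    fun i => r2Tensor_euler _ (n := 1) (hd1 i)
  have hd2 : ∀ i j, (pderiv j (pderiv i r)).IsHomogeneous (0 + 1) := fun i j => (hd1 i).pderiv
  have h3 : ∀ i j, pderiv j (pderiv i r)
      = C ((((0 : ℕ) : ℝ) + 1)⁻¹) * ∑ l, X l * pderiv l (pderiv j (pderiv i r)) :=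
    fun i j => r2Tensor_euler _ (n := 0) (hd2 i j)
  have hd3 : ∀ i j l, (pderiv l (pderiv j (pderiv i r))).IsHomogeneous 0 :=
    fun i j l => (hd2 i j).pderiv
  have h4 : ∀ i j l, pderiv l (pderiv j (pderiv i r))
      = C (coeff 0 (pderiv l (pderiv j (pderiv i r)))) := by
    intro i j l
    exact totalDegree_eq_zero_iff_eq_C.mp (Nat.le_zero.mp (hd3 i j l).totalDegree_le)
  refine ⟨fun i j l => (1 / 6) * coeff 0 (pderiv l (pderiv j (pderiv i r))), ?_⟩
  conv_lhs => rw [h1]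
  rw [Finset.mul_sum]
  apply Finset.sum_congr rfl
  intro i _
  conv_lhs => rw [h2 i]
  rw [Finset.mul_sum, Finset.mul_sum, Finset.mul_sum]
  apply Finset.sum_congr rfl
  intro j _
  conv_lhs => rw [h3 i j]
  simp only [Finset.mul_sum]
  apply Finset.sum_congr rfl
  intro l _
  conv_lhs => rw [h4 i j l]
  have e : (1 / 6 : ℝ) * coeff 0 (pderiv l (pderiv j (pderiv i r)))
      = (((2 : ℕ) : ℝ) + 1)⁻¹ * ((((1 : ℕ) : ℝ) + 1)⁻¹ * ((((0 : ℕ) : ℝ) + 1)⁻¹
        * coeff 0 (pderiv l (pderiv j (pderiv i r))))) := by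
    norm_num
    ring
  rw [e, C_mul, C_mul, C_mul]
  ring

end Vale.Agent.Lib.P256
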