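import Vale.Agent.Lib.P256.CliffMain
import Vale.Agent.Lib.P256.R2Tensor
import Vale.Agent.Lib.P256.R2Ray
import Vale.Agent.Lib.P256.R2Decomp
import Vale.Agent.Lib.P256.R2Data

namespace Vale.Agent.Lib.P256

open MvPolynomial Matrix

/-- Evaluation of the rank-two normal form `s a b - r(a, b, z)`. -/
theorem r2Main_aeval {τ : Type} [Fintype τ] (T : τ → τ → τ → ℝ) (a b : τ)
    {R : Type} [CommRing R] [Algebra ℝ R] (x : Option τ → R) :
    aeval x (X none * X (some a) * X (some b) -
        rename some (∑ i, ∑ j, ∑ l, C (T i j l) * X i * X j * X l) : MvPolynomial (Option τ) ℝ) =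
      x none * x (some a) * x (some b) - cubT T (fun i => x (some i)) := by
  simp [cubT, map_sum, algebraMap_eq]

theorem r2Main_cubT_smul {τ : Type} [Fintype τ] (T : τ → τ → τ → ℝ) (w : τ → ℝ) (t : ℝ) :
    cubT T (fun i => t * w i) = t ^ 3 * cubT T w := by
  simp only [cubT, Finset.mul_sum]
  refine Finset.sum_congr rfl fun i _ => Finset.sum_congr rfl fun j _ =>
    Finset.sum_congr rfl fun l _ => ?_
  ring

/-- The node `(1, 0, …, 0)` is a zero of `s a b - r` with vanishing gradient. -/
theorem r2Main_singular {τ : Type} [Fintype τ] [DecidableEq τ] (T : τ → τ → τ → ℝ) (a b : τ) :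
    eval (Pi.single none 1) (X none * X (some a) * X (some b) -
        rename some (∑ i, ∑ j, ∑ l, C (T i j l) * X i * X j * X l) :
          MvPolynomial (Option τ) ℝ) = 0 ∧
    ∀ v, eval (Pi.single none 1) (pderiv v (X none * X (some a) * X (some b) -
        rename some (∑ i, ∑ j, ∑ l, C (T i j l) * X i * X j * X l) :
          MvPolynomial (Option τ) ℝ)) = 0 := by
  constructor
  · simp [map_sum]
  · intro v
    simp [map_sum, Derivation.leibniz]

/-- Rank-two nodes: characterization of hyperbolicity and spectrahedrality of the cone. -/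
theorem rank2_main {τ : Type} [Fintype τ] [DecidableEq τ] (a b : τ) (hab : a ≠ b)
    (r : MvPolynomial τ ℝ) (hr : r.IsHomogeneous 3) (e : Option τ → ℝ)
    (hea : 0 < e (some a)) (heb : 0 < e (some b)) :
    (IsHyperbolic (X none * X (some a) * X (some b) - rename some r) e ↔
      0 < eval e (X none * X (some a) * X (some b) - rename some r) ∧
        ∀ w : τ → ℝ, 0 ≤ w a → 0 ≤ w b → w a * w b = 0 → 0 ≤ eval w r) ∧
    (IsHyperbolic (X none * X (some a) * X (some b) - rename some r) e →
      IsSpectrahedron (hyperbolicityCone (X none * X (some a) * X (some b) - rename some r) e) ∧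
      Pi.single none 1 ∈
        hyperbolicityCone (X none * X (some a) * X (some b) - rename some r) e) ∧
    (eval (Pi.single none 1) (X none * X (some a) * X (some b) - rename some r) = 0 ∧
      ∀ v, eval (Pi.single none 1)
        (pderiv v (X none * X (some a) * X (some b) - rename some r)) = 0) := by
  obtain ⟨T, rfl⟩ := exists_cubic_tensor r hr
  set p : MvPolynomial (Option τ) ℝ := X none * X (some a) * X (some b) -
        rename some (∑ i, ∑ j, ∑ l, C (T i j l) * X i * X j * X l) with hp
  have hevr : ∀ w : τ → ℝ, eval w (∑ i, ∑ j, ∑ l, C (T i j l) * X i * X j * X l) = cubT T w := by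
    intro w; simp [cubT, map_sum]
  have hev : ∀ x : Option τ → ℝ, eval x p =
      x none * x (some a) * x (some b) - cubT T (fun i => x (some i)) := by
    intro x
    have := r2Main_aeval T a b x
    rwa [aeval_eq_eval] at this
  -- from ray nonnegativity to the Clifford form
  have key : (∀ w : τ → ℝ, w b = 0 → 0 < w a → 0 ≤ cubT T w) →
      (∀ w : τ → ℝ, w a = 0 → 0 < w b → 0 ≤ cubT T w) → 0 < eval e p →
      (IsHyperbolic p e ∧ IsSpectrahedron (hyperbolicityCone p e) ∧
        ∀ w : τ → ℝ, w a = 0 → w b = 0 → cubT T w = 0) := by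
    intro ha hb hpe
    obtain ⟨J, La, Lb, ℓ, hJ, hdec⟩ := cubT_decomp T a b hab ha hb
    obtain ⟨Γ, l0, h0, h, V, hΓ, he0, hei, hval⟩ := rank2_cliff_data a b hab J La Lb ℓ e hea heb
    have hpeq : p = cliffordCubic Γ l0 h0 h V := by
      apply MvPolynomial.funext
      intro x
      rw [eval_cliffordCubic, hval, hev, hdec]
    have he0' : ∑ k, h0 k * e k = 1 := by rw [← lf_eq_sum]; exact he0
    have hei' : ∀ i, ∑ k, h i k * e k = 0 := by intro i; rw [← lf_eq_sum]; exact hei i
    have hm := cliffordCubic_main Γ hΓ hJ l0 h0 h V e he0' hei' (by rw [← hpeq]; exact hpe)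
    rw [← hpeq] at hm
    refine ⟨hm.1, hm.2.1, ?_⟩
    intro w hwa hwb
    rw [hdec, hwa, hwb]; ring
  -- necessity
  have nec : IsHyperbolic p e → (∀ w : τ → ℝ, w b = 0 → 0 < w a → 0 ≤ cubT T w) ∧
      (∀ w : τ → ℝ, w a = 0 → 0 < w b → 0 ≤ cubT T w) := by
    intro hyp
    obtain ⟨-, hpe, hroots⟩ := hyp
    rw [hev] at hpe
    constructor
    · intro w hwb hwa
      refine cubT_ray_nonneg T a b hab e hea heb hpe ?_ w hwb hwa
      intro x t ht
      apply hroots x t
      rw [hp, r2Main_aeval]
      exact ht
    · intro w hwa hwb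
      refine cubT_ray_nonneg T b a (Ne.symm hab) e heb hea (by linarith) ?_ w hwa hwb
      intro x t ht
      apply hroots x t
      rw [hp, r2Main_aeval]
      rw [← ht]; ring
  refine ⟨⟨fun hyp => ?_, fun hyp => ?_⟩, fun hyp => ⟨?_, ?_⟩, r2Main_singular T a b⟩
  · obtain ⟨ha, hb⟩ := nec hyp
    refine ⟨hyp.2.1, ?_⟩
    intro w hwa hwb hprod
    rw [hevr]
    rcases mul_eq_zero.mp hprod with h0 | h0
    · rcases eq_or_lt_of_le hwb with h1 | h1
      · exact le_of_eq ((key ha hb hyp.2.1).2.2 w h0 h1.symm).symm
      · exact hb w h0 h1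
    · rcases eq_or_lt_of_le hwa with h1 | h1
      · exact le_of_eq ((key ha hb hyp.2.1).2.2 w h1.symm h0).symm
      · exact ha w h0 h1
  · obtain ⟨hpe, hw⟩ := hyp
    refine (key ?_ ?_ hpe).1
    · intro w hwb hwa
      rw [← hevr]; exact hw w hwa.le (by rw [hwb]) (by rw [hwb]; ring)
    · intro w hwa hwb
      rw [← hevr]; exact hw w (by rw [hwa]) hwb.le (by rw [hwa]; ring)
  · obtain ⟨ha, hb⟩ := nec hyp
    exact (key ha hb hyp.2.1).2.1
  · -- the node lies in the cone
    have hpe : 0 < e none * e (some a) * e (some b) - cubT T (fun i => e (some i)) := by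
      have := hyp.2.1
      rwa [hev] at this
    intro t ht
    rw [hev] at ht
    have h1 : cubT T (fun i => t * e (some i) - (Pi.single none 1 : Option τ → ℝ) (some i)) =
        t ^ 3 * cubT T (fun i => e (some i)) := by
      rw [← r2Main_cubT_smul]
      congr 1
      funext i
      simp
    rw [h1] at ht
    simp only [Pi.single_eq_same, ne_eq, reduceCtorEq, not_false_eq_true, Pi.single_eq_of_ne,
      sub_zero] at ht
    by_contra hneg'
    have hneg : t < 0 := not_le.mp hneg'
    have ht2 : 0 < t ^ 2 := by nlinarith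
    have hfac : (t * e none - 1) * (t * e (some a)) * (t * e (some b)) -
        t ^ 3 * cubT T (fun i => e (some i)) =
        t ^ 2 * (t * (e none * e (some a) * e (some b) - cubT T (fun i => e (some i))) -
          e (some a) * e (some b)) := by ring
    rw [hfac] at ht
    have hprod : 0 < e (some a) * e (some b) := mul_pos hea heb
    have hlt : t * (e none * e (some a) * e (some b) - cubT T (fun i => e (some i))) -
          e (some a) * e (some b) < 0 := by
      have := mul_neg_of_neg_of_pos hneg hpe
      linarith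
    have := mul_neg_of_pos_of_neg ht2 hlt
    linarith

end Vale.Agent.Lib.P256
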