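import Vale.Agent.Lib.P256.R2Core

/-!
A pencil of real cubics `c3 t^3 + g2 t^2 + g1 t + g0 - lam t (α t + β)` with `c3, g0, α, β > 0`
contains a member with a non-real root.  The proof is algebraic: a real cubic
`c t^3 + p t^2 + q t + g` with `p^2 < 3 c q` is strictly monotone, so after dividing out one real
root the remaining quadratic has negative discriminant.
-/

namespace Vale.Agent.Lib.P256

open MvPolynomial Matrix

/-- A real cubic whose derivative has negative discriminant has a non-real root. -/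
theorem r2Root_key (c p q g : ℝ) (hc : 0 < c) (h : p ^ 2 < 3 * c * q) :
    ∃ z : ℂ, z.im ≠ 0 ∧ (c : ℂ) * z ^ 3 + (p : ℂ) * z ^ 2 + (q : ℂ) * z + (g : ℂ) = 0 := by
  have hcC : (c : ℂ) ≠ 0 := by exact_mod_cast hc.ne'
  have hdeg : 0 < Polynomial.degree (Polynomial.C (c : ℂ) * Polynomial.X ^ 3
      + Polynomial.C (p : ℂ) * Polynomial.X ^ 2 + Polynomial.C (q : ℂ) * Polynomial.X
      + Polynomial.C (g : ℂ)) := by
    rw [Polynomial.degree_cubic hcC]
    norm_num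
  obtain ⟨z1, hz1⟩ := Complex.exists_root hdeg
  have hz1' : (c : ℂ) * z1 ^ 3 + (p : ℂ) * z1 ^ 2 + (q : ℂ) * z1 + (g : ℂ) = 0 := by
    have := hz1
    simp only [Polynomial.IsRoot.def, Polynomial.eval_add, Polynomial.eval_mul,
      Polynomial.eval_pow, Polynomial.eval_C, Polynomial.eval_X] at this
    exact this
  by_cases hzim : z1.im = 0
  swap
  · exact ⟨z1, hzim, hz1'⟩
  obtain ⟨r, hr⟩ : ∃ r : ℝ, (r : ℂ) = z1 := ⟨z1.re, by
    apply Complex.ext
    · simp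
    · simp [hzim]⟩
  rw [← hr] at hz1'
  have hroot : c * r ^ 3 + p * r ^ 2 + q * r + g = 0 := by exact_mod_cast hz1'
  obtain ⟨b, hb⟩ : ∃ b : ℝ, b = p + c * r := ⟨_, rfl⟩
  obtain ⟨d, hd⟩ : ∃ d : ℝ, d = q + p * r + c * r ^ 2 := ⟨_, rfl⟩
  have hD : 0 < 4 * c * d - b ^ 2 := by
    rw [hb, hd]
    nlinarith [sq_nonneg (3 * c * r + p)]
  obtain ⟨s, hs⟩ : ∃ s : ℂ, s = ((Real.sqrt (4 * c * d - b ^ 2) : ℝ) : ℂ) := ⟨_, rfl⟩
  have hs2 : s ^ 2 = 4 * (c : ℂ) * (d : ℂ) - (b : ℂ) ^ 2 := by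
    rw [hs]
    have h1 : Real.sqrt (4 * c * d - b ^ 2) ^ 2 = 4 * c * d - b ^ 2 := Real.sq_sqrt hD.le
    exact_mod_cast h1
  obtain ⟨z, hz⟩ : ∃ z : ℂ, z = (-(b : ℂ) + s * Complex.I) / (2 * (c : ℂ)) := ⟨_, rfl⟩
  have hz2 : 2 * (c : ℂ) * z = -(b : ℂ) + s * Complex.I := by
    rw [hz]
    field_simp
  have hQ4 : (4 * (c : ℂ)) * ((c : ℂ) * z ^ 2 + (b : ℂ) * z + (d : ℂ)) = 0 := by
    linear_combination (2 * (c : ℂ) * z + (-(b : ℂ) + s * Complex.I) + 2 * (b : ℂ)) * hz2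
      + s ^ 2 * Complex.I_sq - hs2
  have hQ : (c : ℂ) * z ^ 2 + (b : ℂ) * z + (d : ℂ) = 0 := by
    rcases mul_eq_zero.mp hQ4 with h4 | h4
    · exfalso
      apply hcC
      have h44 : (4 : ℂ) ≠ 0 := by norm_num
      exact (mul_eq_zero.mp h4).resolve_left h44
    · exact h4
  have hbC : (b : ℂ) = (p : ℂ) + (c : ℂ) * (r : ℂ) := by
    rw [hb]
    push_cast
    ring
  have hdC : (d : ℂ) = (q : ℂ) + (p : ℂ) * (r : ℂ) + (c : ℂ) * (r : ℂ) ^ 2 := by
    rw [hd]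
    push_cast
    ring
  have hrootC : (c : ℂ) * (r : ℂ) ^ 3 + (p : ℂ) * (r : ℂ) ^ 2 + (q : ℂ) * (r : ℂ) + (g : ℂ) = 0 := by
    exact_mod_cast hroot
  refine ⟨z, ?_, ?_⟩
  · have him : z.im = Real.sqrt (4 * c * d - b ^ 2) / (2 * c) := by
      have h2c : (2 * (c : ℂ)) = ((2 * c : ℝ) : ℂ) := by push_cast; ring
      rw [hz, hs, h2c, Complex.div_ofReal_im]
      simp
    rw [him]
    have hsq : 0 < Real.sqrt (4 * c * d - b ^ 2) := Real.sqrt_pos.mpr hD
    positivity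
  · rw [hbC, hdC] at hQ
    linear_combination (z - (r : ℂ)) * hQ + hrootC

/-- The reversed version: a real cubic with positive constant term whose reversal has a
derivative with negative discriminant has a non-real root. -/
theorem r2Root_key_rev (c p q g : ℝ) (hg : 0 < g) (h : q ^ 2 < 3 * g * p) :
    ∃ z : ℂ, z.im ≠ 0 ∧ (c : ℂ) * z ^ 3 + (p : ℂ) * z ^ 2 + (q : ℂ) * z + (g : ℂ) = 0 := by
  obtain ⟨w, hw, hR⟩ := r2Root_key g q p c hg h
  have hw0 : w ≠ 0 := by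
    intro h0
    apply hw
    rw [h0]
    simp
  refine ⟨w⁻¹, ?_, ?_⟩
  · rw [Complex.inv_im]
    have hn : Complex.normSq w ≠ 0 := by
      intro h0
      exact hw0 (Complex.normSq_eq_zero.mp h0)
    intro h0
    rcases div_eq_zero_iff.mp h0 with h1 | h1
    · exact hw (neg_eq_zero.mp h1)
    · exact hn h1
  · field_simp
    linear_combination hR

theorem exists_nonreal_root (c3 g2 g1 g0 α β : ℝ) (hc : 0 < c3) (hg : 0 < g0) (hα : 0 < α)
    (hβ : 0 < β) :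
    ∃ (lam : ℝ) (z : ℂ), z.im ≠ 0 ∧
      (c3 : ℂ) * z ^ 3 + (g2 : ℂ) * z ^ 2 + (g1 : ℂ) * z + (g0 : ℂ)
        - (lam : ℂ) * z * ((α : ℂ) * z + (β : ℂ)) = 0 := by
  have hred : ∀ (lam : ℝ) (z : ℂ),
      (c3 : ℂ) * z ^ 3 + ((g2 - lam * α : ℝ) : ℂ) * z ^ 2 + ((g1 - lam * β : ℝ) : ℂ) * z
        + (g0 : ℂ) = 0 →
      (c3 : ℂ) * z ^ 3 + (g2 : ℂ) * z ^ 2 + (g1 : ℂ) * z + (g0 : ℂ)
        - (lam : ℂ) * z * ((α : ℂ) * z + (β : ℂ)) = 0 := by
    intro lam z hz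
    push_cast at hz
    linear_combination hz
  by_cases hq0 : 0 ≤ g1 - g2 / α * β
  · -- the member with `p > 0` small and `q` at least proportional
    obtain ⟨lam, hlam⟩ : ∃ lam : ℝ, lam = g2 / α - c3 * β / α ^ 2 := ⟨_, rfl⟩
    have hp : g2 - lam * α = c3 * β / α := by
      rw [hlam]
      field_simp
      ring
    have hq : c3 * β ^ 2 / α ^ 2 ≤ g1 - lam * β := by
      have h1 : g1 - lam * β = (g1 - g2 / α * β) + c3 * β ^ 2 / α ^ 2 := by
        rw [hlam]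
        field_simp
        ring
      rw [h1]
      linarith
    have hkey : (g2 - lam * α) ^ 2 < 3 * c3 * (g1 - lam * β) := by
      rw [hp]
      have h2 : (c3 * β / α) ^ 2 = c3 * (c3 * β ^ 2 / α ^ 2) := by
        field_simp
      have h3 : 0 < c3 * β ^ 2 / α ^ 2 := by positivity
      rw [h2]
      nlinarith
    obtain ⟨z, hz, hzr⟩ := r2Root_key c3 (g2 - lam * α) (g1 - lam * β) g0 hc hkey
    exact ⟨lam, z, hz, hred lam z hzr⟩
  · -- the member with `q = 0` and `p > 0`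
    have hq0' : g1 - g2 / α * β < 0 := not_le.mp hq0
    obtain ⟨lam, hlam⟩ : ∃ lam : ℝ, lam = g1 / β := ⟨_, rfl⟩
    have hq : g1 - lam * β = 0 := by
      rw [hlam]
      field_simp
      ring
    have hp : 0 < g2 - lam * α := by
      have h1 : g2 - lam * α = -(g1 - g2 / α * β) * (α / β) := by
        rw [hlam]
        field_simp
        ring
      rw [h1]
      have h2 : 0 < α / β := by positivity
      nlinarith
    have hkey : (g1 - lam * β) ^ 2 < 3 * g0 * (g2 - lam * α) := by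
      rw [hq]
      have : 0 < 3 * g0 * (g2 - lam * α) := by positivity
      simpa using this
    obtain ⟨z, hz, hzr⟩ := r2Root_key_rev c3 (g2 - lam * α) (g1 - lam * β) g0 hg hkey
    exact ⟨lam, z, hz, hred lam z hzr⟩

end Vale.Agent.Lib.P256
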