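import Vale.Agent.Lib.P256.R3Core
namespace Vale.Agent.Lib.P256
open MvPolynomial Matrix

/-- the boost with rational parameters `p, e1, e2` (denominator `p^2 - e1^2 - e2^2`),
extended by the identity on the remaining coordinates -/
noncomputable def r3Boost_mat {κ : Type} [DecidableEq κ] (p e1 e2 : ℝ) :
    Matrix (Fin 3 ⊕ κ) (Fin 3 ⊕ κ) ℝ :=
  Matrix.fromBlocks
    !![(p ^ 2 + e1 ^ 2 + e2 ^ 2) / (p ^ 2 - e1 ^ 2 - e2 ^ 2),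
        -(2 * p * e1) / (p ^ 2 - e1 ^ 2 - e2 ^ 2), -(2 * p * e2) / (p ^ 2 - e1 ^ 2 - e2 ^ 2);
      -(2 * p * e1) / (p ^ 2 - e1 ^ 2 - e2 ^ 2), 1 + 2 * e1 ^ 2 / (p ^ 2 - e1 ^ 2 - e2 ^ 2),
        2 * e1 * e2 / (p ^ 2 - e1 ^ 2 - e2 ^ 2);
      -(2 * p * e2) / (p ^ 2 - e1 ^ 2 - e2 ^ 2), 2 * e1 * e2 / (p ^ 2 - e1 ^ 2 - e2 ^ 2),
        1 + 2 * e2 ^ 2 / (p ^ 2 - e1 ^ 2 - e2 ^ 2)]
    0 0 1

theorem r3Boost_apply0 {κ : Type} [Fintype κ] [DecidableEq κ] (p e1 e2 : ℝ)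
    (w : Fin 3 ⊕ κ → ℝ) :
    (r3Boost_mat p e1 e2 *ᵥ w) (Sum.inl 0)
      = (p ^ 2 + e1 ^ 2 + e2 ^ 2) / (p ^ 2 - e1 ^ 2 - e2 ^ 2) * w (Sum.inl 0)
        + -(2 * p * e1) / (p ^ 2 - e1 ^ 2 - e2 ^ 2) * w (Sum.inl 1)
        + -(2 * p * e2) / (p ^ 2 - e1 ^ 2 - e2 ^ 2) * w (Sum.inl 2) := by
  simp [r3Boost_mat, Matrix.mulVec, dotProduct, Fin.sum_univ_three]

theorem r3Boost_apply1 {κ : Type} [Fintype κ] [DecidableEq κ] (p e1 e2 : ℝ)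
    (w : Fin 3 ⊕ κ → ℝ) :
    (r3Boost_mat p e1 e2 *ᵥ w) (Sum.inl 1)
      = -(2 * p * e1) / (p ^ 2 - e1 ^ 2 - e2 ^ 2) * w (Sum.inl 0)
        + (1 + 2 * e1 ^ 2 / (p ^ 2 - e1 ^ 2 - e2 ^ 2)) * w (Sum.inl 1)
        + 2 * e1 * e2 / (p ^ 2 - e1 ^ 2 - e2 ^ 2) * w (Sum.inl 2) := by
  simp [r3Boost_mat, Matrix.mulVec, dotProduct, Fin.sum_univ_three]

theorem r3Boost_apply2 {κ : Type} [Fintype κ] [DecidableEq κ] (p e1 e2 : ℝ)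
    (w : Fin 3 ⊕ κ → ℝ) :
    (r3Boost_mat p e1 e2 *ᵥ w) (Sum.inl 2)
      = -(2 * p * e2) / (p ^ 2 - e1 ^ 2 - e2 ^ 2) * w (Sum.inl 0)
        + 2 * e1 * e2 / (p ^ 2 - e1 ^ 2 - e2 ^ 2) * w (Sum.inl 1)
        + (1 + 2 * e2 ^ 2 / (p ^ 2 - e1 ^ 2 - e2 ^ 2)) * w (Sum.inl 2) := by
  simp [r3Boost_mat, Matrix.mulVec, dotProduct, Fin.sum_univ_three]

theorem r3Boost_applyr {κ : Type} [Fintype κ] [DecidableEq κ] (p e1 e2 : ℝ)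
    (w : Fin 3 ⊕ κ → ℝ) (c : κ) :
    (r3Boost_mat p e1 e2 *ᵥ w) (Sum.inr c) = w (Sum.inr c) := by
  simp [r3Boost_mat, Matrix.fromBlocks_mulVec]


theorem r3Boost_inv {κ : Type} [Fintype κ] [DecidableEq κ] (p e1 e2 : ℝ)
    (hq : p ^ 2 - e1 ^ 2 - e2 ^ 2 ≠ 0) (w : Fin 3 ⊕ κ → ℝ) :
    r3Boost_mat p (-e1) (-e2) *ᵥ (r3Boost_mat p e1 e2 *ᵥ w) = w := by
  have hq' : p ^ 2 - (-e1) ^ 2 - (-e2) ^ 2 = p ^ 2 - e1 ^ 2 - e2 ^ 2 := by ring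
  funext x
  rcases x with i | c
  · fin_cases i
    · show (r3Boost_mat p (-e1) (-e2) *ᵥ (r3Boost_mat p e1 e2 *ᵥ w)) (Sum.inl 0) = w (Sum.inl 0)
      rw [r3Boost_apply0, r3Boost_apply0, r3Boost_apply1, r3Boost_apply2, hq']
      field_simp
      ring
    · show (r3Boost_mat p (-e1) (-e2) *ᵥ (r3Boost_mat p e1 e2 *ᵥ w)) (Sum.inl 1) = w (Sum.inl 1)
      rw [r3Boost_apply1, r3Boost_apply0, r3Boost_apply1, r3Boost_apply2, hq']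
      field_simp
      ring
    · show (r3Boost_mat p (-e1) (-e2) *ᵥ (r3Boost_mat p e1 e2 *ᵥ w)) (Sum.inl 2) = w (Sum.inl 2)
      rw [r3Boost_apply2, r3Boost_apply0, r3Boost_apply1, r3Boost_apply2, hq']
      field_simp
      ring
  · rw [r3Boost_applyr, r3Boost_applyr]

theorem r3Boost_lorQ {κ : Type} [Fintype κ] [DecidableEq κ] (p e1 e2 : ℝ)
    (hq : p ^ 2 - e1 ^ 2 - e2 ^ 2 ≠ 0) (w : Fin 3 ⊕ κ → ℝ) :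
    lorQ (r3Boost_mat p e1 e2 *ᵥ w) = lorQ w := by
  unfold lorQ
  rw [r3Boost_apply0, r3Boost_apply1, r3Boost_apply2]
  field_simp
  ring

theorem r3Boost_forward {κ : Type} [Fintype κ] [DecidableEq κ] (p e1 e2 : ℝ)
    (hp : 0 < p) (hq : 0 < p ^ 2 - e1 ^ 2 - e2 ^ 2) (w : Fin 3 ⊕ κ → ℝ)
    (hw0 : 0 < w (Sum.inl 0)) (hw : lorQ w = 0) :
    0 < (r3Boost_mat p e1 e2 *ᵥ w) (Sum.inl 0) := by
  rw [r3Boost_apply0]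
  unfold lorQ at hw
  set w0 := w (Sum.inl 0)
  set w1 := w (Sum.inl 1)
  set w2 := w (Sum.inl 2)
  have hnum : 0 < (p ^ 2 + e1 ^ 2 + e2 ^ 2) * w0 - 2 * p * (e1 * w1 + e2 * w2) := by
    by_contra hcon
    have hcon' : (p ^ 2 + e1 ^ 2 + e2 ^ 2) * w0 ≤ 2 * p * (e1 * w1 + e2 * w2) := by linarith
    have h1 : 0 ≤ (p ^ 2 + e1 ^ 2 + e2 ^ 2) * w0 := by positivity
    have h2 : ((p ^ 2 + e1 ^ 2 + e2 ^ 2) * w0) ^ 2 ≤ (2 * p * (e1 * w1 + e2 * w2)) ^ 2 :=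
      pow_le_pow_left₀ h1 hcon' 2
    have h3 : (e1 * w1 + e2 * w2) ^ 2 ≤ (e1 ^ 2 + e2 ^ 2) * w0 ^ 2 := by
      nlinarith [sq_nonneg (e1 * w2 - e2 * w1)]
    have h4 : (2 * p * (e1 * w1 + e2 * w2)) ^ 2 ≤ 4 * p ^ 2 * ((e1 ^ 2 + e2 ^ 2) * w0 ^ 2) := by
      have hp2 : 0 ≤ 4 * p ^ 2 := by positivity
      nlinarith [mul_le_mul_of_nonneg_left h3 hp2]
    have h5 : 0 < (p ^ 2 - e1 ^ 2 - e2 ^ 2) ^ 2 * w0 ^ 2 := by positivity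
    nlinarith
  have e : (p ^ 2 + e1 ^ 2 + e2 ^ 2) / (p ^ 2 - e1 ^ 2 - e2 ^ 2) * w0
        + -(2 * p * e1) / (p ^ 2 - e1 ^ 2 - e2 ^ 2) * w1
        + -(2 * p * e2) / (p ^ 2 - e1 ^ 2 - e2 ^ 2) * w2
      = ((p ^ 2 + e1 ^ 2 + e2 ^ 2) * w0 - 2 * p * (e1 * w1 + e2 * w2))
        / (p ^ 2 - e1 ^ 2 - e2 ^ 2) := by
    field_simp
    ring
  rw [e]
  exact div_pos hnum hq

theorem exists_boost {κ : Type} [Fintype κ] [DecidableEq κ] (e0 e1 e2 : ℝ)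
    (he : Real.sqrt (e1 ^ 2 + e2 ^ 2) < e0) :
    ∃ (L Linv : Matrix (Fin 3 ⊕ κ) (Fin 3 ⊕ κ) ℝ),
      (∀ w, Linv *ᵥ (L *ᵥ w) = w) ∧ (∀ w, lorQ (L *ᵥ w) = lorQ w) ∧
      (∀ w, lorQ (Linv *ᵥ w) = lorQ w) ∧
      (∀ w, 0 < w (Sum.inl 0) → lorQ w = 0 → 0 < (Linv *ᵥ w) (Sum.inl 0)) ∧
      (∀ w : Fin 3 ⊕ κ → ℝ, w (Sum.inl 0) = e0 → w (Sum.inl 1) = e1 → w (Sum.inl 2) = e2 →
        0 < (L *ᵥ w) (Sum.inl 0) ∧ (L *ᵥ w) (Sum.inl 1) = 0 ∧ (L *ᵥ w) (Sum.inl 2) = 0) := by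
  have hs0 : 0 ≤ Real.sqrt (e1 ^ 2 + e2 ^ 2) := Real.sqrt_nonneg _
  have he0 : 0 < e0 := lt_of_le_of_lt hs0 he
  have hE : 0 ≤ e1 ^ 2 + e2 ^ 2 := by positivity
  have hlt : e1 ^ 2 + e2 ^ 2 < e0 ^ 2 := by
    have h1 := Real.sq_sqrt hE
    nlinarith
  have hm : 0 < e0 ^ 2 - e1 ^ 2 - e2 ^ 2 := by linarith
  set μ := Real.sqrt (e0 ^ 2 - e1 ^ 2 - e2 ^ 2) with hμdef
  have hμ : 0 < μ := Real.sqrt_pos.mpr hm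
  have hμ2 : μ ^ 2 = e0 ^ 2 - e1 ^ 2 - e2 ^ 2 := Real.sq_sqrt hm.le
  set p := e0 + μ with hpdef
  have hp : 0 < p := by positivity
  have hqe : p ^ 2 - e1 ^ 2 - e2 ^ 2 = 2 * μ * p := by
    rw [hpdef]
    linear_combination -hμ2
  have hq : 0 < p ^ 2 - e1 ^ 2 - e2 ^ 2 := by
    rw [hqe]
    positivity
  have hq' : 0 < p ^ 2 - (-e1) ^ 2 - (-e2) ^ 2 := by
    have : p ^ 2 - (-e1) ^ 2 - (-e2) ^ 2 = p ^ 2 - e1 ^ 2 - e2 ^ 2 := by ring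
    rw [this]
    exact hq
  have hpe : p ^ 2 + e1 ^ 2 + e2 ^ 2 = 2 * e0 * p := by
    rw [hpdef]
    linear_combination hμ2
  refine ⟨r3Boost_mat p e1 e2, r3Boost_mat p (-e1) (-e2), ?_, ?_, ?_, ?_, ?_⟩
  · intro w
    exact r3Boost_inv p e1 e2 hq.ne' w
  · intro w
    exact r3Boost_lorQ p e1 e2 hq.ne' w
  · intro w
    exact r3Boost_lorQ p (-e1) (-e2) hq'.ne' w
  · intro w hw0 hw
    exact r3Boost_forward p (-e1) (-e2) hp hq' w hw0 hw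
  · intro w h0 h1 h2
    have hqne : p ^ 2 - e1 ^ 2 - e2 ^ 2 ≠ 0 := hq.ne'
    refine ⟨?_, ?_, ?_⟩
    · rw [r3Boost_apply0, h0, h1, h2]
      have e : (p ^ 2 + e1 ^ 2 + e2 ^ 2) / (p ^ 2 - e1 ^ 2 - e2 ^ 2) * e0
            + -(2 * p * e1) / (p ^ 2 - e1 ^ 2 - e2 ^ 2) * e1
            + -(2 * p * e2) / (p ^ 2 - e1 ^ 2 - e2 ^ 2) * e2 = μ := by
        rw [hpe, hqe]
        field_simp
        linear_combination -hμ2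
      rw [e]
      exact hμ
    · rw [r3Boost_apply1, h0, h1, h2]
      have e : 2 * p * e0 = p ^ 2 + e1 ^ 2 + e2 ^ 2 := by linarith
      field_simp
      linear_combination -e1 * e
    · rw [r3Boost_apply2, h0, h1, h2]
      have e : 2 * p * e0 = p ^ 2 + e1 ^ 2 + e2 ^ 2 := by linarith
      field_simp
      linear_combination -e2 * e

end Vale.Agent.Lib.P256
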