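import Vale.Agent.Lib.P256.R2Core
import Vale.Agent.Lib.P256.FRCore

namespace Vale.Agent.Lib.P256

open MvPolynomial Matrix

/-- The Lorentz form `y0^2 - y1^2 - y2^2` of a point with coordinates indexed by `Fin 3 ⊕ κ`
(`y_i` is the coordinate `Sum.inl i`). -/
def lorQ {κ : Type} (w : Fin 3 ⊕ κ → ℝ) : ℝ :=
  w (Sum.inl 0) ^ 2 - w (Sum.inl 1) ^ 2 - w (Sum.inl 2) ^ 2

/-- The point of the forward null cone with spinor coordinates `(u1, u2)`: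
`y = (u1^2 + u2^2, u1^2 - u2^2, 2 u1 u2)`, remaining coordinates `z`. -/
def nullPt {κ : Type} (u1 u2 : ℝ) (z : κ → ℝ) : Fin 3 ⊕ κ → ℝ :=
  Sum.elim ![u1 ^ 2 + u2 ^ 2, u1 ^ 2 - u2 ^ 2, 2 * u1 * u2] z

/-- The quadratic form `v^T [[a0 - a1, -a2], [-a2, a0 + a1]] v` of a 2-vector `v = (v1, v2)`. -/
def spinQ (a0 a1 a2 v1 v2 : ℝ) : ℝ :=
  (a0 - a1) * v1 ^ 2 - 2 * a2 * v1 * v2 + (a0 + a1) * v2 ^ 2

end Vale.Agent.Lib.P256
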