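import Vale.Agent.Lib.P256.R3Core

namespace Vale.Agent.Lib.P256

open MvPolynomial Matrix

/-- A linear form on `Option τ` split into its `none` coordinate and the others. -/
theorem r3Data_lf {τ : Type} [Fintype τ] (c x : Option τ → ℝ) :
    lf c x = c none * x none + ∑ i, c (some i) * x (some i) := by
  unfold lf
  rw [Fintype.sum_option]
  simp

/-- The two-element Clifford system `diag (1, -1)`, `antidiag (1, 1)`. -/
def r3Data_G : Fin 2 → Matrix (Fin 2) (Fin 2) ℝ :=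
  fun i => if i = 0 then !![1, 0; 0, -1] else !![0, 1; 1, 0]

theorem r3Data_G_zero : r3Data_G 0 = !![1, 0; 0, -1] := rfl

theorem r3Data_G_one : r3Data_G 1 = !![0, 1; 1, 0] := rfl

theorem r3Data_cliff : IsCliff r3Data_G where
  pos := by norm_num
  symm := fun i => by
    fin_cases i
    · show (r3Data_G 0).IsSymm
      rw [r3Data_G_zero]
      ext a b
      fin_cases a <;> fin_cases b <;> simp
    · show (r3Data_G 1).IsSymm
      rw [r3Data_G_one]
      ext a b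
      fin_cases a <;> fin_cases b <;> simp
  sq := fun i => by
    fin_cases i
    · show r3Data_G 0 * r3Data_G 0 = 1
      rw [r3Data_G_zero, Matrix.mul_fin_two, Matrix.one_fin_two]
      norm_num
    · show r3Data_G 1 * r3Data_G 1 = 1
      rw [r3Data_G_one, Matrix.mul_fin_two, Matrix.one_fin_two]
      norm_num
  anti := fun i j hij => by
    fin_cases i <;> fin_cases j
    · exact absurd rfl hij
    · show r3Data_G 0 * r3Data_G 1 + r3Data_G 1 * r3Data_G 0 = 0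
      rw [r3Data_G_zero, r3Data_G_one, Matrix.mul_fin_two, Matrix.mul_fin_two]
      ext a b
      fin_cases a <;> fin_cases b <;> simp
    · show r3Data_G 1 * r3Data_G 0 + r3Data_G 0 * r3Data_G 1 = 0
      rw [r3Data_G_zero, r3Data_G_one, Matrix.mul_fin_two, Matrix.mul_fin_two]
      ext a b
      fin_cases a <;> fin_cases b <;> simp
    · exact absurd rfl hij
  tr := fun i => by
    fin_cases i
    · show (r3Data_G 0).trace = 0
      rw [r3Data_G_zero, Matrix.trace_fin_two]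
      simp
    · show (r3Data_G 1).trace = 0
      rw [r3Data_G_one, Matrix.trace_fin_two]
      simp

/-- The Clifford cubic of the system `r3Data_G` in terms of the form `spinQ`. -/
theorem r3Data_cliffVal_eq {σ : Type} [Fintype σ] {J : ℕ} (l0 h0 : σ → ℝ)
    (h : Fin 2 → σ → ℝ) (V : Fin J → Fin 2 → σ → ℝ) (x : σ → ℝ) :
    cliffVal r3Data_G l0 h0 h V x =
      lf l0 x * (lf h0 x ^ 2 - lf (h 0) x ^ 2 - lf (h 1) x ^ 2) -
        ∑ j, spinQ (lf h0 x) (lf (h 0) x) (lf (h 1) x) (lf (V j 0) x) (lf (V j 1) x) := by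
  unfold cliffVal
  congr 1
  · rw [Fin.sum_univ_two]
    ring
  · apply Finset.sum_congr rfl
    intro j _
    simp [Fin.sum_univ_two, r3Data_G, spinQ]
    ring

/-- Coefficients of the form `(H ⬝ᵥ x') / μ`. -/
noncomputable def r3Data_hd {τ : Type} (μ : ℝ) (H : τ → ℝ) : Option τ → ℝ :=
  fun o => o.elim 0 (fun i => H i / μ)

/-- Coefficients of the form `μ^2 (s - ℓ)`. -/
def r3Data_l0 {τ : Type} (μ : ℝ) (ℓ : τ → ℝ) : Option τ → ℝ :=
  fun o => o.elim (μ ^ 2) (fun i => -(μ ^ 2) * ℓ i)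

/-- Coefficients of the forms `s * V1 j` and `s * V2 j`. -/
def r3Data_V {τ : Type} (s : ℝ) {J : ℕ} (V1 V2 : Fin J → τ → ℝ) :
    Fin J → Fin 2 → Option τ → ℝ :=
  fun j c o => o.elim 0 (fun i => if c = 0 then s * V1 j i else s * V2 j i)

theorem r3Data_lf_hd {τ : Type} [Fintype τ] (μ : ℝ) (H : τ → ℝ) (x : Option τ → ℝ) :
    lf (r3Data_hd μ H) x = (H ⬝ᵥ fun i => x (some i)) / μ := by
  rw [r3Data_lf]
  simp only [r3Data_hd, Option.elim_none, Option.elim_some, dotProduct, zero_mul, zero_add]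
  rw [Finset.sum_div]
  apply Finset.sum_congr rfl
  intro i _
  ring

theorem r3Data_lf_l0 {τ : Type} [Fintype τ] (μ : ℝ) (ℓ : τ → ℝ) (x : Option τ → ℝ) :
    lf (r3Data_l0 μ ℓ) x = μ ^ 2 * (x none - ℓ ⬝ᵥ fun i => x (some i)) := by
  rw [r3Data_lf]
  simp only [r3Data_l0, Option.elim_none, Option.elim_some, dotProduct]
  rw [mul_sub, Finset.mul_sum, sub_eq_add_neg, ← Finset.sum_neg_distrib]
  congr 1
  apply Finset.sum_congr rfl
  intro i _
  ring

theorem r3Data_lf_V0 {τ : Type} [Fintype τ] (s : ℝ) {J : ℕ} (V1 V2 : Fin J → τ → ℝ)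
    (x : Option τ → ℝ) (j : Fin J) :
    lf (r3Data_V s V1 V2 j 0) x = s * (V1 j ⬝ᵥ fun i => x (some i)) := by
  rw [r3Data_lf]
  simp only [r3Data_V, Option.elim_none, Option.elim_some, dotProduct, zero_mul, zero_add,
    if_true]
  rw [Finset.mul_sum]
  apply Finset.sum_congr rfl
  intro i _
  ring

theorem r3Data_lf_V1 {τ : Type} [Fintype τ] (s : ℝ) {J : ℕ} (V1 V2 : Fin J → τ → ℝ)
    (x : Option τ → ℝ) (j : Fin J) :
    lf (r3Data_V s V1 V2 j 1) x = s * (V2 j ⬝ᵥ fun i => x (some i)) := by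
  rw [r3Data_lf]
  have h10 : ¬ ((1 : Fin 2) = 0) := by decide
  simp only [r3Data_V, Option.elim_none, Option.elim_some, dotProduct, zero_mul, zero_add,
    h10, if_false]
  rw [Finset.mul_sum]
  apply Finset.sum_congr rfl
  intro i _
  ring

/-- Scaling of the form `spinQ`. -/
theorem r3Data_spinQ_scale (s μ a0 a1 a2 v1 v2 : ℝ) (hss : s * s = μ) (hμ : μ ≠ 0) :
    spinQ (a0 / μ) (a1 / μ) (a2 / μ) (s * v1) (s * v2) = spinQ a0 a1 a2 v1 v2 := by
  subst hss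
  have hs : s ≠ 0 := fun h => hμ (by rw [h, mul_zero])
  unfold spinQ
  field_simp

theorem rank3_cliff_data {τ : Type} [Fintype τ] (H0 H1 H2 : τ → ℝ) (J : ℕ)
    (V1 V2 : Fin J → τ → ℝ) (ℓ : τ → ℝ) (e : Option τ → ℝ)
    (h0e : 0 < H0 ⬝ᵥ fun i => e (some i)) (h1e : (H1 ⬝ᵥ fun i => e (some i)) = 0)
    (h2e : (H2 ⬝ᵥ fun i => e (some i)) = 0) :
    ∃ (Γ : Fin 2 → Matrix (Fin 2) (Fin 2) ℝ) (l0 h0 : Option τ → ℝ) (h : Fin 2 → Option τ → ℝ)
      (V : Fin J → Fin 2 → Option τ → ℝ),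
      IsCliff Γ ∧ lf h0 e = 1 ∧ (∀ i, lf (h i) e = 0) ∧
      ∀ x : Option τ → ℝ, cliffVal Γ l0 h0 h V x =
        x none * ((H0 ⬝ᵥ fun i => x (some i)) ^ 2 - (H1 ⬝ᵥ fun i => x (some i)) ^ 2
            - (H2 ⬝ᵥ fun i => x (some i)) ^ 2) -
          (∑ j, spinQ (H0 ⬝ᵥ fun i => x (some i)) (H1 ⬝ᵥ fun i => x (some i))
              (H2 ⬝ᵥ fun i => x (some i)) (V1 j ⬝ᵥ fun i => x (some i))
              (V2 j ⬝ᵥ fun i => x (some i))
            + ((H0 ⬝ᵥ fun i => x (some i)) ^ 2 - (H1 ⬝ᵥ fun i => x (some i)) ^ 2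
              - (H2 ⬝ᵥ fun i => x (some i)) ^ 2) * (ℓ ⬝ᵥ fun i => x (some i))) := by
  obtain ⟨μ, hμ⟩ : ∃ μ : ℝ, μ = H0 ⬝ᵥ fun i => e (some i) := ⟨_, rfl⟩
  rw [← hμ] at h0e
  obtain ⟨s, hs⟩ : ∃ s : ℝ, s = Real.sqrt μ := ⟨_, rfl⟩
  have hss : s * s = μ := by
    rw [hs]
    exact Real.mul_self_sqrt h0e.le
  have hμ0 : μ ≠ 0 := h0e.ne'
  refine ⟨r3Data_G, r3Data_l0 μ ℓ, r3Data_hd μ H0, ![r3Data_hd μ H1, r3Data_hd μ H2],
    r3Data_V s V1 V2, r3Data_cliff, ?_, ?_, ?_⟩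
  · rw [r3Data_lf_hd, ← hμ]
    exact div_self hμ0
  · intro i
    fin_cases i
    · show lf (r3Data_hd μ H1) e = 0
      rw [r3Data_lf_hd, h1e, zero_div]
    · show lf (r3Data_hd μ H2) e = 0
      rw [r3Data_lf_hd, h2e, zero_div]
  · intro x
    rw [r3Data_cliffVal_eq]
    have hh0 : (![r3Data_hd μ H1, r3Data_hd μ H2] : Fin 2 → Option τ → ℝ) 0 =
        r3Data_hd μ H1 := rfl
    have hh1 : (![r3Data_hd μ H1, r3Data_hd μ H2] : Fin 2 → Option τ → ℝ) 1 =
        r3Data_hd μ H2 := rfl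
    rw [hh0, hh1]
    simp only [r3Data_lf_hd, r3Data_lf_l0, r3Data_lf_V0, r3Data_lf_V1]
    rw [Finset.sum_congr rfl (fun j _ => r3Data_spinQ_scale s μ _ _ _ _ _ hss hμ0)]
    field_simp
    ring

end Vale.Agent.Lib.P256
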