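import Vale.Agent.Lib.P256.R3Core
import Vale.Agent.Lib.P256.R2Diff
namespace Vale.Agent.Lib.P256
open MvPolynomial Matrix

/-- Every point of the forward null cone has spinor coordinates. -/
theorem r3Div_param (y1 y2 : ℝ) :
    ∃ u1 u2 : ℝ, u1 ^ 2 + u2 ^ 2 = Real.sqrt (y1 ^ 2 + y2 ^ 2) ∧ u1 ^ 2 - u2 ^ 2 = y1 ∧
      2 * u1 * u2 = y2 := by
  set ρ := Real.sqrt (y1 ^ 2 + y2 ^ 2) with hρ
  have hnn : 0 ≤ y1 ^ 2 + y2 ^ 2 := by positivity
  have hρ2 : ρ ^ 2 = y1 ^ 2 + y2 ^ 2 := Real.sq_sqrt hnn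
  have habs : |y1| ≤ ρ := Real.abs_le_sqrt (by nlinarith [sq_nonneg y2])
  have h1 : 0 ≤ (ρ + y1) / 2 := by
    have := neg_abs_le y1
    linarith
  have h2 : 0 ≤ (ρ - y1) / 2 := by
    have := le_abs_self y1
    linarith
  have hprod : Real.sqrt ((ρ + y1) / 2) * Real.sqrt ((ρ - y1) / 2) = |y2| / 2 := by
    rw [← Real.sqrt_mul h1]
    have h3 : (ρ + y1) / 2 * ((ρ - y1) / 2) = (y2 / 2) ^ 2 := by nlinarith
    rw [h3, Real.sqrt_sq_eq_abs, abs_div]
    simp
  have hs1 : Real.sqrt ((ρ + y1) / 2) ^ 2 = (ρ + y1) / 2 := Real.sq_sqrt h1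
  have hs2 : Real.sqrt ((ρ - y1) / 2) ^ 2 = (ρ - y1) / 2 := Real.sq_sqrt h2
  rcases le_or_gt 0 y2 with hy | hy
  · refine ⟨Real.sqrt ((ρ + y1) / 2), Real.sqrt ((ρ - y1) / 2), ?_, ?_, ?_⟩
    · rw [hs1, hs2]
      ring
    · rw [hs1, hs2]
      ring
    · rw [mul_assoc, hprod, abs_of_nonneg hy]
      ring
  · refine ⟨Real.sqrt ((ρ + y1) / 2), - Real.sqrt ((ρ - y1) / 2), ?_, ?_, ?_⟩
    · rw [neg_sq, hs1, hs2]
      ring
    · rw [neg_sq, hs1, hs2]
      ring
    · have h4 : 2 * Real.sqrt ((ρ + y1) / 2) * -Real.sqrt ((ρ - y1) / 2) =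
          -(2 * (Real.sqrt ((ρ + y1) / 2) * Real.sqrt ((ρ - y1) / 2))) := by ring
      rw [h4, hprod, abs_of_neg hy]
      ring

/-- Expansion of a cubic form along one coordinate direction. -/
theorem r3Div_expand {τ : Type} [Fintype τ] [DecidableEq τ] (T : τ → τ → τ → ℝ) (a : τ) :
    ∃ (B : Matrix τ τ ℝ) (lam : τ → ℝ) (c3 : ℝ), ∀ (u : τ → ℝ), u a = 0 → ∀ s : ℝ,
      cubT T (Function.update u a s) =
        cubT T u + s * (u ⬝ᵥ B *ᵥ u) + s ^ 2 * (lam ⬝ᵥ u) + s ^ 3 * c3 := by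
  obtain ⟨B, hB⟩ := cubT_sub_update T a
  refine ⟨B, B *ᵥ (Pi.single a 1) + (Pi.single a 1) ᵥ* B, B a a, ?_⟩
  intro u hu s
  have h1 := hB (Function.update u a s)
  have h2 : Function.update (Function.update u a s) a 0 = u := by
    rw [Function.update_idem, ← hu, Function.update_eq_self]
  rw [h2, Function.update_self] at h1
  have h3 : Function.update u a s = u + s • (Pi.single a (1 : ℝ) : τ → ℝ) := by
    funext b
    by_cases hb : b = a
    · subst hb
      simp [hu]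
    · simp [Function.update_of_ne hb, Pi.single_eq_of_ne hb]
  have h4 : (u + s • (Pi.single a (1 : ℝ) : τ → ℝ)) ⬝ᵥ
        B *ᵥ (u + s • (Pi.single a (1 : ℝ) : τ → ℝ)) =
      u ⬝ᵥ B *ᵥ u + s * ((B *ᵥ (Pi.single a 1) + (Pi.single a 1) ᵥ* B) ⬝ᵥ u) +
        s ^ 2 * B a a := by
    have h5 : (Pi.single a (1 : ℝ) : τ → ℝ) ⬝ᵥ B *ᵥ (Pi.single a (1 : ℝ) : τ → ℝ) = B a a := by
      simp
    have h6 : (Pi.single a (1 : ℝ) : τ → ℝ) ⬝ᵥ B *ᵥ u = ((Pi.single a (1 : ℝ) : τ → ℝ) ᵥ* B) ⬝ᵥ u :=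
      Matrix.dotProduct_mulVec _ _ _
    have h7 : u ⬝ᵥ B *ᵥ (Pi.single a (1 : ℝ) : τ → ℝ) = (B *ᵥ (Pi.single a (1 : ℝ) : τ → ℝ)) ⬝ᵥ u :=
      dotProduct_comm _ _
    simp only [Matrix.mulVec_add, Matrix.mulVec_smul, add_dotProduct, dotProduct_add,
      smul_dotProduct, dotProduct_smul, smul_eq_mul]
    rw [h5, h6, h7]
    ring
  rw [h3] at h1 ⊢
  rw [h4] at h1
  linear_combination h1

/-- The linear form whose coefficient at `a` is replaced. -/
theorem r3Div_linear {τ : Type} [Fintype τ] [DecidableEq τ] (lam : τ → ℝ) (a : τ) (c3 : ℝ)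
    (w : τ → ℝ) :
    Function.update lam a c3 ⬝ᵥ w = c3 * w a + lam ⬝ᵥ Function.update w a 0 := by
  have h1 : ∀ b, Function.update lam a c3 b * w b =
      (if b = a then c3 * w a else 0) + lam b * Function.update w a 0 b := by
    intro b
    by_cases hb : b = a
    · subst hb
      simp
    · simp [hb]
  simp only [dotProduct, h1, Finset.sum_add_distrib, Finset.sum_ite_eq', Finset.mem_univ,
    if_true]

/-- Continuity of a cubic form along a line. -/
theorem r3Div_cont {τ : Type} [Fintype τ] (T : τ → τ → τ → ℝ) (ℓ : τ → ℝ) (w e : τ → ℝ)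
    (q : (τ → ℝ) → ℝ) (hq : Continuous fun t : ℝ => q (fun i => w i + t * e i)) :
    Continuous fun t : ℝ => cubT T (fun i => w i + t * e i) -
      q (fun i => w i + t * e i) * (ℓ ⬝ᵥ fun i => w i + t * e i) := by
  have h1 : Continuous fun t : ℝ => cubT T (fun i => w i + t * e i) := by
    simp only [cubT]
    fun_prop
  have h2 : Continuous fun t : ℝ => (ℓ ⬝ᵥ fun i => w i + t * e i) := by
    simp only [dotProduct]
    fun_prop
  exact h1.sub (hq.mul h2)

theorem cubT_div_lorentz {κ : Type} [Fintype κ]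
    (T : (Fin 3 ⊕ κ) → (Fin 3 ⊕ κ) → (Fin 3 ⊕ κ) → ℝ)
    (h : ∀ (u1 u2 : ℝ) (z : κ → ℝ), cubT T (nullPt u1 u2 z) = 0) :
    ∃ ℓ : (Fin 3 ⊕ κ) → ℝ, ∀ w : Fin 3 ⊕ κ → ℝ, cubT T w = lorQ w * (ℓ ⬝ᵥ w) := by
  classical
  obtain ⟨B, lam, c3, hexp⟩ := r3Div_expand T (Sum.inl 0 : Fin 3 ⊕ κ)
  refine ⟨Function.update lam (Sum.inl 0) c3, ?_⟩
  have h10 : (Sum.inl 1 : Fin 3 ⊕ κ) ≠ Sum.inl 0 := by
    intro hcon
    have := Sum.inl.inj hcon
    exact absurd this (by decide)
  have h20 : (Sum.inl 2 : Fin 3 ⊕ κ) ≠ Sum.inl 0 := by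
    intro hcon
    have := Sum.inl.inj hcon
    exact absurd this (by decide)
  have h21 : (Sum.inl 2 : Fin 3 ⊕ κ) ≠ Sum.inl 1 := by
    intro hcon
    have := Sum.inl.inj hcon
    exact absurd this (by decide)
  -- the two coefficient functions
  set β : (Fin 3 ⊕ κ → ℝ) → ℝ := fun w =>
    cubT T (Function.update w (Sum.inl 0) 0) +
      (w (Sum.inl 1) ^ 2 + w (Sum.inl 2) ^ 2) * (lam ⬝ᵥ Function.update w (Sum.inl 0) 0)
    with hβ
  set α : (Fin 3 ⊕ κ → ℝ) → ℝ := fun w =>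
    (Function.update w (Sum.inl 0) 0) ⬝ᵥ B *ᵥ (Function.update w (Sum.inl 0) 0) +
      (w (Sum.inl 1) ^ 2 + w (Sum.inl 2) ^ 2) * c3
    with hα
  have hE : ∀ w : Fin 3 ⊕ κ → ℝ,
      cubT T w - lorQ w * (Function.update lam (Sum.inl 0) c3 ⬝ᵥ w) =
        β w + w (Sum.inl 0) * α w := by
    intro w
    have h1 := hexp (Function.update w (Sum.inl 0) 0) (Function.update_self _ _ _) (w (Sum.inl 0))
    rw [Function.update_idem, Function.update_eq_self] at h1
    rw [r3Div_linear, h1]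
    simp only [hβ, hα, lorQ]
    ring
  -- invariance under changing the first coordinate
  have hβinv : ∀ (w : Fin 3 ⊕ κ → ℝ) (r : ℝ), β (Function.update w (Sum.inl 0) r) = β w := by
    intro w r
    simp only [hβ, Function.update_idem, Function.update_of_ne h10, Function.update_of_ne h20]
  have hαinv : ∀ (w : Fin 3 ⊕ κ → ℝ) (r : ℝ), α (Function.update w (Sum.inl 0) r) = α w := by
    intro w r
    simp only [hα, Function.update_idem, Function.update_of_ne h10, Function.update_of_ne h20]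
  -- vanishing at null points
  have hnull : ∀ w : Fin 3 ⊕ κ → ℝ,
      β w + Real.sqrt (w (Sum.inl 1) ^ 2 + w (Sum.inl 2) ^ 2) * α w = 0 := by
    intro w
    obtain ⟨u1, u2, e1, e2, e3⟩ := r3Div_param (w (Sum.inl 1)) (w (Sum.inl 2))
    set ρ := Real.sqrt (w (Sum.inl 1) ^ 2 + w (Sum.inl 2) ^ 2) with hρ
    have hpt : Function.update w (Sum.inl 0) ρ = nullPt u1 u2 (fun c => w (Sum.inr c)) := by
      funext b
      rcases b with i | c
      · fin_cases i
        · simp [nullPt, e1]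
        · have : Function.update w (Sum.inl 0) ρ (Sum.inl 1) = w (Sum.inl 1) :=
            Function.update_of_ne h10 _ _
          simp only [Fin.mk_one, this]
          simp [nullPt, e2]
        · have : Function.update w (Sum.inl 0) ρ (Sum.inl 2) = w (Sum.inl 2) :=
            Function.update_of_ne h20 _ _
          simp only [Fin.reduceFinMk, this]
          simp [nullPt, e3]
      · simp [nullPt]
    have h1 := hE (Function.update w (Sum.inl 0) ρ)
    have h2 : cubT T (Function.update w (Sum.inl 0) ρ) = 0 := by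
      rw [hpt]
      exact h u1 u2 _
    have h3 : lorQ (Function.update w (Sum.inl 0) ρ) = 0 := by
      simp only [lorQ, Function.update_self, Function.update_of_ne h10,
        Function.update_of_ne h20]
      have : ρ ^ 2 = w (Sum.inl 1) ^ 2 + w (Sum.inl 2) ^ 2 := Real.sq_sqrt (by positivity)
      linarith
    rw [h2, h3, hβinv, hαinv, Function.update_self] at h1
    linarith
  -- parity
  have hneg_upd : ∀ w : Fin 3 ⊕ κ → ℝ, Function.update (fun i => - w i) (Sum.inl 0) 0 =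
      fun i => - (Function.update w (Sum.inl 0) 0) i := by
    intro w
    funext b
    by_cases hb : b = Sum.inl 0
    · subst hb
      simp
    · simp [Function.update_of_ne hb]
  have hβneg : ∀ w : Fin 3 ⊕ κ → ℝ, β (fun i => - w i) = - β w := by
    intro w
    simp only [hβ]
    rw [hneg_upd, cubT_neg]
    have h1 : (lam ⬝ᵥ fun i => - (Function.update w (Sum.inl 0) 0) i) =
        - (lam ⬝ᵥ Function.update w (Sum.inl 0) 0) := by
      simp [dotProduct, Finset.sum_neg_distrib]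
    rw [h1]
    ring
  have hαneg : ∀ w : Fin 3 ⊕ κ → ℝ, α (fun i => - w i) = α w := by
    intro w
    simp only [hα]
    rw [hneg_upd]
    have h1 : (fun i => - (Function.update w (Sum.inl 0) 0) i) =
        - (Function.update w (Sum.inl 0) 0) := rfl
    rw [h1, Matrix.mulVec_neg, neg_dotProduct, dotProduct_neg]
    ring
  have hzero : ∀ w : Fin 3 ⊕ κ → ℝ,
      Real.sqrt (w (Sum.inl 1) ^ 2 + w (Sum.inl 2) ^ 2) * α w = 0 ∧ β w = 0 := by
    intro w
    have h1 := hnull w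
    have h2 := hnull (fun i => - w i)
    rw [hβneg, hαneg] at h2
    simp only [neg_sq] at h2
    constructor <;> linarith
  -- the generic case
  have hgen : ∀ w : Fin 3 ⊕ κ → ℝ, w (Sum.inl 1) ^ 2 + w (Sum.inl 2) ^ 2 ≠ 0 →
      cubT T w - lorQ w * (Function.update lam (Sum.inl 0) c3 ⬝ᵥ w) = 0 := by
    intro w hw
    obtain ⟨h1, h2⟩ := hzero w
    have hpos : 0 < w (Sum.inl 1) ^ 2 + w (Sum.inl 2) ^ 2 :=
      lt_of_le_of_ne (by positivity) (Ne.symm hw)
    have hsq : Real.sqrt (w (Sum.inl 1) ^ 2 + w (Sum.inl 2) ^ 2) ≠ 0 :=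
      (Real.sqrt_pos.mpr hpos).ne'
    have h3 : α w = 0 := by
      rcases mul_eq_zero.mp h1 with h4 | h4
      · exact absurd h4 hsq
      · exact h4
    rw [hE, h2, h3]
    ring
  intro w
  by_cases hw : w (Sum.inl 1) ^ 2 + w (Sum.inl 2) ^ 2 = 0
  · -- limit along a perturbation of the second coordinate
    have hw1 : w (Sum.inl 1) = 0 := by nlinarith [sq_nonneg (w (Sum.inl 1)), sq_nonneg (w (Sum.inl 2))]
    have hw2 : w (Sum.inl 2) = 0 := by nlinarith [sq_nonneg (w (Sum.inl 1)), sq_nonneg (w (Sum.inl 2))]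
    set e : Fin 3 ⊕ κ → ℝ := Pi.single (Sum.inl 1) 1 with he
    have hcont : Continuous fun t : ℝ => cubT T (fun i => w i + t * e i) -
        lorQ (fun i => w i + t * e i) *
          (Function.update lam (Sum.inl 0) c3 ⬝ᵥ fun i => w i + t * e i) := by
      apply r3Div_cont
      simp only [lorQ]
      fun_prop
    have hEq : (fun t : ℝ => cubT T (fun i => w i + t * e i) -
        lorQ (fun i => w i + t * e i) *
          (Function.update lam (Sum.inl 0) c3 ⬝ᵥ fun i => w i + t * e i)) = fun _ => 0 := by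
      apply Continuous.ext_on (dense_compl_singleton (0 : ℝ)) hcont continuous_const
      intro t ht
      have ht0 : t ≠ 0 := ht
      apply hgen
      have h1 : e (Sum.inl 1) = 1 := by simp [he]
      have h2 : e (Sum.inl 2) = 0 := by simp [he]
      simp only [hw1, hw2, h1, h2]
      have : 0 < t ^ 2 := by positivity
      nlinarith
    have h0 := congrFun hEq 0
    simp only [zero_mul, add_zero] at h0
    linarith
  · have := hgen w hw
    linarith

end Vale.Agent.Lib.P256
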