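import Vale.Agent.Lib.P256.R3Core
import Vale.Agent.Lib.P256.R2Main
namespace Vale.Agent.Lib.P256
open MvPolynomial Matrix

theorem r3Forms_eval3 (p : Polynomial ℝ) (hp : p.natDegree ≤ 3) (t : ℝ) :
    p.eval t = p.coeff 0 + p.coeff 1 * t + p.coeff 2 * t ^ 2 + p.coeff 3 * t ^ 3 := by
  rw [Polynomial.eval_eq_sum_range' (show p.natDegree < 4 by omega)]
  simp [Finset.sum_range_succ]

theorem r3Forms_eval1 (p : Polynomial ℝ) (hp : p.natDegree ≤ 1) (t : ℝ) :
    p.eval t = p.coeff 0 + p.coeff 1 * t := by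
  rw [Polynomial.eval_eq_sum_range' (show p.natDegree < 2 by omega)]
  simp [Finset.sum_range_succ]

/-- Completing the square in the Gram form. -/
theorem r3Forms_alg {κ : Type} [Fintype κ] {m : ℕ} (g0 : Fin m → ℝ) (gc : Fin m → κ → ℝ)
    (z : κ → ℝ) :
    ∑ k, g0 k * g0 k + 2 * ∑ c, z c * ∑ k, g0 k * gc k c
        + ∑ c, ∑ d, z c * z d * ∑ k, gc k c * gc k d
      = ∑ k, (g0 k + ∑ c, z c * gc k c) ^ 2 := by
  have hk : ∀ k, (g0 k + ∑ c, z c * gc k c) ^ 2
      = g0 k * g0 k + 2 * ∑ c, z c * (g0 k * gc k c)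
        + ∑ c, ∑ d, z c * z d * (gc k c * gc k d) := by
    intro k
    have e1 : (∑ c, z c * gc k c) * (∑ c, z c * gc k c)
        = ∑ c, ∑ d, z c * z d * (gc k c * gc k d) := by
      rw [Finset.sum_mul_sum]
      exact Finset.sum_congr rfl (fun c _ => Finset.sum_congr rfl (fun d _ => by ring))
    have e2 : g0 k * ∑ c, z c * gc k c = ∑ c, z c * (g0 k * gc k c) := by
      rw [Finset.mul_sum]
      exact Finset.sum_congr rfl (fun c _ => by ring)
    rw [← e1, ← e2]
    ring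
  have hB : ∑ c, z c * ∑ k, g0 k * gc k c = ∑ k, ∑ c, z c * (g0 k * gc k c) := by
    rw [Finset.sum_comm]
    exact Finset.sum_congr rfl (fun c _ => Finset.mul_sum _ _ _)
  have hC : ∑ c, ∑ d, z c * z d * ∑ k, gc k c * gc k d
      = ∑ k, ∑ c, ∑ d, z c * z d * (gc k c * gc k d) := by
    calc ∑ c, ∑ d, z c * z d * ∑ k, gc k c * gc k d
        = ∑ c, ∑ d, ∑ k, z c * z d * (gc k c * gc k d) :=
          Finset.sum_congr rfl (fun c _ => Finset.sum_congr rfl (fun d _ =>
            Finset.mul_sum _ _ _))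
      _ = ∑ c, ∑ k, ∑ d, z c * z d * (gc k c * gc k d) :=
          Finset.sum_congr rfl (fun c _ => Finset.sum_comm)
      _ = ∑ k, ∑ c, ∑ d, z c * z d * (gc k c * gc k d) := Finset.sum_comm
  rw [hB, hC, Finset.sum_congr rfl (fun k _ => hk k), Finset.sum_add_distrib,
    Finset.sum_add_distrib, Finset.mul_sum]

/-- The dehomogenized identity: on the chart `t`, the cubic is a sum of squares. -/
theorem r3Forms_step1 {κ : Type} [Fintype κ]
    (T : (Fin 3 ⊕ κ) → (Fin 3 ⊕ κ) → (Fin 3 ⊕ κ) → ℝ)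
    (hz : ∀ z : κ → ℝ, cubT T (Sum.elim 0 z) = 0)
    (F : Option κ → Option κ → Polynomial ℝ)
    (hF : ∀ (t : ℝ) (z : κ → ℝ), cubT T (Sum.elim ![1 + t ^ 2, 1 - t ^ 2, 2 * t] z) =
        (F none none).eval t + 2 * ∑ c, z c * (F none (some c)).eval t
          + ∑ c, ∑ d, z c * z d * (F (some c) (some d)).eval t + cubT T (Sum.elim 0 z))
    (m : ℕ) (G : Fin m → Option κ → Polynomial ℝ) (hG : ∀ a b, F a b = ∑ k, G k a * G k b)
    (t : ℝ) (z : κ → ℝ) :
    cubT T (Sum.elim ![1 + t ^ 2, 1 - t ^ 2, 2 * t] z) =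
      ∑ k, ((G k none).eval t + ∑ c, z c * (G k (some c)).eval t) ^ 2 := by
  have hFe : ∀ a b, (F a b).eval t = ∑ k, (G k a).eval t * (G k b).eval t := by
    intro a b
    rw [hG, Polynomial.eval_finsetSum]
    exact Finset.sum_congr rfl (fun k _ => Polynomial.eval_mul)
  rw [hF, hz, add_zero, ← r3Forms_alg (fun k => (G k none).eval t)
    (fun k c => (G k (some c)).eval t) z]
  simp only [hFe]

/-- Continuity of the cubic along the spinor coordinate `u1`. -/
theorem r3Forms_cont {κ : Type} [Fintype κ]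
    (T : (Fin 3 ⊕ κ) → (Fin 3 ⊕ κ) → (Fin 3 ⊕ κ) → ℝ) (u2 : ℝ) (z : κ → ℝ) :
    Continuous (fun u1 : ℝ => cubT T (nullPt u1 u2 z)) := by
  have hc : ∀ i : Fin 3 ⊕ κ, Continuous (fun u1 : ℝ => nullPt u1 u2 z i) := by
    intro i
    rcases i with j | c
    · fin_cases j
      · simp only [nullPt, Sum.elim_inl, Fin.zero_eta, Matrix.cons_val_zero]
        fun_prop
      · simp only [nullPt, Sum.elim_inl, Fin.mk_one, Matrix.cons_val_one, Matrix.cons_val_zero]
        fun_prop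
      · simp only [nullPt, Sum.elim_inl, Fin.reduceFinMk, Matrix.cons_val_two,
          Matrix.tail_cons, Matrix.head_cons]
        fun_prop
    · simp only [nullPt, Sum.elim_inr]
      exact continuous_const
  unfold cubT
  exact continuous_finsetSum _ fun i _ => continuous_finsetSum _ fun j _ =>
    continuous_finsetSum _ fun l _ => ((continuous_const.mul (hc i)).mul (hc j)).mul (hc l)

theorem r3_forms {κ : Type} [Fintype κ]
    (T : (Fin 3 ⊕ κ) → (Fin 3 ⊕ κ) → (Fin 3 ⊕ κ) → ℝ)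
    (hz : ∀ z : κ → ℝ, cubT T (Sum.elim 0 z) = 0)
    (F : Option κ → Option κ → Polynomial ℝ)
    (hF : ∀ (t : ℝ) (z : κ → ℝ), cubT T (Sum.elim ![1 + t ^ 2, 1 - t ^ 2, 2 * t] z) =
        (F none none).eval t + 2 * ∑ c, z c * (F none (some c)).eval t
          + ∑ c, ∑ d, z c * z d * (F (some c) (some d)).eval t + cubT T (Sum.elim 0 z))
    (m : ℕ) (G : Fin m → Option κ → Polynomial ℝ) (hG : ∀ a b, F a b = ∑ k, G k a * G k b)
    (hd0 : ∀ k, (G k none).natDegree ≤ 3) (hd1 : ∀ k c, (G k (some c)).natDegree ≤ 1) :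
    ∃ (α : Fin m → Fin 4 → ℝ) (β : Fin m → κ → Fin 2 → ℝ), ∀ (u1 u2 : ℝ) (z : κ → ℝ),
      cubT T (nullPt u1 u2 z) =
        ∑ k, (α k 0 * u1 ^ 3 + α k 1 * u1 ^ 2 * u2 + α k 2 * u1 * u2 ^ 2 + α k 3 * u2 ^ 3
          + ∑ c, z c * (β k c 0 * u1 + β k c 1 * u2)) ^ 2 := by
  refine ⟨fun k d => (G k none).coeff (d : ℕ), fun k c e => (G k (some c)).coeff (e : ℕ), ?_⟩
  intro u1 u2 z
  -- the case `u1 ≠ 0`
  have hne : ∀ v1 : ℝ, v1 ≠ 0 → cubT T (nullPt v1 u2 z) =
      ∑ k, ((G k none).coeff 0 * v1 ^ 3 + (G k none).coeff 1 * v1 ^ 2 * u2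
        + (G k none).coeff 2 * v1 * u2 ^ 2 + (G k none).coeff 3 * u2 ^ 3
        + ∑ c, z c * ((G k (some c)).coeff 0 * v1 + (G k (some c)).coeff 1 * u2)) ^ 2 := by
    intro v1 hv
    have hpt : nullPt v1 u2 z = fun i => v1 ^ 2 *
        (Sum.elim ![1 + (u2 / v1) ^ 2, 1 - (u2 / v1) ^ 2, 2 * (u2 / v1)]
          (fun c => z c / v1 ^ 2) : Fin 3 ⊕ κ → ℝ) i := by
      funext i
      rcases i with j | c
      · fin_cases j
        · simp only [nullPt, Sum.elim_inl, Fin.zero_eta, Matrix.cons_val_zero]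
          field_simp
        · simp only [nullPt, Sum.elim_inl, Fin.mk_one, Matrix.cons_val_one,
            Matrix.cons_val_zero]
          field_simp
        · simp only [nullPt, Sum.elim_inl, Fin.reduceFinMk, Matrix.cons_val_two,
            Matrix.tail_cons, Matrix.head_cons]
          field_simp
      · simp only [nullPt, Sum.elim_inr]
        field_simp
    rw [hpt, r2Main_cubT_smul, r3Forms_step1 T hz F hF m G hG, Finset.mul_sum]
    refine Finset.sum_congr rfl (fun k _ => ?_)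
    have e1 : v1 ^ 3 * (G k none).eval (u2 / v1)
        = (G k none).coeff 0 * v1 ^ 3 + (G k none).coeff 1 * v1 ^ 2 * u2
          + (G k none).coeff 2 * v1 * u2 ^ 2 + (G k none).coeff 3 * u2 ^ 3 := by
      rw [r3Forms_eval3 _ (hd0 k)]
      field_simp
    have e2 : v1 ^ 3 * ∑ c, z c / v1 ^ 2 * (G k (some c)).eval (u2 / v1)
        = ∑ c, z c * ((G k (some c)).coeff 0 * v1 + (G k (some c)).coeff 1 * u2) := by
      rw [Finset.mul_sum]
      refine Finset.sum_congr rfl (fun c _ => ?_)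
      rw [r3Forms_eval1 _ (hd1 k c)]
      field_simp
    rw [← e1, ← e2]
    ring
  -- extension to `u1 = 0` by continuity
  have hcontR : Continuous (fun v1 : ℝ =>
      ∑ k, ((G k none).coeff 0 * v1 ^ 3 + (G k none).coeff 1 * v1 ^ 2 * u2
        + (G k none).coeff 2 * v1 * u2 ^ 2 + (G k none).coeff 3 * u2 ^ 3
        + ∑ c, z c * ((G k (some c)).coeff 0 * v1 + (G k (some c)).coeff 1 * u2)) ^ 2) := by
    fun_prop
  have hext := Continuous.ext_on (dense_compl_singleton (0 : ℝ)) (r3Forms_cont T u2 z) hcontR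
    (fun v1 hv => hne v1 hv)
  exact congrFun hext u1

end Vale.Agent.Lib.P256
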