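import Vale.Agent.Lib.P256.FRReal
namespace Vale.Agent.Lib.P256
open Polynomial

theorem fr_real_fintype {ι : Type} [Fintype ι] (F : ι → ι → Polynomial ℝ)
    (hsymm : ∀ a b, F a b = F b a)
    (hpsd : ∀ (t : ℝ) (ζ : ι → ℝ), 0 ≤ ∑ a, ∑ b, ζ a * (F a b).eval t * ζ b) :
    ∃ (m : ℕ) (G : Fin m → ι → Polynomial ℝ), (∀ a b, F a b = ∑ k, G k a * G k b) ∧
      ∀ k a, 2 * (G k a).natDegree ≤ (F a a).natDegree := by
  set ε : ι ≃ Fin (Fintype.card ι) := Fintype.equivFin ι with hε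
  have hsymm' : ∀ i j : Fin (Fintype.card ι),
      F (ε.symm i) (ε.symm j) = F (ε.symm j) (ε.symm i) := fun i j => hsymm _ _
  have hpsd' : ∀ (t : ℝ) (ξ : Fin (Fintype.card ι) → ℝ),
      0 ≤ ∑ i, ∑ j, ξ i * (F (ε.symm i) (ε.symm j)).eval t * ξ j := by
    intro t ξ
    have h := hpsd t (fun a => ξ (ε a))
    have e : ∑ a, ∑ b, ξ (ε a) * (F a b).eval t * ξ (ε b)
        = ∑ i, ∑ j, ξ i * (F (ε.symm i) (ε.symm j)).eval t * ξ j := by
      refine Fintype.sum_equiv ε _ _ (fun a => ?_)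
      refine Fintype.sum_equiv ε _ _ (fun b => ?_)
      simp only [Equiv.symm_apply_apply]
    rw [← e]
    exact h
  obtain ⟨m, G', hG1, hG2⟩ := fr_real (Fintype.card ι)
    (fun i j => F (ε.symm i) (ε.symm j)) hsymm' hpsd'
  refine ⟨m, fun k a => G' k (ε a), ?_, ?_⟩
  · intro a b
    have h := hG1 (ε a) (ε b)
    simp only [Equiv.symm_apply_apply] at h
    exact h
  · intro k a
    have h := hG2 k (ε a)
    simp only [Equiv.symm_apply_apply] at h
    exact h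

end Vale.Agent.Lib.P256
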