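import Vale.Agent.Lib.P256.R3Core
namespace Vale.Agent.Lib.P256
open MvPolynomial Matrix

private theorem r3Matrix_comm3 {α β γ : Type} [Fintype α] [Fintype β] [Fintype γ]
    (f : α → β → γ → ℝ) :
    ∑ a, ∑ b, ∑ c, f a b c = ∑ c, ∑ a, ∑ b, f a b c := by
  calc ∑ a, ∑ b, ∑ c, f a b c = ∑ a, ∑ c, ∑ b, f a b c :=
        Finset.sum_congr rfl (fun a _ => Finset.sum_comm)
    _ = ∑ c, ∑ a, ∑ b, f a b c := Finset.sum_comm

/-- Splitting of a cubic form on a sum type into the four homogeneous parts with respect to the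
second block of coordinates. -/
private theorem r3Matrix_split {α κ : Type} [Fintype α] [Fintype κ]
    (T : (α ⊕ κ) → (α ⊕ κ) → (α ⊕ κ) → ℝ) (p : α → ℝ) (z : κ → ℝ) :
    cubT T (Sum.elim p z) =
      (∑ a, ∑ b, ∑ e, T (Sum.inl a) (Sum.inl b) (Sum.inl e) * p a * p b * p e)
      + 2 * ∑ c, z c * ((1 / 2) * ∑ a, ∑ b,
          (T (Sum.inl a) (Sum.inl b) (Sum.inr c) + T (Sum.inl a) (Sum.inr c) (Sum.inl b)
            + T (Sum.inr c) (Sum.inl a) (Sum.inl b)) * p a * p b)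
      + ∑ c, ∑ d, z c * z d * ((1 / 2) *
          ((∑ a, (T (Sum.inl a) (Sum.inr c) (Sum.inr d) + T (Sum.inr c) (Sum.inl a) (Sum.inr d)
            + T (Sum.inr c) (Sum.inr d) (Sum.inl a)) * p a)
          + (∑ a, (T (Sum.inl a) (Sum.inr d) (Sum.inr c) + T (Sum.inr d) (Sum.inl a) (Sum.inr c)
            + T (Sum.inr d) (Sum.inr c) (Sum.inl a)) * p a)))
      + cubT T (Sum.elim 0 z) := by
  have hL : cubT T (Sum.elim p z) =
      (∑ a, ∑ b, ∑ e, T (Sum.inl a) (Sum.inl b) (Sum.inl e) * p a * p b * p e)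
      + (∑ a, ∑ b, ∑ c, T (Sum.inl a) (Sum.inl b) (Sum.inr c) * p a * p b * z c)
      + (∑ a, ∑ c, ∑ b, T (Sum.inl a) (Sum.inr c) (Sum.inl b) * p a * z c * p b)
      + (∑ a, ∑ c, ∑ d, T (Sum.inl a) (Sum.inr c) (Sum.inr d) * p a * z c * z d)
      + (∑ c, ∑ a, ∑ b, T (Sum.inr c) (Sum.inl a) (Sum.inl b) * z c * p a * p b)
      + (∑ c, ∑ a, ∑ d, T (Sum.inr c) (Sum.inl a) (Sum.inr d) * z c * p a * z d)
      + (∑ c, ∑ d, ∑ a, T (Sum.inr c) (Sum.inr d) (Sum.inl a) * z c * z d * p a)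
      + (∑ c, ∑ d, ∑ e, T (Sum.inr c) (Sum.inr d) (Sum.inr e) * z c * z d * z e) := by
    unfold cubT
    simp only [Algebra.algebraMap_self_apply, Fintype.sum_sum_type, Sum.elim_inl,
      Sum.elim_inr, Finset.sum_add_distrib]
    ring
  have hZ : cubT T (Sum.elim 0 z) =
      ∑ c, ∑ d, ∑ e, T (Sum.inr c) (Sum.inr d) (Sum.inr e) * z c * z d * z e := by
    unfold cubT
    simp only [Algebra.algebraMap_self_apply, Fintype.sum_sum_type, Sum.elim_inl,
      Sum.elim_inr, Pi.zero_apply, mul_zero, zero_mul, Finset.sum_const_zero, zero_add]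
  have h1 : 2 * ∑ c, z c * ((1 / 2) * ∑ a, ∑ b,
          (T (Sum.inl a) (Sum.inl b) (Sum.inr c) + T (Sum.inl a) (Sum.inr c) (Sum.inl b)
            + T (Sum.inr c) (Sum.inl a) (Sum.inl b)) * p a * p b)
      = (∑ a, ∑ b, ∑ c, T (Sum.inl a) (Sum.inl b) (Sum.inr c) * p a * p b * z c)
      + (∑ a, ∑ c, ∑ b, T (Sum.inl a) (Sum.inr c) (Sum.inl b) * p a * z c * p b)
      + (∑ c, ∑ a, ∑ b, T (Sum.inr c) (Sum.inl a) (Sum.inl b) * z c * p a * p b) := by
    rw [r3Matrix_comm3 (fun a b c => T (Sum.inl a) (Sum.inl b) (Sum.inr c) * p a * p b * z c),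
      Finset.sum_comm (f := fun a c => ∑ b, T (Sum.inl a) (Sum.inr c) (Sum.inl b) * p a * z c * p b),
      ← Finset.sum_add_distrib, ← Finset.sum_add_distrib, Finset.mul_sum]
    refine Finset.sum_congr rfl (fun c _ => ?_)
    rw [← Finset.sum_add_distrib, ← Finset.sum_add_distrib, Finset.mul_sum, Finset.mul_sum,
      Finset.mul_sum]
    refine Finset.sum_congr rfl (fun a _ => ?_)
    rw [← Finset.sum_add_distrib, ← Finset.sum_add_distrib, Finset.mul_sum, Finset.mul_sum,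
      Finset.mul_sum]
    refine Finset.sum_congr rfl (fun b _ => ?_)
    ring
  have hsw : ∀ g : κ → κ → ℝ, ∑ c, ∑ d, z c * z d * g d c = ∑ c, ∑ d, z c * z d * g c d := by
    intro g
    rw [Finset.sum_comm]
    refine Finset.sum_congr rfl (fun c _ => Finset.sum_congr rfl (fun d _ => ?_))
    ring
  have h2 : ∑ c, ∑ d, z c * z d * ((1 / 2) *
          ((∑ a, (T (Sum.inl a) (Sum.inr c) (Sum.inr d) + T (Sum.inr c) (Sum.inl a) (Sum.inr d)
            + T (Sum.inr c) (Sum.inr d) (Sum.inl a)) * p a)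
          + (∑ a, (T (Sum.inl a) (Sum.inr d) (Sum.inr c) + T (Sum.inr d) (Sum.inl a) (Sum.inr c)
            + T (Sum.inr d) (Sum.inr c) (Sum.inl a)) * p a)))
      = (∑ a, ∑ c, ∑ d, T (Sum.inl a) (Sum.inr c) (Sum.inr d) * p a * z c * z d)
      + (∑ c, ∑ a, ∑ d, T (Sum.inr c) (Sum.inl a) (Sum.inr d) * z c * p a * z d)
      + (∑ c, ∑ d, ∑ a, T (Sum.inr c) (Sum.inr d) (Sum.inl a) * z c * z d * p a) := by
    have e1 : ∑ c, ∑ d, z c * z d * ((1 / 2) *
          ((∑ a, (T (Sum.inl a) (Sum.inr c) (Sum.inr d) + T (Sum.inr c) (Sum.inl a) (Sum.inr d)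
            + T (Sum.inr c) (Sum.inr d) (Sum.inl a)) * p a)
          + (∑ a, (T (Sum.inl a) (Sum.inr d) (Sum.inr c) + T (Sum.inr d) (Sum.inl a) (Sum.inr c)
            + T (Sum.inr d) (Sum.inr c) (Sum.inl a)) * p a)))
        = (1 / 2) * (∑ c, ∑ d, z c * z d *
            (∑ a, (T (Sum.inl a) (Sum.inr c) (Sum.inr d) + T (Sum.inr c) (Sum.inl a) (Sum.inr d)
              + T (Sum.inr c) (Sum.inr d) (Sum.inl a)) * p a))
          + (1 / 2) * (∑ c, ∑ d, z c * z d *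
            (∑ a, (T (Sum.inl a) (Sum.inr d) (Sum.inr c) + T (Sum.inr d) (Sum.inl a) (Sum.inr c)
              + T (Sum.inr d) (Sum.inr c) (Sum.inl a)) * p a)) := by
      rw [Finset.mul_sum, Finset.mul_sum, ← Finset.sum_add_distrib]
      refine Finset.sum_congr rfl (fun c _ => ?_)
      rw [Finset.mul_sum, Finset.mul_sum, ← Finset.sum_add_distrib]
      refine Finset.sum_congr rfl (fun d _ => ?_)
      ring
    rw [e1, hsw (fun c d => ∑ a, (T (Sum.inl a) (Sum.inr c) (Sum.inr d)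
      + T (Sum.inr c) (Sum.inl a) (Sum.inr d) + T (Sum.inr c) (Sum.inr d) (Sum.inl a)) * p a)]
    have e2 : (∑ a, ∑ c, ∑ d, T (Sum.inl a) (Sum.inr c) (Sum.inr d) * p a * z c * z d)
        = ∑ c, ∑ d, ∑ a, T (Sum.inl a) (Sum.inr c) (Sum.inr d) * p a * z c * z d := by
      rw [Finset.sum_comm]
      exact Finset.sum_congr rfl (fun c _ => Finset.sum_comm)
    have e3 : (∑ c, ∑ a, ∑ d, T (Sum.inr c) (Sum.inl a) (Sum.inr d) * z c * p a * z d)
        = ∑ c, ∑ d, ∑ a, T (Sum.inr c) (Sum.inl a) (Sum.inr d) * z c * p a * z d :=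
      Finset.sum_congr rfl (fun c _ => Finset.sum_comm)
    rw [e2, e3, ← Finset.sum_add_distrib, ← Finset.sum_add_distrib, ← add_mul]
    have e4 : (1 / 2 + 1 / 2 : ℝ) = 1 := by norm_num
    rw [e4, one_mul]
    refine Finset.sum_congr rfl (fun c _ => ?_)
    rw [← Finset.sum_add_distrib, ← Finset.sum_add_distrib]
    refine Finset.sum_congr rfl (fun d _ => ?_)
    rw [← Finset.sum_add_distrib, ← Finset.sum_add_distrib, Finset.mul_sum]
    refine Finset.sum_congr rfl (fun a _ => ?_)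
    ring
  rw [hL, hZ, h1, h2]
  ring

/-- The polynomial point `(1 + X^2, 1 - X^2, 2 X)`. -/
private noncomputable def r3Matrix_P : Fin 3 → Polynomial ℝ :=
  ![1 + Polynomial.X ^ 2, 1 - Polynomial.X ^ 2, Polynomial.C 2 * Polynomial.X]

private theorem r3Matrix_P_eval (t : ℝ) (a : Fin 3) :
    (r3Matrix_P a).eval t = ![1 + t ^ 2, 1 - t ^ 2, 2 * t] a := by
  fin_cases a <;> simp [r3Matrix_P]

private theorem r3Matrix_P_deg (a : Fin 3) : (r3Matrix_P a).natDegree ≤ 2 := by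
  fin_cases a
  · show (1 + Polynomial.X ^ 2 : Polynomial ℝ).natDegree ≤ 2
    refine (Polynomial.natDegree_add_le _ _).trans ?_
    simp
  · show (1 - Polynomial.X ^ 2 : Polynomial ℝ).natDegree ≤ 2
    refine (Polynomial.natDegree_sub_le _ _).trans ?_
    simp
  · show (Polynomial.C 2 * Polynomial.X : Polynomial ℝ).natDegree ≤ 2
    refine (Polynomial.natDegree_C_mul_le _ _).trans ?_
    simp

private noncomputable def r3Matrix_F0 {κ : Type}
    (T : (Fin 3 ⊕ κ) → (Fin 3 ⊕ κ) → (Fin 3 ⊕ κ) → ℝ) : Polynomial ℝ :=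
  ∑ a, ∑ b, ∑ e, Polynomial.C (T (Sum.inl a) (Sum.inl b) (Sum.inl e)) * r3Matrix_P a
    * r3Matrix_P b * r3Matrix_P e

private noncomputable def r3Matrix_F1 {κ : Type}
    (T : (Fin 3 ⊕ κ) → (Fin 3 ⊕ κ) → (Fin 3 ⊕ κ) → ℝ) (c : κ) : Polynomial ℝ :=
  Polynomial.C (1 / 2) * ∑ a, ∑ b,
    Polynomial.C (T (Sum.inl a) (Sum.inl b) (Sum.inr c) + T (Sum.inl a) (Sum.inr c) (Sum.inl b)
      + T (Sum.inr c) (Sum.inl a) (Sum.inl b)) * r3Matrix_P a * r3Matrix_P b

private noncomputable def r3Matrix_G2 {κ : Type}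
    (T : (Fin 3 ⊕ κ) → (Fin 3 ⊕ κ) → (Fin 3 ⊕ κ) → ℝ) (c d : κ) : Polynomial ℝ :=
  ∑ a, Polynomial.C (T (Sum.inl a) (Sum.inr c) (Sum.inr d) + T (Sum.inr c) (Sum.inl a) (Sum.inr d)
      + T (Sum.inr c) (Sum.inr d) (Sum.inl a)) * r3Matrix_P a

private noncomputable def r3Matrix_F {κ : Type}
    (T : (Fin 3 ⊕ κ) → (Fin 3 ⊕ κ) → (Fin 3 ⊕ κ) → ℝ) :
    Option κ → Option κ → Polynomial ℝ
  | none, none => r3Matrix_F0 T
  | none, some c => r3Matrix_F1 T c
  | some c, none => r3Matrix_F1 T c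
  | some c, some d => Polynomial.C (1 / 2) * (r3Matrix_G2 T c d + r3Matrix_G2 T d c)

private theorem r3Matrix_G2_deg {κ : Type}
    (T : (Fin 3 ⊕ κ) → (Fin 3 ⊕ κ) → (Fin 3 ⊕ κ) → ℝ) (c d : κ) :
    (r3Matrix_G2 T c d).natDegree ≤ 2 := by
  unfold r3Matrix_G2
  refine Polynomial.natDegree_sum_le_of_forall_le _ _ (fun a _ => ?_)
  exact (Polynomial.natDegree_C_mul_le _ _).trans (r3Matrix_P_deg a)

private theorem r3Matrix_F0_deg {κ : Type}
    (T : (Fin 3 ⊕ κ) → (Fin 3 ⊕ κ) → (Fin 3 ⊕ κ) → ℝ) :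
    (r3Matrix_F0 T).natDegree ≤ 6 := by
  unfold r3Matrix_F0
  refine Polynomial.natDegree_sum_le_of_forall_le _ _ (fun a _ => ?_)
  refine Polynomial.natDegree_sum_le_of_forall_le _ _ (fun b _ => ?_)
  refine Polynomial.natDegree_sum_le_of_forall_le _ _ (fun e _ => ?_)
  have h1 := Polynomial.natDegree_mul_le
    (p := Polynomial.C (T (Sum.inl a) (Sum.inl b) (Sum.inl e)) * r3Matrix_P a * r3Matrix_P b)
    (q := r3Matrix_P e)
  have h2 := Polynomial.natDegree_mul_le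
    (p := Polynomial.C (T (Sum.inl a) (Sum.inl b) (Sum.inl e)) * r3Matrix_P a)
    (q := r3Matrix_P b)
  have h3 := Polynomial.natDegree_C_mul_le (T (Sum.inl a) (Sum.inl b) (Sum.inl e))
    (r3Matrix_P a)
  have ha := r3Matrix_P_deg a
  have hb := r3Matrix_P_deg b
  have he := r3Matrix_P_deg e
  omega

theorem r3_matrix_exists {κ : Type} [Fintype κ]
    (T : (Fin 3 ⊕ κ) → (Fin 3 ⊕ κ) → (Fin 3 ⊕ κ) → ℝ) :
    ∃ F : Option κ → Option κ → Polynomial ℝ, (∀ a b, F a b = F b a) ∧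
      (F none none).natDegree ≤ 6 ∧ (∀ c, (F (some c) (some c)).natDegree ≤ 2) ∧
      ∀ (t : ℝ) (z : κ → ℝ), cubT T (Sum.elim ![1 + t ^ 2, 1 - t ^ 2, 2 * t] z) =
        (F none none).eval t + 2 * ∑ c, z c * (F none (some c)).eval t
          + ∑ c, ∑ d, z c * z d * (F (some c) (some d)).eval t + cubT T (Sum.elim 0 z) := by
  refine ⟨r3Matrix_F T, ?_, r3Matrix_F0_deg T, ?_, ?_⟩
  · intro a b
    cases a with
    | none =>
      cases b with
      | none => rfl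
      | some d => rfl
    | some c =>
      cases b with
      | none => rfl
      | some d =>
        show Polynomial.C (1 / 2) * (r3Matrix_G2 T c d + r3Matrix_G2 T d c)
          = Polynomial.C (1 / 2) * (r3Matrix_G2 T d c + r3Matrix_G2 T c d)
        rw [add_comm]
  · intro c
    show (Polynomial.C (1 / 2) * (r3Matrix_G2 T c c + r3Matrix_G2 T c c)).natDegree ≤ 2
    refine (Polynomial.natDegree_C_mul_le _ _).trans ?_
    refine (Polynomial.natDegree_add_le _ _).trans ?_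
    exact max_le (r3Matrix_G2_deg T c c) (r3Matrix_G2_deg T c c)
  · intro t z
    rw [r3Matrix_split T ![1 + t ^ 2, 1 - t ^ 2, 2 * t] z]
    have e0 : (r3Matrix_F T none none).eval t
        = ∑ a, ∑ b, ∑ e, T (Sum.inl a) (Sum.inl b) (Sum.inl e)
            * ![1 + t ^ 2, 1 - t ^ 2, 2 * t] a * ![1 + t ^ 2, 1 - t ^ 2, 2 * t] b
            * ![1 + t ^ 2, 1 - t ^ 2, 2 * t] e := by
      show (r3Matrix_F0 T).eval t = _
      unfold r3Matrix_F0
      simp only [Polynomial.eval_finsetSum, Polynomial.eval_mul, Polynomial.eval_C,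
        r3Matrix_P_eval]
    have e1 : ∀ c, (r3Matrix_F T none (some c)).eval t
        = (1 / 2) * ∑ a, ∑ b,
          (T (Sum.inl a) (Sum.inl b) (Sum.inr c) + T (Sum.inl a) (Sum.inr c) (Sum.inl b)
            + T (Sum.inr c) (Sum.inl a) (Sum.inl b))
            * ![1 + t ^ 2, 1 - t ^ 2, 2 * t] a * ![1 + t ^ 2, 1 - t ^ 2, 2 * t] b := by
      intro c
      show (r3Matrix_F1 T c).eval t = _
      unfold r3Matrix_F1
      simp only [Polynomial.eval_finsetSum, Polynomial.eval_mul, Polynomial.eval_C,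
        r3Matrix_P_eval]
    have e2 : ∀ c d, (r3Matrix_F T (some c) (some d)).eval t
        = (1 / 2) *
          ((∑ a, (T (Sum.inl a) (Sum.inr c) (Sum.inr d) + T (Sum.inr c) (Sum.inl a) (Sum.inr d)
            + T (Sum.inr c) (Sum.inr d) (Sum.inl a)) * ![1 + t ^ 2, 1 - t ^ 2, 2 * t] a)
          + (∑ a, (T (Sum.inl a) (Sum.inr d) (Sum.inr c) + T (Sum.inr d) (Sum.inl a) (Sum.inr c)
            + T (Sum.inr d) (Sum.inr c) (Sum.inl a)) * ![1 + t ^ 2, 1 - t ^ 2, 2 * t] a)) := by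
      intro c d
      show (Polynomial.C (1 / 2) * (r3Matrix_G2 T c d + r3Matrix_G2 T d c)).eval t = _
      unfold r3Matrix_G2
      simp only [Polynomial.eval_finsetSum, Polynomial.eval_mul, Polynomial.eval_C,
        Polynomial.eval_add, r3Matrix_P_eval]
    rw [e0]
    simp only [e1, e2]

end Vale.Agent.Lib.P256
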