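import Vale.Agent.Lib.P256.R3Core
import Vale.Agent.Lib.P256.R2Root
namespace Vale.Agent.Lib.P256
open MvPolynomial Matrix

/-- Trilinear expansion of the cubic form along the complex line `t * e' + w`. -/
theorem r3Null_expand {τ : Type} [Fintype τ] (T : τ → τ → τ → ℝ) (e' w : τ → ℝ) (t : ℂ) :
    cubT T (fun i => t * (e' i : ℂ) + (w i : ℂ)) =
      t ^ 3 * ((cubT T e' : ℝ) : ℂ)
      + t ^ 2 * ((∑ i, ∑ j, ∑ l, T i j l *
          (e' i * e' j * w l + e' i * w j * e' l + w i * e' j * e' l) : ℝ) : ℂ)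
      + t * ((∑ i, ∑ j, ∑ l, T i j l *
          (e' i * w j * w l + w i * e' j * w l + w i * w j * e' l) : ℝ) : ℂ)
      + ((cubT T w : ℝ) : ℂ) := by
  unfold cubT
  simp only [Complex.coe_algebraMap, Algebra.algebraMap_self, RingHom.id_apply]
  push_cast
  simp only [Finset.mul_sum, ← Finset.sum_add_distrib]
  refine Finset.sum_congr rfl (fun i _ => Finset.sum_congr rfl (fun j _ =>
    Finset.sum_congr rfl (fun l _ => ?_)))
  ring

/-- A forward timelike vector has positive Lorentz product with a forward null vector. -/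
theorem r3Null_pairing_pos (e0 e1 e2 w0 w1 w2 : ℝ)
    (he : Real.sqrt (e1 ^ 2 + e2 ^ 2) < e0) (hw0 : 0 < w0)
    (hnull : w0 ^ 2 - w1 ^ 2 - w2 ^ 2 = 0) :
    0 < e0 ^ 2 - e1 ^ 2 - e2 ^ 2 ∧ 0 < e0 * w0 - e1 * w1 - e2 * w2 := by
  have hs := Real.sqrt_nonneg (e1 ^ 2 + e2 ^ 2)
  have hsq : Real.sqrt (e1 ^ 2 + e2 ^ 2) ^ 2 = e1 ^ 2 + e2 ^ 2 :=
    Real.sq_sqrt (by positivity)
  have he0 : 0 < e0 := lt_of_le_of_lt hs he
  refine ⟨by nlinarith, ?_⟩
  have h1 : (e1 * w1 + e2 * w2) ^ 2 ≤ (Real.sqrt (e1 ^ 2 + e2 ^ 2) * w0) ^ 2 := by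
    have h2 : (Real.sqrt (e1 ^ 2 + e2 ^ 2) * w0) ^ 2 = (e1 ^ 2 + e2 ^ 2) * (w1 ^ 2 + w2 ^ 2) := by
      rw [mul_pow, hsq]
      have h3 : w0 ^ 2 = w1 ^ 2 + w2 ^ 2 := by linarith
      rw [h3]
    rw [h2]
    nlinarith [sq_nonneg (e1 * w2 - e2 * w1)]
  have h4 := (abs_le_of_sq_le_sq' h1 (mul_nonneg hs hw0.le)).2
  have h5 : Real.sqrt (e1 ^ 2 + e2 ^ 2) * w0 < e0 * w0 := mul_lt_mul_of_pos_right he hw0
  linarith

theorem cubT_null_nonneg {κ : Type} [Fintype κ]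
    (T : (Fin 3 ⊕ κ) → (Fin 3 ⊕ κ) → (Fin 3 ⊕ κ) → ℝ) (e : Option (Fin 3 ⊕ κ) → ℝ)
    (he : Real.sqrt (e (some (Sum.inl 1)) ^ 2 + e (some (Sum.inl 2)) ^ 2) < e (some (Sum.inl 0)))
    (hpe : 0 < e none * lorQ (fun i => e (some i)) - cubT T (fun i => e (some i)))
    (hyp : ∀ (x : Option (Fin 3 ⊕ κ) → ℝ) (t : ℂ),
      (t * (e none : ℂ) - (x none : ℂ)) *
          ((t * (e (some (Sum.inl 0)) : ℂ) - (x (some (Sum.inl 0)) : ℂ)) ^ 2
            - (t * (e (some (Sum.inl 1)) : ℂ) - (x (some (Sum.inl 1)) : ℂ)) ^ 2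
            - (t * (e (some (Sum.inl 2)) : ℂ) - (x (some (Sum.inl 2)) : ℂ)) ^ 2)
        - cubT T (fun i => t * (e (some i) : ℂ) - (x (some i) : ℂ)) = 0 → t.im = 0)
    (w : Fin 3 ⊕ κ → ℝ) (hw0 : 0 < w (Sum.inl 0)) (hnull : lorQ w = 0) : 0 ≤ cubT T w := by
  by_contra hneg
  push Not at hneg
  have hnull' : w (Sum.inl 0) ^ 2 - w (Sum.inl 1) ^ 2 - w (Sum.inl 2) ^ 2 = 0 := hnull
  obtain ⟨hα, hB⟩ := r3Null_pairing_pos (e (some (Sum.inl 0))) (e (some (Sum.inl 1)))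
    (e (some (Sum.inl 2))) (w (Sum.inl 0)) (w (Sum.inl 1)) (w (Sum.inl 2)) he hw0 hnull'
  have hpe' : 0 < e none * (e (some (Sum.inl 0)) ^ 2 - e (some (Sum.inl 1)) ^ 2
      - e (some (Sum.inl 2)) ^ 2) - cubT T (fun i => e (some i)) := hpe
  obtain ⟨lam, z, hz, hroot⟩ := exists_nonreal_root
    (e none * (e (some (Sum.inl 0)) ^ 2 - e (some (Sum.inl 1)) ^ 2
      - e (some (Sum.inl 2)) ^ 2) - cubT T (fun i => e (some i)))
    (e none * (2 * (e (some (Sum.inl 0)) * w (Sum.inl 0) - e (some (Sum.inl 1)) * w (Sum.inl 1)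
      - e (some (Sum.inl 2)) * w (Sum.inl 2))) - ∑ i, ∑ j, ∑ l, T i j l *
          (e (some i) * e (some j) * w l + e (some i) * w j * e (some l)
            + w i * e (some j) * e (some l)))
    (- ∑ i, ∑ j, ∑ l, T i j l *
          (e (some i) * w j * w l + w i * e (some j) * w l + w i * w j * e (some l)))
    (- cubT T w)
    (e (some (Sum.inl 0)) ^ 2 - e (some (Sum.inl 1)) ^ 2 - e (some (Sum.inl 2)) ^ 2)
    (2 * (e (some (Sum.inl 0)) * w (Sum.inl 0) - e (some (Sum.inl 1)) * w (Sum.inl 1)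
      - e (some (Sum.inl 2)) * w (Sum.inl 2)))
    hpe' (by linarith) hα (by linarith)
  apply hz
  apply hyp (fun o => Option.elim o lam (fun i => - w i)) z
  have hexp := r3Null_expand T (fun i => e (some i)) w z
  have hfun : (fun i => z * (e (some i) : ℂ)
      - (((fun o => Option.elim o lam (fun i => - w i)) (some i) : ℝ) : ℂ))
      = fun i => z * (e (some i) : ℂ) + (w i : ℂ) := by
    funext i
    simp
  rw [hfun, hexp]
  simp only [Option.elim]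
  have hnullC : ((w (Sum.inl 0) : ℝ) : ℂ) ^ 2 - ((w (Sum.inl 1) : ℝ) : ℂ) ^ 2
      - ((w (Sum.inl 2) : ℝ) : ℂ) ^ 2 = 0 := by
    exact_mod_cast hnull'
  push_cast at hroot ⊢
  linear_combination hroot + (z * (e none : ℂ) - (lam : ℂ)) * hnullC

end Vale.Agent.Lib.P256
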