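import Vale.Agent.Lib.P256.R3Core
import Vale.Agent.Lib.P256.R2Diff
namespace Vale.Agent.Lib.P256
open MvPolynomial Matrix

theorem r3Psd_cubT_real {τ : Type} [Fintype τ] (T : τ → τ → τ → ℝ) (w : τ → ℝ) :
    cubT T w = ∑ i, ∑ j, ∑ l, T i j l * w i * w j * w l := by
  simp only [cubT, Algebra.algebraMap_self, RingHom.id_apply]

theorem r3Psd_coord_cont {κ : Type} (z : κ → ℝ) (i : Fin 3 ⊕ κ) :
    Continuous (fun s : ℝ => (Sum.elim ![s, s, 0] z : Fin 3 ⊕ κ → ℝ) i) := by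
  rcases i with k | c
  · fin_cases k
    · show Continuous (fun s : ℝ => s)
      exact continuous_id
    · show Continuous (fun s : ℝ => s)
      exact continuous_id
    · show Continuous (fun _ : ℝ => (0 : ℝ))
      exact continuous_const
  · show Continuous (fun _ : ℝ => z c)
    exact continuous_const

theorem r3Psd_cont {κ : Type} [Fintype κ]
    (T : (Fin 3 ⊕ κ) → (Fin 3 ⊕ κ) → (Fin 3 ⊕ κ) → ℝ) (z : κ → ℝ) :
    Continuous (fun s : ℝ => cubT T (Sum.elim ![s, s, 0] z)) := by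
  simp only [r3Psd_cubT_real]
  refine continuous_finsetSum _ (fun i _ => continuous_finsetSum _ (fun j _ =>
    continuous_finsetSum _ (fun l _ => ?_)))
  exact ((continuous_const.mul (r3Psd_coord_cont z i)).mul (r3Psd_coord_cont z j)).mul
    (r3Psd_coord_cont z l)

theorem r3Psd_zero_pt {κ : Type} (z : κ → ℝ) :
    (Sum.elim ![(0:ℝ), 0, 0] z : Fin 3 ⊕ κ → ℝ) = Sum.elim (0 : Fin 3 → ℝ) z := by
  funext i
  rcases i with k | c
  · fin_cases k <;> rfl
  · rfl

theorem r3Psd_nonneg_zero {κ : Type} [Fintype κ]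
    (T : (Fin 3 ⊕ κ) → (Fin 3 ⊕ κ) → (Fin 3 ⊕ κ) → ℝ)
    (hpos : ∀ w : Fin 3 ⊕ κ → ℝ, 0 < w (Sum.inl 0) → lorQ w = 0 → 0 ≤ cubT T w) (z : κ → ℝ) :
    0 ≤ cubT T (Sum.elim 0 z) := by
  have hc := r3Psd_cont T z
  have ht : Filter.Tendsto (fun s : ℝ => cubT T (Sum.elim ![s, s, 0] z))
      (nhdsWithin 0 (Set.Ioi 0)) (nhds (cubT T (Sum.elim 0 z))) := by
    have h0 := (hc.tendsto 0).mono_left (nhdsWithin_le_nhds (s := Set.Ioi (0:ℝ)))
    rwa [r3Psd_zero_pt] at h0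
  refine ge_of_tendsto ht ?_
  filter_upwards [self_mem_nhdsWithin] with s hs
  apply hpos
  · exact hs
  · show s ^ 2 - s ^ 2 - (0 : ℝ) ^ 2 = 0
    ring

theorem r3_zcubic_zero {κ : Type} [Fintype κ]
    (T : (Fin 3 ⊕ κ) → (Fin 3 ⊕ κ) → (Fin 3 ⊕ κ) → ℝ)
    (hpos : ∀ w : Fin 3 ⊕ κ → ℝ, 0 < w (Sum.inl 0) → lorQ w = 0 → 0 ≤ cubT T w) (z : κ → ℝ) :
    cubT T (Sum.elim 0 z) = 0 := by
  have h1 := r3Psd_nonneg_zero T hpos z
  have h2 := r3Psd_nonneg_zero T hpos (fun c => - z c)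
  have he : (Sum.elim 0 (fun c => - z c) : Fin 3 ⊕ κ → ℝ) =
      fun i => - (Sum.elim 0 z : Fin 3 ⊕ κ → ℝ) i := by
    funext i
    rcases i with k | c <;> simp
  rw [he, cubT_neg] at h2
  linarith

theorem r3Psd_key {κ : Type} [Fintype κ]
    (T : (Fin 3 ⊕ κ) → (Fin 3 ⊕ κ) → (Fin 3 ⊕ κ) → ℝ)
    (hpos : ∀ w : Fin 3 ⊕ κ → ℝ, 0 < w (Sum.inl 0) → lorQ w = 0 → 0 ≤ cubT T w)
    (F : Option κ → Option κ → Polynomial ℝ)
    (hF : ∀ (t : ℝ) (z : κ → ℝ), cubT T (Sum.elim ![1 + t ^ 2, 1 - t ^ 2, 2 * t] z) =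
        (F none none).eval t + 2 * ∑ c, z c * (F none (some c)).eval t
          + ∑ c, ∑ d, z c * z d * (F (some c) (some d)).eval t + cubT T (Sum.elim 0 z))
    (t : ℝ) (x : ℝ) (hx : x ≠ 0) (η : κ → ℝ) :
    0 ≤ x ^ 2 * (F none none).eval t + 2 * x * ∑ c, η c * (F none (some c)).eval t
      + ∑ c, ∑ d, η c * η d * (F (some c) (some d)).eval t := by
  have h1 := hF t (fun c => η c / x)
  rw [r3_zcubic_zero T hpos] at h1
  have h2 : 0 ≤ cubT T (Sum.elim ![1 + t ^ 2, 1 - t ^ 2, 2 * t] (fun c => η c / x)) := by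
    apply hpos
    · show 0 < 1 + t ^ 2
      positivity
    · show (1 + t ^ 2) ^ 2 - (1 - t ^ 2) ^ 2 - (2 * t) ^ 2 = 0
      ring
  rw [h1] at h2
  have h3 : x ^ 2 * ((F none none).eval t + 2 * ∑ c, η c / x * (F none (some c)).eval t
      + ∑ c, ∑ d, η c / x * (η d / x) * (F (some c) (some d)).eval t + 0) =
      x ^ 2 * (F none none).eval t + 2 * x * ∑ c, η c * (F none (some c)).eval t
      + ∑ c, ∑ d, η c * η d * (F (some c) (some d)).eval t := by
    have e1 : x ^ 2 * (2 * ∑ c, η c / x * (F none (some c)).eval t) =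
        2 * x * ∑ c, η c * (F none (some c)).eval t := by
      rw [Finset.mul_sum, Finset.mul_sum, Finset.mul_sum]
      refine Finset.sum_congr rfl (fun c _ => ?_)
      field_simp
    have e2 : x ^ 2 * ∑ c, ∑ d, η c / x * (η d / x) * (F (some c) (some d)).eval t =
        ∑ c, ∑ d, η c * η d * (F (some c) (some d)).eval t := by
      rw [Finset.mul_sum]
      refine Finset.sum_congr rfl (fun c _ => ?_)
      rw [Finset.mul_sum]
      refine Finset.sum_congr rfl (fun d _ => ?_)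
      field_simp
    rw [add_zero, mul_add, mul_add, e1, e2]
  rw [← h3]
  exact mul_nonneg (sq_nonneg x) h2

theorem r3Psd_all {κ : Type} [Fintype κ]
    (T : (Fin 3 ⊕ κ) → (Fin 3 ⊕ κ) → (Fin 3 ⊕ κ) → ℝ)
    (hpos : ∀ w : Fin 3 ⊕ κ → ℝ, 0 < w (Sum.inl 0) → lorQ w = 0 → 0 ≤ cubT T w)
    (F : Option κ → Option κ → Polynomial ℝ)
    (hF : ∀ (t : ℝ) (z : κ → ℝ), cubT T (Sum.elim ![1 + t ^ 2, 1 - t ^ 2, 2 * t] z) =
        (F none none).eval t + 2 * ∑ c, z c * (F none (some c)).eval t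
          + ∑ c, ∑ d, z c * z d * (F (some c) (some d)).eval t + cubT T (Sum.elim 0 z))
    (t : ℝ) (x : ℝ) (η : κ → ℝ) :
    0 ≤ x ^ 2 * (F none none).eval t + 2 * x * ∑ c, η c * (F none (some c)).eval t
      + ∑ c, ∑ d, η c * η d * (F (some c) (some d)).eval t := by
  by_cases hx : x = 0
  · subst hx
    have hc : Continuous (fun s : ℝ => s ^ 2 * (F none none).eval t
        + 2 * s * ∑ c, η c * (F none (some c)).eval t
        + ∑ c, ∑ d, η c * η d * (F (some c) (some d)).eval t) := by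
      fun_prop
    have ht := (hc.tendsto 0).mono_left (nhdsWithin_le_nhds (s := Set.Ioi (0:ℝ)))
    refine ge_of_tendsto ht ?_
    filter_upwards [self_mem_nhdsWithin] with s hs
    exact r3Psd_key T hpos F hF t s (ne_of_gt hs) η
  · exact r3Psd_key T hpos F hF t x hx η

theorem r3_psd {κ : Type} [Fintype κ]
    (T : (Fin 3 ⊕ κ) → (Fin 3 ⊕ κ) → (Fin 3 ⊕ κ) → ℝ)
    (hpos : ∀ w : Fin 3 ⊕ κ → ℝ, 0 < w (Sum.inl 0) → lorQ w = 0 → 0 ≤ cubT T w)
    (F : Option κ → Option κ → Polynomial ℝ) (hsymm : ∀ a b, F a b = F b a)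
    (hF : ∀ (t : ℝ) (z : κ → ℝ), cubT T (Sum.elim ![1 + t ^ 2, 1 - t ^ 2, 2 * t] z) =
        (F none none).eval t + 2 * ∑ c, z c * (F none (some c)).eval t
          + ∑ c, ∑ d, z c * z d * (F (some c) (some d)).eval t + cubT T (Sum.elim 0 z))
    (t : ℝ) (ζ : Option κ → ℝ) : 0 ≤ ∑ a, ∑ b, ζ a * (F a b).eval t * ζ b := by
  have h := r3Psd_all T hpos F hF t (ζ none) (fun c => ζ (some c))
  have e : ∑ a, ∑ b, ζ a * (F a b).eval t * ζ b =
      ζ none ^ 2 * (F none none).eval t + 2 * ζ none * ∑ c, ζ (some c) * (F none (some c)).eval t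
      + ∑ c, ∑ d, ζ (some c) * ζ (some d) * (F (some c) (some d)).eval t := by
    simp only [Fintype.sum_option]
    rw [Finset.sum_add_distrib]
    have e1 : ∑ c, ζ (some c) * (F (some c) none).eval t * ζ none =
        ζ none * ∑ c, ζ (some c) * (F none (some c)).eval t := by
      rw [Finset.mul_sum]
      refine Finset.sum_congr rfl (fun c _ => ?_)
      rw [hsymm (some c) none]
      ring
    have e2 : ∑ c, ζ none * (F none (some c)).eval t * ζ (some c) =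
        ζ none * ∑ c, ζ (some c) * (F none (some c)).eval t := by
      rw [Finset.mul_sum]
      refine Finset.sum_congr rfl (fun c _ => ?_)
      ring
    have e3 : ∑ c, ∑ d, ζ (some c) * (F (some c) (some d)).eval t * ζ (some d) =
        ∑ c, ∑ d, ζ (some c) * ζ (some d) * (F (some c) (some d)).eval t := by
      refine Finset.sum_congr rfl (fun c _ => Finset.sum_congr rfl (fun d _ => ?_))
      ring
    rw [e1, e2, e3]
    ring
  rw [e]
  exact h

end Vale.Agent.Lib.P256
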