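import Vale.Agent.Lib.P256.R3Core
namespace Vale.Agent.Lib.P256
open MvPolynomial Matrix

theorem r3Spin_scale : ∃ s : ℝ, 2 * s ^ 2 = 1 := by
  refine ⟨1 / Real.sqrt 2, ?_⟩
  have h2 : Real.sqrt 2 ^ 2 = 2 := Real.sq_sqrt (by norm_num)
  have h3 : Real.sqrt 2 ≠ 0 := by
    intro h
    rw [h] at h2
    norm_num at h2
  rw [div_pow, one_pow, h2]
  norm_num

theorem r3Spin_dot {κ : Type} [Fintype κ] (a0 a1 a2 : ℝ) (b : κ → ℝ) (u1 u2 : ℝ)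
    (z : κ → ℝ) :
    (Sum.elim ![a0, a1, a2] b : Fin 3 ⊕ κ → ℝ) ⬝ᵥ nullPt u1 u2 z =
      a0 * (u1 ^ 2 + u2 ^ 2) + a1 * (u1 ^ 2 - u2 ^ 2) + a2 * (2 * u1 * u2) + ∑ c, b c * z c := by
  simp [dotProduct, Fintype.sum_sum_type, Fin.sum_univ_three, nullPt]

theorem r3_spin {κ : Type} [Fintype κ] (m : ℕ) (α : Fin m → Fin 4 → ℝ)
    (β : Fin m → κ → Fin 2 → ℝ) :
    ∃ (V1 V2 : Fin m → (Fin 3 ⊕ κ) → ℝ), ∀ (k : Fin m) (u1 u2 : ℝ) (z : κ → ℝ),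
      spinQ (nullPt u1 u2 z (Sum.inl 0)) (nullPt u1 u2 z (Sum.inl 1)) (nullPt u1 u2 z (Sum.inl 2))
          (V1 k ⬝ᵥ nullPt u1 u2 z) (V2 k ⬝ᵥ nullPt u1 u2 z) =
        (α k 0 * u1 ^ 3 + α k 1 * u1 ^ 2 * u2 + α k 2 * u1 * u2 ^ 2 + α k 3 * u2 ^ 3
          + ∑ c, z c * (β k c 0 * u1 + β k c 1 * u2)) ^ 2 := by
  obtain ⟨s, hs⟩ := r3Spin_scale
  refine ⟨fun k => Sum.elim ![s * (-(α k 3) / 2), s * (α k 3 / 2), 0]
      (fun c => s * (-(β k c 1))),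
    fun k => Sum.elim ![s * ((α k 0 + α k 2) / 2), s * ((α k 0 - α k 2) / 2), s * (α k 1 / 2)]
      (fun c => s * β k c 0), ?_⟩
  intro k u1 u2 z
  have hz1 : ∑ c, s * (-(β k c 1)) * z c = -(s * ∑ c, z c * β k c 1) := by
    rw [Finset.mul_sum, ← Finset.sum_neg_distrib]
    apply Finset.sum_congr rfl
    intro c _
    ring
  have hz2 : ∑ c, s * β k c 0 * z c = s * ∑ c, z c * β k c 0 := by
    rw [Finset.mul_sum]
    apply Finset.sum_congr rfl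
    intro c _
    ring
  have hz3 : ∑ c, z c * (β k c 0 * u1 + β k c 1 * u2) =
      u1 * ∑ c, z c * β k c 0 + u2 * ∑ c, z c * β k c 1 := by
    rw [Finset.mul_sum, Finset.mul_sum, ← Finset.sum_add_distrib]
    apply Finset.sum_congr rfl
    intro c _
    ring
  have n0 : nullPt u1 u2 z (Sum.inl 0) = u1 ^ 2 + u2 ^ 2 := by simp [nullPt]
  have n1 : nullPt u1 u2 z (Sum.inl 1) = u1 ^ 2 - u2 ^ 2 := by simp [nullPt]
  have n2 : nullPt u1 u2 z (Sum.inl 2) = 2 * u1 * u2 := by simp [nullPt]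
  show spinQ (nullPt u1 u2 z (Sum.inl 0)) (nullPt u1 u2 z (Sum.inl 1))
      (nullPt u1 u2 z (Sum.inl 2))
      ((Sum.elim ![s * (-(α k 3) / 2), s * (α k 3 / 2), 0]
        (fun c => s * (-(β k c 1))) : Fin 3 ⊕ κ → ℝ) ⬝ᵥ nullPt u1 u2 z)
      ((Sum.elim ![s * ((α k 0 + α k 2) / 2), s * ((α k 0 - α k 2) / 2), s * (α k 1 / 2)]
        (fun c => s * β k c 0) : Fin 3 ⊕ κ → ℝ) ⬝ᵥ nullPt u1 u2 z) = _
  rw [r3Spin_dot, r3Spin_dot, n0, n1, n2, hz1, hz2, hz3]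
  generalize (∑ c, z c * β k c 0) = A
  generalize (∑ c, z c * β k c 1) = B
  unfold spinQ
  linear_combination (α k 0 * u1 ^ 3 + α k 1 * u1 ^ 2 * u2 + α k 2 * u1 * u2 ^ 2
    + α k 3 * u2 ^ 3 + (u1 * A + u2 * B)) ^ 2 * hs

end Vale.Agent.Lib.P256
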