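import Vale.Agent.Lib.P256.R3Core

/-!
# Closure properties of real cubic forms given by coefficient tensors

Products of three linear forms are cubic forms, cubic forms are closed under sums, differences,
finite sums and scalar multiples, and under linear substitution.
-/

namespace Vale.Agent.Lib.P256
open MvPolynomial Matrix

/-- Over the reals the cubic form is the plain triple sum. -/
theorem r3Tensor_real {τ : Type} [Fintype τ] (T : τ → τ → τ → ℝ) (w : τ → ℝ) :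
    cubT T w = ∑ i, ∑ j, ∑ l, T i j l * w i * w j * w l := by
  unfold cubT
  simp only [Algebra.algebraMap_self, RingHom.id_apply]

/-- A product of three linear forms is a cubic form. -/
theorem r3Tensor_triple {τ : Type} [Fintype τ] (A B C : τ → ℝ) (w : τ → ℝ) :
    cubT (fun i j l => A i * B j * C l) w = (A ⬝ᵥ w) * (B ⬝ᵥ w) * (C ⬝ᵥ w) := by
  rw [r3Tensor_real]
  simp only [dotProduct]
  rw [Finset.sum_mul_sum, Finset.sum_mul]
  refine Finset.sum_congr rfl (fun i _ => ?_)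
  rw [Finset.sum_mul]
  refine Finset.sum_congr rfl (fun j _ => ?_)
  rw [Finset.mul_sum]
  refine Finset.sum_congr rfl (fun l _ => ?_)
  ring

theorem r3Tensor_add {τ : Type} [Fintype τ] (T1 T2 : τ → τ → τ → ℝ) (w : τ → ℝ) :
    cubT (fun i j l => T1 i j l + T2 i j l) w = cubT T1 w + cubT T2 w := by
  simp only [r3Tensor_real, add_mul, Finset.sum_add_distrib]

theorem r3Tensor_sub {τ : Type} [Fintype τ] (T1 T2 : τ → τ → τ → ℝ) (w : τ → ℝ) :
    cubT (fun i j l => T1 i j l - T2 i j l) w = cubT T1 w - cubT T2 w := by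
  simp only [r3Tensor_real, sub_mul, Finset.sum_sub_distrib]

theorem r3Tensor_smul {τ : Type} [Fintype τ] (c : ℝ) (T : τ → τ → τ → ℝ) (w : τ → ℝ) :
    cubT (fun i j l => c * T i j l) w = c * cubT T w := by
  simp only [r3Tensor_real, Finset.mul_sum, mul_assoc]

theorem r3Tensor_sum {τ : Type} [Fintype τ] {ι : Type} [Fintype ι] (T : ι → τ → τ → τ → ℝ)
    (w : τ → ℝ) :
    cubT (fun i j l => ∑ k, T k i j l) w = ∑ k, cubT (T k) w := by
  simp only [r3Tensor_real, Finset.sum_mul]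
  symm
  calc ∑ k, ∑ i, ∑ j, ∑ l, T k i j l * w i * w j * w l
      = ∑ i, ∑ k, ∑ j, ∑ l, T k i j l * w i * w j * w l := Finset.sum_comm
  _ = ∑ i, ∑ j, ∑ k, ∑ l, T k i j l * w i * w j * w l :=
      Finset.sum_congr rfl (fun i _ => Finset.sum_comm)
  _ = ∑ i, ∑ j, ∑ l, ∑ k, T k i j l * w i * w j * w l :=
      Finset.sum_congr rfl (fun i _ => Finset.sum_congr rfl (fun j _ => Finset.sum_comm))

/-- The spinor quadratic form in linear forms is a cubic form. -/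
theorem r3Tensor_spin {τ : Type} [Fintype τ] (H0 H1 H2 V1 V2 : τ → ℝ) (w : τ → ℝ) :
    cubT (fun i j l => ((H0 i - H1 i) * V1 j * V1 l - 2 * (H2 i * V1 j * V2 l))
        + (H0 i + H1 i) * V2 j * V2 l) w
      = spinQ (H0 ⬝ᵥ w) (H1 ⬝ᵥ w) (H2 ⬝ᵥ w) (V1 ⬝ᵥ w) (V2 ⬝ᵥ w) := by
  rw [r3Tensor_add, r3Tensor_sub, r3Tensor_smul]
  rw [r3Tensor_triple (fun i => H0 i - H1 i) V1 V1 w, r3Tensor_triple H2 V1 V2 w,
    r3Tensor_triple (fun i => H0 i + H1 i) V2 V2 w]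
  have h1 : (fun i => H0 i - H1 i) ⬝ᵥ w = H0 ⬝ᵥ w - H1 ⬝ᵥ w := sub_dotProduct H0 H1 w
  have h2 : (fun i => H0 i + H1 i) ⬝ᵥ w = H0 ⬝ᵥ w + H1 ⬝ᵥ w := add_dotProduct H0 H1 w
  rw [h1, h2]
  unfold spinQ
  ring

theorem exists_tensor_spin {τ : Type} [Fintype τ] (T : τ → τ → τ → ℝ) (H0 H1 H2 : τ → ℝ)
    (m : ℕ) (V1 V2 : Fin m → τ → ℝ) :
    ∃ T' : τ → τ → τ → ℝ, ∀ w : τ → ℝ, cubT T' w =
      cubT T w - ∑ k, spinQ (H0 ⬝ᵥ w) (H1 ⬝ᵥ w) (H2 ⬝ᵥ w) (V1 k ⬝ᵥ w) (V2 k ⬝ᵥ w) := by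
  refine ⟨fun i j l => T i j l - ∑ k, (((H0 i - H1 i) * V1 k j * V1 k l
      - 2 * (H2 i * V1 k j * V2 k l)) + (H0 i + H1 i) * V2 k j * V2 k l), fun w => ?_⟩
  rw [r3Tensor_sub, r3Tensor_sum]
  congr 1
  exact Finset.sum_congr rfl (fun k _ => r3Tensor_spin H0 H1 H2 (V1 k) (V2 k) w)

theorem cubT_pullback {τ : Type} [Fintype τ] [DecidableEq τ] (T : τ → τ → τ → ℝ)
    (M : Matrix τ τ ℝ) :
    ∃ T' : τ → τ → τ → ℝ, ∀ w : τ → ℝ, cubT T' w = cubT T (M *ᵥ w) := by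
  refine ⟨fun a b c => ∑ i, ∑ j, ∑ l, T i j l * (M i a * M j b * M l c), fun w => ?_⟩
  rw [r3Tensor_sum, r3Tensor_real]
  refine Finset.sum_congr rfl (fun i _ => ?_)
  rw [r3Tensor_sum]
  refine Finset.sum_congr rfl (fun j _ => ?_)
  rw [r3Tensor_sum]
  refine Finset.sum_congr rfl (fun l _ => ?_)
  rw [r3Tensor_smul, r3Tensor_triple (fun a => M i a) (fun b => M j b) (fun c => M l c) w]
  change T i j l * (((fun a => M i a) ⬝ᵥ w) * ((fun b => M j b) ⬝ᵥ w) * ((fun c => M l c) ⬝ᵥ w))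
    = T i j l * ((fun a => M i a) ⬝ᵥ w) * ((fun b => M j b) ⬝ᵥ w) * ((fun c => M l c) ⬝ᵥ w)
  ring

end Vale.Agent.Lib.P256
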