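import Vale.Agent.Lib.P256.R2Main
import Vale.Agent.Lib.P256.R3Null
import Vale.Agent.Lib.P256.R3Matrix
import Vale.Agent.Lib.P256.R3Psd
import Vale.Agent.Lib.P256.R3Gram
import Vale.Agent.Lib.P256.R3Forms
import Vale.Agent.Lib.P256.R3Spin
import Vale.Agent.Lib.P256.R3Div
import Vale.Agent.Lib.P256.R3Tensor
import Vale.Agent.Lib.P256.R3Boost
import Vale.Agent.Lib.P256.R3Data

namespace Vale.Agent.Lib.P256

open MvPolynomial Matrix
/-- Structure theorem: a cubic form that is nonnegative on the forward null cone. -/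
theorem cubT_lorentz_decomp {κ : Type} [Fintype κ]
    (T : (Fin 3 ⊕ κ) → (Fin 3 ⊕ κ) → (Fin 3 ⊕ κ) → ℝ)
    (hpos : ∀ w : Fin 3 ⊕ κ → ℝ, 0 < w (Sum.inl 0) → lorQ w = 0 → 0 ≤ cubT T w) :
    ∃ (J : ℕ) (V1 V2 : Fin J → (Fin 3 ⊕ κ) → ℝ) (ℓ : (Fin 3 ⊕ κ) → ℝ), 0 < J ∧
      ∀ w : Fin 3 ⊕ κ → ℝ, cubT T w =
        ∑ j, spinQ (w (Sum.inl 0)) (w (Sum.inl 1)) (w (Sum.inl 2)) (V1 j ⬝ᵥ w) (V2 j ⬝ᵥ w)
          + lorQ w * (ℓ ⬝ᵥ w) := by
  classical
  obtain ⟨F, hsymm, hd0, hd1, hF⟩ := r3_matrix_exists T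
  have hz := r3_zcubic_zero T hpos
  have hpsd := r3_psd T hpos F hsymm hF
  obtain ⟨m, G, hG, hdeg⟩ := fr_real_fintype F hsymm hpsd
  have hG0 : ∀ k, (G k none).natDegree ≤ 3 := by
    intro k; have := hdeg k none; omega
  have hG1 : ∀ k c, (G k (some c)).natDegree ≤ 1 := by
    intro k c; have := hdeg k (some c); have := hd1 c; omega
  obtain ⟨α, β, hform⟩ := r3_forms T hz F hF m G hG hG0 hG1
  obtain ⟨V1, V2, hspin⟩ := r3_spin m α β
  have hsingle : ∀ (i : Fin 3 ⊕ κ) (w : Fin 3 ⊕ κ → ℝ),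
      (Pi.single i (1 : ℝ) : Fin 3 ⊕ κ → ℝ) ⬝ᵥ w = w i := by
    intro i w; simp
  obtain ⟨T', hT'⟩ := exists_tensor_spin T (Pi.single (Sum.inl 0) 1) (Pi.single (Sum.inl 1) 1)
    (Pi.single (Sum.inl 2) 1) m V1 V2
  simp only [hsingle] at hT'
  have hvan : ∀ (u1 u2 : ℝ) (z : κ → ℝ), cubT T' (nullPt u1 u2 z) = 0 := by
    intro u1 u2 z
    rw [hT', hform, ← Finset.sum_sub_distrib]
    apply Finset.sum_eq_zero
    intro k _
    rw [hspin k u1 u2 z]; ring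
  obtain ⟨ℓ, hℓ⟩ := cubT_div_lorentz T' hvan
  refine ⟨m + 1, Fin.cons 0 V1, Fin.cons 0 V2, ℓ, Nat.succ_pos m, fun w => ?_⟩
  have h1 := hT' w
  rw [hℓ] at h1
  rw [Fin.sum_univ_succ]
  simp only [Fin.cons_zero, Fin.cons_succ, zero_dotProduct, spinQ]
  simp only [spinQ] at h1
  linarith

/-- Structure theorem in a Lorentz frame adapted to a forward timelike direction. -/
theorem cubT_frame_decomp {κ : Type} [Fintype κ] [DecidableEq κ]
    (T : (Fin 3 ⊕ κ) → (Fin 3 ⊕ κ) → (Fin 3 ⊕ κ) → ℝ) (e' : Fin 3 ⊕ κ → ℝ)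
    (he : Real.sqrt (e' (Sum.inl 1) ^ 2 + e' (Sum.inl 2) ^ 2) < e' (Sum.inl 0))
    (hpos : ∀ w : Fin 3 ⊕ κ → ℝ, 0 < w (Sum.inl 0) → lorQ w = 0 → 0 ≤ cubT T w) :
    ∃ (H0 H1 H2 : (Fin 3 ⊕ κ) → ℝ) (J : ℕ) (V1 V2 : Fin J → (Fin 3 ⊕ κ) → ℝ)
      (ℓ : (Fin 3 ⊕ κ) → ℝ),
      0 < J ∧ 0 < H0 ⬝ᵥ e' ∧ H1 ⬝ᵥ e' = 0 ∧ H2 ⬝ᵥ e' = 0 ∧
      (∀ w : Fin 3 ⊕ κ → ℝ, (H0 ⬝ᵥ w) ^ 2 - (H1 ⬝ᵥ w) ^ 2 - (H2 ⬝ᵥ w) ^ 2 = lorQ w) ∧
      ∀ w : Fin 3 ⊕ κ → ℝ, cubT T w =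
        ∑ j, spinQ (H0 ⬝ᵥ w) (H1 ⬝ᵥ w) (H2 ⬝ᵥ w) (V1 j ⬝ᵥ w) (V2 j ⬝ᵥ w)
          + lorQ w * (ℓ ⬝ᵥ w) := by
  obtain ⟨L, Linv, hinv, hq, hqinv, hfwd, hL⟩ :=
    exists_boost (κ := κ) (e' (Sum.inl 0)) (e' (Sum.inl 1)) (e' (Sum.inl 2)) he
  obtain ⟨T2, hT2⟩ := cubT_pullback T Linv
  have hpos' : ∀ w : Fin 3 ⊕ κ → ℝ, 0 < w (Sum.inl 0) → lorQ w = 0 → 0 ≤ cubT T2 w := by
    intro w h0 hn
    rw [hT2]
    exact hpos _ (hfwd w h0 hn) (by rw [hqinv]; exact hn)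
  obtain ⟨J, V1, V2, ℓ, hJ, hdec⟩ := cubT_lorentz_decomp T2 hpos'
  have hrow : ∀ (i : Fin 3 ⊕ κ) (w : Fin 3 ⊕ κ → ℝ), L i ⬝ᵥ w = (L *ᵥ w) i := fun i w => rfl
  have hvm : ∀ (v w : Fin 3 ⊕ κ → ℝ), (v ᵥ* L) ⬝ᵥ w = v ⬝ᵥ (L *ᵥ w) := by
    intro v w; rw [dotProduct_mulVec]
  obtain ⟨hL0, hL1, hL2⟩ := hL e' rfl rfl rfl
  refine ⟨L (Sum.inl 0), L (Sum.inl 1), L (Sum.inl 2), J, fun j => V1 j ᵥ* L,
    fun j => V2 j ᵥ* L, ℓ ᵥ* L, hJ, ?_, ?_, ?_, ?_, ?_⟩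
  · rw [hrow]; exact hL0
  · rw [hrow]; exact hL1
  · rw [hrow]; exact hL2
  · intro w
    simp only [hrow]
    exact hq w
  · intro w
    have h1 := hdec (L *ᵥ w)
    rw [hT2, hinv] at h1
    rw [h1, hq]
    simp only [hrow, hvm]

/-- Evaluation of the rank-three normal form. -/
theorem r3Main_aeval {κ : Type} [Fintype κ]
    (T : (Fin 3 ⊕ κ) → (Fin 3 ⊕ κ) → (Fin 3 ⊕ κ) → ℝ)
    {R : Type} [CommRing R] [Algebra ℝ R] (x : Option (Fin 3 ⊕ κ) → R) :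
    aeval x (X none * (X (some (Sum.inl 0)) ^ 2 - X (some (Sum.inl 1)) ^ 2
          - X (some (Sum.inl 2)) ^ 2) -
        rename some (∑ i, ∑ j, ∑ l, C (T i j l) * X i * X j * X l) :
          MvPolynomial (Option (Fin 3 ⊕ κ)) ℝ) =
      x none * (x (some (Sum.inl 0)) ^ 2 - x (some (Sum.inl 1)) ^ 2 - x (some (Sum.inl 2)) ^ 2)
        - cubT T (fun i => x (some i)) := by
  simp [cubT, map_sum, algebraMap_eq]

theorem r3Main_singular {κ : Type} [Fintype κ] [DecidableEq κ]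
    (T : (Fin 3 ⊕ κ) → (Fin 3 ⊕ κ) → (Fin 3 ⊕ κ) → ℝ) :
    eval (Pi.single none 1) (X none * (X (some (Sum.inl 0)) ^ 2 - X (some (Sum.inl 1)) ^ 2
          - X (some (Sum.inl 2)) ^ 2) -
        rename some (∑ i, ∑ j, ∑ l, C (T i j l) * X i * X j * X l) :
          MvPolynomial (Option (Fin 3 ⊕ κ)) ℝ) = 0 ∧
    ∀ v, eval (Pi.single none 1) (pderiv v (X none * (X (some (Sum.inl 0)) ^ 2
          - X (some (Sum.inl 1)) ^ 2 - X (some (Sum.inl 2)) ^ 2) -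
        rename some (∑ i, ∑ j, ∑ l, C (T i j l) * X i * X j * X l) :
          MvPolynomial (Option (Fin 3 ⊕ κ)) ℝ)) = 0 := by
  constructor
  · simp [map_sum]
  · intro v
    simp [map_sum, Derivation.leibniz]

/-- Rank-three nodes: characterization of hyperbolicity and spectrahedrality of the cone. -/
theorem rank3_main {κ : Type} [Fintype κ] [DecidableEq κ]
    (r : MvPolynomial (Fin 3 ⊕ κ) ℝ) (hr : r.IsHomogeneous 3) (e : Option (Fin 3 ⊕ κ) → ℝ)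
    (he : Real.sqrt (e (some (Sum.inl 1)) ^ 2 + e (some (Sum.inl 2)) ^ 2) < e (some (Sum.inl 0))) :
    (IsHyperbolic (X none * (X (some (Sum.inl 0)) ^ 2 - X (some (Sum.inl 1)) ^ 2
          - X (some (Sum.inl 2)) ^ 2) - rename some r) e ↔
      0 < eval e (X none * (X (some (Sum.inl 0)) ^ 2 - X (some (Sum.inl 1)) ^ 2
          - X (some (Sum.inl 2)) ^ 2) - rename some r) ∧
        ∀ w : Fin 3 ⊕ κ → ℝ, 0 ≤ w (Sum.inl 0) →
          w (Sum.inl 0) ^ 2 = w (Sum.inl 1) ^ 2 + w (Sum.inl 2) ^ 2 → 0 ≤ eval w r) ∧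
    (IsHyperbolic (X none * (X (some (Sum.inl 0)) ^ 2 - X (some (Sum.inl 1)) ^ 2
          - X (some (Sum.inl 2)) ^ 2) - rename some r) e →
      IsSpectrahedron (hyperbolicityCone (X none * (X (some (Sum.inl 0)) ^ 2
          - X (some (Sum.inl 1)) ^ 2 - X (some (Sum.inl 2)) ^ 2) - rename some r) e) ∧
      Pi.single none 1 ∈ hyperbolicityCone (X none * (X (some (Sum.inl 0)) ^ 2
          - X (some (Sum.inl 1)) ^ 2 - X (some (Sum.inl 2)) ^ 2) - rename some r) e) ∧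
    (eval (Pi.single none 1) (X none * (X (some (Sum.inl 0)) ^ 2 - X (some (Sum.inl 1)) ^ 2
          - X (some (Sum.inl 2)) ^ 2) - rename some r) = 0 ∧
      ∀ v, eval (Pi.single none 1) (pderiv v (X none * (X (some (Sum.inl 0)) ^ 2
          - X (some (Sum.inl 1)) ^ 2 - X (some (Sum.inl 2)) ^ 2) - rename some r)) = 0) := by
  obtain ⟨T, rfl⟩ := exists_cubic_tensor r hr
  set p : MvPolynomial (Option (Fin 3 ⊕ κ)) ℝ :=
    X none * (X (some (Sum.inl 0)) ^ 2 - X (some (Sum.inl 1)) ^ 2 - X (some (Sum.inl 2)) ^ 2) -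
        rename some (∑ i, ∑ j, ∑ l, C (T i j l) * X i * X j * X l) with hp
  have hevr : ∀ w : Fin 3 ⊕ κ → ℝ,
      eval w (∑ i, ∑ j, ∑ l, C (T i j l) * X i * X j * X l) = cubT T w := by
    intro w; simp [cubT, map_sum]
  have hev : ∀ x : Option (Fin 3 ⊕ κ) → ℝ, eval x p =
      x none * lorQ (fun i => x (some i)) - cubT T (fun i => x (some i)) := by
    intro x
    have := r3Main_aeval T x
    rw [aeval_eq_eval] at this
    rw [this, lorQ]
  -- from nonnegativity on the forward null cone to the Clifford form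
  have key : (∀ w : Fin 3 ⊕ κ → ℝ, 0 < w (Sum.inl 0) → lorQ w = 0 → 0 ≤ cubT T w) →
      0 < eval e p →
      (IsHyperbolic p e ∧ IsSpectrahedron (hyperbolicityCone p e) ∧
        ∀ w : Fin 3 ⊕ κ → ℝ, w (Sum.inl 0) = 0 → lorQ w = 0 → cubT T w = 0) := by
    intro hpos hpe
    obtain ⟨H0, H1, H2, J, V1, V2, ℓ, hJ, h0e, h1e, h2e, hHq, hdec⟩ :=
      cubT_frame_decomp T (fun i => e (some i)) he hpos
    obtain ⟨Γ, l0, h0, h, V, hΓ, he0, hei, hval⟩ :=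
      rank3_cliff_data H0 H1 H2 J V1 V2 ℓ e h0e h1e h2e
    have hpeq : p = cliffordCubic Γ l0 h0 h V := by
      apply MvPolynomial.funext
      intro x
      rw [eval_cliffordCubic, hval, hev, hdec, hHq]
    have he0' : ∑ k, h0 k * e k = 1 := by rw [← lf_eq_sum]; exact he0
    have hei' : ∀ i, ∑ k, h i k * e k = 0 := by intro i; rw [← lf_eq_sum]; exact hei i
    have hm := cliffordCubic_main Γ hΓ hJ l0 h0 h V e he0' hei' (by rw [← hpeq]; exact hpe)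
    rw [← hpeq] at hm
    refine ⟨hm.1, hm.2.1, ?_⟩
    intro w hw0 hwq
    have h12 : w (Sum.inl 1) = 0 ∧ w (Sum.inl 2) = 0 := by
      simp only [lorQ, hw0] at hwq
      constructor <;> nlinarith [sq_nonneg (w (Sum.inl 1)), sq_nonneg (w (Sum.inl 2))]
    have hw : w = Sum.elim (0 : Fin 3 → ℝ) (fun c => w (Sum.inr c)) := by
      funext i
      rcases i with i | c
      · fin_cases i
        · simpa using hw0
        · simpa using h12.1
        · simpa using h12.2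
      · rfl
    rw [hw]
    exact r3_zcubic_zero T hpos _
  -- necessity
  have nec : IsHyperbolic p e →
      (∀ w : Fin 3 ⊕ κ → ℝ, 0 < w (Sum.inl 0) → lorQ w = 0 → 0 ≤ cubT T w) := by
    intro hyp
    obtain ⟨-, hpe, hroots⟩ := hyp
    rw [hev] at hpe
    intro w hw0 hwq
    refine cubT_null_nonneg T e he hpe ?_ w hw0 hwq
    intro x t ht
    apply hroots x t
    rw [hp, r3Main_aeval]
    exact ht
  have hnullq : ∀ w : Fin 3 ⊕ κ → ℝ,
      w (Sum.inl 0) ^ 2 = w (Sum.inl 1) ^ 2 + w (Sum.inl 2) ^ 2 → lorQ w = 0 := by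
    intro w h; simp only [lorQ]; linarith
  refine ⟨⟨fun hyp => ?_, fun hyp => ?_⟩, fun hyp => ⟨?_, ?_⟩, r3Main_singular T⟩
  · have hpos := nec hyp
    refine ⟨hyp.2.1, ?_⟩
    intro w hw0 hwq
    rw [hevr]
    rcases eq_or_lt_of_le hw0 with h1 | h1
    · exact le_of_eq ((key hpos hyp.2.1).2.2 w h1.symm (hnullq w hwq)).symm
    · exact hpos w h1 (hnullq w hwq)
  · obtain ⟨hpe, hw⟩ := hyp
    refine (key ?_ hpe).1
    intro w hw0 hwq
    rw [← hevr]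
    refine hw w hw0.le ?_
    simp only [lorQ] at hwq; linarith
  · exact (key (nec hyp) hyp.2.1).2.1
  · -- the node lies in the cone
    have hpe : 0 < e none * lorQ (fun i => e (some i)) - cubT T (fun i => e (some i)) := by
      have := hyp.2.1
      rwa [hev] at this
    have hq : 0 < lorQ (fun i => e (some i)) := by
      simp only [lorQ]
      have h1 := Real.sqrt_nonneg (e (some (Sum.inl 1)) ^ 2 + e (some (Sum.inl 2)) ^ 2)
      have h2 := Real.sq_sqrt (add_nonneg (sq_nonneg (e (some (Sum.inl 1))))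
        (sq_nonneg (e (some (Sum.inl 2)))))
      nlinarith
    intro t ht
    rw [hev] at ht
    have h1 : cubT T (fun i => t * e (some i) - (Pi.single none 1 : Option (Fin 3 ⊕ κ) → ℝ) (some i)) =
        t ^ 3 * cubT T (fun i => e (some i)) := by
      rw [← r2Main_cubT_smul]
      congr 1
      funext i
      simp
    have h2 : lorQ (fun i => t * e (some i) - (Pi.single none 1 : Option (Fin 3 ⊕ κ) → ℝ) (some i)) =
        t ^ 2 * lorQ (fun i => e (some i)) := by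
      simp only [lorQ, ne_eq, reduceCtorEq, not_false_eq_true, Pi.single_eq_of_ne, sub_zero]
      ring
    rw [h1, h2] at ht
    simp only [Pi.single_eq_same] at ht
    by_contra hneg'
    have hneg : t < 0 := not_le.mp hneg'
    have ht2 : 0 < t ^ 2 := by nlinarith
    have hfac : (t * e none - 1) * (t ^ 2 * lorQ (fun i => e (some i))) -
        t ^ 3 * cubT T (fun i => e (some i)) =
        t ^ 2 * (t * (e none * lorQ (fun i => e (some i)) - cubT T (fun i => e (some i))) -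
          lorQ (fun i => e (some i))) := by ring
    rw [hfac] at ht
    have hlt : t * (e none * lorQ (fun i => e (some i)) - cubT T (fun i => e (some i))) -
          lorQ (fun i => e (some i)) < 0 := by
      have := mul_neg_of_neg_of_pos hneg hpe
      linarith
    have := mul_neg_of_pos_of_neg ht2 hlt
    linarith

end Vale.Agent.Lib.P256
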