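import Vale.Agent.Lib.P256.SgCore

/-!
# P256: circular cones, a forward null vector and closure of a boundary inequality
-/

namespace Vale.Agent.Lib.P256
open MvPolynomial Matrix

/-- A positive root of the quadratic that cuts a timelike line through a spacelike point. -/
lemma sgClosure_root (E0 E1 E2 a1 a2 : ℝ) (hA : E1 ^ 2 + E2 ^ 2 < E0 ^ 2)
    (ha : 0 < a1 ^ 2 + a2 ^ 2) :
    ∃ s : ℝ, 0 < s ∧ (s * E0) ^ 2 = (a1 + s * E1) ^ 2 + (a2 + s * E2) ^ 2 := by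
  obtain ⟨A, hAdef⟩ : ∃ A : ℝ, A = E0 ^ 2 - E1 ^ 2 - E2 ^ 2 := ⟨_, rfl⟩
  obtain ⟨b, hbdef⟩ : ∃ b : ℝ, b = a1 * E1 + a2 * E2 := ⟨_, rfl⟩
  obtain ⟨c0, hcdef⟩ : ∃ c0 : ℝ, c0 = a1 ^ 2 + a2 ^ 2 := ⟨_, rfl⟩
  have hApos : 0 < A := by rw [hAdef]; linarith
  have hcpos : 0 < c0 := by rw [hcdef]; exact ha
  have hAc : 0 < A * c0 := mul_pos hApos hcpos
  have hD0 : 0 ≤ b ^ 2 + A * c0 := by positivity
  obtain ⟨D, hDdef⟩ : ∃ D : ℝ, D = Real.sqrt (b ^ 2 + A * c0) := ⟨_, rfl⟩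
  have hDsq : D ^ 2 = b ^ 2 + A * c0 := by rw [hDdef]; exact Real.sq_sqrt hD0
  have hDnn : 0 ≤ D := by rw [hDdef]; exact Real.sqrt_nonneg _
  have hDb : -b < D := by
    by_contra hcon
    push Not at hcon
    have h1 : D ^ 2 ≤ (-b) ^ 2 := pow_le_pow_left₀ hDnn hcon 2
    nlinarith
  have hne : A ≠ 0 := hApos.ne'
  refine ⟨(b + D) / A, div_pos (by linarith) hApos, ?_⟩
  have key : A * ((b + D) / A) ^ 2 - 2 * b * ((b + D) / A) - c0 = 0 := by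
    field_simp
    nlinarith
  have hexp : ((b + D) / A * E0) ^ 2 - (a1 + (b + D) / A * E1) ^ 2
      - (a2 + (b + D) / A * E2) ^ 2
      = A * ((b + D) / A) ^ 2 - 2 * b * ((b + D) / A) - c0 := by
    rw [hAdef, hbdef, hcdef]
    ring
  linarith

theorem sgNull_exists {σ : Type} [Fintype σ] (e u0 u1 u2 : σ → ℝ)
    (he : Real.sqrt ((u1 ⬝ᵥ e) ^ 2 + (u2 ⬝ᵥ e) ^ 2) < u0 ⬝ᵥ e)
    (hnd : ∃ x : σ → ℝ, (u0 ⬝ᵥ x) ^ 2 < (u1 ⬝ᵥ x) ^ 2 + (u2 ⬝ᵥ x) ^ 2) :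
    ∃ n : σ → ℝ, 0 < u0 ⬝ᵥ n ∧ (u0 ⬝ᵥ n) ^ 2 = (u1 ⬝ᵥ n) ^ 2 + (u2 ⬝ᵥ n) ^ 2 := by
  obtain ⟨x1, hx1⟩ := hnd
  have hE0pos : 0 < u0 ⬝ᵥ e := lt_of_le_of_lt (Real.sqrt_nonneg _) he
  have hA : (u1 ⬝ᵥ e) ^ 2 + (u2 ⬝ᵥ e) ^ 2 < (u0 ⬝ᵥ e) ^ 2 := (Real.sqrt_lt' hE0pos).1 he
  obtain ⟨E0, hE0⟩ : ∃ E0 : ℝ, E0 = u0 ⬝ᵥ e := ⟨_, rfl⟩
  obtain ⟨E1, hE1⟩ : ∃ E1 : ℝ, E1 = u1 ⬝ᵥ e := ⟨_, rfl⟩
  obtain ⟨E2, hE2⟩ : ∃ E2 : ℝ, E2 = u2 ⬝ᵥ e := ⟨_, rfl⟩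
  obtain ⟨X0, hX0⟩ : ∃ X0 : ℝ, X0 = u0 ⬝ᵥ x1 := ⟨_, rfl⟩
  obtain ⟨X1, hX1⟩ : ∃ X1 : ℝ, X1 = u1 ⬝ᵥ x1 := ⟨_, rfl⟩
  obtain ⟨X2, hX2⟩ : ∃ X2 : ℝ, X2 = u2 ⬝ᵥ x1 := ⟨_, rfl⟩
  rw [← hE0] at hE0pos
  rw [← hE0, ← hE1, ← hE2] at hA
  rw [← hX0, ← hX1, ← hX2] at hx1
  have hE0ne : E0 ≠ 0 := hE0pos.ne'
  obtain ⟨c, hc⟩ : ∃ c : ℝ, c = X0 / E0 := ⟨_, rfl⟩
  have hcE : c * E0 = X0 := by rw [hc]; field_simp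
  have ha : 0 < (X1 - c * E1) ^ 2 + (X2 - c * E2) ^ 2 := by
    by_contra hcon
    push Not at hcon
    have h1 : X1 - c * E1 = 0 := by nlinarith [sq_nonneg (X1 - c * E1), sq_nonneg (X2 - c * E2)]
    have h2 : X2 - c * E2 = 0 := by nlinarith [sq_nonneg (X1 - c * E1), sq_nonneg (X2 - c * E2)]
    have h3 : X1 = c * E1 := by linarith
    have h4 : X2 = c * E2 := by linarith
    have h5 : X1 ^ 2 + X2 ^ 2 = c ^ 2 * (E1 ^ 2 + E2 ^ 2) := by rw [h3, h4]; ring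
    have h6 : c ^ 2 * (E1 ^ 2 + E2 ^ 2) ≤ c ^ 2 * E0 ^ 2 :=
      mul_le_mul_of_nonneg_left hA.le (sq_nonneg c)
    have h7 : c ^ 2 * E0 ^ 2 = X0 ^ 2 := by rw [← hcE]; ring
    linarith
  obtain ⟨s, hs, hseq⟩ := sgClosure_root E0 E1 E2 (X1 - c * E1) (X2 - c * E2) hA ha
  refine ⟨(x1 - c • e) + s • e, ?_, ?_⟩
  · rw [dotProduct_add, dotProduct_sub, dotProduct_smul, dotProduct_smul, smul_eq_mul,
      smul_eq_mul, ← hE0, ← hX0, hcE]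
    have : 0 < s * E0 := mul_pos hs hE0pos
    linarith
  · simp only [dotProduct_add, dotProduct_sub, dotProduct_smul, smul_eq_mul]
    rw [← hE0, ← hE1, ← hE2, ← hX0, ← hX1, ← hX2, hcE]
    have h0 : X0 - X0 + s * E0 = s * E0 := by ring
    rw [h0, hseq]

theorem sgClosure {σ : Type} [Fintype σ] (f : MvPolynomial σ ℝ) (e u0 u1 u2 : σ → ℝ)
    (he : Real.sqrt ((u1 ⬝ᵥ e) ^ 2 + (u2 ⬝ᵥ e) ^ 2) < u0 ⬝ᵥ e)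
    (hnd : ∃ x : σ → ℝ, (u0 ⬝ᵥ x) ^ 2 < (u1 ⬝ᵥ x) ^ 2 + (u2 ⬝ᵥ x) ^ 2)
    (hbd : ∀ x : σ → ℝ, 0 < u0 ⬝ᵥ x → (u0 ⬝ᵥ x) ^ 2 = (u1 ⬝ᵥ x) ^ 2 + (u2 ⬝ᵥ x) ^ 2 →
      eval x f ≤ 0) :
    ∀ x : σ → ℝ, 0 ≤ u0 ⬝ᵥ x → (u0 ⬝ᵥ x) ^ 2 = (u1 ⬝ᵥ x) ^ 2 + (u2 ⬝ᵥ x) ^ 2 →
      eval x f ≤ 0 := by
  intro x hx0 hxnull
  rcases hx0.lt_or_eq with hpos | hzero
  · exact hbd x hpos hxnull
  · have h0 : u0 ⬝ᵥ x = 0 := hzero.symm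
    have hsum : (u1 ⬝ᵥ x) ^ 2 + (u2 ⬝ᵥ x) ^ 2 = 0 := by
      rw [← hxnull, h0]
      ring
    have h1 : u1 ⬝ᵥ x = 0 := by nlinarith [sq_nonneg (u1 ⬝ᵥ x), sq_nonneg (u2 ⬝ᵥ x)]
    have h2 : u2 ⬝ᵥ x = 0 := by nlinarith [sq_nonneg (u1 ⬝ᵥ x), sq_nonneg (u2 ⬝ᵥ x)]
    obtain ⟨n, hn0, hnnull⟩ := sgNull_exists e u0 u1 u2 he hnd
    have hev : ∀ ε : ℝ, ε ∈ Set.Ioi (0 : ℝ) → eval (x + ε • n) f ≤ 0 := by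
      intro ε hε
      have hε' : 0 < ε := hε
      apply hbd
      · rw [dotProduct_add, dotProduct_smul, h0, zero_add, smul_eq_mul]
        exact mul_pos hε' hn0
      · simp only [dotProduct_add, dotProduct_smul, h0, h1, h2, zero_add, smul_eq_mul]
        rw [mul_pow, mul_pow, mul_pow, hnnull]
        ring
    have hcont : Continuous (fun ε : ℝ => eval (x + ε • n) f) := by
      have hc1 : Continuous (fun y : σ → ℝ => eval y f) := MvPolynomial.continuous_eval f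
      have hc2 : Continuous (fun ε : ℝ => x + ε • n) := by fun_prop
      exact hc1.comp hc2
    have htend : Filter.Tendsto (fun ε : ℝ => eval (x + ε • n) f)
        (nhdsWithin 0 (Set.Ioi 0)) (nhds (eval x f)) := by
      have h3 : Filter.Tendsto (fun ε : ℝ => eval (x + ε • n) f) (nhds 0)
          (nhds (eval (x + (0 : ℝ) • n) f)) := hcont.continuousAt
      rw [zero_smul, add_zero] at h3
      exact h3.mono_left nhdsWithin_le_nhds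
    exact le_of_tendsto htend (eventually_nhdsWithin_of_forall hev)

end Vale.Agent.Lib.P256
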