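import Vale.Agent.Lib.P256.R3Main

/-!
# Singular cubics: the Hessian matrix at a point

Shared definition for the coordinate-free treatment of hyperbolic cubics with a singular point.
-/

namespace Vale.Agent.Lib.P256

open MvPolynomial Matrix

/-- The Hessian matrix of `p` at the point `x0`: the matrix of second derivatives of `p`
evaluated at `x0`. -/
noncomputable def hessAt {σ : Type} (p : MvPolynomial σ ℝ) (x0 : σ → ℝ) : Matrix σ σ ℝ :=
  Matrix.of fun i j => eval x0 (pderiv i (pderiv j p))

end Vale.Agent.Lib.P256
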