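import Vale.Agent.Lib.P256.SgCore
namespace Vale.Agent.Lib.P256
open MvPolynomial Matrix

theorem sgDual3 {σ : Type} [Fintype σ] (u : Fin 3 → σ → ℝ) (hli : LinearIndependent ℝ u) :
    ∃ g : Fin 3 → σ → ℝ, ∀ k l, u k ⬝ᵥ g l = if k = l then 1 else 0 := by
  classical
  obtain ⟨G, hG⟩ : ∃ G : Matrix (Fin 3) (Fin 3) ℝ, ∀ k l, G k l = u k ⬝ᵥ u l :=
    ⟨Matrix.of (fun k l => u k ⬝ᵥ u l), fun _ _ => rfl⟩
  have hdet : G.det ≠ 0 := by
    intro h0
    obtain ⟨c, hc, hGc⟩ := Matrix.exists_mulVec_eq_zero_iff.mpr h0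
    have hv : (∑ k, c k • u k) ⬝ᵥ (∑ l, c l • u l) = 0 := by
      have h1 : (∑ k, c k • u k) ⬝ᵥ (∑ l, c l • u l) = ∑ k, c k * (G *ᵥ c) k := by
        rw [sum_dotProduct]
        refine Finset.sum_congr rfl (fun k _ => ?_)
        rw [smul_dotProduct, dotProduct_sum, smul_eq_mul]
        congr 1
        simp only [Matrix.mulVec, dotProduct]
        refine Finset.sum_congr rfl (fun l _ => ?_)
        rw [hG k l]
        simp only [dotProduct, Pi.smul_apply, smul_eq_mul, Finset.sum_mul]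
        refine Finset.sum_congr rfl (fun i _ => ?_)
        ring
      rw [h1, hGc]
      simp
    have hv0 : ∑ k, c k • u k = 0 := dotProduct_self_eq_zero.mp hv
    have hc0 := Fintype.linearIndependent_iff.mp hli c hv0
    exact hc (funext hc0)
  refine ⟨fun l => ∑ m, G⁻¹ m l • u m, fun k l => ?_⟩
  rw [dotProduct_sum]
  have h2 : ∑ m, u k ⬝ᵥ (G⁻¹ m l • u m) = (G * G⁻¹) k l := by
    rw [Matrix.mul_apply]
    refine Finset.sum_congr rfl (fun m _ => ?_)
    rw [dotProduct_smul, smul_eq_mul, mul_comm, hG k m]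
  rw [h2, Matrix.mul_nonsing_inv _ (isUnit_iff_ne_zero.mpr hdet), Matrix.one_apply]

end Vale.Agent.Lib.P256
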