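import Vale.Agent.Lib.P256.SgPre
namespace Vale.Agent.Lib.P256
open MvPolynomial Matrix

/-- The linear forms of the embedding: the variable `z i` corrected by the two distinguished
variables. -/
noncomputable def sgEmbed2_L {σ : Type} [Fintype σ] (a b ga gb : σ → ℝ) (i : σ) :
    MvPolynomial (Fin 2 ⊕ σ) ℝ :=
  X (Sum.inr i) + C (ga i) * (X (Sum.inl 0) - ∑ j, C (a j) * X (Sum.inr j))
    + C (gb i) * (X (Sum.inl 1) - ∑ j, C (b j) * X (Sum.inr j))

theorem sgEmbed2_L_hom {σ : Type} [Fintype σ] (a b ga gb : σ → ℝ) (i : σ) :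
    (sgEmbed2_L a b ga gb i).IsHomogeneous 1 := by
  have h1 : ∀ c : σ → ℝ,
      (∑ j, C (c j) * X (Sum.inr j) : MvPolynomial (Fin 2 ⊕ σ) ℝ).IsHomogeneous 1 :=
    fun c => IsHomogeneous.sum _ _ _ (fun j _ => isHomogeneous_C_mul_X _ _)
  exact ((isHomogeneous_X ℝ _).add (((isHomogeneous_X ℝ _).sub (h1 a)).C_mul _)).add
    (((isHomogeneous_X ℝ _).sub (h1 b)).C_mul _)

theorem sgEmbed2_aeval_L {σ : Type} [Fintype σ] (a b ga gb : σ → ℝ) (i : σ)
    {S : Type} [CommRing S] [Algebra ℝ S] (w : Fin 2 ⊕ σ → S) :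
    aeval w (sgEmbed2_L a b ga gb i) = w (Sum.inr i)
      + algebraMap ℝ S (ga i) * (w (Sum.inl 0) - ∑ j, algebraMap ℝ S (a j) * w (Sum.inr j))
      + algebraMap ℝ S (gb i) * (w (Sum.inl 1) - ∑ j, algebraMap ℝ S (b j) * w (Sum.inr j)) := by
  simp only [sgEmbed2_L, map_add, map_sub, map_mul, map_sum, aeval_X, aeval_C]

/-- The cubic in the variables `(A, B, z)` of the rank-two normal form. -/
noncomputable def sgEmbed2_r {σ : Type} [Fintype σ] (f : MvPolynomial σ ℝ)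
    (a b ga gb : σ → ℝ) : MvPolynomial (Fin 2 ⊕ σ) ℝ :=
  -(bind₁ (sgEmbed2_L a b ga gb) f)

theorem sgEmbed2_r_hom {σ : Type} [Fintype σ] (f : MvPolynomial σ ℝ) (hf : f.IsHomogeneous 3)
    (a b ga gb : σ → ℝ) : (sgEmbed2_r f a b ga gb).IsHomogeneous 3 := by
  have h : (bind₁ (sgEmbed2_L a b ga gb) f).IsHomogeneous (1 * 3) :=
    hf.aeval _ (sgEmbed2_L_hom a b ga gb)
  exact h.neg

theorem sgEmbed2_aeval_r {σ : Type} [Fintype σ] (f : MvPolynomial σ ℝ) (a b ga gb : σ → ℝ)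
    {S : Type} [CommRing S] [Algebra ℝ S] (w : Fin 2 ⊕ σ → S) :
    aeval w (sgEmbed2_r f a b ga gb)
      = -(aeval (fun i => aeval w (sgEmbed2_L a b ga gb i)) f) := by
  unfold sgEmbed2_r
  rw [map_neg, aeval_bind₁]

theorem sgEmbed2_aeval_P {σ : Type} [Fintype σ] (f : MvPolynomial σ ℝ) (a b ga gb : σ → ℝ)
    {S : Type} [CommRing S] [Algebra ℝ S] (x : Option (Fin 2 ⊕ σ) → S) :
    aeval x (X none * X (some (Sum.inl 0)) * X (some (Sum.inl 1))
        - rename some (sgEmbed2_r f a b ga gb) : MvPolynomial (Option (Fin 2 ⊕ σ)) ℝ)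
      = x none * x (some (Sum.inl 0)) * x (some (Sum.inl 1))
        + aeval (fun i => aeval (x ∘ some) (sgEmbed2_L a b ga gb i)) f := by
  rw [map_sub, map_mul, map_mul, aeval_X, aeval_X, aeval_X, aeval_rename, sgEmbed2_aeval_r,
    sub_neg_eq_add]

/-- The functional `x ↦ a ⬝ᵥ x`. -/
noncomputable def sgEmbed2_dot {σ : Type} [Fintype σ] (a : σ → ℝ) : (σ → ℝ) →ₗ[ℝ] ℝ where
  toFun x := a ⬝ᵥ x
  map_add' x y := dotProduct_add a x y
  map_smul' c x := by simp [dotProduct_smul]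

/-- The linear embedding `x ↦ (0; a x, b x, x)`. -/
noncomputable def sgEmbed2_lam {σ : Type} [Fintype σ] (a b : σ → ℝ) :
    (σ → ℝ) →ₗ[ℝ] (Option (Fin 2 ⊕ σ) → ℝ) :=
  LinearMap.pi (fun o => Option.elim o 0
    (Sum.elim ![sgEmbed2_dot a, sgEmbed2_dot b] (fun i => LinearMap.proj i)))

theorem sgEmbed2_lam_none {σ : Type} [Fintype σ] (a b x : σ → ℝ) :
    sgEmbed2_lam a b x none = 0 := rfl

theorem sgEmbed2_lam_zero {σ : Type} [Fintype σ] (a b x : σ → ℝ) :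
    sgEmbed2_lam a b x (some (Sum.inl 0)) = a ⬝ᵥ x := rfl

theorem sgEmbed2_lam_one {σ : Type} [Fintype σ] (a b x : σ → ℝ) :
    sgEmbed2_lam a b x (some (Sum.inl 1)) = b ⬝ᵥ x := rfl

theorem sgEmbed2_lam_inr {σ : Type} [Fintype σ] (a b x : σ → ℝ) (i : σ) :
    sgEmbed2_lam a b x (some (Sum.inr i)) = x i := rfl

theorem sgEmbed2_corr {σ : Type} [Fintype σ] (a e x : σ → ℝ)
    {S : Type} [CommRing S] [Algebra ℝ S] (t : S) :
    t * algebraMap ℝ S (a ⬝ᵥ e) - algebraMap ℝ S (a ⬝ᵥ x)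
      - ∑ j, algebraMap ℝ S (a j) * (t * algebraMap ℝ S (e j) - algebraMap ℝ S (x j)) = 0 := by
  have h1 : ∑ j, algebraMap ℝ S (a j) * (t * algebraMap ℝ S (e j) - algebraMap ℝ S (x j))
      = t * ∑ j, algebraMap ℝ S (a j) * algebraMap ℝ S (e j)
        - ∑ j, algebraMap ℝ S (a j) * algebraMap ℝ S (x j) := by
    rw [Finset.mul_sum, ← Finset.sum_sub_distrib]
    exact Finset.sum_congr rfl (fun j _ => by ring)
  rw [h1, dotProduct, dotProduct, map_sum, map_sum]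
  simp only [map_mul]
  ring

theorem sgEmbed2_aeval_P_lam {σ : Type} [Fintype σ] (f : MvPolynomial σ ℝ)
    (a b ga gb e x : σ → ℝ) {S : Type} [CommRing S] [Algebra ℝ S] (t : S) :
    aeval (fun o => t * algebraMap ℝ S (sgEmbed2_lam a b e o)
        - algebraMap ℝ S (sgEmbed2_lam a b x o))
      (X none * X (some (Sum.inl 0)) * X (some (Sum.inl 1))
        - rename some (sgEmbed2_r f a b ga gb) : MvPolynomial (Option (Fin 2 ⊕ σ)) ℝ)
    = aeval (fun i => t * algebraMap ℝ S (e i) - algebraMap ℝ S (x i)) f := by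
  obtain ⟨p, hp⟩ : ∃ p : Option (Fin 2 ⊕ σ) → S, p = fun o =>
      t * algebraMap ℝ S (sgEmbed2_lam a b e o) - algebraMap ℝ S (sgEmbed2_lam a b x o) :=
    ⟨_, rfl⟩
  rw [← hp, sgEmbed2_aeval_P]
  have hp_none : p none = 0 := by
    rw [hp]
    simp only [sgEmbed2_lam_none, map_zero, mul_zero, sub_zero]
  have hp_inr : ∀ i, p (some (Sum.inr i))
      = t * algebraMap ℝ S (e i) - algebraMap ℝ S (x i) := by
    intro i
    rw [hp]
    simp only [sgEmbed2_lam_inr]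
  have hp_0 : p (some (Sum.inl 0))
      = t * algebraMap ℝ S (a ⬝ᵥ e) - algebraMap ℝ S (a ⬝ᵥ x) := by
    rw [hp]
    simp only [sgEmbed2_lam_zero]
  have hp_1 : p (some (Sum.inl 1))
      = t * algebraMap ℝ S (b ⬝ᵥ e) - algebraMap ℝ S (b ⬝ᵥ x) := by
    rw [hp]
    simp only [sgEmbed2_lam_one]
  have hfun : (fun i => aeval (p ∘ some) (sgEmbed2_L a b ga gb i))
      = fun i => t * algebraMap ℝ S (e i) - algebraMap ℝ S (x i) := by
    funext i
    rw [sgEmbed2_aeval_L]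
    simp only [Function.comp_apply]
    rw [hp_0, hp_1]
    simp only [hp_inr]
    rw [sgEmbed2_corr a e x t, sgEmbed2_corr b e x t, mul_zero, mul_zero, add_zero, add_zero]
  rw [hfun, hp_none, zero_mul, zero_mul, zero_add]

theorem sgEmbed2 {σ : Type} [Fintype σ] [DecidableEq σ] (f : MvPolynomial σ ℝ)
    (hf : f.IsHomogeneous 3) (e a b ga gb : σ → ℝ)
    (haa : a ⬝ᵥ ga = 1) (hab : a ⬝ᵥ gb = 0) (hba : b ⬝ᵥ ga = 0) (hbb : b ⬝ᵥ gb = 1)
    (hae : 0 < a ⬝ᵥ e) (hbe : 0 < b ⬝ᵥ e) (hfe : 0 < eval e f)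
    (hbd : ∀ x : σ → ℝ, 0 ≤ a ⬝ᵥ x → 0 ≤ b ⬝ᵥ x → (a ⬝ᵥ x) * (b ⬝ᵥ x) = 0 → eval x f ≤ 0) :
    IsHyperbolic f e ∧ IsSpectrahedron (hyperbolicityCone f e) := by
  have hAB : (Sum.inl 0 : Fin 2 ⊕ σ) ≠ Sum.inl 1 := by simp
  obtain ⟨r, hr_def⟩ : ∃ r, r = sgEmbed2_r f a b ga gb := ⟨_, rfl⟩
  have hr : r.IsHomogeneous 3 := by
    rw [hr_def]
    exact sgEmbed2_r_hom f hf a b ga gb
  have hea : 0 < sgEmbed2_lam a b e (some (Sum.inl 0)) := by
    rw [sgEmbed2_lam_zero]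
    exact hae
  have heb : 0 < sgEmbed2_lam a b e (some (Sum.inl 1)) := by
    rw [sgEmbed2_lam_one]
    exact hbe
  obtain ⟨h1, h2, -⟩ :=
    rank2_main (Sum.inl 0) (Sum.inl 1) hAB r hr (sgEmbed2_lam a b e) hea heb
  have hC : ∀ (x : σ → ℝ) (t : ℂ),
      aeval (fun o => t * ((sgEmbed2_lam a b e o : ℝ) : ℂ) - ((sgEmbed2_lam a b x o : ℝ) : ℂ))
        (X none * X (some (Sum.inl 0)) * X (some (Sum.inl 1)) - rename some r :
          MvPolynomial (Option (Fin 2 ⊕ σ)) ℝ)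
      = aeval (fun i => t * (e i : ℂ) - (x i : ℂ)) f := by
    intro x t
    rw [hr_def]
    exact sgEmbed2_aeval_P_lam f a b ga gb e x t
  have hR : ∀ (x : σ → ℝ) (t : ℝ),
      eval (fun o => t * sgEmbed2_lam a b e o - sgEmbed2_lam a b x o)
        (X none * X (some (Sum.inl 0)) * X (some (Sum.inl 1)) - rename some r :
          MvPolynomial (Option (Fin 2 ⊕ σ)) ℝ)
      = eval (fun i => t * e i - x i) f := by
    intro x t
    rw [hr_def]
    exact sgEmbed2_aeval_P_lam f a b ga gb e x t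
  have hPe : eval (sgEmbed2_lam a b e)
      (X none * X (some (Sum.inl 0)) * X (some (Sum.inl 1)) - rename some r :
        MvPolynomial (Option (Fin 2 ⊕ σ)) ℝ) = eval e f := by
    have h := hR 0 1
    have e1 : (fun o => (1 : ℝ) * sgEmbed2_lam a b e o - sgEmbed2_lam a b 0 o)
        = sgEmbed2_lam a b e := by
      funext o
      rw [map_zero, Pi.zero_apply, one_mul, sub_zero]
    have e2 : (fun i => (1 : ℝ) * e i - (0 : σ → ℝ) i) = e := by
      funext i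
      rw [Pi.zero_apply, one_mul, sub_zero]
    rw [e1, e2] at h
    exact h
  have hw : ∀ w : Fin 2 ⊕ σ → ℝ, 0 ≤ w (Sum.inl 0) → 0 ≤ w (Sum.inl 1) →
      w (Sum.inl 0) * w (Sum.inl 1) = 0 → 0 ≤ eval w r := by
    intro w hw0 hw1 hw01
    obtain ⟨z, hz⟩ : ∃ z : σ → ℝ, z = fun i => w (Sum.inr i) := ⟨_, rfl⟩
    obtain ⟨x', hx'⟩ : ∃ x' : σ → ℝ, x' = z + (w (Sum.inl 0) - a ⬝ᵥ z) • ga
        + (w (Sum.inl 1) - b ⬝ᵥ z) • gb := ⟨_, rfl⟩
    have hax : a ⬝ᵥ x' = w (Sum.inl 0) := by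
      rw [hx', dotProduct_add, dotProduct_add, dotProduct_smul, dotProduct_smul, haa, hab,
        smul_eq_mul, smul_eq_mul]
      ring
    have hbx : b ⬝ᵥ x' = w (Sum.inl 1) := by
      rw [hx', dotProduct_add, dotProduct_add, dotProduct_smul, dotProduct_smul, hba, hbb,
        smul_eq_mul, smul_eq_mul]
      ring
    have hfun : (fun i => aeval w (sgEmbed2_L a b ga gb i)) = x' := by
      funext i
      rw [sgEmbed2_aeval_L, hx', hz]
      simp only [Algebra.algebraMap_self, RingHom.id_apply, Pi.add_apply, Pi.smul_apply,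
        smul_eq_mul, dotProduct]
      ring
    have hev : eval w r = -(eval x' f) := by
      have h := sgEmbed2_aeval_r f a b ga gb w
      rw [hfun] at h
      rw [hr_def]
      exact h
    rw [hev]
    have h3 := hbd x' (by rw [hax]; exact hw0) (by rw [hbx]; exact hw1)
      (by rw [hax, hbx]; exact hw01)
    linarith
  have hP : IsHyperbolic (X none * X (some (Sum.inl 0)) * X (some (Sum.inl 1)) - rename some r :
      MvPolynomial (Option (Fin 2 ⊕ σ)) ℝ) (sgEmbed2_lam a b e) :=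
    h1.mpr ⟨by rw [hPe]; exact hfe, hw⟩
  refine ⟨⟨⟨3, hf⟩, hfe, fun x t ht => hP.2.2 (sgEmbed2_lam a b x) t (by rw [hC]; exact ht)⟩, ?_⟩
  have hcone : hyperbolicityCone f e = {x | sgEmbed2_lam a b x ∈
      hyperbolicityCone (X none * X (some (Sum.inl 0)) * X (some (Sum.inl 1)) - rename some r :
        MvPolynomial (Option (Fin 2 ⊕ σ)) ℝ) (sgEmbed2_lam a b e)} := by
    ext x
    constructor
    · intro hx t ht
      exact hx t (by rw [← hR]; exact ht)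
    · intro hx t ht
      exact hx t (by rw [hR]; exact ht)
  rw [hcone]
  exact isSpectrahedron_preimage (h2 hP).1 (sgEmbed2_lam a b)

end Vale.Agent.Lib.P256
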