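import Vale.Agent.Lib.P256.SgPre

namespace Vale.Agent.Lib.P256

open MvPolynomial Matrix

/-- The linear forms of the embedding: the variables `z` corrected so that the three forms
`u k` take the values `y k`. -/
noncomputable def sgEmbed3_L {σ : Type} [Fintype σ] (u g : Fin 3 → σ → ℝ) (i : σ) :
    MvPolynomial (Fin 3 ⊕ σ) ℝ :=
  X (Sum.inr i) + ∑ k : Fin 3, C (g k i) * (X (Sum.inl k) - ∑ j, C (u k j) * X (Sum.inr j))

theorem sgEmbed3_L_hom {σ : Type} [Fintype σ] (u g : Fin 3 → σ → ℝ) (i : σ) :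
    (sgEmbed3_L u g i).IsHomogeneous 1 := by
  unfold sgEmbed3_L
  refine (isHomogeneous_X ℝ _).add (IsHomogeneous.sum _ _ _ (fun k _ => ?_))
  refine IsHomogeneous.C_mul ?_ _
  refine (isHomogeneous_X ℝ _).sub (IsHomogeneous.sum _ _ _ (fun j _ => ?_))
  exact IsHomogeneous.C_mul (isHomogeneous_X ℝ _) _

theorem sgEmbed3_L_aeval {σ : Type} [Fintype σ] (u g : Fin 3 → σ → ℝ) (i : σ)
    {R : Type} [CommRing R] [Algebra ℝ R] (w : Fin 3 ⊕ σ → R) :
    aeval w (sgEmbed3_L u g i) = w (Sum.inr i) + ∑ k : Fin 3, algebraMap ℝ R (g k i) *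
      (w (Sum.inl k) - ∑ j, algebraMap ℝ R (u k j) * w (Sum.inr j)) := by
  simp [sgEmbed3_L, map_sum]

/-- Evaluation of the nodal cubic on the image of the embedding. -/
theorem sgEmbed3_key {σ : Type} [Fintype σ] (f : MvPolynomial σ ℝ) (u g : Fin 3 → σ → ℝ)
    {R : Type} [CommRing R] [Algebra ℝ R] (pt : Option (Fin 3 ⊕ σ) → R) (h0 : pt none = 0)
    (hk : ∀ k : Fin 3, pt (some (Sum.inl k)) =
      ∑ j, algebraMap ℝ R (u k j) * pt (some (Sum.inr j))) :
    aeval pt (X none * (X (some (Sum.inl 0)) ^ 2 - X (some (Sum.inl 1)) ^ 2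
          - X (some (Sum.inl 2)) ^ 2) - rename some (-(bind₁ (sgEmbed3_L u g) f)) :
          MvPolynomial (Option (Fin 3 ⊕ σ)) ℝ) = aeval (fun i => pt (some (Sum.inr i))) f := by
  have hfun : (fun i => aeval (pt ∘ some) (sgEmbed3_L u g i))
      = fun i => pt (some (Sum.inr i)) := by
    funext i
    rw [sgEmbed3_L_aeval]
    simp only [Function.comp_apply]
    rw [Finset.sum_eq_zero, add_zero]
    intro k _
    rw [hk k, sub_self, mul_zero]
  rw [map_sub, map_mul, aeval_X, h0, zero_mul, zero_sub, aeval_rename, map_neg, neg_neg,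
    aeval_bind₁, hfun]

theorem sgEmbed3_eval_r {σ : Type} [Fintype σ] (f : MvPolynomial σ ℝ) (u g : Fin 3 → σ → ℝ)
    (w : Fin 3 ⊕ σ → ℝ) :
    eval w (-(bind₁ (sgEmbed3_L u g) f)) = -(eval (fun i => w (Sum.inr i) + ∑ k : Fin 3, g k i *
      (w (Sum.inl k) - ∑ j, u k j * w (Sum.inr j))) f) := by
  have hfun : (fun i => aeval w (sgEmbed3_L u g i))
      = fun i => w (Sum.inr i) + ∑ k : Fin 3, g k i *
        (w (Sum.inl k) - ∑ j, u k j * w (Sum.inr j)) := by
    funext i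
    rw [sgEmbed3_L_aeval]
    simp
  have h := aeval_bind₁ w (sgEmbed3_L u g) f
  rw [hfun, aeval_eq_eval, aeval_eq_eval] at h
  rw [map_neg, h]

theorem sgEmbed3_mem_cone {σ : Type} (p : MvPolynomial σ ℝ) (e x : σ → ℝ) :
    x ∈ hyperbolicityCone p e ↔ ∀ t : ℝ, eval (fun i => t * e i - x i) p = 0 → 0 ≤ t :=
  Iff.rfl

theorem sgEmbed3 {σ : Type} [Fintype σ] [DecidableEq σ] (f : MvPolynomial σ ℝ)
    (hf : f.IsHomogeneous 3) (e : σ → ℝ) (u g : Fin 3 → σ → ℝ)
    (hdual : ∀ k l, u k ⬝ᵥ g l = if k = l then 1 else 0)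
    (he : Real.sqrt ((u 1 ⬝ᵥ e) ^ 2 + (u 2 ⬝ᵥ e) ^ 2) < u 0 ⬝ᵥ e)
    (hfe : 0 < eval e f)
    (hbd : ∀ x : σ → ℝ, 0 ≤ u 0 ⬝ᵥ x → (u 0 ⬝ᵥ x) ^ 2 = (u 1 ⬝ᵥ x) ^ 2 + (u 2 ⬝ᵥ x) ^ 2 →
      eval x f ≤ 0) :
    IsHyperbolic f e ∧ IsSpectrahedron (hyperbolicityCone f e) := by
  classical
  have hr : (-(bind₁ (sgEmbed3_L u g) f)).IsHomogeneous 3 := by
    have h := hf.aeval (sgEmbed3_L u g) (sgEmbed3_L_hom u g)
    simpa using h.neg
  let Λ : (σ → ℝ) →ₗ[ℝ] (Option (Fin 3 ⊕ σ) → ℝ) :=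
    { toFun := fun x o => Option.elim o 0 (Sum.elim (fun k => u k ⬝ᵥ x) x)
      map_add' := by
        intro x y
        funext o
        rcases o with _ | k | i
        · simp
        · simp [dotProduct_add]
        · simp
      map_smul' := by
        intro c x
        funext o
        rcases o with _ | k | i
        · simp
        · simp [dotProduct_smul]
        · simp }
  have hΛn : ∀ x, Λ x none = 0 := fun x => rfl
  have hΛl : ∀ x k, Λ x (some (Sum.inl k)) = u k ⬝ᵥ x := fun x k => rfl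
  have hΛr : ∀ x i, Λ x (some (Sum.inr i)) = x i := fun x i => rfl
  have he1 : Real.sqrt (Λ e (some (Sum.inl 1)) ^ 2 + Λ e (some (Sum.inl 2)) ^ 2)
      < Λ e (some (Sum.inl 0)) := he
  obtain ⟨hiff, hspec, -⟩ := rank3_main (-(bind₁ (sgEmbed3_L u g) f)) hr (Λ e) he1
  have keyC : ∀ (x : σ → ℝ) (t : ℂ),
      aeval (fun o => t * (Λ e o : ℂ) - (Λ x o : ℂ))
        (X none * (X (some (Sum.inl 0)) ^ 2 - X (some (Sum.inl 1)) ^ 2
          - X (some (Sum.inl 2)) ^ 2) - rename some (-(bind₁ (sgEmbed3_L u g) f)) :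
          MvPolynomial (Option (Fin 3 ⊕ σ)) ℝ)
        = aeval (fun i => t * (e i : ℂ) - (x i : ℂ)) f := by
    intro x t
    refine sgEmbed3_key f u g (fun o => t * (Λ e o : ℂ) - (Λ x o : ℂ)) ?_ ?_
    · simp [hΛn]
    · intro k
      simp only [hΛl, hΛr, dotProduct]
      push_cast
      rw [Finset.mul_sum, ← Finset.sum_sub_distrib]
      refine Finset.sum_congr rfl (fun j _ => ?_)
      simp only [Complex.coe_algebraMap]
      ring
  have keyR : ∀ (x : σ → ℝ) (t : ℝ),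
      eval (fun o => t * Λ e o - Λ x o)
        (X none * (X (some (Sum.inl 0)) ^ 2 - X (some (Sum.inl 1)) ^ 2
          - X (some (Sum.inl 2)) ^ 2) - rename some (-(bind₁ (sgEmbed3_L u g) f)) :
          MvPolynomial (Option (Fin 3 ⊕ σ)) ℝ)
        = eval (fun i => t * e i - x i) f := by
    intro x t
    have h := sgEmbed3_key f u g (fun o => t * Λ e o - Λ x o) (by simp [hΛn]) (by
      intro k
      simp only [hΛl, hΛr, dotProduct]
      rw [Finset.mul_sum, ← Finset.sum_sub_distrib]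
      refine Finset.sum_congr rfl (fun j _ => ?_)
      simp only [Algebra.algebraMap_self, RingHom.id_apply]
      ring)
    rw [aeval_eq_eval, aeval_eq_eval] at h
    exact h
  have hPe : 0 < eval (Λ e)
        (X none * (X (some (Sum.inl 0)) ^ 2 - X (some (Sum.inl 1)) ^ 2
          - X (some (Sum.inl 2)) ^ 2) - rename some (-(bind₁ (sgEmbed3_L u g) f)) :
          MvPolynomial (Option (Fin 3 ⊕ σ)) ℝ) := by
    have h := keyR 0 1
    simp only [map_zero, Pi.zero_apply, sub_zero, one_mul] at h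
    rw [h]
    exact hfe
  have hnull : ∀ w : Fin 3 ⊕ σ → ℝ, 0 ≤ w (Sum.inl 0) →
      w (Sum.inl 0) ^ 2 = w (Sum.inl 1) ^ 2 + w (Sum.inl 2) ^ 2 →
      0 ≤ eval w (-(bind₁ (sgEmbed3_L u g) f)) := by
    intro w h0 hq
    rw [sgEmbed3_eval_r]
    obtain ⟨D, hD⟩ : ∃ D : Fin 3 → ℝ, ∀ k, D k = w (Sum.inl k) - ∑ j, u k j * w (Sum.inr j) :=
      ⟨_, fun k => rfl⟩
    simp only [← hD]
    have hx : ∀ l : Fin 3, u l ⬝ᵥ (fun i => w (Sum.inr i) + ∑ k : Fin 3, g k i * D k)
        = w (Sum.inl l) := by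
      intro l
      simp only [dotProduct, mul_add, Finset.sum_add_distrib, Finset.mul_sum]
      rw [Finset.sum_comm]
      have h1 : ∀ k : Fin 3, ∑ i, u l i * (g k i * D k) = (if l = k then 1 else 0) * D k := by
        intro k
        rw [← hdual l k]
        simp only [dotProduct, Finset.sum_mul]
        refine Finset.sum_congr rfl (fun i _ => ?_)
        ring
      simp only [h1]
      rw [Finset.sum_eq_single l]
      · rw [hD l]
        simp
      · intro k _ hkl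
        rw [if_neg (fun h => hkl h.symm), zero_mul]
      · intro h
        exact absurd (Finset.mem_univ l) h
    have h2 := hbd (fun i => w (Sum.inr i) + ∑ k : Fin 3, g k i * D k)
      (by rw [hx]; exact h0) (by rw [hx, hx, hx]; exact hq)
    linarith
  have hyp := hiff.mpr ⟨hPe, hnull⟩
  have hS := (hspec hyp).1
  refine ⟨⟨⟨3, hf⟩, hfe, fun x t ht => ?_⟩, ?_⟩
  · refine hyp.2.2 (Λ x) t ?_
    rw [keyC]
    exact ht
  · have hcone : hyperbolicityCone f e = {x | Λ x ∈ hyperbolicityCone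
        (X none * (X (some (Sum.inl 0)) ^ 2 - X (some (Sum.inl 1)) ^ 2
          - X (some (Sum.inl 2)) ^ 2) - rename some (-(bind₁ (sgEmbed3_L u g) f)) :
          MvPolynomial (Option (Fin 3 ⊕ σ)) ℝ) (Λ e)} := by
      ext x
      show x ∈ hyperbolicityCone f e ↔ Λ x ∈ hyperbolicityCone
        (X none * (X (some (Sum.inl 0)) ^ 2 - X (some (Sum.inl 1)) ^ 2
          - X (some (Sum.inl 2)) ^ 2) - rename some (-(bind₁ (sgEmbed3_L u g) f)) :
          MvPolynomial (Option (Fin 3 ⊕ σ)) ℝ) (Λ e)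
      rw [sgEmbed3_mem_cone, sgEmbed3_mem_cone]
      constructor
      · intro h t ht
        refine h t ?_
        rw [← keyR]
        exact ht
      · intro h t ht
        refine h t ?_
        rw [keyR]
        exact ht
    rw [hcone]
    exact isSpectrahedron_preimage hS Λ

end Vale.Agent.Lib.P256
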