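import Vale.Agent.Lib.P256.SgCore

/-!
# A cubic form vanishing on a hyperplane is divisible by the linear form
-/

namespace Vale.Agent.Lib.P256

open MvPolynomial Matrix

theorem sgFactor_linForm_hom {σ : Type} [Fintype σ] (u : σ → ℝ) :
    (linForm u).IsHomogeneous 1 := by
  unfold linForm
  apply IsHomogeneous.sum
  intro i _
  exact (isHomogeneous_X ℝ i).C_mul (u i)

theorem sgFactor_linForm_eval {σ : Type} [Fintype σ] (u x : σ → ℝ) :
    eval x (linForm u) = u ⬝ᵥ x := by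
  simp [linForm, dotProduct]

theorem sgFactor_hom_congr {σ : Type} {q : MvPolynomial σ ℝ} {m n : ℕ}
    (h : q.IsHomogeneous m) (hmn : m = n) : q.IsHomogeneous n := hmn ▸ h

theorem sgFactor_sum3_hom {σ : Type} [Fintype σ] (F : σ → σ → σ → MvPolynomial σ ℝ) (n : ℕ)
    (h : ∀ i j l, (F i j l).IsHomogeneous n) :
    (∑ i, ∑ j, ∑ l, F i j l).IsHomogeneous n := by
  apply IsHomogeneous.sum
  intro i _
  apply IsHomogeneous.sum
  intro j _
  apply IsHomogeneous.sum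
  intro l _
  exact h i j l

theorem sgFactor {σ : Type} [Fintype σ] (p : MvPolynomial σ ℝ) (hp : p.IsHomogeneous 3)
    (u e : σ → ℝ) (hue : u ⬝ᵥ e ≠ 0) (hvan : ∀ x : σ → ℝ, u ⬝ᵥ x = 0 → eval x p = 0) :
    ∃ g : MvPolynomial σ ℝ, g.IsHomogeneous 2 ∧ p = linForm u * g := by
  obtain ⟨T, hT⟩ := exists_cubic_tensor p hp
  obtain ⟨c, hc⟩ : ∃ c : ℝ, c = (u ⬝ᵥ e)⁻¹ := ⟨_, rfl⟩
  obtain ⟨A, hA⟩ : ∃ A : MvPolynomial σ ℝ, A = C c * linForm u := ⟨_, rfl⟩
  have hAhom : A.IsHomogeneous 1 := by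
    rw [hA]
    exact (sgFactor_linForm_hom u).C_mul c
  have hAeval : ∀ x : σ → ℝ, eval x A = c * (u ⬝ᵥ x) := by
    intro x
    rw [hA, map_mul, eval_C, sgFactor_linForm_eval]
  obtain ⟨π, hπX, hπhom, hπeval⟩ : ∃ π : σ → MvPolynomial σ ℝ,
      (∀ i, (X i : MvPolynomial σ ℝ) = π i + C (e i) * A) ∧ (∀ i, (π i).IsHomogeneous 1) ∧
      (∀ (x : σ → ℝ) (i : σ), eval x (π i) = x i - e i * (c * (u ⬝ᵥ x))) := by
    refine ⟨fun i => X i - C (e i) * A, fun i => by ring, fun i => ?_, fun x i => ?_⟩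
    · exact (isHomogeneous_X ℝ i).sub (hAhom.C_mul (e i))
    · simp only [map_sub, map_mul, eval_X, eval_C, hAeval]
  obtain ⟨P0, hP0def⟩ : ∃ P0 : MvPolynomial σ ℝ,
      P0 = ∑ i, ∑ j, ∑ l, C (T i j l) * π i * π j * π l := ⟨_, rfl⟩
  obtain ⟨G1, hG1⟩ : ∃ G1 : MvPolynomial σ ℝ,
      G1 = ∑ i, ∑ j, ∑ l, C (T i j l) *
        (C (e i) * π j * π l + π i * C (e j) * π l + π i * π j * C (e l)) := ⟨_, rfl⟩
  obtain ⟨G2, hG2⟩ : ∃ G2 : MvPolynomial σ ℝ,
      G2 = ∑ i, ∑ j, ∑ l, C (T i j l) *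
        (C (e i) * C (e j) * π l + C (e i) * π j * C (e l) + π i * C (e j) * C (e l)) :=
    ⟨_, rfl⟩
  obtain ⟨G3, hG3⟩ : ∃ G3 : MvPolynomial σ ℝ,
      G3 = ∑ i, ∑ j, ∑ l, C (T i j l) * (C (e i) * C (e j) * C (e l)) := ⟨_, rfl⟩
  have hexp : p = P0 + A * (G1 + A * G2 + A ^ 2 * G3) := by
    rw [hT, hP0def, hG1, hG2, hG3]
    simp only [Finset.mul_sum, ← Finset.sum_add_distrib]
    refine Finset.sum_congr rfl fun i _ => Finset.sum_congr rfl fun j _ =>
      Finset.sum_congr rfl fun l _ => ?_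
    rw [hπX i, hπX j, hπX l]
    ring
  have hP0 : P0 = 0 := by
    apply MvPolynomial.funext
    intro x
    obtain ⟨y, hy⟩ : ∃ y : σ → ℝ, ∀ i, y i = x i - e i * (c * (u ⬝ᵥ x)) := ⟨_, fun _ => rfl⟩
    have huy : u ⬝ᵥ y = 0 := by
      have h1 : u ⬝ᵥ y = u ⬝ᵥ x - (u ⬝ᵥ e) * (c * (u ⬝ᵥ x)) := by
        obtain ⟨s, hs⟩ : ∃ s : ℝ, s = u ⬝ᵥ x := ⟨_, rfl⟩
        have hy2 : y = x - (c * s) • e := by
          funext i
          rw [hy, ← hs]
          simp [mul_comm]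
        rw [hy2, dotProduct_sub, dotProduct_smul, smul_eq_mul, ← hs]
        ring
      rw [h1, hc]
      field_simp
      ring
    have h1 := hvan y huy
    rw [hT] at h1
    simp only [map_sum, map_mul, eval_C, eval_X, hy] at h1
    rw [hP0def]
    simp only [map_sum, map_mul, eval_C, hπeval, map_zero]
    exact h1
  have hG1hom : G1.IsHomogeneous 2 := by
    rw [hG1]
    apply sgFactor_sum3_hom
    intro i j l
    apply IsHomogeneous.C_mul
    refine IsHomogeneous.add (IsHomogeneous.add ?_ ?_) ?_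
    · exact sgFactor_hom_congr (((isHomogeneous_C σ (e i)).mul (hπhom j)).mul (hπhom l)) rfl
    · exact sgFactor_hom_congr (((hπhom i).mul (isHomogeneous_C σ (e j))).mul (hπhom l)) rfl
    · exact sgFactor_hom_congr (((hπhom i).mul (hπhom j)).mul (isHomogeneous_C σ (e l))) rfl
  have hG2hom : G2.IsHomogeneous 1 := by
    rw [hG2]
    apply sgFactor_sum3_hom
    intro i j l
    apply IsHomogeneous.C_mul
    refine IsHomogeneous.add (IsHomogeneous.add ?_ ?_) ?_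
    · exact sgFactor_hom_congr
        (((isHomogeneous_C σ (e i)).mul (isHomogeneous_C σ (e j))).mul (hπhom l)) rfl
    · exact sgFactor_hom_congr
        (((isHomogeneous_C σ (e i)).mul (hπhom j)).mul (isHomogeneous_C σ (e l))) rfl
    · exact sgFactor_hom_congr
        (((hπhom i).mul (isHomogeneous_C σ (e j))).mul (isHomogeneous_C σ (e l))) rfl
  have hG3hom : G3.IsHomogeneous 0 := by
    rw [hG3]
    apply sgFactor_sum3_hom
    intro i j l
    apply IsHomogeneous.C_mul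
    exact sgFactor_hom_congr
      (((isHomogeneous_C σ (e i)).mul (isHomogeneous_C σ (e j))).mul (isHomogeneous_C σ (e l))) rfl
  refine ⟨C c * (G1 + A * G2 + A ^ 2 * G3), ?_, ?_⟩
  · apply IsHomogeneous.C_mul
    refine IsHomogeneous.add (IsHomogeneous.add hG1hom ?_) ?_
    · exact sgFactor_hom_congr (hAhom.mul hG2hom) rfl
    · exact sgFactor_hom_congr ((hAhom.pow 2).mul hG3hom) rfl
  · rw [hexp, hP0, hA]
    ring

end Vale.Agent.Lib.P256
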