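import Vale.Agent.Lib.P256.SgCore
namespace Vale.Agent.Lib.P256
open MvPolynomial Matrix

/-- Partial derivatives commute. -/
theorem sgLine_pderiv_comm {σ : Type} (i j : σ) (p : MvPolynomial σ ℝ) :
    pderiv i (pderiv j p) = pderiv j (pderiv i p) := by
  classical
  induction p using MvPolynomial.induction_on with
  | C a => simp
  | add p q hp hq => simp only [map_add, hp, hq]
  | mul_X p n hp =>
    have hX : ∀ a b : σ, pderiv a (pderiv b (X n : MvPolynomial σ ℝ)) = 0 := by
      intro a b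
      by_cases h : n = b
      · subst h
        rw [pderiv_X_self]
        exact pderiv_one
      · rw [pderiv_X_of_ne h, map_zero]
    simp only [pderiv_mul, map_add, hp, hX, mul_zero, add_zero]
    ring

/-- A form of degree `d` is multiplied by `(-1) ^ d` under `x ↦ -x`. -/
theorem sgLine_eval_neg {σ : Type} (φ : MvPolynomial σ ℝ) (d : ℕ) (hφ : φ.IsHomogeneous d)
    (x : σ → ℝ) : eval (-x) φ = (-1) ^ d * eval x φ := by
  rw [eval_eq, eval_eq, Finset.mul_sum]
  refine Finset.sum_congr rfl (fun m hm => ?_)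
  have hdeg : m.degree = d := by
    by_contra hne
    exact (mem_support_iff.mp hm) (hφ.coeff_eq_zero hne)
  have h1 : ∏ i ∈ m.support, (-x) i ^ m i = (-1) ^ d * ∏ i ∈ m.support, x i ^ m i := by
    have h2 : ∀ i ∈ m.support, (-x) i ^ m i = (-1) ^ m i * x i ^ m i := by
      intro i _
      rw [Pi.neg_apply, neg_pow]
    rw [Finset.prod_congr rfl h2, Finset.prod_mul_distrib, Finset.prod_pow_eq_pow_sum,
      ← Finsupp.degree_apply, hdeg]
  rw [h1]
  ring

theorem hessAt_symm {σ : Type} (p : MvPolynomial σ ℝ) (x0 : σ → ℝ) : (hessAt p x0).IsSymm := by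
  ext i j
  simp only [hessAt, Matrix.transpose_apply, Matrix.of_apply]
  rw [sgLine_pderiv_comm]

theorem hessAt_neg {σ : Type} [Fintype σ] (p : MvPolynomial σ ℝ) (hp : p.IsHomogeneous 3)
    (x0 : σ → ℝ) : hessAt p (-x0) = -hessAt p x0 := by
  ext i j
  simp only [hessAt, Matrix.neg_apply, Matrix.of_apply]
  have h1 : (pderiv i (pderiv j p)).IsHomogeneous 1 := (hp.pderiv).pderiv
  rw [sgLine_eval_neg _ 1 h1 x0]
  ring

theorem sgSing_neg {σ : Type} [Fintype σ] (p : MvPolynomial σ ℝ) (hp : p.IsHomogeneous 3)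
    (x0 : σ → ℝ) (hsing : ∀ i, eval x0 (pderiv i p) = 0) :
    ∀ i, eval (-x0) (pderiv i p) = 0 := by
  intro i
  have h1 : (pderiv i p).IsHomogeneous 2 := hp.pderiv
  rw [sgLine_eval_neg _ 2 h1 x0, hsing i, mul_zero]

/-- The directional derivative of `p` at `e` in the direction `w`. -/
noncomputable def sgLine_dd {σ : Type} [Fintype σ] (e w : σ → ℝ) (p : MvPolynomial σ ℝ) : ℝ :=
  ∑ i, w i * eval e (pderiv i p)

theorem sgLine_dd_add {σ : Type} [Fintype σ] (e w : σ → ℝ) (p q : MvPolynomial σ ℝ) :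
    sgLine_dd e w (p + q) = sgLine_dd e w p + sgLine_dd e w q := by
  unfold sgLine_dd
  simp only [map_add, mul_add, Finset.sum_add_distrib]

theorem sgLine_dd_zero {σ : Type} [Fintype σ] (e w : σ → ℝ) :
    sgLine_dd e w (0 : MvPolynomial σ ℝ) = 0 := by
  unfold sgLine_dd
  simp

theorem sgLine_dd_mul {σ : Type} [Fintype σ] (e w : σ → ℝ) (p q : MvPolynomial σ ℝ) :
    sgLine_dd e w (p * q) = sgLine_dd e w p * eval e q + eval e p * sgLine_dd e w q := by
  unfold sgLine_dd
  rw [Finset.sum_mul, Finset.mul_sum, ← Finset.sum_add_distrib]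
  refine Finset.sum_congr rfl (fun i _ => ?_)
  rw [pderiv_mul, map_add, map_mul, map_mul]
  ring

theorem sgLine_dd_X {σ : Type} [Fintype σ] (e w : σ → ℝ) (i : σ) :
    sgLine_dd e w (X i : MvPolynomial σ ℝ) = w i := by
  unfold sgLine_dd
  rw [Finset.sum_eq_single i]
  · rw [pderiv_X_self, map_one, mul_one]
  · intro b _ hb
    rw [pderiv_X_of_ne (Ne.symm hb), map_zero, mul_zero]
  · intro h
    exact absurd (Finset.mem_univ i) h

theorem sgLine_dd_C {σ : Type} [Fintype σ] (e w : σ → ℝ) (c : ℝ) :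
    sgLine_dd e w (C c : MvPolynomial σ ℝ) = 0 := by
  unfold sgLine_dd
  simp

/-- The expansion along a complex line, in terms of directional derivatives. -/
def sgLine_P {σ : Type} [Fintype σ] (e w : σ → ℝ) (t : ℂ) (p : MvPolynomial σ ℝ) : Prop :=
  aeval (fun i => t * (e i : ℂ) - (w i : ℂ)) p =
    ((eval e p : ℝ) : ℂ) * t ^ 3 - ((sgLine_dd e w p : ℝ) : ℂ) * t ^ 2
      + ((sgLine_dd w e p : ℝ) : ℂ) * t - ((eval w p : ℝ) : ℂ)

theorem sgLine_P_add {σ : Type} [Fintype σ] (e w : σ → ℝ) (t : ℂ) (p q : MvPolynomial σ ℝ)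
    (hp : sgLine_P e w t p) (hq : sgLine_P e w t q) : sgLine_P e w t (p + q) := by
  unfold sgLine_P at hp hq ⊢
  rw [map_add, hp, hq, map_add, map_add, sgLine_dd_add, sgLine_dd_add]
  push_cast
  ring

theorem sgLine_P_zero {σ : Type} [Fintype σ] (e w : σ → ℝ) (t : ℂ) :
    sgLine_P e w t (0 : MvPolynomial σ ℝ) := by
  unfold sgLine_P
  rw [map_zero, map_zero, map_zero, sgLine_dd_zero, sgLine_dd_zero]
  push_cast
  ring

theorem sgLine_P_term {σ : Type} [Fintype σ] (e w : σ → ℝ) (t : ℂ) (c : ℝ) (i j l : σ) :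
    sgLine_P e w t (C c * X i * X j * X l) := by
  unfold sgLine_P
  simp only [sgLine_dd_mul, sgLine_dd_X, sgLine_dd_C, map_mul, aeval_X, aeval_C, eval_X, eval_C]
  simp only [Complex.coe_algebraMap]
  push_cast
  ring

theorem sgLine {σ : Type} [Fintype σ] (p : MvPolynomial σ ℝ) (hp : p.IsHomogeneous 3)
    (e w : σ → ℝ) (t : ℂ) :
    aeval (fun i => t * (e i : ℂ) - (w i : ℂ)) p =
      ((eval e p : ℝ) : ℂ) * t ^ 3 - ((∑ i, w i * eval e (pderiv i p) : ℝ) : ℂ) * t ^ 2
        + ((∑ i, e i * eval w (pderiv i p) : ℝ) : ℂ) * t - ((eval w p : ℝ) : ℂ) := by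
  obtain ⟨T, hT⟩ := exists_cubic_tensor p hp
  have key : sgLine_P e w t p := by
    rw [hT]
    refine Finset.sum_induction _ (sgLine_P e w t) (sgLine_P_add e w t) (sgLine_P_zero e w t)
      (fun i _ => ?_)
    refine Finset.sum_induction _ (sgLine_P e w t) (sgLine_P_add e w t) (sgLine_P_zero e w t)
      (fun j _ => ?_)
    refine Finset.sum_induction _ (sgLine_P e w t) (sgLine_P_add e w t) (sgLine_P_zero e w t)
      (fun l _ => ?_)
    exact sgLine_P_term e w t (T i j l) i j l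
  exact key

end Vale.Agent.Lib.P256
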