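import Vale.Agent.Lib.P256.SgCore
namespace Vale.Agent.Lib.P256
open MvPolynomial Matrix

private theorem sgPsd_sq {σ : Type} [Fintype σ] (c : ℝ) (hc : 0 ≤ c) (w x : σ → ℝ) :
    ((Real.sqrt c • w) ⬝ᵥ x) ^ 2 = c * (w ⬝ᵥ x) ^ 2 := by
  rw [smul_dotProduct, smul_eq_mul, mul_pow, Real.sq_sqrt hc]

private theorem sgPsd_two {σ : Type} [Fintype σ] [DecidableEq σ] (S : Finset σ) (hS : S.card ≤ 2)
    (c : σ → ℝ) (hc : ∀ i, 0 ≤ c i) (w : σ → σ → ℝ) :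
    ∃ u1 u2 : σ → ℝ, ∀ x : σ → ℝ,
      ∑ i ∈ S, c i * (w i ⬝ᵥ x) ^ 2 = (u1 ⬝ᵥ x) ^ 2 + (u2 ⬝ᵥ x) ^ 2 := by
  have h012 : S.card = 0 ∨ S.card = 1 ∨ S.card = 2 := by omega
  rcases h012 with h0 | h1 | h2
  · rw [Finset.card_eq_zero] at h0
    subst h0
    refine ⟨0, 0, fun x => ?_⟩
    simp
  · obtain ⟨a, rfl⟩ := Finset.card_eq_one.1 h1
    refine ⟨Real.sqrt (c a) • w a, 0, fun x => ?_⟩
    rw [sgPsd_sq _ (hc a)]
    simp
  · obtain ⟨a, b, hab, rfl⟩ := Finset.card_eq_two.1 h2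
    refine ⟨Real.sqrt (c a) • w a, Real.sqrt (c b) • w b, fun x => ?_⟩
    rw [sgPsd_sq _ (hc a), sgPsd_sq _ (hc b), Finset.sum_pair hab]

theorem sgLorentz_psd {σ : Type} [Fintype σ] [DecidableEq σ] (N : Matrix σ σ ℝ)
    (hN : N.PosSemidef) (hr : N.rank ≤ 2) :
    ∃ u1 u2 : σ → ℝ, ∀ x : σ → ℝ, x ⬝ᵥ (N *ᵥ x) = (u1 ⬝ᵥ x) ^ 2 + (u2 ⬝ᵥ x) ^ 2 := by
  have hH : N.IsHermitian := hN.isHermitian
  set ev : σ → ℝ := hH.eigenvalues with hev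
  set U : Matrix σ σ ℝ := (hH.eigenvectorUnitary : Matrix σ σ ℝ) with hU
  have hs : N = U * diagonal ev * Uᵀ := by
    have h := hH.spectral_theorem
    rw [Unitary.conjStarAlgAut_apply] at h
    exact h
  have key : ∀ x : σ → ℝ, x ⬝ᵥ (N *ᵥ x) = ∑ i, ev i * ((fun j => U j i) ⬝ᵥ x) ^ 2 := by
    intro x
    have h1 : N *ᵥ x = U *ᵥ (diagonal ev *ᵥ (Uᵀ *ᵥ x)) := by
      rw [mulVec_mulVec, mulVec_mulVec, ← hs]
    rw [h1, dotProduct_mulVec, ← mulVec_transpose]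
    unfold dotProduct
    refine Finset.sum_congr rfl fun i _ => ?_
    rw [mulVec_diagonal]
    have h2 : (Uᵀ *ᵥ x) i = ∑ j, U j i * x j := rfl
    rw [h2]
    ring
  set S : Finset σ := Finset.univ.filter (fun i => ev i ≠ 0) with hSdef
  have hScard : S.card ≤ 2 := by
    have h := hH.rank_eq_card_non_zero_eigs
    rw [Fintype.card_subtype] at h
    rw [hSdef, ← h]
    exact hr
  obtain ⟨u1, u2, hu⟩ := sgPsd_two S hScard ev (fun i => hN.eigenvalues_nonneg i)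
    (fun i => fun j => U j i)
  refine ⟨u1, u2, fun x => ?_⟩
  rw [key, ← hu]
  symm
  apply Finset.sum_subset (Finset.subset_univ S)
  intro i _ hi
  have : ev i = 0 := by
    by_contra hne
    exact hi (by simp [hSdef, hne])
  rw [this, zero_mul]

end Vale.Agent.Lib.P256
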