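import Vale.Agent.Lib.P256.SgRank
import Vale.Agent.Lib.P256.SgPsd

/-!
# Singular cubics: a reverse-Cauchy-Schwarz symmetric matrix of rank at most three is a
Lorentz form in at most three linear forms
-/

namespace Vale.Agent.Lib.P256
open MvPolynomial Matrix

/-- For a symmetric matrix the bilinear form can be evaluated through `H *ᵥ e`. -/
theorem sgLorentz_aux1 {σ : Type} [Fintype σ] (H : Matrix σ σ ℝ) (hH : H.IsSymm)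
    (e x : σ → ℝ) : e ⬝ᵥ (H *ᵥ x) = (H *ᵥ e) ⬝ᵥ x := by
  rw [Matrix.dotProduct_mulVec, ← Matrix.mulVec_transpose, hH.eq]

/-- The quadratic form of the rank-one matrix `h hᵀ / q`. -/
theorem sgLorentz_aux2 {σ : Type} [Fintype σ] (h : σ → ℝ) (q : ℝ) (x : σ → ℝ) :
    x ⬝ᵥ ((Matrix.of (fun i j => h i * h j / q)) *ᵥ x) = (h ⬝ᵥ x) ^ 2 / q := by
  have e1 : (h ⬝ᵥ x) ^ 2 / q = ∑ i, x i * ∑ j, (h i * h j / q) * x j := by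
    simp only [dotProduct]
    rw [sq, Finset.sum_mul_sum, Finset.sum_div]
    refine Finset.sum_congr rfl (fun i _ => ?_)
    rw [Finset.sum_div, Finset.mul_sum]
    refine Finset.sum_congr rfl (fun j _ => ?_)
    ring
  rw [e1]
  simp only [dotProduct, mulVec, Matrix.of_apply]

/-- The rank-one matrix `h hᵀ / q` is symmetric. -/
theorem sgLorentz_aux3 {σ : Type} (h : σ → ℝ) (q : ℝ) :
    (Matrix.of (fun i j => h i * h j / q) : Matrix σ σ ℝ).IsSymm := by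
  ext i j
  simp only [Matrix.transpose_apply, Matrix.of_apply]
  rw [mul_comm]

theorem sgLorentz {σ : Type} [Fintype σ] [DecidableEq σ] (H : Matrix σ σ ℝ) (hH : H.IsSymm)
    (e : σ → ℝ) (hQe : 0 < e ⬝ᵥ (H *ᵥ e))
    (hcs : ∀ w : σ → ℝ, (e ⬝ᵥ (H *ᵥ e)) * (w ⬝ᵥ (H *ᵥ w)) ≤ (e ⬝ᵥ (H *ᵥ w)) ^ 2)
    (hrank : H.rank ≤ 3) :
    ∃ u0 u1 u2 : σ → ℝ, 0 < u0 ⬝ᵥ e ∧ u1 ⬝ᵥ e = 0 ∧ u2 ⬝ᵥ e = 0 ∧
      (∀ x : σ → ℝ, e ⬝ᵥ (H *ᵥ x) = (u0 ⬝ᵥ e) * (u0 ⬝ᵥ x)) ∧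
      (∀ x : σ → ℝ, x ⬝ᵥ (H *ᵥ x) = (u0 ⬝ᵥ x) ^ 2 - (u1 ⬝ᵥ x) ^ 2 - (u2 ⬝ᵥ x) ^ 2) := by
  obtain ⟨q, hq⟩ : ∃ q : ℝ, q = e ⬝ᵥ (H *ᵥ e) := ⟨_, rfl⟩
  obtain ⟨h, hh⟩ : ∃ h : σ → ℝ, h = H *ᵥ e := ⟨_, rfl⟩
  have hqpos : 0 < q := by
    rw [hq]
    exact hQe
  have hsym : ∀ x : σ → ℝ, e ⬝ᵥ (H *ᵥ x) = h ⬝ᵥ x := fun x => by
    rw [hh]
    exact sgLorentz_aux1 H hH e x
  have hhe : h ⬝ᵥ e = q := by
    rw [← hsym e, hq]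
  have hsq : 0 < Real.sqrt q := Real.sqrt_pos.mpr hqpos
  have hinv : (Real.sqrt q)⁻¹ ^ 2 = q⁻¹ := by
    rw [inv_pow, Real.sq_sqrt hqpos.le]
  obtain ⟨N, hN⟩ : ∃ N : Matrix σ σ ℝ,
      N = Matrix.of (fun i j => (H *ᵥ e) i * (H *ᵥ e) j / (e ⬝ᵥ (H *ᵥ e))) - H := ⟨_, rfl⟩
  have hNquad : ∀ x : σ → ℝ, x ⬝ᵥ (N *ᵥ x) = (h ⬝ᵥ x) ^ 2 / q - x ⬝ᵥ (H *ᵥ x) := by
    intro x
    rw [hN, Matrix.sub_mulVec, dotProduct_sub, sgLorentz_aux2, ← hq, ← hh]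
  have hNsymm : N.IsSymm := by
    rw [hN]
    exact Matrix.IsSymm.sub (sgLorentz_aux3 _ _) hH
  have hNpsd : N.PosSemidef := by
    rw [posSemidef_iff_dotProduct_mulVec]
    refine ⟨?_, ?_⟩
    · show Nᴴ = N
      rw [Matrix.conjTranspose_eq_transpose_of_trivial]
      exact hNsymm
    · intro x
      simp only [star_trivial]
      rw [hNquad x]
      have hc := hcs x
      rw [← hq, hsym x, mul_comm] at hc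
      rw [sub_nonneg, le_div_iff₀ hqpos]
      exact hc
  have hNrank : N.rank ≤ 2 := by
    rw [hN]
    exact sgLorentz_rank H hH e hQe hrank
  obtain ⟨u1, u2, hu⟩ := sgLorentz_psd N hNpsd hNrank
  have hu0 : ∀ x : σ → ℝ,
      ((Real.sqrt q)⁻¹ • h) ⬝ᵥ x = (Real.sqrt q)⁻¹ * (h ⬝ᵥ x) := fun x => by
    rw [smul_dotProduct, smul_eq_mul]
  have hone : (Real.sqrt q)⁻¹ * q * (Real.sqrt q)⁻¹ = 1 := by
    have e1 : (Real.sqrt q)⁻¹ * q * (Real.sqrt q)⁻¹ = q * (Real.sqrt q)⁻¹ ^ 2 := by ring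
    rw [e1, hinv, mul_inv_cancel₀ hqpos.ne']
  have hzero : (u1 ⬝ᵥ e) ^ 2 + (u2 ⬝ᵥ e) ^ 2 = 0 := by
    rw [← hu e, hNquad e, hhe, ← hq]
    field_simp
    ring
  have h1 : (u1 ⬝ᵥ e) ^ 2 = 0 :=
    le_antisymm (by linarith [sq_nonneg (u2 ⬝ᵥ e)]) (sq_nonneg _)
  have h2 : (u2 ⬝ᵥ e) ^ 2 = 0 :=
    le_antisymm (by linarith [sq_nonneg (u1 ⬝ᵥ e)]) (sq_nonneg _)
  refine ⟨(Real.sqrt q)⁻¹ • h, u1, u2, ?_, ?_, ?_, ?_, ?_⟩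
  · rw [hu0, hhe]
    exact mul_pos (inv_pos.mpr hsq) hqpos
  · exact (pow_eq_zero_iff two_ne_zero).mp h1
  · exact (pow_eq_zero_iff two_ne_zero).mp h2
  · intro x
    rw [hsym x, hu0, hu0, hhe]
    have e4 : (Real.sqrt q)⁻¹ * q * ((Real.sqrt q)⁻¹ * (h ⬝ᵥ x))
        = ((Real.sqrt q)⁻¹ * q * (Real.sqrt q)⁻¹) * (h ⬝ᵥ x) := by ring
    rw [e4, hone, one_mul]
  · intro x
    have hx := hu x
    rw [hNquad x, div_eq_inv_mul] at hx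
    rw [hu0, mul_pow, hinv]
    linarith

end Vale.Agent.Lib.P256
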