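import Vale.Agent.Lib.P256.SgTaylor
namespace Vale.Agent.Lib.P256
open MvPolynomial Matrix

/-- A cubic form scales with the third power. -/
theorem sgNec_eval_smul {σ : Type} [Fintype σ] (p : MvPolynomial σ ℝ) (hp : p.IsHomogeneous 3)
    (c : ℝ) (x : σ → ℝ) : eval (fun i => c * x i) p = c ^ 3 * eval x p := by
  obtain ⟨T, hT⟩ := exists_cubic_tensor p hp
  rw [hT]
  simp only [map_sum, map_mul, eval_C, eval_X]
  rw [Finset.mul_sum]
  refine Finset.sum_congr rfl (fun i _ => ?_)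
  rw [Finset.mul_sum]
  refine Finset.sum_congr rfl (fun j _ => ?_)
  rw [Finset.mul_sum]
  refine Finset.sum_congr rfl (fun l _ => ?_)
  ring

/-- A cubic form is odd. -/
theorem sgNec_eval_neg {σ : Type} [Fintype σ] (p : MvPolynomial σ ℝ) (hp : p.IsHomogeneous 3)
    (x : σ → ℝ) : eval (-x) p = -(eval x p) := by
  have h := sgNec_eval_smul p hp (-1) x
  have hfun : (fun i => -1 * x i) = -x := by
    funext i
    simp
  rw [hfun] at h
  rw [h]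
  ring

theorem sgNec {σ : Type} [Fintype σ] (p : MvPolynomial σ ℝ) (hp : p.IsHomogeneous 3)
    (e x0 : σ → ℝ) (hyp : IsHyperbolic p e) (hsing : ∀ i, eval x0 (pderiv i p) = 0)
    (hQe : 0 < e ⬝ᵥ (hessAt p x0 *ᵥ e)) (x : σ → ℝ)
    (hx : x ⬝ᵥ (hessAt p x0 *ᵥ x) = 0) (hB : 0 < e ⬝ᵥ (hessAt p x0 *ᵥ x)) : eval x p ≤ 0 := by
  by_contra hneg
  push Not at hneg
  obtain ⟨_, hpe, hroots⟩ := hyp
  have hβ : 0 < 2 * (e ⬝ᵥ (hessAt p x0 *ᵥ x)) := by linarith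
  obtain ⟨μ, z, hz, hroot⟩ := exists_nonreal_root (eval e p)
    (-(∑ i, (-x) i * eval e (pderiv i p))) (∑ i, e i * eval (-x) (pderiv i p)) (eval x p)
    (e ⬝ᵥ (hessAt p x0 *ᵥ e)) (2 * (e ⬝ᵥ (hessAt p x0 *ᵥ x))) hpe hneg hQe hβ
  apply hz
  apply hroots (fun i => (-x) i - (-2 * μ) * x0 i) z
  show aeval (fun i => z * (e i : ℂ) - (((-x) i - (-2 * μ) * x0 i : ℝ) : ℂ)) p = 0
  rw [sgPencil p hp x0 hsing e (-x) (-2 * μ) z]
  have h1 : eval (-x) p = -(eval x p) := sgNec_eval_neg p hp x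
  have h2 : (-x) ⬝ᵥ (hessAt p x0 *ᵥ (-x)) = 0 := by
    rw [mulVec_neg, dotProduct_neg, neg_dotProduct, neg_neg]
    exact hx
  have h3 : e ⬝ᵥ (hessAt p x0 *ᵥ (-x)) = -(e ⬝ᵥ (hessAt p x0 *ᵥ x)) := by
    rw [mulVec_neg, dotProduct_neg]
  rw [h1, h2, h3]
  push_cast at hroot ⊢
  linear_combination hroot

theorem sgNode_mem {σ : Type} [Fintype σ] (p : MvPolynomial σ ℝ) (hp : p.IsHomogeneous 3)
    (e x0 : σ → ℝ) (hyp : IsHyperbolic p e) (hsing : ∀ i, eval x0 (pderiv i p) = 0)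
    (hQe : 0 < e ⬝ᵥ (hessAt p x0 *ᵥ e)) : x0 ∈ hyperbolicityCone p e := by
  show ∀ t : ℝ, eval (fun i => t * e i - x0 i) p = 0 → 0 ≤ t
  intro t ht
  have hT := sgTaylor p hp x0 hsing (R := ℝ) (-1) (fun i => t * e i)
  simp only [Algebra.algebraMap_self, RingHom.id_apply] at hT
  have hfun : (fun i => -1 * x0 i + t * e i) = (fun i => t * e i - x0 i) := by
    funext i
    ring
  rw [hfun] at hT
  have hT' : eval (fun i => t * e i - x0 i) p
      = -1 * (1 / 2) * (∑ i, ∑ j, hessAt p x0 i j * (t * e i) * (t * e j))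
        + eval (fun i => t * e i) p := hT
  have hQ : ∑ i, ∑ j, hessAt p x0 i j * (t * e i) * (t * e j)
      = t ^ 2 * (e ⬝ᵥ (hessAt p x0 *ᵥ e)) := by
    simp only [dotProduct, mulVec, Finset.mul_sum]
    refine Finset.sum_congr rfl (fun i _ => Finset.sum_congr rfl (fun j _ => ?_))
    ring
  rw [ht, sgNec_eval_smul p hp t e, hQ] at hT'
  by_contra hneg
  push Not at hneg
  have hc3 : 0 < eval e p := hyp.2.1
  have ht2 : 0 < t ^ 2 := by
    have h : 0 < (-t) ^ 2 := pow_pos (by linarith) 2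
    have e2 : (-t) ^ 2 = t ^ 2 := by ring
    rw [e2] at h
    exact h
  have h3 : t * eval e p - (e ⬝ᵥ (hessAt p x0 *ᵥ e)) / 2 < 0 := by
    have := mul_neg_of_neg_of_pos hneg hc3
    linarith
  have h4 : t ^ 2 * (t * eval e p - (e ⬝ᵥ (hessAt p x0 *ᵥ e)) / 2) < 0 :=
    mul_neg_of_pos_of_neg ht2 h3
  have e4 : t ^ 2 * (t * eval e p - (e ⬝ᵥ (hessAt p x0 *ᵥ e)) / 2)
      = -1 * (1 / 2) * (t ^ 2 * (e ⬝ᵥ (hessAt p x0 *ᵥ e))) + t ^ 3 * eval e p := by ring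
  linarith

end Vale.Agent.Lib.P256
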