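import Vale.Agent.Lib.P256.SgPre

/-!
# The hyperbolicity cone of a hyperbolic quadratic form is a spectrahedron

A hyperbolic quadratic form is, up to a linear change of coordinates, a Lorentz form, and its
hyperbolicity cone is a second-order cone.
-/

namespace Vale.Agent.Lib.P256

open MvPolynomial Matrix

/-- A quadratic form is given by a symmetric coefficient matrix. -/
theorem sgQuad_tensor {σ : Type} [Fintype σ] (g : MvPolynomial σ ℝ) (hg : g.IsHomogeneous 2) :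
    ∃ G : σ → σ → ℝ, (∀ i j, G i j = G j i) ∧ g = ∑ i, ∑ j, C (G i j) * X i * X j := by
  have h1 := r2Tensor_euler g (n := 1) hg
  have hd1 : ∀ i, (pderiv i g).IsHomogeneous (0 + 1) := fun i => hg.pderiv
  have h2 : ∀ i, pderiv i g = C ((((0 : ℕ) : ℝ) + 1)⁻¹) * ∑ j, X j * pderiv j (pderiv i g) :=
    fun i => r2Tensor_euler _ (n := 0) (hd1 i)
  have hd2 : ∀ i j, (pderiv j (pderiv i g)).IsHomogeneous 0 := fun i j => (hd1 i).pderiv
  have h3 : ∀ i j, pderiv j (pderiv i g) = C (coeff 0 (pderiv j (pderiv i g))) := by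
    intro i j
    exact totalDegree_eq_zero_iff_eq_C.mp (Nat.le_zero.mp (hd2 i j).totalDegree_le)
  obtain ⟨T, hT⟩ : ∃ T : σ → σ → ℝ, g = ∑ i, ∑ j, C (T i j) * X i * X j := by
    refine ⟨fun i j => (1 / 2) * coeff 0 (pderiv j (pderiv i g)), ?_⟩
    conv_lhs => rw [h1]
    rw [Finset.mul_sum]
    apply Finset.sum_congr rfl
    intro i _
    conv_lhs => rw [h2 i]
    rw [Finset.mul_sum, Finset.mul_sum, Finset.mul_sum]
    apply Finset.sum_congr rfl
    intro j _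
    conv_lhs => rw [h3 i j]
    have e : (1 / 2 : ℝ) * coeff 0 (pderiv j (pderiv i g))
        = (((1 : ℕ) : ℝ) + 1)⁻¹ * ((((0 : ℕ) : ℝ) + 1)⁻¹
          * coeff 0 (pderiv j (pderiv i g))) := by
      norm_num
    beta_reduce
    rw [e, C_mul, C_mul]
    ring
  refine ⟨fun i j => (T i j + T j i) / 2, fun i j => by ring, ?_⟩
  have hswap : ∑ i, ∑ j, C (T j i) * X i * X j
      = (∑ i, ∑ j, C (T i j) * X i * X j : MvPolynomial σ ℝ) := by
    rw [Finset.sum_comm]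
    refine Finset.sum_congr rfl fun i _ => Finset.sum_congr rfl fun j _ => ?_
    ring
  have hhalf : ∀ i j, C ((T i j + T j i) / 2) * X i * X j
      = C (1 / 2 : ℝ) * (C (T i j) * X i * X j)
        + C (1 / 2 : ℝ) * (C (T j i) * X i * X j) := by
    intro i j
    have e : (T i j + T j i) / 2 = 1 / 2 * T i j + 1 / 2 * T j i := by ring
    rw [e, C_add, C_mul, C_mul]
    ring
  symm
  simp_rw [hhalf, Finset.sum_add_distrib, ← Finset.mul_sum]
  rw [hswap, ← hT, ← add_mul, ← C_add]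
  have e : (1 / 2 : ℝ) + 1 / 2 = 1 := by norm_num
  rw [e, C_1, one_mul]

/-- Expansion of a quadratic form along a line. -/
theorem sgQuad_expand {R : Type} [CommRing R] {σ : Type} [Fintype σ] (G : σ → σ → R)
    (hG : ∀ i j, G i j = G j i) (e x : σ → R) (t : R) :
    ∑ i, ∑ j, G i j * (t * e i - x i) * (t * e j - x j)
      = (∑ i, ∑ j, G i j * e i * e j) * t ^ 2 - 2 * (∑ i, ∑ j, G i j * e i * x j) * t
        + ∑ i, ∑ j, G i j * x i * x j := by
  have hswap : ∑ i, ∑ j, G i j * x i * e j = ∑ i, ∑ j, G i j * e i * x j := by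
    rw [Finset.sum_comm]
    refine Finset.sum_congr rfl fun i _ => Finset.sum_congr rfl fun j _ => ?_
    rw [hG j i]
    ring
  have h1 : ∀ i j, G i j * (t * e i - x i) * (t * e j - x j)
      = G i j * e i * e j * t ^ 2 - (G i j * e i * x j * t + G i j * x i * e j * t)
        + G i j * x i * x j := by
    intro i j
    ring
  simp_rw [h1, Finset.sum_add_distrib, Finset.sum_sub_distrib, Finset.sum_add_distrib,
    ← Finset.sum_mul]
  rw [hswap]
  ring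

theorem sgQuad_eval {σ : Type} [Fintype σ] (G : σ → σ → ℝ) (y : σ → ℝ) :
    eval y (∑ i, ∑ j, C (G i j) * X i * X j) = ∑ i, ∑ j, G i j * y i * y j := by
  simp only [map_sum, map_mul, eval_C, eval_X]

theorem sgQuad_aeval {σ : Type} [Fintype σ] (G : σ → σ → ℝ) (z : σ → ℂ) :
    aeval z (∑ i, ∑ j, C (G i j) * X i * X j) = ∑ i, ∑ j, (G i j : ℂ) * z i * z j := by
  simp only [map_sum, map_mul, aeval_C, aeval_X, Complex.coe_algebraMap]

/-- The reverse Cauchy-Schwarz inequality of a hyperbolic quadratic form. -/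
theorem sgQuad_rcs {σ : Type} [Fintype σ] (G : σ → σ → ℝ) (hG : ∀ i j, G i j = G j i)
    (e : σ → ℝ) (hq : 0 < ∑ i, ∑ j, G i j * e i * e j)
    (hyp : ∀ (x : σ → ℝ) (t : ℂ),
      ∑ i, ∑ j, (G i j : ℂ) * (t * (e i : ℂ) - (x i : ℂ)) * (t * (e j : ℂ) - (x j : ℂ)) = 0 →
        t.im = 0)
    (x : σ → ℝ) :
    (∑ i, ∑ j, G i j * e i * e j) * (∑ i, ∑ j, G i j * x i * x j)
      ≤ (∑ i, ∑ j, G i j * e i * x j) ^ 2 := by
  by_contra hcon
  push Not at hcon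
  obtain ⟨q, hqdef⟩ : ∃ q : ℝ, q = ∑ i, ∑ j, G i j * e i * e j := ⟨_, rfl⟩
  obtain ⟨b, hbdef⟩ : ∃ b : ℝ, b = ∑ i, ∑ j, G i j * e i * x j := ⟨_, rfl⟩
  obtain ⟨c, hcdef⟩ : ∃ c : ℝ, c = ∑ i, ∑ j, G i j * x i * x j := ⟨_, rfl⟩
  rw [← hqdef, ← hbdef, ← hcdef] at hcon
  rw [← hqdef] at hq
  have hD : 0 < q * c - b ^ 2 := by linarith
  obtain ⟨s, hsdef⟩ : ∃ s : ℝ, s = Real.sqrt (q * c - b ^ 2) := ⟨_, rfl⟩
  have hs : s ^ 2 = q * c - b ^ 2 := by
    rw [hsdef]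
    exact Real.sq_sqrt hD.le
  have hspos : 0 < s := by
    rw [hsdef]
    exact Real.sqrt_pos.mpr hD
  have hexp := sgQuad_expand (fun i j => (G i j : ℂ)) (fun i j => by rw [hG i j])
    (fun i => (e i : ℂ)) (fun i => (x i : ℂ)) (((b / q : ℝ) : ℂ) + ((s / q : ℝ) : ℂ) * Complex.I)
  have e1 : ∑ i, ∑ j, (G i j : ℂ) * (e i : ℂ) * (e j : ℂ) = (q : ℂ) := by
    rw [hqdef]
    simp only [Complex.ofReal_sum, Complex.ofReal_mul]
  have e2 : ∑ i, ∑ j, (G i j : ℂ) * (e i : ℂ) * (x j : ℂ) = (b : ℂ) := by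
    rw [hbdef]
    simp only [Complex.ofReal_sum, Complex.ofReal_mul]
  have e3 : ∑ i, ∑ j, (G i j : ℂ) * (x i : ℂ) * (x j : ℂ) = (c : ℂ) := by
    rw [hcdef]
    simp only [Complex.ofReal_sum, Complex.ofReal_mul]
  simp only [e1, e2, e3] at hexp
  have hqc : (q : ℂ) ≠ 0 := by exact_mod_cast hq.ne'
  have ht : (q : ℂ) * (((b / q : ℝ) : ℂ) + ((s / q : ℝ) : ℂ) * Complex.I)
      = (b : ℂ) + (s : ℂ) * Complex.I := by
    push_cast
    field_simp
  have hroot : (q : ℂ) * (((b / q : ℝ) : ℂ) + ((s / q : ℝ) : ℂ) * Complex.I) ^ 2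
      - 2 * (b : ℂ) * (((b / q : ℝ) : ℂ) + ((s / q : ℝ) : ℂ) * Complex.I) + (c : ℂ) = 0 := by
    have key : (q : ℂ) * ((q : ℂ) * (((b / q : ℝ) : ℂ) + ((s / q : ℝ) : ℂ) * Complex.I) ^ 2
        - 2 * (b : ℂ) * (((b / q : ℝ) : ℂ) + ((s / q : ℝ) : ℂ) * Complex.I) + (c : ℂ)) = 0 := by
      have h1 : ∀ τ : ℂ, (q : ℂ) * ((q : ℂ) * τ ^ 2 - 2 * (b : ℂ) * τ + (c : ℂ))
          = ((q : ℂ) * τ) ^ 2 - 2 * (b : ℂ) * ((q : ℂ) * τ) + (q : ℂ) * (c : ℂ) :=
        fun τ => by ring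
      rw [h1, ht]
      have h2 : ((b : ℂ) + (s : ℂ) * Complex.I) ^ 2
          - 2 * (b : ℂ) * ((b : ℂ) + (s : ℂ) * Complex.I) + (q : ℂ) * (c : ℂ)
          = (s : ℂ) ^ 2 * Complex.I ^ 2 - (b : ℂ) ^ 2 + (q : ℂ) * (c : ℂ) := by ring
      have h3 : (s : ℂ) ^ 2 = (q : ℂ) * (c : ℂ) - (b : ℂ) ^ 2 := by exact_mod_cast hs
      rw [h2, Complex.I_sq, h3]
      ring
    exact (mul_eq_zero.mp key).resolve_left hqc
  have him := hyp x _ (hexp.trans hroot)
  have him' : (((b / q : ℝ) : ℂ) + ((s / q : ℝ) : ℂ) * Complex.I).im = s / q := by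
    simp only [Complex.add_im, Complex.ofReal_im, Complex.mul_im, Complex.ofReal_re,
      Complex.I_re, Complex.I_im, mul_zero, mul_one, zero_add, add_zero]
  rw [him'] at him
  exact (div_pos hspos hq).ne' him

open scoped MatrixOrder in
/-- A positive semidefinite real matrix is a Gram matrix. -/
theorem sgQuad_gram {σ : Type} [Fintype σ] [DecidableEq σ] (N : Matrix σ σ ℝ)
    (hN : N.PosSemidef) :
    ∃ M : Matrix σ σ ℝ, ∀ x : σ → ℝ, ∑ k, (M *ᵥ x) k ^ 2 = x ⬝ᵥ (N *ᵥ x) := by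
  refine ⟨CFC.sqrt N, fun x => ?_⟩
  have h1 : CFC.sqrt N * CFC.sqrt N = N := CFC.sqrt_mul_sqrt_self N hN.nonneg
  have h2 : (CFC.sqrt N)ᵀ = CFC.sqrt N := by
    have h := (CFC.sqrt_nonneg N).posSemidef.1
    rw [← conjTranspose_eq_transpose_of_trivial]
    exact h
  have h3 : x ᵥ* CFC.sqrt N = CFC.sqrt N *ᵥ x := by
    conv_lhs => rw [← h2]
    exact vecMul_transpose _ _
  have h4 : x ⬝ᵥ (N *ᵥ x) = x ⬝ᵥ ((CFC.sqrt N * CFC.sqrt N) *ᵥ x) := by rw [h1]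
  rw [h4, ← mulVec_mulVec, dotProduct_mulVec, h3]
  simp only [dotProduct, sq]

theorem sgQuad {σ : Type} [Fintype σ] [DecidableEq σ] (g : MvPolynomial σ ℝ)
    (hg : g.IsHomogeneous 2) (e : σ → ℝ) (hyp : IsHyperbolic g e) :
    IsSpectrahedron (hyperbolicityCone g e) := by
  obtain ⟨G, hG, hgG⟩ := sgQuad_tensor g hg
  obtain ⟨-, hpos, hreal⟩ := hyp
  obtain ⟨q, hqdef⟩ : ∃ q : ℝ, q = ∑ i, ∑ j, G i j * e i * e j := ⟨_, rfl⟩
  obtain ⟨Bf, hBf⟩ : ∃ Bf : (σ → ℝ) → ℝ, ∀ x, Bf x = ∑ i, ∑ j, G i j * e i * x j :=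
    ⟨_, fun _ => rfl⟩
  obtain ⟨Qf, hQf⟩ : ∃ Qf : (σ → ℝ) → ℝ, ∀ x, Qf x = ∑ i, ∑ j, G i j * x i * x j :=
    ⟨_, fun _ => rfl⟩
  have hq : 0 < q := by
    rw [hgG, sgQuad_eval] at hpos
    rw [hqdef]
    exact hpos
  have hrcs : ∀ x, q * Qf x ≤ Bf x ^ 2 := by
    intro x
    rw [hqdef, hQf, hBf]
    refine sgQuad_rcs G hG e (by rw [← hqdef]; exact hq) (fun y t h => hreal y t ?_) x
    rw [hgG, sgQuad_aeval]
    exact h
  have hline : ∀ (x : σ → ℝ) (t : ℝ),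
      eval (fun i => t * e i - x i) g = q * t ^ 2 - 2 * Bf x * t + Qf x := by
    intro x t
    rw [hgG, sgQuad_eval, hqdef, hBf, hQf]
    exact sgQuad_expand G hG e x t
  -- the cone in terms of the two forms
  have hcone : hyperbolicityCone g e = {x | 0 ≤ Qf x ∧ 0 ≤ Bf x} := by
    ext x
    constructor
    · intro h
      have hD : 0 ≤ Bf x ^ 2 - q * Qf x := by linarith [hrcs x]
      obtain ⟨r, hrdef⟩ : ∃ r : ℝ, r = Real.sqrt (Bf x ^ 2 - q * Qf x) := ⟨_, rfl⟩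
      have hr0 : 0 ≤ r := by
        rw [hrdef]
        exact Real.sqrt_nonneg _
      have hr2 : r ^ 2 = Bf x ^ 2 - q * Qf x := by
        rw [hrdef]
        exact Real.sq_sqrt hD
      have htm : q * ((Bf x - r) / q) = Bf x - r := by
        field_simp
      have hroot : 0 ≤ (Bf x - r) / q := by
        refine h _ ?_
        rw [hline]
        have key : q * (q * ((Bf x - r) / q) ^ 2 - 2 * Bf x * ((Bf x - r) / q) + Qf x) = 0 := by
          have h1 : ∀ τ : ℝ, q * (q * τ ^ 2 - 2 * Bf x * τ + Qf x)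
              = (q * τ) ^ 2 - 2 * Bf x * (q * τ) + q * Qf x := fun τ => by ring
          rw [h1, htm]
          nlinarith
        exact (mul_eq_zero.mp key).resolve_left hq.ne'
      have h1 : r ≤ Bf x := by
        have h2 := mul_nonneg hq.le hroot
        rw [htm] at h2
        linarith
      have h3 : 0 ≤ Bf x := le_trans hr0 h1
      refine ⟨?_, h3⟩
      have h4 : r ^ 2 ≤ Bf x ^ 2 := pow_le_pow_left₀ hr0 h1 2
      have h5 : 0 ≤ q * Qf x := by linarith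
      by_contra hneg
      push Not at hneg
      nlinarith [mul_pos hq (neg_pos.mpr hneg)]
    · rintro ⟨hQ, hB⟩ t ht
      rw [hline] at ht
      by_contra hneg
      push Not at hneg
      nlinarith [mul_pos hq (sq_pos_of_neg hneg), mul_nonneg hB (neg_nonneg.mpr hneg.le)]
  -- the positive semidefinite complement
  obtain ⟨h, hh⟩ : ∃ h : σ → ℝ, ∀ j, h j = ∑ i, G i j * e i := ⟨_, fun _ => rfl⟩
  have hB : ∀ x, h ⬝ᵥ x = Bf x := by
    intro x
    rw [hBf]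
    simp only [dotProduct, hh, Finset.sum_mul]
    exact Finset.sum_comm
  obtain ⟨N, hNdef⟩ : ∃ N : Matrix σ σ ℝ, ∀ i j, N i j = h i * h j / q - G i j :=
    ⟨Matrix.of fun i j => h i * h j / q - G i j, fun _ _ => rfl⟩
  have hNx : ∀ x : σ → ℝ, x ⬝ᵥ (N *ᵥ x) = Bf x ^ 2 / q - Qf x := by
    intro x
    rw [← hB x, hQf]
    simp only [dotProduct, mulVec, hNdef]
    rw [sq, Finset.sum_mul_sum, Finset.sum_div, ← Finset.sum_sub_distrib]
    refine Finset.sum_congr rfl fun i _ => ?_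
    rw [Finset.mul_sum, Finset.sum_div, ← Finset.sum_sub_distrib]
    refine Finset.sum_congr rfl fun j _ => ?_
    ring
  have hNpsd : N.PosSemidef := by
    refine PosSemidef.of_dotProduct_mulVec_nonneg ?_ fun x => ?_
    · refine IsHermitian.ext fun i j => ?_
      rw [star_trivial, hNdef, hNdef, hG j i]
      ring
    · rw [star_trivial, hNx, sub_nonneg, le_div_iff₀ hq]
      have h1 := hrcs x
      linarith
  obtain ⟨M, hM⟩ := sgQuad_gram N hNpsd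
  -- the second-order cone
  have hsqrt : 0 < Real.sqrt q := Real.sqrt_pos.mpr hq
  obtain ⟨u0, hu0def⟩ : ∃ u0 : σ → ℝ, ∀ i, u0 i = h i / Real.sqrt q := ⟨_, fun _ => rfl⟩
  have hu0 : ∀ x, u0 ⬝ᵥ x = Bf x / Real.sqrt q := by
    intro x
    rw [← hB x]
    simp only [dotProduct, hu0def, Finset.sum_div]
    refine Finset.sum_congr rfl fun i _ => ?_
    ring
  have hset : {x : σ → ℝ | 0 ≤ Qf x ∧ 0 ≤ Bf x}
      = {x : σ → ℝ | ∑ k, (M *ᵥ x) k ^ 2 ≤ (u0 ⬝ᵥ x) ^ 2 ∧ 0 ≤ u0 ⬝ᵥ x} := by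
    ext x
    have e1 : (u0 ⬝ᵥ x) ^ 2 = Bf x ^ 2 / q := by
      rw [hu0 x, div_pow, Real.sq_sqrt hq.le]
    constructor
    · rintro ⟨h1, h2⟩
      refine ⟨?_, ?_⟩
      · rw [hM x, hNx x, e1]
        linarith
      · rw [hu0 x]
        exact div_nonneg h2 hsqrt.le
    · rintro ⟨h1, h2⟩
      rw [hM x, hNx x, e1] at h1
      rw [hu0 x] at h2
      refine ⟨by linarith, ?_⟩
      have h3 := mul_nonneg h2 hsqrt.le
      rwa [div_mul_cancel₀ _ hsqrt.ne'] at h3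
  rw [hcone, hset]
  exact isSpectrahedron_soc u0 M

end Vale.Agent.Lib.P256
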