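import Vale.Agent.Lib.P256.SgLine
namespace Vale.Agent.Lib.P256
open MvPolynomial Matrix

/-- The real Kronecker delta. -/
noncomputable def sgTaylor_dl {σ : Type} [DecidableEq σ] (c i : σ) : ℝ := if i = c then 1 else 0

theorem sgTaylor_pderiv_X {σ : Type} [DecidableEq σ] (c i : σ) :
    pderiv c (X i : MvPolynomial σ ℝ) = C (sgTaylor_dl c i) := by
  rw [pderiv_X, Pi.single_apply]
  unfold sgTaylor_dl
  split_ifs <;> simp

theorem sgTaylor_pderiv_mono {σ : Type} [DecidableEq σ] (c i j l : σ) :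
    pderiv c (X i * X j * X l : MvPolynomial σ ℝ)
      = C (sgTaylor_dl c i) * X j * X l + C (sgTaylor_dl c j) * X i * X l
        + C (sgTaylor_dl c l) * X i * X j := by
  simp only [Derivation.leibniz, smul_eq_mul, sgTaylor_pderiv_X]
  ring

theorem sgTaylor_pderiv2_mono {σ : Type} [DecidableEq σ] (c d i j l : σ) :
    pderiv c (pderiv d (X i * X j * X l : MvPolynomial σ ℝ))
      = C (sgTaylor_dl d i) * (C (sgTaylor_dl c j) * X l + C (sgTaylor_dl c l) * X j)
        + C (sgTaylor_dl d j) * (C (sgTaylor_dl c i) * X l + C (sgTaylor_dl c l) * X i)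
        + C (sgTaylor_dl d l) * (C (sgTaylor_dl c i) * X j + C (sgTaylor_dl c j) * X i) := by
  rw [sgTaylor_pderiv_mono]
  simp only [map_add, Derivation.leibniz, smul_eq_mul, sgTaylor_pderiv_X, pderiv_C, mul_zero,
    add_zero]
  ring

theorem sgTaylor_sum_dl {σ : Type} [Fintype σ] [DecidableEq σ] {R : Type} [CommRing R]
    [Algebra ℝ R] (i : σ) (f : σ → R) :
    ∑ c, algebraMap ℝ R (sgTaylor_dl c i) * f c = f i := by
  rw [Finset.sum_eq_single i]
  · unfold sgTaylor_dl
    rw [if_pos rfl, map_one, one_mul]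
  · intro c _ hc
    unfold sgTaylor_dl
    rw [if_neg (Ne.symm hc), map_zero, zero_mul]
  · intro h
    exact absurd (Finset.mem_univ i) h

theorem sgTaylor_hessAt_add {σ : Type} (q q' : MvPolynomial σ ℝ) (x0 : σ → ℝ) (c d : σ) :
    hessAt (q + q') x0 c d = hessAt q x0 c d + hessAt q' x0 c d := by
  unfold hessAt
  simp only [Matrix.of_apply, map_add]

theorem sgTaylor_hessAt_C_mul {σ : Type} (r : ℝ) (q : MvPolynomial σ ℝ) (x0 : σ → ℝ) (c d : σ) :
    hessAt (C r * q) x0 c d = r * hessAt q x0 c d := by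
  unfold hessAt
  simp only [Matrix.of_apply, pderiv_C_mul, map_mul, eval_C]

/-- The Taylor expansion of a cubic monomial at an arbitrary point. -/
theorem sgTaylor_mono {σ : Type} [Fintype σ] [DecidableEq σ] (x0 : σ → ℝ) {R : Type}
    [CommRing R] [Algebra ℝ R] (lam : R) (v : σ → R) (i j l : σ) :
    aeval (fun k => lam * algebraMap ℝ R (x0 k) + v k) (X i * X j * X l : MvPolynomial σ ℝ) =
      lam ^ 3 * algebraMap ℝ R (eval x0 (X i * X j * X l : MvPolynomial σ ℝ))
        + lam ^ 2 * (∑ c, algebraMap ℝ R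
            (eval x0 (pderiv c (X i * X j * X l : MvPolynomial σ ℝ))) * v c)
        + lam * algebraMap ℝ R (1 / 2) *
            (∑ c, ∑ d, algebraMap ℝ R (hessAt (X i * X j * X l) x0 c d) * v c * v d)
        + aeval v (X i * X j * X l : MvPolynomial σ ℝ) := by
  have h1 : ∑ c, algebraMap ℝ R
        (eval x0 (pderiv c (X i * X j * X l : MvPolynomial σ ℝ))) * v c
      = v i * algebraMap ℝ R (x0 j) * algebraMap ℝ R (x0 l)
        + algebraMap ℝ R (x0 i) * v j * algebraMap ℝ R (x0 l)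
        + algebraMap ℝ R (x0 i) * algebraMap ℝ R (x0 j) * v l := by
    have e : ∀ c, algebraMap ℝ R
          (eval x0 (pderiv c (X i * X j * X l : MvPolynomial σ ℝ))) * v c
        = algebraMap ℝ R (sgTaylor_dl c i)
            * (algebraMap ℝ R (x0 j) * algebraMap ℝ R (x0 l) * v c)
          + algebraMap ℝ R (sgTaylor_dl c j)
            * (algebraMap ℝ R (x0 i) * algebraMap ℝ R (x0 l) * v c)
          + algebraMap ℝ R (sgTaylor_dl c l)
            * (algebraMap ℝ R (x0 i) * algebraMap ℝ R (x0 j) * v c) := by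
      intro c
      rw [sgTaylor_pderiv_mono]
      simp only [map_add, map_mul, eval_C, eval_X]
      ring
    simp only [e, Finset.sum_add_distrib, sgTaylor_sum_dl]
    ring
  have h2 : ∑ c, ∑ d, algebraMap ℝ R (hessAt (X i * X j * X l) x0 c d) * v c * v d
      = 2 * (v i * v j * algebraMap ℝ R (x0 l) + v i * algebraMap ℝ R (x0 j) * v l
        + algebraMap ℝ R (x0 i) * v j * v l) := by
    have e : ∀ c d, algebraMap ℝ R (hessAt (X i * X j * X l) x0 c d) * v c * v d
        = algebraMap ℝ R (sgTaylor_dl d i)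
            * (algebraMap ℝ R (sgTaylor_dl c j) * (algebraMap ℝ R (x0 l) * v c * v d))
          + algebraMap ℝ R (sgTaylor_dl d i)
            * (algebraMap ℝ R (sgTaylor_dl c l) * (algebraMap ℝ R (x0 j) * v c * v d))
          + algebraMap ℝ R (sgTaylor_dl d j)
            * (algebraMap ℝ R (sgTaylor_dl c i) * (algebraMap ℝ R (x0 l) * v c * v d))
          + algebraMap ℝ R (sgTaylor_dl d j)
            * (algebraMap ℝ R (sgTaylor_dl c l) * (algebraMap ℝ R (x0 i) * v c * v d))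
          + algebraMap ℝ R (sgTaylor_dl d l)
            * (algebraMap ℝ R (sgTaylor_dl c i) * (algebraMap ℝ R (x0 j) * v c * v d))
          + algebraMap ℝ R (sgTaylor_dl d l)
            * (algebraMap ℝ R (sgTaylor_dl c j) * (algebraMap ℝ R (x0 i) * v c * v d)) := by
      intro c d
      unfold hessAt
      rw [Matrix.of_apply, sgTaylor_pderiv2_mono]
      simp only [map_add, map_mul, eval_C, eval_X]
      ring
    simp only [e, Finset.sum_add_distrib, sgTaylor_sum_dl]
    ring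
  have h3 : algebraMap ℝ R (1 / 2) * 2 = 1 := by
    rw [← map_ofNat (algebraMap ℝ R) 2, ← map_mul]
    norm_num
  rw [h1, h2]
  simp only [map_mul, aeval_X, eval_X]
  linear_combination (-(lam * (v i * v j * algebraMap ℝ R (x0 l)
    + v i * algebraMap ℝ R (x0 j) * v l + algebraMap ℝ R (x0 i) * v j * v l))) * h3

/-- The general Taylor identity for a polynomial `q`, as a predicate on `q`. -/
def sgTaylor_G {σ : Type} [Fintype σ] (x0 : σ → ℝ) {R : Type} [CommRing R] [Algebra ℝ R]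
    (lam : R) (v : σ → R) (q : MvPolynomial σ ℝ) : Prop :=
  aeval (fun k => lam * algebraMap ℝ R (x0 k) + v k) q =
    lam ^ 3 * algebraMap ℝ R (eval x0 q)
      + lam ^ 2 * (∑ c, algebraMap ℝ R (eval x0 (pderiv c q)) * v c)
      + lam * algebraMap ℝ R (1 / 2) *
          (∑ c, ∑ d, algebraMap ℝ R (hessAt q x0 c d) * v c * v d)
      + aeval v q

theorem sgTaylor_G_add {σ : Type} [Fintype σ] (x0 : σ → ℝ) {R : Type} [CommRing R]
    [Algebra ℝ R] (lam : R) (v : σ → R) (q q' : MvPolynomial σ ℝ)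
    (h : sgTaylor_G x0 lam v q) (h' : sgTaylor_G x0 lam v q') :
    sgTaylor_G x0 lam v (q + q') := by
  unfold sgTaylor_G at h h' ⊢
  have e3 : ∑ c, algebraMap ℝ R (eval x0 (pderiv c (q + q'))) * v c
      = ∑ c, algebraMap ℝ R (eval x0 (pderiv c q)) * v c
        + ∑ c, algebraMap ℝ R (eval x0 (pderiv c q')) * v c := by
    rw [← Finset.sum_add_distrib]
    refine Finset.sum_congr rfl (fun c _ => ?_)
    rw [map_add, map_add, map_add, add_mul]
  have e4 : ∑ c, ∑ d, algebraMap ℝ R (hessAt (q + q') x0 c d) * v c * v d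
      = ∑ c, ∑ d, algebraMap ℝ R (hessAt q x0 c d) * v c * v d
        + ∑ c, ∑ d, algebraMap ℝ R (hessAt q' x0 c d) * v c * v d := by
    rw [← Finset.sum_add_distrib]
    refine Finset.sum_congr rfl (fun c _ => ?_)
    rw [← Finset.sum_add_distrib]
    refine Finset.sum_congr rfl (fun d _ => ?_)
    rw [sgTaylor_hessAt_add, map_add, add_mul, add_mul]
  rw [e3, e4]
  simp only [map_add]
  linear_combination h + h'

theorem sgTaylor_G_zero {σ : Type} [Fintype σ] (x0 : σ → ℝ) {R : Type} [CommRing R]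
    [Algebra ℝ R] (lam : R) (v : σ → R) : sgTaylor_G x0 lam v 0 := by
  unfold sgTaylor_G
  simp [hessAt]

theorem sgTaylor_G_smul {σ : Type} [Fintype σ] (x0 : σ → ℝ) {R : Type} [CommRing R]
    [Algebra ℝ R] (lam : R) (v : σ → R) (r : ℝ) (q : MvPolynomial σ ℝ)
    (h : sgTaylor_G x0 lam v q) : sgTaylor_G x0 lam v (C r * q) := by
  unfold sgTaylor_G at h ⊢
  have e3 : ∑ c, algebraMap ℝ R (eval x0 (pderiv c (C r * q))) * v c
      = algebraMap ℝ R r * ∑ c, algebraMap ℝ R (eval x0 (pderiv c q)) * v c := by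
    rw [Finset.mul_sum]
    refine Finset.sum_congr rfl (fun c _ => ?_)
    rw [pderiv_C_mul, map_mul, eval_C, map_mul, mul_assoc]
  have e4 : ∑ c, ∑ d, algebraMap ℝ R (hessAt (C r * q) x0 c d) * v c * v d
      = algebraMap ℝ R r * ∑ c, ∑ d, algebraMap ℝ R (hessAt q x0 c d) * v c * v d := by
    rw [Finset.mul_sum]
    refine Finset.sum_congr rfl (fun c _ => ?_)
    rw [Finset.mul_sum]
    refine Finset.sum_congr rfl (fun d _ => ?_)
    rw [sgTaylor_hessAt_C_mul, map_mul]
    ring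
  rw [e3, e4]
  simp only [map_mul, aeval_C, eval_C]
  linear_combination (algebraMap ℝ R r) * h

/-- The Taylor expansion of a cubic form at an arbitrary point. -/
theorem sgTaylor_gen {σ : Type} [Fintype σ] (p : MvPolynomial σ ℝ) (hp : p.IsHomogeneous 3)
    (x0 : σ → ℝ) {R : Type} [CommRing R] [Algebra ℝ R] (lam : R) (v : σ → R) :
    aeval (fun k => lam * algebraMap ℝ R (x0 k) + v k) p =
      lam ^ 3 * algebraMap ℝ R (eval x0 p)
        + lam ^ 2 * (∑ c, algebraMap ℝ R (eval x0 (pderiv c p)) * v c)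
        + lam * algebraMap ℝ R (1 / 2) *
            (∑ c, ∑ d, algebraMap ℝ R (hessAt p x0 c d) * v c * v d)
        + aeval v p := by
  classical
  obtain ⟨T, hT⟩ := exists_cubic_tensor p hp
  have hmono : ∀ i j l : σ, sgTaylor_G x0 lam v (C (T i j l) * X i * X j * X l) := by
    intro i j l
    have e : C (T i j l) * X i * X j * X l
        = C (T i j l) * (X i * X j * X l : MvPolynomial σ ℝ) := by ring
    rw [e]
    apply sgTaylor_G_smul
    unfold sgTaylor_G
    exact sgTaylor_mono x0 lam v i j l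
  have hall : sgTaylor_G x0 lam v p := by
    rw [hT]
    refine Finset.sum_induction _ (sgTaylor_G x0 lam v) (sgTaylor_G_add x0 lam v)
      (sgTaylor_G_zero x0 lam v) (fun i _ => ?_)
    refine Finset.sum_induction _ (sgTaylor_G x0 lam v) (sgTaylor_G_add x0 lam v)
      (sgTaylor_G_zero x0 lam v) (fun j _ => ?_)
    exact Finset.sum_induction _ (sgTaylor_G x0 lam v) (sgTaylor_G_add x0 lam v)
      (sgTaylor_G_zero x0 lam v) (fun l _ => hmono i j l)
  unfold sgTaylor_G at hall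
  exact hall

theorem sgTaylor {σ : Type} [Fintype σ] (p : MvPolynomial σ ℝ) (hp : p.IsHomogeneous 3)
    (x0 : σ → ℝ) (hsing : ∀ i, eval x0 (pderiv i p) = 0)
    {R : Type} [CommRing R] [Algebra ℝ R] (lam : R) (v : σ → R) :
    aeval (fun i => lam * algebraMap ℝ R (x0 i) + v i) p =
      lam * algebraMap ℝ R (1 / 2) *
          (∑ i, ∑ j, algebraMap ℝ R (hessAt p x0 i j) * v i * v j)
        + aeval v p := by
  have h0 : eval x0 p = 0 := by
    have hE := congrArg (eval x0) (r2Tensor_euler p (n := 2) hp)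
    rw [hE]
    simp only [map_mul, map_sum, eval_X, hsing, mul_zero, Finset.sum_const_zero]
  rw [sgTaylor_gen p hp x0 lam v]
  simp only [h0, hsing, map_zero, zero_mul, mul_zero, Finset.sum_const_zero, add_zero, zero_add]

/-- The Hessian double sum along a complex line with real direction and base point. -/
theorem sgTaylor_quad {σ : Type} [Fintype σ] (H : Matrix σ σ ℝ) (hH : H.IsSymm) (e w : σ → ℝ)
    (t : ℂ) :
    ∑ i, ∑ j, ((H i j : ℝ) : ℂ) * (t * (e i : ℂ) - (w i : ℂ)) * (t * (e j : ℂ) - (w j : ℂ))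
      = t ^ 2 * ((e ⬝ᵥ (H *ᵥ e) : ℝ) : ℂ) - 2 * t * ((e ⬝ᵥ (H *ᵥ w) : ℝ) : ℂ)
        + ((w ⬝ᵥ (H *ᵥ w) : ℝ) : ℂ) := by
  have hq : ∀ a b : σ → ℝ, ((a ⬝ᵥ (H *ᵥ b) : ℝ) : ℂ)
      = ∑ i, ∑ j, ((H i j : ℝ) : ℂ) * (a i : ℂ) * (b j : ℂ) := by
    intro a b
    simp only [dotProduct, mulVec, Finset.mul_sum]
    push_cast
    refine Finset.sum_congr rfl (fun i _ => Finset.sum_congr rfl (fun j _ => ?_))
    ring
  have hcross : ∑ i, ∑ j, ((H i j : ℝ) : ℂ) * (w i : ℂ) * (e j : ℂ)
      = ∑ i, ∑ j, ((H i j : ℝ) : ℂ) * (e i : ℂ) * (w j : ℂ) := by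
    rw [Finset.sum_comm]
    refine Finset.sum_congr rfl (fun i _ => Finset.sum_congr rfl (fun j _ => ?_))
    rw [hH.apply i j]
    ring
  have hexp : ∑ i, ∑ j, ((H i j : ℝ) : ℂ) * (t * (e i : ℂ) - (w i : ℂ))
        * (t * (e j : ℂ) - (w j : ℂ))
      = t ^ 2 * (∑ i, ∑ j, ((H i j : ℝ) : ℂ) * (e i : ℂ) * (e j : ℂ))
        - t * (∑ i, ∑ j, ((H i j : ℝ) : ℂ) * (e i : ℂ) * (w j : ℂ))
        - t * (∑ i, ∑ j, ((H i j : ℝ) : ℂ) * (w i : ℂ) * (e j : ℂ))
        + ∑ i, ∑ j, ((H i j : ℝ) : ℂ) * (w i : ℂ) * (w j : ℂ) := by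
    simp only [Finset.mul_sum, ← Finset.sum_sub_distrib, ← Finset.sum_add_distrib]
    refine Finset.sum_congr rfl (fun i _ => Finset.sum_congr rfl (fun j _ => ?_))
    ring
  rw [hexp, hcross, hq e e, hq e w, hq w w]
  ring

/-- The pencil through a singular point: the polynomial `t ↦ p (t e - (w - lam x0))`. -/
theorem sgPencil {σ : Type} [Fintype σ] (p : MvPolynomial σ ℝ) (hp : p.IsHomogeneous 3)
    (x0 : σ → ℝ) (hsing : ∀ i, eval x0 (pderiv i p) = 0) (e w : σ → ℝ) (lam : ℝ) (t : ℂ) :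
    aeval (fun i => t * (e i : ℂ) - ((w i - lam * x0 i : ℝ) : ℂ)) p =
      ((eval e p : ℝ) : ℂ) * t ^ 3
        + ((-(∑ i, w i * eval e (pderiv i p)) + lam / 2 * (e ⬝ᵥ (hessAt p x0 *ᵥ e)) : ℝ) : ℂ) * t ^ 2
        + (((∑ i, e i * eval w (pderiv i p)) - lam * (e ⬝ᵥ (hessAt p x0 *ᵥ w)) : ℝ) : ℂ) * t
        + ((-(eval w p) + lam / 2 * (w ⬝ᵥ (hessAt p x0 *ᵥ w)) : ℝ) : ℂ) := by
  have hfun : (fun i => t * (e i : ℂ) - ((w i - lam * x0 i : ℝ) : ℂ))
      = fun i => (lam : ℂ) * algebraMap ℝ ℂ (x0 i) + (t * (e i : ℂ) - (w i : ℂ)) := by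
    funext i
    rw [Complex.coe_algebraMap]
    push_cast
    ring
  rw [hfun, sgTaylor p hp x0 hsing (lam : ℂ) (fun i => t * (e i : ℂ) - (w i : ℂ)),
    sgLine p hp e w t]
  simp only [Complex.coe_algebraMap]
  rw [sgTaylor_quad (hessAt p x0) (hessAt_symm p x0) e w t]
  push_cast
  ring

end Vale.Agent.Lib.P256
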