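import Vale.Agent.Lib.P256.SgNewton
import Vale.Agent.Lib.P256.SgTaylor
import Vale.Agent.Lib.P256.SgFactor
import Vale.Agent.Lib.P256.SgQuad

/-!
# Singular cubics: Hessian of rank one at the singular point

A hyperbolic cubic whose Hessian form at a real singular point is the square of one linear form
splits as that linear form times a hyperbolic quadratic form, and its hyperbolicity cone is the
intersection of a half-space with the cone of the quadratic form.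
-/

namespace Vale.Agent.Lib.P256

open MvPolynomial Matrix

/-- Over the reals the value of a linear form is a dot product. -/
theorem sgRankOne_lf_real {σ : Type} [Fintype σ] (u x : σ → ℝ) : lf u x = u ⬝ᵥ x := by
  simp [lf, dotProduct]

/-- The value of a linear form on the line `t e - x`. -/
theorem sgRankOne_lf_line {σ : Type} [Fintype σ] (u e x : σ → ℝ) (t : ℝ) :
    lf u (fun i => t * e i - x i) = t * (u ⬝ᵥ e) - u ⬝ᵥ x := by
  rw [sgRankOne_lf_real]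
  simp only [dotProduct]
  rw [Finset.mul_sum, ← Finset.sum_sub_distrib]
  apply Finset.sum_congr rfl
  intro k _
  ring

/-- Step (a): the cubic vanishes on the hyperplane `u0 · x = 0`. -/
theorem sgRankOne_vanish {σ : Type} [Fintype σ] (p : MvPolynomial σ ℝ)
    (hp : p.IsHomogeneous 3) (e x0 : σ → ℝ) (hyp : IsHyperbolic p e)
    (hsing : ∀ i, eval x0 (pderiv i p) = 0) (u0 : σ → ℝ) (hu0e : 0 < u0 ⬝ᵥ e)
    (hB : ∀ x : σ → ℝ, e ⬝ᵥ (hessAt p x0 *ᵥ x) = (u0 ⬝ᵥ e) * (u0 ⬝ᵥ x))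
    (hQ : ∀ x : σ → ℝ, x ⬝ᵥ (hessAt p x0 *ᵥ x) = (u0 ⬝ᵥ x) ^ 2)
    (x : σ → ℝ) (hx : u0 ⬝ᵥ x = 0) : eval x p = 0 := by
  have hc : 0 < eval e p := hyp.2.1
  obtain ⟨a, ha⟩ : ∃ a : ℝ, a = u0 ⬝ᵥ e := ⟨_, rfl⟩
  obtain ⟨c0, hc0⟩ : ∃ c0 : ℝ, c0 = -(eval x p) := ⟨_, rfl⟩
  obtain ⟨c1, hc1⟩ : ∃ c1 : ℝ, c1 = ∑ i, e i * eval x (pderiv i p) := ⟨_, rfl⟩
  obtain ⟨c2, hc2⟩ : ∃ c2 : ℝ, c2 = -(∑ i, x i * eval e (pderiv i p)) := ⟨_, rfl⟩
  have ha0 : 0 < a := by rw [ha]; exact hu0e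
  have key : ∀ lam : ℝ, 0 ≤ (-(3 / 2) * c0 * a ^ 2) * lam + (c1 ^ 2 - 3 * c0 * c2) := by
    intro lam
    have hroots : ∀ z : ℂ, ((eval e p : ℝ) : ℂ) * z ^ 3
        + ((-(∑ i, x i * eval e (pderiv i p))
            + lam / 2 * (e ⬝ᵥ (hessAt p x0 *ᵥ e)) : ℝ) : ℂ) * z ^ 2
        + (((∑ i, e i * eval x (pderiv i p))
            - lam * (e ⬝ᵥ (hessAt p x0 *ᵥ x)) : ℝ) : ℂ) * z
        + ((-(eval x p) + lam / 2 * (x ⬝ᵥ (hessAt p x0 *ᵥ x)) : ℝ) : ℂ) = 0 → z.im = 0 := by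
      intro z hz
      apply hyp.2.2 (fun i => x i - lam * x0 i) z
      rw [← hz]
      exact sgPencil p hp x0 hsing e x lam z
    have h3 := sgNewton_two _ _ _ _ hc hroots
    rw [hB x, hQ x, hQ e, hx, ← ha, ← hc0, ← hc1, ← hc2] at h3
    nlinarith [h3]
  have hlin := sgNewton_lin _ _ key
  have h4 : c0 * a ^ 2 = 0 := by linarith
  have ha2 : a ^ 2 ≠ 0 := pow_ne_zero 2 (ne_of_gt ha0)
  have h5 : c0 = 0 := by
    rcases mul_eq_zero.mp h4 with h | h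
    · exact h
    · exact absurd h ha2
  rw [hc0] at h5
  linarith

theorem sgRankOne {σ : Type} [Fintype σ] [DecidableEq σ] (p : MvPolynomial σ ℝ)
    (hp : p.IsHomogeneous 3) (e x0 : σ → ℝ) (hyp : IsHyperbolic p e)
    (hsing : ∀ i, eval x0 (pderiv i p) = 0) (u0 : σ → ℝ) (hu0e : 0 < u0 ⬝ᵥ e)
    (hB : ∀ x : σ → ℝ, e ⬝ᵥ (hessAt p x0 *ᵥ x) = (u0 ⬝ᵥ e) * (u0 ⬝ᵥ x))
    (hQ : ∀ x : σ → ℝ, x ⬝ᵥ (hessAt p x0 *ᵥ x) = (u0 ⬝ᵥ x) ^ 2) :
    IsSpectrahedron (hyperbolicityCone p e) := by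
  -- (a), (b): factorisation
  have hvan : ∀ x : σ → ℝ, u0 ⬝ᵥ x = 0 → eval x p = 0 :=
    fun x hx => sgRankOne_vanish p hp e x0 hyp hsing u0 hu0e hB hQ x hx
  obtain ⟨g, hg, hpg⟩ := sgFactor p hp u0 e (ne_of_gt hu0e) hvan
  have hevalR : ∀ y : σ → ℝ, eval y p = (u0 ⬝ᵥ y) * eval y g := by
    intro y
    rw [hpg, map_mul, cliffPoly_eval_linForm, sgRankOne_lf_real]
  have hevalC : ∀ z : σ → ℂ, aeval z p = lf u0 z * aeval z g := by
    intro z
    rw [hpg, map_mul, cliffPoly_aeval_linForm]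
  -- (c): the quadratic factor is hyperbolic
  have hge : 0 < eval e g := by
    have h1 : 0 < (u0 ⬝ᵥ e) * eval e g := by
      rw [← hevalR e]
      exact hyp.2.1
    by_contra hneg
    have h2 : eval e g ≤ 0 := not_lt.mp hneg
    nlinarith [mul_nonneg hu0e.le (neg_nonneg.mpr h2)]
  have hypg : IsHyperbolic g e := by
    refine ⟨⟨2, hg⟩, hge, ?_⟩
    intro x t ht
    apply hyp.2.2 x t
    rw [hevalC, ht, mul_zero]
  -- (d): the cone
  have hline : ∀ (x : σ → ℝ) (t : ℝ), eval (fun i => t * e i - x i) p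
      = (t * (u0 ⬝ᵥ e) - u0 ⬝ᵥ x) * eval (fun i => t * e i - x i) g := by
    intro x t
    rw [hevalR]
    congr 1
    have h1 := sgRankOne_lf_line u0 e x t
    rw [sgRankOne_lf_real] at h1
    exact h1
  have hcone : hyperbolicityCone p e = {x : σ → ℝ | 0 ≤ u0 ⬝ᵥ x} ∩ hyperbolicityCone g e := by
    ext x
    simp only [hyperbolicityCone, Set.mem_inter_iff, Set.mem_ofPred_eq]
    constructor
    · intro hxp
      refine ⟨?_, ?_⟩
      · have h1 : eval (fun i => (u0 ⬝ᵥ x) / (u0 ⬝ᵥ e) * e i - x i) p = 0 := by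
          rw [hline x ((u0 ⬝ᵥ x) / (u0 ⬝ᵥ e))]
          rw [div_mul_cancel₀ _ (ne_of_gt hu0e), sub_self, zero_mul]
        have h2 := hxp _ h1
        have h3 : u0 ⬝ᵥ x = (u0 ⬝ᵥ x) / (u0 ⬝ᵥ e) * (u0 ⬝ᵥ e) :=
          (div_mul_cancel₀ _ (ne_of_gt hu0e)).symm
        rw [h3]
        exact mul_nonneg h2 hu0e.le
      · intro t ht
        apply hxp t
        rw [hline x t, ht, mul_zero]
    · rintro ⟨hx0, hxg⟩ t ht
      rw [hline x t] at ht
      rcases mul_eq_zero.mp ht with h | h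
      · have h1 : t * (u0 ⬝ᵥ e) = u0 ⬝ᵥ x := by linarith
        by_contra hneg
        have hneg' : t < 0 := not_le.mp hneg
        have h2 : t * (u0 ⬝ᵥ e) < 0 := mul_neg_of_neg_of_pos hneg' hu0e
        linarith
      · exact hxg t h
  -- (e)
  rw [hcone]
  exact isSpectrahedron_inter (isSpectrahedron_halfspace u0) (sgQuad g hg e hypg)

end Vale.Agent.Lib.P256
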