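import Vale.Agent.Lib.P256.SgNewton
import Vale.Agent.Lib.P256.SgTaylor

/-!
# Singular cubics: the Hessian form at a singular point is Lorentzian

For a hyperbolic cubic with a singular point whose Hessian there is nonzero, the Hessian
quadratic form is nonzero at the direction of hyperbolicity and satisfies the reverse
Cauchy-Schwarz inequality.
-/

namespace Vale.Agent.Lib.P256
open MvPolynomial Matrix

theorem sgSign_symm {σ : Type} [Fintype σ] (H : Matrix σ σ ℝ) (hsym : H.IsSymm)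
    (u w : σ → ℝ) : w ⬝ᵥ (H *ᵥ u) = u ⬝ᵥ (H *ᵥ w) := by
  rw [Matrix.dotProduct_mulVec, ← Matrix.mulVec_transpose, hsym.eq, dotProduct_comm]

theorem sgSign_bil {σ : Type} [Fintype σ] (H : Matrix σ σ ℝ) (u e w : σ → ℝ) (τ : ℝ) :
    u ⬝ᵥ (H *ᵥ (w - τ • e)) = u ⬝ᵥ (H *ᵥ w) - τ * (u ⬝ᵥ (H *ᵥ e)) := by
  rw [Matrix.mulVec_sub, Matrix.mulVec_smul, dotProduct_sub, dotProduct_smul, smul_eq_mul]

theorem sgSign_quad {σ : Type} [Fintype σ] (H : Matrix σ σ ℝ) (hsym : H.IsSymm)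
    (e w : σ → ℝ) (τ : ℝ) :
    (w - τ • e) ⬝ᵥ (H *ᵥ (w - τ • e))
      = w ⬝ᵥ (H *ᵥ w) - 2 * τ * (e ⬝ᵥ (H *ᵥ w)) + τ ^ 2 * (e ⬝ᵥ (H *ᵥ e)) := by
  rw [sub_dotProduct, smul_dotProduct, smul_eq_mul, sgSign_bil H w e w τ,
    sgSign_bil H e e w τ, sgSign_symm H hsym e w]
  ring

theorem sgSign_zero_of_quad {σ : Type} [Fintype σ] (H : Matrix σ σ ℝ) (hsym : H.IsSymm)
    (hQ : ∀ w : σ → ℝ, w ⬝ᵥ (H *ᵥ w) = 0) : H = 0 := by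
  classical
  have hB : ∀ u w : σ → ℝ, u ⬝ᵥ (H *ᵥ w) = 0 := by
    intro u w
    have h1 := sgSign_quad H hsym u w (-1)
    have h2 := hQ (w - (-1 : ℝ) • u)
    have h3 := hQ w
    have h4 := hQ u
    rw [h2, h3, h4] at h1
    linarith
  ext i j
  have h := hB (Pi.single i 1) (Pi.single j 1)
  rw [Matrix.mulVec_single_one, single_one_dotProduct] at h
  exact h

theorem sgSign_core {σ : Type} [Fintype σ] (H : Matrix σ σ ℝ) (hsym : H.IsSymm) (hH : H ≠ 0)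
    (e : σ → ℝ) (c3 : ℝ) (hc3 : 0 < c3) (c2 c1 c0 : (σ → ℝ) → ℝ)
    (hc2 : ∀ w, c2 (w - (1 : ℝ) • e) = c2 w + 3 * c3)
    (hN1 : ∀ (w : σ → ℝ) (lam : ℝ), 3 * c3 * (c1 w - lam * (e ⬝ᵥ (H *ᵥ w)))
      ≤ (c2 w + lam / 2 * (e ⬝ᵥ (H *ᵥ e))) ^ 2)
    (hN2 : ∀ (w : σ → ℝ) (lam : ℝ),
      3 * (c0 w + lam / 2 * (w ⬝ᵥ (H *ᵥ w))) * (c2 w + lam / 2 * (e ⬝ᵥ (H *ᵥ e)))
        ≤ (c1 w - lam * (e ⬝ᵥ (H *ᵥ w))) ^ 2) :
    e ⬝ᵥ (H *ᵥ e) ≠ 0 ∧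
      ∀ w : σ → ℝ, (e ⬝ᵥ (H *ᵥ e)) * (w ⬝ᵥ (H *ᵥ w)) ≤ (e ⬝ᵥ (H *ᵥ w)) ^ 2 := by
  have hQe : e ⬝ᵥ (H *ᵥ e) ≠ 0 := by
    intro h0
    have hB : ∀ w : σ → ℝ, e ⬝ᵥ (H *ᵥ w) = 0 := by
      intro w
      have h1 : ∀ lam : ℝ, 0 ≤ (3 * c3 * (e ⬝ᵥ (H *ᵥ w))) * lam
          + (c2 w ^ 2 - 3 * c3 * c1 w) := by
        intro lam
        have h := hN1 w lam
        rw [h0] at h
        linarith
      have h2 := sgNewton_lin _ _ h1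
      have h3 : 3 * c3 ≠ 0 := by positivity
      exact (mul_eq_zero.mp h2).resolve_left h3
    have hQc : ∀ w : σ → ℝ, (w ⬝ᵥ (H *ᵥ w)) * c2 w = 0 := by
      intro w
      have h1 : ∀ lam : ℝ, 0 ≤ (-(3 / 2) * ((w ⬝ᵥ (H *ᵥ w)) * c2 w)) * lam
          + (c1 w ^ 2 - 3 * c0 w * c2 w) := by
        intro lam
        have h := hN2 w lam
        rw [h0, hB w] at h
        linarith
      have h2 := sgNewton_lin _ _ h1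
      linarith
    have hQ : ∀ w : σ → ℝ, w ⬝ᵥ (H *ᵥ w) = 0 := by
      intro w
      have h1 := hQc w
      have h2 := hQc (w - (1 : ℝ) • e)
      rw [sgSign_quad H hsym e w 1, hB w, h0, hc2 w] at h2
      have h3 : (w ⬝ᵥ (H *ᵥ w)) * (3 * c3) = 0 := by linarith
      have h4 : 3 * c3 ≠ 0 := by positivity
      exact (mul_eq_zero.mp h3).resolve_right h4
    exact hH (sgSign_zero_of_quad H hsym hQ)
  refine ⟨hQe, ?_⟩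
  have h34 : ∀ w : σ → ℝ,
      3 / 4 * ((e ⬝ᵥ (H *ᵥ e)) * (w ⬝ᵥ (H *ᵥ w))) ≤ (e ⬝ᵥ (H *ᵥ w)) ^ 2 := by
    intro w
    have h1 : ∀ lam : ℝ, 0 ≤
        ((e ⬝ᵥ (H *ᵥ w)) ^ 2 - 3 / 4 * ((e ⬝ᵥ (H *ᵥ e)) * (w ⬝ᵥ (H *ᵥ w)))) * lam ^ 2
        + (-2 * c1 w * (e ⬝ᵥ (H *ᵥ w))
            - 3 / 2 * (c0 w * (e ⬝ᵥ (H *ᵥ e)) + c2 w * (w ⬝ᵥ (H *ᵥ w)))) * lam
        + (c1 w ^ 2 - 3 * c0 w * c2 w) := by
      intro lam
      have h := hN2 w lam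
      linarith
    have h2 := sgNewton_lead _ _ _ h1
    linarith
  intro w
  obtain ⟨τ, hτ⟩ : ∃ τ : ℝ, τ = (e ⬝ᵥ (H *ᵥ w)) / (e ⬝ᵥ (H *ᵥ e)) := ⟨_, rfl⟩
  have hτ1 : τ * (e ⬝ᵥ (H *ᵥ e)) = e ⬝ᵥ (H *ᵥ w) := by
    rw [hτ]
    field_simp
  have h1 := h34 (w - τ • e)
  rw [sgSign_bil H e e w τ, sgSign_quad H hsym e w τ] at h1
  have h2 : (e ⬝ᵥ (H *ᵥ e))
      * (w ⬝ᵥ (H *ᵥ w) - 2 * τ * (e ⬝ᵥ (H *ᵥ w)) + τ ^ 2 * (e ⬝ᵥ (H *ᵥ e)))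
      = (e ⬝ᵥ (H *ᵥ e)) * (w ⬝ᵥ (H *ᵥ w)) - (e ⬝ᵥ (H *ᵥ w)) ^ 2 := by
    rw [← hτ1]
    ring
  have h3 : e ⬝ᵥ (H *ᵥ w) - τ * (e ⬝ᵥ (H *ᵥ e)) = 0 := by
    rw [hτ1]
    ring
  rw [h2, h3] at h1
  linarith

theorem sgSign_euler {σ : Type} [Fintype σ] (p : MvPolynomial σ ℝ) (hp : p.IsHomogeneous 3)
    (e : σ → ℝ) : ∑ i, e i * eval e (pderiv i p) = 3 * eval e p := by
  have h := congrArg (eval e) hp.sum_X_mul_pderiv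
  rw [map_sum] at h
  simp only [map_mul, eval_X, nsmul_eq_mul, Nat.cast_ofNat, map_ofNat] at h
  exact h

theorem sgSign {σ : Type} [Fintype σ] (p : MvPolynomial σ ℝ) (hp : p.IsHomogeneous 3)
    (e x0 : σ → ℝ) (hyp : IsHyperbolic p e) (hsing : ∀ i, eval x0 (pderiv i p) = 0)
    (hH : hessAt p x0 ≠ 0) :
    e ⬝ᵥ (hessAt p x0 *ᵥ e) ≠ 0 ∧
    ∀ w : σ → ℝ, (e ⬝ᵥ (hessAt p x0 *ᵥ e)) * (w ⬝ᵥ (hessAt p x0 *ᵥ w))
      ≤ (e ⬝ᵥ (hessAt p x0 *ᵥ w)) ^ 2 := by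
  obtain ⟨_, hc3, hroots⟩ := hyp
  have hcub : ∀ (w : σ → ℝ) (lam : ℝ) (z : ℂ),
      ((eval e p : ℝ) : ℂ) * z ^ 3
        + ((-(∑ i, w i * eval e (pderiv i p))
            + lam / 2 * (e ⬝ᵥ (hessAt p x0 *ᵥ e)) : ℝ) : ℂ) * z ^ 2
        + (((∑ i, e i * eval w (pderiv i p))
            - lam * (e ⬝ᵥ (hessAt p x0 *ᵥ w)) : ℝ) : ℂ) * z
        + ((-(eval w p) + lam / 2 * (w ⬝ᵥ (hessAt p x0 *ᵥ w)) : ℝ) : ℂ) = 0 → z.im = 0 := by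
    intro w lam z hz
    exact hroots (fun i => w i - lam * x0 i) z ((sgPencil p hp x0 hsing e w lam z).trans hz)
  have hc2 : ∀ w : σ → ℝ, -(∑ i, (w - (1 : ℝ) • e) i * eval e (pderiv i p))
      = -(∑ i, w i * eval e (pderiv i p)) + 3 * eval e p := by
    intro w
    have hi : ∀ i, (w - (1 : ℝ) • e) i * eval e (pderiv i p)
        = w i * eval e (pderiv i p) - e i * eval e (pderiv i p) := by
      intro i
      simp only [Pi.sub_apply, Pi.smul_apply, smul_eq_mul]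
      ring
    rw [Finset.sum_congr rfl (fun i _ => hi i), Finset.sum_sub_distrib, sgSign_euler p hp e]
    ring
  exact sgSign_core (hessAt p x0) (hessAt_symm p x0) hH e (eval e p) hc3
    (fun w => -(∑ i, w i * eval e (pderiv i p))) (fun w => ∑ i, e i * eval w (pderiv i p))
    (fun w => -(eval w p)) hc2
    (fun w lam => sgNewton_one _ _ _ _ hc3 (hcub w lam))
    (fun w lam => sgNewton_two _ _ _ _ hc3 (hcub w lam))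

end Vale.Agent.Lib.P256
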