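import Vale.Agent.Lib.P256.SgCore
namespace Vale.Agent.Lib.P256
open MvPolynomial Matrix

/-- Both factors are positive when the product and a positively weighted sum are positive. -/
theorem sgWedge_pos_of_mul_pos {A B R : ℝ} (hR : 0 < R) (hAB : 0 < A * B)
    (hs : 0 < R * A + B) : 0 < A ∧ 0 < B := by
  rcases mul_pos_iff.mp hAB with h | h
  · exact h
  · exfalso
    have h1 := mul_neg_of_pos_of_neg hR h.1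
    linarith [h.2]

/-- A nonzero covector vanishing on a forward timelike vector is spacelike. -/
theorem sgWedge_spacelike {c0 c1 c2 ε0 ε1 ε2 : ℝ} (hc : ¬ (c0 = 0 ∧ c1 = 0 ∧ c2 = 0))
    (hε0 : 0 < ε0) (hε : ε1 ^ 2 + ε2 ^ 2 < ε0 ^ 2) (hrel : c0 * ε0 + c1 * ε1 + c2 * ε2 = 0) :
    c0 ^ 2 < c1 ^ 2 + c2 ^ 2 := by
  by_contra hcon
  push Not at hcon
  have hCS : (c1 * ε1 + c2 * ε2) ^ 2 ≤ (c1 ^ 2 + c2 ^ 2) * (ε1 ^ 2 + ε2 ^ 2) := by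
    nlinarith [sq_nonneg (c1 * ε2 - c2 * ε1)]
  have h0 : c0 * ε0 = -(c1 * ε1 + c2 * ε2) := by linarith
  have h1 : (c0 * ε0) ^ 2 ≤ (c1 ^ 2 + c2 ^ 2) * (ε1 ^ 2 + ε2 ^ 2) := by
    rw [h0, neg_sq]; exact hCS
  rcases (add_nonneg (sq_nonneg c1) (sq_nonneg c2)).eq_or_lt with hz | hpos
  · have hc1' : c1 ^ 2 = 0 := by linarith [sq_nonneg c1, sq_nonneg c2]
    have hc2' : c2 ^ 2 = 0 := by linarith [sq_nonneg c1, sq_nonneg c2]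
    have hc1 : c1 = 0 := by simpa using hc1'
    have hc2 : c2 = 0 := by simpa using hc2'
    have hc0 : c0 = 0 := by
      have h2 : c0 * ε0 = 0 := by rw [h0, hc1, hc2]; ring
      rcases mul_eq_zero.mp h2 with h | h
      · exact h
      · exact absurd h hε0.ne'
    exact hc ⟨hc0, hc1, hc2⟩
  · have h2 : (c1 ^ 2 + c2 ^ 2) * (ε1 ^ 2 + ε2 ^ 2) < (c1 ^ 2 + c2 ^ 2) * ε0 ^ 2 :=
      mul_lt_mul_of_pos_left hε hpos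
    have h3 : (c1 ^ 2 + c2 ^ 2) * ε0 ^ 2 ≤ c0 ^ 2 * ε0 ^ 2 :=
      mul_le_mul_of_nonneg_right hcon (sq_nonneg ε0)
    nlinarith

theorem sgWedge {σ : Type} [Fintype σ] (e u0 u1 u2 : σ → ℝ)
    (he : Real.sqrt ((u1 ⬝ᵥ e) ^ 2 + (u2 ⬝ᵥ e) ^ 2) < u0 ⬝ᵥ e)
    (hnd : ∃ x : σ → ℝ, (u0 ⬝ᵥ x) ^ 2 < (u1 ⬝ᵥ x) ^ 2 + (u2 ⬝ᵥ x) ^ 2)
    (hdep : ¬ LinearIndependent ℝ ![u0, u1, u2]) :
    ∃ a b ga gb : σ → ℝ, a ⬝ᵥ ga = 1 ∧ a ⬝ᵥ gb = 0 ∧ b ⬝ᵥ ga = 0 ∧ b ⬝ᵥ gb = 1 ∧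
      0 < a ⬝ᵥ e ∧ 0 < b ⬝ᵥ e ∧
      (∀ x : σ → ℝ, (u0 ⬝ᵥ x) ^ 2 - (u1 ⬝ᵥ x) ^ 2 - (u2 ⬝ᵥ x) ^ 2 = (a ⬝ᵥ x) * (b ⬝ᵥ x)) ∧
      (∀ x : σ → ℝ, 0 ≤ a ⬝ᵥ x → 0 ≤ b ⬝ᵥ x → 0 ≤ u0 ⬝ᵥ x) := by
  obtain ⟨x1, hx1⟩ := hnd
  rw [Fintype.not_linearIndependent_iff] at hdep
  obtain ⟨g, hg, hgne⟩ := hdep
  rw [Fin.sum_univ_three] at hg
  have hrel : ∀ x : σ → ℝ, g 0 * (u0 ⬝ᵥ x) + g 1 * (u1 ⬝ᵥ x) + g 2 * (u2 ⬝ᵥ x) = 0 := by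
    intro x
    have h := congrArg (fun v => v ⬝ᵥ x) hg
    simpa [add_dotProduct, smul_dotProduct] using h
  have hcne : ¬ (g 0 = 0 ∧ g 1 = 0 ∧ g 2 = 0) := by
    rintro ⟨h0, h1, h2⟩
    obtain ⟨i, hi⟩ := hgne
    fin_cases i
    · exact hi h0
    · exact hi h1
    · exact hi h2
  have hε0 : 0 < u0 ⬝ᵥ e := lt_of_le_of_lt (Real.sqrt_nonneg _) he
  have hε : (u1 ⬝ᵥ e) ^ 2 + (u2 ⬝ᵥ e) ^ 2 < (u0 ⬝ᵥ e) ^ 2 := (Real.sqrt_lt' hε0).mp he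
  have hsp := sgWedge_spacelike hcne hε0 hε (hrel e)
  have hR : 0 < g 1 ^ 2 + g 2 ^ 2 := lt_of_le_of_lt (sq_nonneg (g 0)) hsp
  have hD : 0 < g 1 ^ 2 + g 2 ^ 2 - g 0 ^ 2 := by linarith
  obtain ⟨sD, hsD, hsD2⟩ : ∃ sD : ℝ, 0 < sD ∧ sD ^ 2 = g 1 ^ 2 + g 2 ^ 2 - g 0 ^ 2 :=
    ⟨Real.sqrt _, Real.sqrt_pos.mpr hD, Real.sq_sqrt hD.le⟩
  obtain ⟨a, hadef⟩ : ∃ a : σ → ℝ,
      a = (1 / (g 1 ^ 2 + g 2 ^ 2)) • (sD • u0 - ((-g 2) • u1 + g 1 • u2)) := ⟨_, rfl⟩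
  obtain ⟨b, hbdef⟩ : ∃ b : σ → ℝ, b = sD • u0 + ((-g 2) • u1 + g 1 • u2) := ⟨_, rfl⟩
  have ha : ∀ x : σ → ℝ, a ⬝ᵥ x
      = (sD * (u0 ⬝ᵥ x) - (-g 2 * (u1 ⬝ᵥ x) + g 1 * (u2 ⬝ᵥ x))) / (g 1 ^ 2 + g 2 ^ 2) := by
    intro x
    rw [hadef]
    simp only [smul_dotProduct, sub_dotProduct, add_dotProduct, smul_eq_mul]
    ring
  have hb : ∀ x : σ → ℝ, b ⬝ᵥ x
      = sD * (u0 ⬝ᵥ x) + (-g 2 * (u1 ⬝ᵥ x) + g 1 * (u2 ⬝ᵥ x)) := by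
    intro x
    rw [hbdef]
    simp only [smul_dotProduct, add_dotProduct, smul_eq_mul]
  have hprod : ∀ x : σ → ℝ,
      (u0 ⬝ᵥ x) ^ 2 - (u1 ⬝ᵥ x) ^ 2 - (u2 ⬝ᵥ x) ^ 2 = (a ⬝ᵥ x) * (b ⬝ᵥ x) := by
    intro x
    rw [ha, hb, div_mul_eq_mul_div, eq_div_iff hR.ne']
    linear_combination (-((u0 ⬝ᵥ x) ^ 2)) * hsD2
      + (g 0 * (u0 ⬝ᵥ x) - g 1 * (u1 ⬝ᵥ x) - g 2 * (u2 ⬝ᵥ x)) * hrel x
  have hsum : ∀ x : σ → ℝ,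
      (g 1 ^ 2 + g 2 ^ 2) * (a ⬝ᵥ x) + b ⬝ᵥ x = 2 * sD * (u0 ⬝ᵥ x) := by
    intro x
    rw [ha, hb, mul_div_cancel₀ _ hR.ne']
    ring
  have hq_e : 0 < (a ⬝ᵥ e) * (b ⬝ᵥ e) := by
    rw [← hprod e]; linarith
  have hsum_e : 0 < (g 1 ^ 2 + g 2 ^ 2) * (a ⬝ᵥ e) + b ⬝ᵥ e := by
    rw [hsum e]; positivity
  obtain ⟨hA, hB⟩ := sgWedge_pos_of_mul_pos hR hq_e hsum_e
  have hPQ : (a ⬝ᵥ x1) * (b ⬝ᵥ x1) < 0 := by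
    rw [← hprod x1]; linarith
  have hdet : (a ⬝ᵥ e) * (b ⬝ᵥ x1) - (a ⬝ᵥ x1) * (b ⬝ᵥ e) ≠ 0 := by
    rcases mul_neg_iff.mp hPQ with h | h
    · have h1 := mul_neg_of_pos_of_neg hA h.2
      have h2 := mul_pos h.1 hB
      linarith
    · have h1 := mul_pos hA h.2
      have h2 := mul_neg_of_neg_of_pos h.1 hB
      linarith
  refine ⟨a, b,
    (1 / ((a ⬝ᵥ e) * (b ⬝ᵥ x1) - (a ⬝ᵥ x1) * (b ⬝ᵥ e))) • ((b ⬝ᵥ x1) • e - (b ⬝ᵥ e) • x1),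
    (1 / ((a ⬝ᵥ e) * (b ⬝ᵥ x1) - (a ⬝ᵥ x1) * (b ⬝ᵥ e))) • ((a ⬝ᵥ e) • x1 - (a ⬝ᵥ x1) • e),
    ?_, ?_, ?_, ?_, hA, hB, hprod, ?_⟩
  · simp only [dotProduct_smul, dotProduct_sub, smul_eq_mul]
    field_simp
  · simp only [dotProduct_smul, dotProduct_sub, smul_eq_mul]
    field_simp
    ring
  · simp only [dotProduct_smul, dotProduct_sub, smul_eq_mul]
    field_simp
    ring
  · simp only [dotProduct_smul, dotProduct_sub, smul_eq_mul]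
    field_simp
  · intro x hax hbx
    have h1 : 0 ≤ (g 1 ^ 2 + g 2 ^ 2) * (a ⬝ᵥ x) + b ⬝ᵥ x :=
      add_nonneg (mul_nonneg hR.le hax) hbx
    rw [hsum x] at h1
    have h2 : (0 : ℝ) < 2 * sD := by positivity
    exact nonneg_of_mul_nonneg_right h1 h2

end Vale.Agent.Lib.P256
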