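import Vale.Agent.Lib.P256.SgClosure
import Vale.Agent.Lib.P256.SgDual
import Vale.Agent.Lib.P256.SgWedge
import Vale.Agent.Lib.P256.SgEmbed3
import Vale.Agent.Lib.P256.SgEmbed2
import Vale.Agent.Lib.P256.SgSign
import Vale.Agent.Lib.P256.SgNec
import Vale.Agent.Lib.P256.SgLorentz
import Vale.Agent.Lib.P256.SgRankOne

/-!
# Hyperbolic cubics with a singular point of Hessian rank at most three

Coordinate-free statements: a criterion (a cubic form that is positive at `e` and nonpositive on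
the boundary of a circular cone around `e` is hyperbolic with a spectrahedral cone) and the
theorem on singular points (a hyperbolic cubic with a real singular point at which the Hessian is
nonzero of rank at most three has a spectrahedral hyperbolicity cone).
-/

namespace Vale.Agent.Lib.P256

open MvPolynomial Matrix

/-- Cone criterion: a cubic form `f` with `f e > 0` that is nonpositive on the forward boundary
of the circular cone `{x | u0·x ≥ sqrt ((u1·x)^2 + (u2·x)^2)}` (which contains `e` in its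
interior and is not a half-space) is hyperbolic with respect to `e`, and its hyperbolicity cone
is a spectrahedron. -/
theorem cone_criterion {σ : Type} [Fintype σ] [DecidableEq σ] (f : MvPolynomial σ ℝ)
    (hf : f.IsHomogeneous 3) (e u0 u1 u2 : σ → ℝ)
    (he : Real.sqrt ((u1 ⬝ᵥ e) ^ 2 + (u2 ⬝ᵥ e) ^ 2) < u0 ⬝ᵥ e)
    (hnd : ∃ x : σ → ℝ, (u0 ⬝ᵥ x) ^ 2 < (u1 ⬝ᵥ x) ^ 2 + (u2 ⬝ᵥ x) ^ 2)
    (hfe : 0 < eval e f)
    (hbd : ∀ x : σ → ℝ, 0 < u0 ⬝ᵥ x → (u0 ⬝ᵥ x) ^ 2 = (u1 ⬝ᵥ x) ^ 2 + (u2 ⬝ᵥ x) ^ 2 →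
      eval x f ≤ 0) :
    IsHyperbolic f e ∧ IsSpectrahedron (hyperbolicityCone f e) := by
  have hbd' := sgClosure f e u0 u1 u2 he hnd hbd
  by_cases hli : LinearIndependent ℝ ![u0, u1, u2]
  · obtain ⟨g, hg⟩ := sgDual3 ![u0, u1, u2] hli
    exact sgEmbed3 f hf e ![u0, u1, u2] g hg he hfe hbd'
  · obtain ⟨a, b, ga, gb, haa, hab, hba, hbb, hae, hbe, hq, hpos⟩ := sgWedge e u0 u1 u2 he hnd hli
    refine sgEmbed2 f hf e a b ga gb haa hab hba hbb hae hbe hfe ?_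
    intro x hax hbx habx
    refine hbd' x (hpos x hax hbx) ?_
    have := hq x
    rw [habx] at this
    linarith

/-- The singular-point theorem, with the sign of the Hessian form normalised. -/
theorem singular_cubic_aux {σ : Type} [Fintype σ] [DecidableEq σ] (p : MvPolynomial σ ℝ)
    (hp : p.IsHomogeneous 3) (e x0 : σ → ℝ) (hyp : IsHyperbolic p e)
    (hsing : ∀ i, eval x0 (pderiv i p) = 0)
    (hQe : 0 < e ⬝ᵥ (hessAt p x0 *ᵥ e))
    (hcs : ∀ w : σ → ℝ, (e ⬝ᵥ (hessAt p x0 *ᵥ e)) * (w ⬝ᵥ (hessAt p x0 *ᵥ w))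
      ≤ (e ⬝ᵥ (hessAt p x0 *ᵥ w)) ^ 2)
    (hrank : (hessAt p x0).rank ≤ 3) :
    IsSpectrahedron (hyperbolicityCone p e) := by
  obtain ⟨u0, u1, u2, h0, h1, h2, hB, hQ⟩ :=
    sgLorentz (hessAt p x0) (hessAt_symm p x0) e hQe hcs hrank
  by_cases hnd : ∃ x : σ → ℝ, (u0 ⬝ᵥ x) ^ 2 < (u1 ⬝ᵥ x) ^ 2 + (u2 ⬝ᵥ x) ^ 2
  · refine (cone_criterion p hp e u0 u1 u2 ?_ hnd hyp.2.1 ?_).2
    · rw [h1, h2]
      simpa using h0
    · intro x hx0 hxn
      apply sgNec p hp e x0 hyp hsing hQe x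
      · rw [hQ x]; linarith
      · rw [hB x]; positivity
  · push Not at hnd
    have hQ' : ∀ x : σ → ℝ, x ⬝ᵥ (hessAt p x0 *ᵥ x) = (u0 ⬝ᵥ x) ^ 2 := by
      intro x
      have hx := hnd (x - (u0 ⬝ᵥ x / u0 ⬝ᵥ e) • e)
      have e0 : u0 ⬝ᵥ (x - (u0 ⬝ᵥ x / u0 ⬝ᵥ e) • e) = 0 := by
        rw [dotProduct_sub, dotProduct_smul, smul_eq_mul]
        field_simp
        ring
      have e1 : u1 ⬝ᵥ (x - (u0 ⬝ᵥ x / u0 ⬝ᵥ e) • e) = u1 ⬝ᵥ x := by
        rw [dotProduct_sub, dotProduct_smul, h1]; simp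
      have e2 : u2 ⬝ᵥ (x - (u0 ⬝ᵥ x / u0 ⬝ᵥ e) • e) = u2 ⬝ᵥ x := by
        rw [dotProduct_sub, dotProduct_smul, h2]; simp
      rw [e0, e1, e2] at hx
      have h1' : u1 ⬝ᵥ x = 0 := by nlinarith [sq_nonneg (u1 ⬝ᵥ x), sq_nonneg (u2 ⬝ᵥ x)]
      have h2' : u2 ⬝ᵥ x = 0 := by nlinarith [sq_nonneg (u1 ⬝ᵥ x), sq_nonneg (u2 ⬝ᵥ x)]
      rw [hQ x, h1', h2']
      ring
    exact sgRankOne p hp e x0 hyp hsing u0 h0 hB hQ'

/-- Singular cubics: a hyperbolic cubic with a real singular point `x0` at which the Hessian is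
nonzero of rank at most three has a spectrahedral hyperbolicity cone, and `x0` or `-x0` lies in
that cone. -/
theorem singular_cubic {σ : Type} [Fintype σ] [DecidableEq σ] (p : MvPolynomial σ ℝ)
    (hp : p.IsHomogeneous 3) (e x0 : σ → ℝ) (hyp : IsHyperbolic p e)
    (hsing : ∀ i, eval x0 (pderiv i p) = 0) (hH : hessAt p x0 ≠ 0)
    (hrank : (hessAt p x0).rank ≤ 3) :
    IsSpectrahedron (hyperbolicityCone p e) ∧
      (x0 ∈ hyperbolicityCone p e ∨ -x0 ∈ hyperbolicityCone p e) := by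
  obtain ⟨hQe, hcs⟩ := sgSign p hp e x0 hyp hsing hH
  rcases lt_or_gt_of_ne hQe with hneg | hpos
  · have hs' := sgSing_neg p hp x0 hsing
    have hH' : hessAt p (-x0) = -hessAt p x0 := hessAt_neg p hp x0
    have hQe' : 0 < e ⬝ᵥ (hessAt p (-x0) *ᵥ e) := by
      rw [hH', neg_mulVec, dotProduct_neg]; linarith
    have hcs' : ∀ w : σ → ℝ, (e ⬝ᵥ (hessAt p (-x0) *ᵥ e)) * (w ⬝ᵥ (hessAt p (-x0) *ᵥ w))
        ≤ (e ⬝ᵥ (hessAt p (-x0) *ᵥ w)) ^ 2 := by
      intro w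
      rw [hH']
      simp only [neg_mulVec, dotProduct_neg]
      have := hcs w
      nlinarith
    have hrank' : (hessAt p (-x0)).rank ≤ 3 := by
      rw [hH', sgRank_neg]; exact hrank
    exact ⟨singular_cubic_aux p hp e (-x0) hyp hs' hQe' hcs' hrank',
      Or.inr (sgNode_mem p hp e (-x0) hyp hs' hQe')⟩
  · exact ⟨singular_cubic_aux p hp e x0 hyp hsing hpos hcs hrank,
      Or.inl (sgNode_mem p hp e x0 hyp hsing hpos)⟩

end Vale.Agent.Lib.P256
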