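import Vale.Agent.Lib.P256.SgCore
namespace Vale.Agent.Lib.P256
open MvPolynomial Matrix

/-- First Newton inequality for a real cubic with positive leading coefficient all of whose
complex roots are real. -/
theorem sgNewton_one (c p q g : ℝ) (hc : 0 < c)
    (h : ∀ z : ℂ, (c : ℂ) * z ^ 3 + (p : ℂ) * z ^ 2 + (q : ℂ) * z + (g : ℂ) = 0 → z.im = 0) :
    3 * c * q ≤ p ^ 2 := by
  by_contra hcon
  obtain ⟨z, hz, hroot⟩ := r2Root_key c p q g hc (not_le.mp hcon)
  exact hz (h z hroot)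

/-- Second Newton inequality for a real cubic with positive leading coefficient all of whose
complex roots are real. -/
theorem sgNewton_two (c p q g : ℝ) (hc : 0 < c)
    (h : ∀ z : ℂ, (c : ℂ) * z ^ 3 + (p : ℂ) * z ^ 2 + (q : ℂ) * z + (g : ℂ) = 0 → z.im = 0) :
    3 * g * p ≤ q ^ 2 := by
  have _hc := hc
  by_contra hcon
  have hlt : q ^ 2 < 3 * g * p := not_le.mp hcon
  rcases lt_trichotomy g 0 with hg | hg | hg
  · have hlt' : q ^ 2 < 3 * (-g) * (-p) := by linarith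
    obtain ⟨z, hz, hroot⟩ := r2Root_key_rev c (-p) q (-g) (neg_pos.mpr hg) hlt'
    have h1 : (c : ℂ) * (-z) ^ 3 + (p : ℂ) * (-z) ^ 2 + (q : ℂ) * (-z) + (g : ℂ) = 0 := by
      have h2 : (c : ℂ) * (-z) ^ 3 + (p : ℂ) * (-z) ^ 2 + (q : ℂ) * (-z) + (g : ℂ)
          = -((c : ℂ) * z ^ 3 + ((-p : ℝ) : ℂ) * z ^ 2 + (q : ℂ) * z + ((-g : ℝ) : ℂ)) := by
        push_cast
        ring
      rw [h2, hroot, neg_zero]
    have h3 := h (-z) h1
    rw [Complex.neg_im, neg_eq_zero] at h3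
    exact hz h3
  · rw [hg] at hlt
    nlinarith [sq_nonneg q]
  · obtain ⟨z, hz, hroot⟩ := r2Root_key_rev c p q g hg hlt
    exact hz (h z hroot)

/-- A real quadratic which is nonnegative everywhere has nonnegative leading coefficient. -/
theorem sgNewton_lead (a b c : ℝ) (h : ∀ lam : ℝ, 0 ≤ a * lam ^ 2 + b * lam + c) : 0 ≤ a := by
  by_contra hcon
  have ha : a < 0 := not_le.mp hcon
  have hs : 0 < -a := neg_pos.mpr ha
  obtain ⟨lam, hlam⟩ : ∃ lam : ℝ, lam = 1 + (c ^ 2 + 1) / (-a) := ⟨_, rfl⟩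
  have h1 := h lam
  have h2 : 0 ≤ a * lam ^ 2 - b * lam + c := by
    have h0 := h (-lam)
    have e : a * (-lam) ^ 2 + b * (-lam) + c = a * lam ^ 2 - b * lam + c := by ring
    rw [e] at h0
    exact h0
  have hane : -a ≠ 0 := hs.ne'
  have h3 : (-a) * lam = -a + (c ^ 2 + 1) := by
    rw [hlam, mul_add, mul_one, mul_div_cancel₀ _ hane]
  have hlam1 : 1 ≤ lam := by
    rw [hlam]
    have h6 : 0 ≤ (c ^ 2 + 1) / (-a) := by positivity
    linarith
  have h5 : 0 ≤ (-a) * lam * (lam - 1) :=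
    mul_nonneg (mul_nonneg hs.le (by linarith)) (by linarith)
  nlinarith [sq_nonneg (c - 1 / 2)]

/-- A real affine function which is nonnegative everywhere is constant. -/
theorem sgNewton_lin (b c : ℝ) (h : ∀ lam : ℝ, 0 ≤ b * lam + c) : b = 0 := by
  by_contra hb
  have h1 := h (-(c + 1) / b)
  have h2 : b * (-(c + 1) / b) = -(c + 1) := by field_simp
  rw [h2] at h1
  linarith

end Vale.Agent.Lib.P256
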