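import Vale.Agent.Lib.P256.Defs

namespace Vale.Agent.Lib.P256

open Matrix

/-- (internal) homogeneous description by a linear matrix inequality with arbitrary finite
index types. -/
def IsShadowG {α : Type} (S : Set (α → ℝ)) : Prop :=
  ∃ (ι κ : Type) (_ : Fintype ι) (_ : Fintype κ)
    (Q : ((α → ℝ) × (κ → ℝ)) →ₗ[ℝ] Matrix ι ι ℝ),
    (∀ v, (Q v).IsSymm) ∧ S = {x | ∃ u : κ → ℝ, (Q (x, u)).PosSemidef}

lemma quad_fromBlocks_diag {ι₁ ι₂ : Type} [Fintype ι₁] [Fintype ι₂]
    (A : Matrix ι₁ ι₁ ℝ) (D : Matrix ι₂ ι₂ ℝ) (x : ι₁ ⊕ ι₂ → ℝ) :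
    x ⬝ᵥ fromBlocks A 0 0 D *ᵥ x =
      (x ∘ Sum.inl) ⬝ᵥ A *ᵥ (x ∘ Sum.inl) + (x ∘ Sum.inr) ⬝ᵥ D *ᵥ (x ∘ Sum.inr) := by
  rw [fromBlocks_mulVec]
  simp [dotProduct, Fintype.sum_sum_type]

lemma posSemidef_fromBlocks_diag {ι₁ ι₂ : Type} [Fintype ι₁] [Fintype ι₂]
    (A : Matrix ι₁ ι₁ ℝ) (D : Matrix ι₂ ι₂ ℝ) :
    (fromBlocks A 0 0 D).PosSemidef ↔ A.PosSemidef ∧ D.PosSemidef := by
  simp only [posSemidef_iff_dotProduct_mulVec, star_trivial]
  constructor
  · rintro ⟨hH, hq⟩
    rw [isHermitian_fromBlocks_iff] at hH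
    refine ⟨⟨hH.1, fun x => ?_⟩, ⟨hH.2.2.2, fun y => ?_⟩⟩
    · have := hq (Sum.elim x 0)
      rw [quad_fromBlocks_diag] at this
      simpa using this
    · have := hq (Sum.elim 0 y)
      rw [quad_fromBlocks_diag] at this
      simpa using this
  · rintro ⟨⟨hA, hqA⟩, ⟨hD, hqD⟩⟩
    refine ⟨?_, fun x => ?_⟩
    · rw [isHermitian_fromBlocks_iff]
      exact ⟨hA, by simp, by simp, hD⟩
    · rw [quad_fromBlocks_diag]
      exact add_nonneg (hqA _) (hqD _)

/-- Block-diagonal pairing of two linear matrix-valued maps. -/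
def blockLin {V ι₁ ι₂ : Type} [AddCommGroup V] [Module ℝ V]
    (Q₁ : V →ₗ[ℝ] Matrix ι₁ ι₁ ℝ) (Q₂ : V →ₗ[ℝ] Matrix ι₂ ι₂ ℝ) :
    V →ₗ[ℝ] Matrix (ι₁ ⊕ ι₂) (ι₁ ⊕ ι₂) ℝ where
  toFun v := fromBlocks (Q₁ v) 0 0 (Q₂ v)
  map_add' v w := by simp [fromBlocks_add]
  map_smul' c v := by simp [fromBlocks_smul]

lemma IsShadowG.inter {α : Type} {S T : Set (α → ℝ)} (h₁ : IsShadowG S) (h₂ : IsShadowG T) :
    IsShadowG (S ∩ T) := by
  obtain ⟨ι₁, κ₁, _, _, Q₁, hs₁, rfl⟩ := h₁
  obtain ⟨ι₂, κ₂, _, _, Q₂, hs₂, rfl⟩ := h₂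
  refine ⟨ι₁ ⊕ ι₂, κ₁ ⊕ κ₂, inferInstance, inferInstance,
    blockLin (Q₁ ∘ₗ LinearMap.prodMap LinearMap.id (LinearMap.funLeft ℝ ℝ Sum.inl))
      (Q₂ ∘ₗ LinearMap.prodMap LinearMap.id (LinearMap.funLeft ℝ ℝ Sum.inr)), ?_, ?_⟩
  · intro v
    exact IsSymm.fromBlocks (hs₁ _) (by simp) (hs₂ _)
  · ext x
    simp only [Set.mem_inter_iff, Set.mem_ofPred_eq, blockLin, LinearMap.coe_mk, AddHom.coe_mk,
      posSemidef_fromBlocks_diag, LinearMap.coe_comp, Function.comp_apply, LinearMap.prodMap_apply,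
      LinearMap.id_coe, id_eq]
    constructor
    · rintro ⟨⟨u₁, h₁⟩, ⟨u₂, h₂⟩⟩
      exact ⟨Sum.elim u₁ u₂, by simpa [LinearMap.funLeft] using h₁, by simpa [LinearMap.funLeft] using h₂⟩
    · rintro ⟨u, h₁, h₂⟩
      exact ⟨⟨u ∘ Sum.inl, h₁⟩, ⟨u ∘ Sum.inr, h₂⟩⟩

lemma IsShadowG.univ {α : Type} : IsShadowG (Set.univ : Set (α → ℝ)) := by
  refine ⟨Empty, Empty, inferInstance, inferInstance, 0, ?_, ?_⟩
  · intro v; simp [Matrix.IsSymm]
  · ext x
    simp only [Set.mem_univ, LinearMap.zero_apply, Set.mem_ofPred_eq, true_iff]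
    exact ⟨0, PosSemidef.zero⟩

lemma IsShadowG.biInter {α β : Type} (s : Finset β) (S : β → Set (α → ℝ))
    (h : ∀ j ∈ s, IsShadowG (S j)) : IsShadowG (⋂ j ∈ s, S j) := by
  classical
  induction s using Finset.induction_on with
  | empty => simpa using IsShadowG.univ
  | insert a s ha ih =>
    rw [Finset.set_biInter_insert]
    exact (h a (Finset.mem_insert_self a s)).inter (ih fun j hj => h j (Finset.mem_insert_of_mem hj))

lemma IsShadowG.iInter {α β : Type} [Fintype β] (S : β → Set (α → ℝ))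
    (h : ∀ j, IsShadowG (S j)) : IsShadowG (⋂ j, S j) := by
  have := IsShadowG.biInter Finset.univ S fun j _ => h j
  simpa using this

lemma IsShadowG.preimage {α β : Type} {S : Set (α → ℝ)} (h : IsShadowG S)
    (T : (β → ℝ) →ₗ[ℝ] (α → ℝ)) : IsShadowG {y | T y ∈ S} := by
  obtain ⟨ι, κ, _, _, Q, hs, rfl⟩ := h
  refine ⟨ι, κ, inferInstance, inferInstance, Q ∘ₗ LinearMap.prodMap T LinearMap.id, ?_, ?_⟩
  · intro v; exact hs _
  · ext y; simp

/-- The linear map `(x, u) ↦ (x ⊕ u|γ, u|κ)`. -/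
def projLin (α γ κ : Type) :
    ((α → ℝ) × ((γ ⊕ κ) → ℝ)) →ₗ[ℝ] (((α ⊕ γ) → ℝ) × (κ → ℝ)) where
  toFun v := (Sum.elim v.1 (v.2 ∘ Sum.inl), v.2 ∘ Sum.inr)
  map_add' v w := by
    refine Prod.ext ?_ ?_
    · funext i; rcases i with i | i <;> simp
    · funext i; simp
  map_smul' c v := by
    refine Prod.ext ?_ ?_
    · funext i; rcases i with i | i <;> simp
    · funext i; simp

lemma IsShadowG.proj {α γ : Type} [Fintype γ] {S : Set ((α ⊕ γ) → ℝ)} (h : IsShadowG S) :
    IsShadowG {x : α → ℝ | ∃ g : γ → ℝ, Sum.elim x g ∈ S} := by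
  obtain ⟨ι, κ, _, _, Q, hs, rfl⟩ := h
  refine ⟨ι, γ ⊕ κ, inferInstance, inferInstance, Q ∘ₗ projLin α γ κ, ?_, ?_⟩
  · intro v; exact hs _
  · ext x
    simp only [Set.mem_ofPred_eq, projLin, LinearMap.coe_comp, LinearMap.coe_mk, AddHom.coe_mk,
      Function.comp_apply]
    constructor
    · rintro ⟨g, u, hu⟩
      exact ⟨Sum.elim g u, by simpa using hu⟩
    · rintro ⟨u, hu⟩
      exact ⟨u ∘ Sum.inl, u ∘ Sum.inr, hu⟩

lemma isHermitian_of_isSymm {ι : Type} {M : Matrix ι ι ℝ} (h : M.IsSymm) : M.IsHermitian := by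
  rw [IsHermitian, conjTranspose_eq_transpose_of_trivial]
  exact h

/-- The arrow matrix of a vector indexed by `Option (Fin m)`. -/
def arrow (m : ℕ) : (Option (Fin m) → ℝ) →ₗ[ℝ] Matrix (Option (Fin m)) (Option (Fin m)) ℝ where
  toFun v := Matrix.of fun p q =>
    match p, q with
    | none, none => v none
    | none, some i => v (some i)
    | some i, none => v (some i)
    | some i, some i' => if i = i' then v none else 0
  map_add' v w := by
    ext p q
    rcases p with _ | i <;> rcases q with _ | i' <;> simp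
    split_ifs <;> simp
  map_smul' c v := by
    ext p q
    rcases p with _ | i <;> rcases q with _ | i' <;> simp

lemma arrow_isSymm (m : ℕ) (v : Option (Fin m) → ℝ) : (arrow m v).IsSymm := by
  ext p q
  rcases p with _ | i <;> rcases q with _ | i' <;> simp [arrow, eq_comm]

lemma arrow_quad (m : ℕ) (v q : Option (Fin m) → ℝ) :
    q ⬝ᵥ arrow m v *ᵥ q =
      v none * q none ^ 2 + 2 * q none * ∑ i, v (some i) * q (some i) +
        v none * ∑ i, q (some i) ^ 2 := by
  simp only [dotProduct, mulVec, arrow, LinearMap.coe_mk, AddHom.coe_mk, Fintype.sum_option,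
    Matrix.of_apply]
  simp only [ite_mul, zero_mul, Finset.sum_ite_eq, Finset.mem_univ, if_true, Finset.mul_sum,
    Finset.sum_add_distrib, mul_add]
  have e1 : ∑ i, 2 * q none * (v (some i) * q (some i)) =
      ∑ i, q none * (v (some i) * q (some i)) + ∑ x, q (some x) * (v (some x) * q none) := by
    rw [← Finset.sum_add_distrib]
    exact Finset.sum_congr rfl fun i _ => by ring
  have e2 : ∑ i, v none * q (some i) ^ 2 = ∑ x, q (some x) * (v none * q (some x)) :=
    Finset.sum_congr rfl fun i _ => by ring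
  rw [e1, e2]
  ring

/-- The arrow matrix is positive semidefinite exactly on the Lorentz cone. -/
lemma arrow_posSemidef (m : ℕ) (v : Option (Fin m) → ℝ) :
    (arrow m v).PosSemidef ↔ ∑ i, v (some i) ^ 2 ≤ v none ^ 2 ∧ 0 ≤ v none := by
  rw [posSemidef_iff_dotProduct_mulVec]
  simp only [star_trivial]
  constructor
  · rintro ⟨-, hq⟩
    have h0 : 0 ≤ v none := by
      have := hq (fun o => o.elim 1 fun _ => 0)
      rw [arrow_quad] at this
      simpa using this
    refine ⟨?_, h0⟩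
    rcases eq_or_lt_of_le h0 with hz | hpos
    · have := hq (fun o => o.elim 1 fun i => -v (some i))
      rw [arrow_quad] at this
      simp only [Option.elim] at this
      rw [← hz] at this
      rw [← hz]
      have e : ∑ i, v (some i) * -v (some i) = -∑ i, v (some i) ^ 2 := by
        rw [← Finset.sum_neg_distrib]
        exact Finset.sum_congr rfl fun i _ => by ring
      rw [e] at this
      have hnn : 0 ≤ ∑ i, v (some i) ^ 2 := Finset.sum_nonneg fun i _ => sq_nonneg _
      nlinarith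
    · have := hq (fun o => o.elim (v none) fun i => -v (some i))
      rw [arrow_quad] at this
      simp only [Option.elim] at this
      have e : ∑ i, v (some i) * -v (some i) = -∑ i, v (some i) ^ 2 := by
        rw [← Finset.sum_neg_distrib]
        exact Finset.sum_congr rfl fun i _ => by ring
      have e' : ∑ i, (-v (some i)) ^ 2 = ∑ i, v (some i) ^ 2 :=
        Finset.sum_congr rfl fun i _ => by ring
      rw [e, e'] at this
      have h3 : v none * v none ^ 2 + 2 * v none * -∑ i, v (some i) ^ 2 +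
          v none * ∑ i, v (some i) ^ 2 = v none * (v none ^ 2 - ∑ i, v (some i) ^ 2) := by ring
      rw [h3] at this
      have := le_of_mul_le_mul_left (by simpa using this : v none * 0 ≤ v none * (v none ^ 2 - ∑ i, v (some i) ^ 2)) hpos
      linarith
  · rintro ⟨hle, h0⟩
    refine ⟨isHermitian_of_isSymm (arrow_isSymm m v), fun q => ?_⟩
    rw [arrow_quad]
    set S : ℝ := ∑ i, q (some i) ^ 2 with hS
    have hS0 : 0 ≤ S := Finset.sum_nonneg fun i _ => sq_nonneg _
    have hcs : (∑ i, v (some i) * q (some i)) ^ 2 ≤ (∑ i, v (some i) ^ 2) * S :=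
      Finset.sum_mul_sq_le_sq_mul_sq _ _ _
    have hsq : (2 * q none * ∑ i, v (some i) * q (some i)) ^ 2 ≤ (v none * (q none ^ 2 + S)) ^ 2 := by
      have e1 : (2 * q none * ∑ i, v (some i) * q (some i)) ^ 2 =
          4 * q none ^ 2 * (∑ i, v (some i) * q (some i)) ^ 2 := by ring
      have e2 : 4 * q none ^ 2 * (∑ i, v (some i) * q (some i)) ^ 2 ≤
          4 * q none ^ 2 * ((∑ i, v (some i) ^ 2) * S) :=
        mul_le_mul_of_nonneg_left hcs (by positivity)
      have e3 : 4 * q none ^ 2 * ((∑ i, v (some i) ^ 2) * S) ≤ 4 * q none ^ 2 * (v none ^ 2 * S) := by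
        apply mul_le_mul_of_nonneg_left _ (by positivity)
        exact mul_le_mul_of_nonneg_right hle hS0
      have e4 : (v none * (q none ^ 2 + S)) ^ 2 - 4 * q none ^ 2 * (v none ^ 2 * S) =
          v none ^ 2 * (q none ^ 2 - S) ^ 2 := by ring
      have e5 : 0 ≤ v none ^ 2 * (q none ^ 2 - S) ^ 2 := by positivity
      linarith
    have habs := abs_le_of_sq_le_sq' hsq (by positivity)
    have : v none * (q none ^ 2 + S) = v none * q none ^ 2 + v none * S := by ring
    linarith [habs.1]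

lemma IsShadowG.lorentz (m : ℕ) :
    IsShadowG {v : Option (Fin m) → ℝ | ∑ i, v (some i) ^ 2 ≤ v none ^ 2 ∧ 0 ≤ v none} := by
  refine ⟨Option (Fin m), Empty, inferInstance, inferInstance,
    arrow m ∘ₗ LinearMap.fst ℝ _ _, ?_, ?_⟩
  · intro v; exact arrow_isSymm m _
  · ext v
    simp only [Set.mem_ofPred_eq, LinearMap.coe_comp, LinearMap.coe_fst, Function.comp_apply,
      arrow_posSemidef, exists_const]

/-- From the internal description to the literal definition. -/
theorem IsShadowG.toShadow {σ : Type} [Fintype σ] [DecidableEq σ] {S : Set (σ → ℝ)}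
    (h : IsShadowG S) : IsSpectrahedralShadow S := by
  classical
  obtain ⟨ι, κ, _, _, Q, hs, rfl⟩ := h
  set e := Fintype.equivFin ι with he
  set e' := Fintype.equivFin κ with he'
  set Rl := Matrix.reindexLinearEquiv ℝ ℝ e e with hRl
  refine ⟨Fintype.card ι, Fintype.card κ, 0,
    fun i => Rl (Q (Pi.single i 1, 0)),
    fun j => Rl (Q (0, Pi.single (e'.symm j) 1)), ?_, ?_, ?_, ?_⟩
  · simp [Matrix.IsSymm]
  · intro i
    simp only [hRl, coe_reindexLinearEquiv, reindex_apply]
    exact (hs _).submatrix _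
  · intro j
    simp only [hRl, coe_reindexLinearEquiv, reindex_apply]
    exact (hs _).submatrix _
  · have key : ∀ (x : σ → ℝ) (u : κ → ℝ),
        (0 : Matrix (Fin (Fintype.card ι)) (Fin (Fintype.card ι)) ℝ) +
          ∑ i, x i • Rl (Q (Pi.single i 1, 0)) +
          ∑ j, u (e'.symm j) • Rl (Q (0, Pi.single (e'.symm j) 1)) = Rl (Q (x, u)) := by
      intro x u
      have hx : (x, u) = ∑ i, x i • ((Pi.single i 1 : σ → ℝ), (0 : κ → ℝ)) +
          ∑ c, u c • ((0 : σ → ℝ), (Pi.single c 1 : κ → ℝ)) := by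
        refine Prod.ext ?_ ?_
        · simp only [Prod.fst_add, Prod.fst_sum, Prod.smul_fst, smul_zero, Finset.sum_const_zero,
            add_zero]
          funext i'
          simp [Finset.sum_apply, Pi.single_apply]
        · simp only [Prod.snd_add, Prod.snd_sum, Prod.smul_snd, smul_zero, Finset.sum_const_zero,
            zero_add]
          funext c'
          simp [Finset.sum_apply, Pi.single_apply]
      conv_rhs => rw [hx]
      rw [map_add, map_sum, map_sum, map_add, map_sum, map_sum, zero_add]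
      congr 1
      · exact Finset.sum_congr rfl fun i _ => by rw [map_smul, map_smul]
      · rw [← Equiv.sum_comp e'.symm]
        exact Finset.sum_congr rfl fun j _ => by rw [map_smul, map_smul]
    ext x
    simp only [Set.mem_ofPred_eq]
    constructor
    · rintro ⟨u, hu⟩
      refine ⟨u ∘ e'.symm, ?_⟩
      have := key x u
      simp only [Function.comp_apply]
      rw [this]
      simp only [hRl, coe_reindexLinearEquiv, reindex_apply]
      exact (posSemidef_submatrix_equiv e.symm).mpr hu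
    · rintro ⟨u', hu'⟩
      refine ⟨u' ∘ e', ?_⟩
      have := key x (u' ∘ e')
      simp only [Function.comp_apply, Equiv.apply_symm_apply] at this
      rw [this] at hu'
      simp only [hRl, coe_reindexLinearEquiv, reindex_apply] at hu'
      exact (posSemidef_submatrix_equiv e.symm).mp hu'

end Vale.Agent.Lib.P256
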