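import Vale.Agent.Lib.P256.SgCore
import Vale.Agent.Lib.P256.Shadow
/-!
Closure properties of spectrahedra.

Linear preimages, intersections, half-spaces through the origin and second-order cones.
-/

namespace Vale.Agent.Lib.P256
open MvPolynomial Matrix

/-- (internal) flexible criterion: a linear matrix inequality over any finite index type. -/
theorem sgPre_of_linear {σ ι : Type} [Fintype σ] [Fintype ι]
    (A0 : Matrix ι ι ℝ) (hA0 : A0.IsSymm) (F : (σ → ℝ) →ₗ[ℝ] Matrix ι ι ℝ)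
    (hF : ∀ x, (F x).IsSymm) : IsSpectrahedron {x : σ → ℝ | (A0 + F x).PosSemidef} := by
  classical
  let e := Fintype.equivFin ι
  refine ⟨Fintype.card ι, A0.submatrix e.symm e.symm,
    fun i => (F (Pi.single i 1)).submatrix e.symm e.symm, ?_, ?_, ?_⟩
  · exact hA0.submatrix _
  · intro i
    exact (hF _).submatrix _
  · ext x
    simp only [Set.mem_ofPred_eq]
    have hx : F x = ∑ i, x i • F (Pi.single i 1) := by
      conv_lhs => rw [pi_eq_sum_univ' x]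
      rw [map_sum]
      refine Finset.sum_congr rfl fun i _ => ?_
      rw [← map_smul]
    have hsum : A0.submatrix e.symm e.symm + ∑ i, x i • (F (Pi.single i 1)).submatrix e.symm e.symm
        = (A0 + F x).submatrix e.symm e.symm := by
      rw [hx]
      ext a b
      simp [Matrix.sum_apply]
    rw [hsum]
    exact (Matrix.posSemidef_submatrix_equiv e.symm).symm

theorem isSpectrahedron_preimage {σ τ : Type} [Fintype σ] [Fintype τ] {S : Set (τ → ℝ)}
    (h : IsSpectrahedron S) (L : (σ → ℝ) →ₗ[ℝ] (τ → ℝ)) : IsSpectrahedron {x | L x ∈ S} := by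
  obtain ⟨n, A0, A, hA0, hA, rfl⟩ := h
  let F : (σ → ℝ) →ₗ[ℝ] Matrix (Fin n) (Fin n) ℝ :=
    ∑ j, (LinearMap.toSpanSingleton ℝ (Matrix (Fin n) (Fin n) ℝ) (A j)) ∘ₗ
      ((LinearMap.proj j : (τ → ℝ) →ₗ[ℝ] ℝ) ∘ₗ L)
  have hFx : ∀ x, F x = ∑ j, (L x) j • A j := by
    intro x
    simp [F, LinearMap.sum_apply]
  have hsym : ∀ x, (F x).IsSymm := by
    intro x
    rw [hFx]
    ext a b
    simp only [Matrix.transpose_apply, Matrix.sum_apply, Matrix.smul_apply]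
    refine Finset.sum_congr rfl fun j _ => ?_
    rw [← Matrix.transpose_apply (A j), (hA j).eq]
  have key := sgPre_of_linear A0 hA0 F hsym
  have hset : {x : σ → ℝ | L x ∈ {y : τ → ℝ | (A0 + ∑ j, y j • A j).PosSemidef}} =
      {x : σ → ℝ | (A0 + F x).PosSemidef} := by
    ext x
    simp only [Set.mem_ofPred_eq, hFx]
  rw [hset]
  exact key

theorem isSpectrahedron_inter {σ : Type} [Fintype σ] {S T : Set (σ → ℝ)}
    (hS : IsSpectrahedron S) (hT : IsSpectrahedron T) : IsSpectrahedron (S ∩ T) := by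
  obtain ⟨n, A0, A, hA0, hA, rfl⟩ := hS
  obtain ⟨m, B0, B, hB0, hB, rfl⟩ := hT
  let F1 : (σ → ℝ) →ₗ[ℝ] Matrix (Fin n) (Fin n) ℝ :=
    ∑ j, (LinearMap.toSpanSingleton ℝ (Matrix (Fin n) (Fin n) ℝ) (A j)) ∘ₗ
      (LinearMap.proj j : (σ → ℝ) →ₗ[ℝ] ℝ)
  let F2 : (σ → ℝ) →ₗ[ℝ] Matrix (Fin m) (Fin m) ℝ :=
    ∑ j, (LinearMap.toSpanSingleton ℝ (Matrix (Fin m) (Fin m) ℝ) (B j)) ∘ₗ
      (LinearMap.proj j : (σ → ℝ) →ₗ[ℝ] ℝ)
  have hF1 : ∀ x, F1 x = ∑ j, x j • A j := by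
    intro x
    simp [F1, LinearMap.sum_apply]
  have hF2 : ∀ x, F2 x = ∑ j, x j • B j := by
    intro x
    simp [F2, LinearMap.sum_apply]
  have hs1 : ∀ x, (F1 x).IsSymm := by
    intro x
    rw [hF1]
    ext a b
    simp only [Matrix.transpose_apply, Matrix.sum_apply, Matrix.smul_apply]
    refine Finset.sum_congr rfl fun j _ => ?_
    rw [← Matrix.transpose_apply (A j), (hA j).eq]
  have hs2 : ∀ x, (F2 x).IsSymm := by
    intro x
    rw [hF2]
    ext a b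
    simp only [Matrix.transpose_apply, Matrix.sum_apply, Matrix.smul_apply]
    refine Finset.sum_congr rfl fun j _ => ?_
    rw [← Matrix.transpose_apply (B j), (hB j).eq]
  have key := sgPre_of_linear (fromBlocks A0 0 0 B0) (IsSymm.fromBlocks hA0 (by simp) hB0)
    (blockLin F1 F2) (fun x => IsSymm.fromBlocks (hs1 x) (by simp) (hs2 x))
  have hset : {x : σ → ℝ | (A0 + ∑ j, x j • A j).PosSemidef} ∩
      {x : σ → ℝ | (B0 + ∑ j, x j • B j).PosSemidef} =
      {x : σ → ℝ | (fromBlocks A0 0 0 B0 + blockLin F1 F2 x).PosSemidef} := by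
    ext x
    simp only [Set.mem_inter_iff, Set.mem_ofPred_eq, blockLin, LinearMap.coe_mk, AddHom.coe_mk,
      Matrix.fromBlocks_add, add_zero, posSemidef_fromBlocks_diag, hF1, hF2]
  rw [hset]
  exact key

/-- (internal) the linear map sending `x` to the vector with head `u0 ⬝ᵥ x` and tail `M *ᵥ x`
(reindexed). -/
noncomputable def sgPre_vec {σ κ : Type} [Fintype σ] [Fintype κ] (u0 : σ → ℝ) (M : Matrix κ σ ℝ) :
    (σ → ℝ) →ₗ[ℝ] (Option (Fin (Fintype.card κ)) → ℝ) where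
  toFun x := fun o => o.elim (u0 ⬝ᵥ x) (fun i => (M *ᵥ x) ((Fintype.equivFin κ).symm i))
  map_add' x y := by
    ext o
    rcases o with _ | i
    · simp [dotProduct_add]
    · simp [Matrix.mulVec_add]
  map_smul' c x := by
    ext o
    rcases o with _ | i
    · simp [dotProduct_smul]
    · simp [Matrix.mulVec_smul]

theorem isSpectrahedron_soc {σ κ : Type} [Fintype σ] [Fintype κ] (u0 : σ → ℝ)
    (M : Matrix κ σ ℝ) :
    IsSpectrahedron {x : σ → ℝ | ∑ k, (M *ᵥ x) k ^ 2 ≤ (u0 ⬝ᵥ x) ^ 2 ∧ 0 ≤ u0 ⬝ᵥ x} := by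
  have key := sgPre_of_linear (σ := σ) (0 : Matrix (Option (Fin (Fintype.card κ))) (Option (Fin (Fintype.card κ))) ℝ)
    (by ext a b; simp) (arrow (Fintype.card κ) ∘ₗ sgPre_vec u0 M)
    (fun x => arrow_isSymm _ _)
  have hset : {x : σ → ℝ | ∑ k, (M *ᵥ x) k ^ 2 ≤ (u0 ⬝ᵥ x) ^ 2 ∧ 0 ≤ u0 ⬝ᵥ x} =
      {x : σ → ℝ | ((0 : Matrix (Option (Fin (Fintype.card κ))) (Option (Fin (Fintype.card κ))) ℝ) +
        (arrow (Fintype.card κ) ∘ₗ sgPre_vec u0 M) x).PosSemidef} := by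
    ext x
    simp only [Set.mem_ofPred_eq, zero_add, LinearMap.coe_comp, Function.comp_apply,
      arrow_posSemidef]
    have hsum : ∑ i, (sgPre_vec u0 M x (some i)) ^ 2 = ∑ k, (M *ᵥ x) k ^ 2 := by
      simp only [sgPre_vec, LinearMap.coe_mk, AddHom.coe_mk, Option.elim]
      exact Equiv.sum_comp (Fintype.equivFin κ).symm (fun k => (M *ᵥ x) k ^ 2)
    have hnone : sgPre_vec u0 M x none = u0 ⬝ᵥ x := by
      simp [sgPre_vec]
    rw [hsum, hnone]
  rw [hset]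
  exact key

theorem isSpectrahedron_halfspace {σ : Type} [Fintype σ] (u : σ → ℝ) :
    IsSpectrahedron {x : σ → ℝ | 0 ≤ u ⬝ᵥ x} := by
  have key := isSpectrahedron_soc u (0 : Matrix (Fin 0) σ ℝ)
  have hset : {x : σ → ℝ | 0 ≤ u ⬝ᵥ x} =
      {x : σ → ℝ | ∑ k, ((0 : Matrix (Fin 0) σ ℝ) *ᵥ x) k ^ 2 ≤ (u ⬝ᵥ x) ^ 2 ∧ 0 ≤ u ⬝ᵥ x} := by
    ext x
    simp only [Set.mem_ofPred_eq, Finset.univ_eq_empty, Finset.sum_empty]
    constructor
    · intro h
      exact ⟨sq_nonneg _, h⟩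
    · intro h
      exact h.2
  rw [hset]
  exact key

end Vale.Agent.Lib.P256
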