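import Vale.Agent.Lib.P256.SgCore
namespace Vale.Agent.Lib.P256
open MvPolynomial Matrix

theorem sgRank_neg {σ : Type} [Fintype σ] [DecidableEq σ] (H : Matrix σ σ ℝ) :
    (-H).rank = H.rank := by
  have h : -H = (-1 : ℝ) • H := by simp
  rw [h]
  exact Matrix.rank_smul_of_mem_nonZeroDivisors H (mem_nonZeroDivisors_of_ne_zero (by norm_num))

/-- the matrix `h hᵀ / q - H` factors through `H` -/
lemma sgRank_factor {σ : Type} [Fintype σ] [DecidableEq σ] (H : Matrix σ σ ℝ) (hH : H.IsSymm)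
    (e : σ → ℝ) :
    Matrix.of (fun i j => (H *ᵥ e) i * (H *ᵥ e) j / (e ⬝ᵥ (H *ᵥ e))) - H
      = (Matrix.of (fun i j => (H *ᵥ e) i * e j / (e ⬝ᵥ (H *ᵥ e))) - 1) * H := by
  ext i j
  rw [Matrix.sub_mul, Matrix.one_mul, Matrix.sub_apply, Matrix.sub_apply, Matrix.of_apply,
    Matrix.mul_apply]
  congr 1
  simp only [Matrix.of_apply]
  have hsym : ∀ l, H l j = H j l := by
    intro l
    have h := congrFun (congrFun hH.eq j) l
    rw [Matrix.transpose_apply] at h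
    exact h
  have hj : (H *ᵥ e) j = ∑ l, e l * H l j := by
    simp only [Matrix.mulVec, dotProduct]
    apply Finset.sum_congr rfl
    intro l _
    rw [hsym l]
    ring
  rw [hj, Finset.mul_sum, Finset.sum_div]
  apply Finset.sum_congr rfl
  intro l _
  ring

/-- the left factor kills the vector `H e` -/
lemma sgRank_kill {σ : Type} [Fintype σ] [DecidableEq σ] (H : Matrix σ σ ℝ)
    (e : σ → ℝ) (hQe : 0 < e ⬝ᵥ (H *ᵥ e)) :
    (Matrix.of (fun i j => (H *ᵥ e) i * e j / (e ⬝ᵥ (H *ᵥ e))) - 1) *ᵥ (H *ᵥ e) = 0 := by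
  ext i
  rw [Matrix.sub_mulVec, Matrix.one_mulVec, Pi.sub_apply, Pi.zero_apply]
  have h1 : (Matrix.of (fun i j => (H *ᵥ e) i * e j / (e ⬝ᵥ (H *ᵥ e))) *ᵥ (H *ᵥ e)) i
      = (H *ᵥ e) i * (e ⬝ᵥ (H *ᵥ e)) / (e ⬝ᵥ (H *ᵥ e)) := by
    simp only [Matrix.mulVec, dotProduct, Matrix.of_apply]
    rw [Finset.mul_sum, Finset.sum_div]
    apply Finset.sum_congr rfl
    intro l _
    ring
  rw [h1, mul_div_assoc, div_self hQe.ne', mul_one, sub_self]

/-- if `P` kills a nonzero vector of the range of `H` then `rank (P * H) + 1 ≤ rank H` -/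
lemma sgRank_drop {σ : Type} [Fintype σ] [DecidableEq σ] (P H : Matrix σ σ ℝ) (v : σ → ℝ)
    (hv : v ≠ 0) (hmem : v ∈ LinearMap.range H.mulVecLin) (hP : P *ᵥ v = 0) :
    (P * H).rank + 1 ≤ H.rank := by
  rw [Matrix.rank, Matrix.mulVecLin_mul, LinearMap.range_comp]
  have hrange : LinearMap.range (P.mulVecLin.domRestrict (LinearMap.range H.mulVecLin))
      = (LinearMap.range H.mulVecLin).map P.mulVecLin :=
    LinearMap.range_domRestrict _ _
  have hrn := LinearMap.finrank_range_add_finrank_ker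
    (P.mulVecLin.domRestrict (LinearMap.range H.mulVecLin))
  have hk : (⟨v, hmem⟩ : LinearMap.range H.mulVecLin)
      ∈ LinearMap.ker (P.mulVecLin.domRestrict (LinearMap.range H.mulVecLin)) := by
    rw [LinearMap.mem_ker]
    exact hP
  have hker : 0 < Module.finrank ℝ
      (LinearMap.ker (P.mulVecLin.domRestrict (LinearMap.range H.mulVecLin))) := by
    apply Nat.pos_of_ne_zero
    intro h0
    rw [Submodule.finrank_eq_zero] at h0
    rw [h0, Submodule.mem_bot] at hk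
    apply hv
    exact congrArg Subtype.val hk
  have hW : Module.finrank ℝ (LinearMap.range H.mulVecLin) = H.rank := rfl
  rw [← hrange]
  omega

theorem sgLorentz_rank {σ : Type} [Fintype σ] [DecidableEq σ] (H : Matrix σ σ ℝ) (hH : H.IsSymm)
    (e : σ → ℝ) (hQe : 0 < e ⬝ᵥ (H *ᵥ e)) (hrank : H.rank ≤ 3) :
    (Matrix.of (fun i j => (H *ᵥ e) i * (H *ᵥ e) j / (e ⬝ᵥ (H *ᵥ e))) - H).rank ≤ 2 := by
  rw [sgRank_factor H hH e]
  have hne : H *ᵥ e ≠ 0 := by
    intro h0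
    rw [h0] at hQe
    simp at hQe
  have h := sgRank_drop (Matrix.of (fun i j => (H *ᵥ e) i * e j / (e ⬝ᵥ (H *ᵥ e))) - 1) H
    (H *ᵥ e) hne ⟨e, rfl⟩ (sgRank_kill H e hQe)
  omega

end Vale.Agent.Lib.P256
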